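import Vale.Agent.Lib.P048.Descent

namespace Vale.Agent.Lib.P048

open Finset Classical

variable {V : Type*}

section
variable {G : SimpleGraph V} {R : ℕ → Finset V} {D : Finset V} {b : ℕ}

lemma chain_append_singleton {W : List V} {y a : V} (hW : W.IsChain G.Adj)
    (hl : W.getLast? = some a) (hadj : G.Adj a y) : (W ++ [y]).IsChain G.Adj := by
  rw [List.isChain_append]
  refine ⟨hW, by simp, ?_⟩
  intro u hu v hv
  rw [hl] at hu
  have h1 : u = a := by simpa using hu.symm
  have h2 : v = y := by simpa using hv.symm
  rw [h1, h2]
  exact hadj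

lemma getLast?_map_fst {H : List (V × ℕ)} {a0 : V × ℕ} (hl : H.getLast? = some a0) :
    (H.map Prod.fst).getLast? = some a0.1 := by
  rw [List.getLast?_map, hl]
  rfl

/-- An avoided neighbour of the oldest vertex cannot be reached far below. -/
lemma ring_as (L : Line G R D b) {x y : V} {p : ℕ} {H : List (V × ℕ)} {a0 : V × ℕ}
    (hH : Hist G R ((x, p) :: H)) (hl : ((x, p) :: H).getLast? = some a0) (ha0y : G.Adj a0.1 y)
    (hy : y ∉ ((x, p) :: H).map Prod.fst) (hp : p + 2 ≤ a0.2) (hadj : G.Adj x y) (hR : y ∈ R p) :
    False := by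
  refine ring_core L (Y := (x, p) :: H) (X := [y]) (w := y) (qf := p) (T := [(x, p)])
    (a := a0) (c0 := (x, p)) hH.att hH.chain ?_ ?_ ?_ ?_ hR ?_ (by simp) ?_ ?_ ?_ hl (by simp; omega)
    (by simp) ?_
  · exact chain_append_singleton (chain_map_relH hH.chain) (getLast?_map_fst hl) ha0y
  · rw [List.nodup_append]
    refine ⟨hH.nodup, by simp, ?_⟩
    intro u hu v hv huv
    have : v = y := by simpa using hv
    subst huv
    rw [this] at hu
    exact hy hu
  · intro w hw
    have : w = y := by simpa using hw
    rw [this]
    exact L.sub _ hR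
  · simp only [List.map_cons, List.cons_append]
    exact getLast?_cons_append_singleton _ _ _
  · simp only [List.map_cons, List.map_nil]
    rw [List.isChain_cons_cons]
    exact ⟨hadj.symm, by simp⟩
  · intro e he
    have he' : e = (x, p) := by simpa using he
    subst he'
    exact hH.att _ (by simp)
  · intro e he
    have he' : e = (x, p) := by simpa using he
    subst he'
    have h0 := hH.nodup
    simp only [List.map_cons] at h0
    simp only [List.tail_cons, List.mem_append, List.mem_singleton, not_or]
    exact ⟨(List.nodup_cons.1 h0).1, hadj.ne⟩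
  · simp [lastPos]
  · simp

/-- An avoided neighbour of the oldest vertex cannot be a blocker far below. -/
lemma ring_bs (L : Line G R D b) {x y : V} {p' : ℕ} {H : List (V × ℕ)} {a0 : V × ℕ}
    (hH : Hist G R ((x, p' + 1) :: H)) (hl : ((x, p' + 1) :: H).getLast? = some a0)
    (ha0y : G.Adj a0.1 y) (hy : y ∉ ((x, p' + 1) :: H).map Prod.fst) (hp : p' + 3 ≤ a0.2)
    (hadj : G.Adj x y) (hR : y ∈ R p') (hIS : IS G R p' 1 y) : False := by
  obtain ⟨T, hT⟩ := RC L (p' + 1) p' 1 le_rfl 1 ((x, p' + 1) :: H) {y} y
    (hH.cons hR hadj.symm (by omega) le_rfl hy)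
    (by
      intro e he hep
      rcases List.mem_cons.1 he with rfl | he
      · exact mem_singleton_self _
      · have := hH.pos_ge' e he
        omega)
    (by
      intro w hw
      rw [mem_singleton.1 hw]
      exact hIS)
    (by simp)
  refine ring_core L (Y := (x, p' + 1) :: H) (X := [y]) (w := y) (qf := p') (T := T)
    (a := a0) (c0 := (x, p' + 1)) hH.att hH.chain ?_ ?_ ?_ ?_ hR ?_ hT.nodup hT.att ?_ hT.gain hl
    (by simp; omega) (by simp) ?_
  · exact chain_append_singleton (chain_map_relH hH.chain) (getLast?_map_fst hl) ha0y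
  · rw [List.nodup_append]
    refine ⟨hH.nodup, by simp, ?_⟩
    intro u hu v hv huv
    have : v = y := by simpa using hv
    subst huv
    rw [this] at hu
    exact hy hu
  · intro w hw
    have : w = y := by simpa using hw
    rw [this]
    exact L.sub _ hR
  · simp only [List.map_cons, List.cons_append]
    exact getLast?_cons_append_singleton _ _ _
  · exact chain_map_relT hT.chain
  · intro e he hm
    apply hT.disj e he
    simp only [List.tail_cons, List.mem_append, List.mem_singleton] at hm
    simp only [List.map_cons, List.mem_cons]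
    rcases hm with hm | hm
    · exact Or.inr (Or.inr hm)
    · exact Or.inl hm
  · simp

/-- The cost of an avoided vertex at each level. -/
def cst (p q : ℕ) : ℕ := if p = q then 2 else if p + 1 = q then 1 else 0

/-- A single vertex cannot be attached at two consecutive levels. -/
lemma not_consec (L : Line G R D b) {y : V} {p' : ℕ} (h1 : y ∈ R (p' + 1)) (h2 : y ∈ R p') :
    False :=
  L.F1 [y] y y (p' + 1) p' (by simp) (by simp)
    (by
      intro w hw
      have : w = y := by simpa using hw
      rw [this]
      exact L.sub _ h2) (by simp) (by simp) h1 h2 (by simp)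

/-- Descent avoiding one neighbour of the oldest vertex. -/
theorem RCs (L : Line G R D b) (y : V) : ∀ N p ρ, p + ρ ≤ N → ∀ (k : ℕ) (H : List (V × ℕ))
    (Vs : Finset V) (x : V) (a0 : V × ℕ), Hist G R ((x, p) :: H) →
    ((x, p) :: H).getLast? = some a0 → G.Adj a0.1 y → y ∉ ((x, p) :: H).map Prod.fst →
    (∀ a ∈ (x, p) :: H, a.2 = p → a.1 ∈ Vs) →
    (∀ v ∈ Vs, IS G R p k v) → ρ + Vs.card + cst p a0.2 ≤ k + 1 →
    ∃ T, Ext G R ((x, p) :: H) x p ρ T ∧ ∀ e ∈ T, e.1 ≠ y := by
  intro N
  induction N with
  | zero =>
    intro p ρ hN k H Vs x a0 _ _ _ _ _ _ _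
    have : ρ = 0 := by omega
    subst this
    exact ⟨[], Ext.nil _ _ _, by simp⟩
  | succ N IH =>
    intro p ρ hN k H Vs x a0 hH hl ha0y hy hVs hVk hcard
    rcases Nat.eq_zero_or_pos ρ with rfl | hρ
    · exact ⟨[], Ext.nil _ _ _, by simp⟩
    have hxV : x ∈ Vs := hVs (x, p) (by simp) rfl
    have ha0 : a0 ∈ (x, p) :: H := List.mem_of_getLast? hl
    have hpq : p ≤ a0.2 := hH.pos_ge' a0 ha0
    -- the same-level extension
    have same : ∀ v, IS G R p k v → G.Adj x v → v ∉ Vs → v ≠ y →
        ∃ T, Ext G R ((x, p) :: H) x p ρ T ∧ ∀ e ∈ T, e.1 ≠ y := by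
      intro v hv hadj hvV hvy
      by_cases hvH : v ∈ ((x, p) :: H).map Prod.fst
      · exfalso
        obtain ⟨a, ha, rfl⟩ := List.mem_map.1 hvH
        rcases List.mem_cons.1 ha with rfl | ha'
        · exact hadj.ne rfl
        · have h1 := hH.pos_ge a ha'
          have h2 : a.2 ≠ p := fun h => hvV (hVs a ha h)
          exact ring_a L hH ha' (by omega) hadj hv.mem
      · obtain ⟨ρ', rfl⟩ : ∃ ρ', ρ = ρ' + 1 := ⟨ρ - 1, by omega⟩
        have hnew := hH.cons hv.mem hadj.symm le_rfl (by omega) hvH
        obtain ⟨T, hT, hTy⟩ := IH p ρ' (by omega) k ((x, p) :: H) (insert v Vs) v a0 hnew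
          (by
            rw [List.getLast?_cons_cons]
            exact hl)
          ha0y
          (by
            simp only [List.map_cons, List.mem_cons, not_or]
            simp only [List.map_cons, List.mem_cons, not_or] at hy
            exact ⟨hvy.symm, hy⟩)
          (by
            intro a ha hap
            rcases List.mem_cons.1 ha with rfl | ha
            · exact mem_insert_self _ _
            · exact mem_insert_of_mem (hVs a ha hap))
          (by
            intro w hw
            rcases mem_insert.1 hw with rfl | hw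
            · exact hv
            · exact hVk w hw)
          (by
            have := card_insert_le v Vs
            omega)
        refine ⟨_, Ext.same hadj hv.mem hvH hT, ?_⟩
        intro e he
        rcases List.mem_cons.1 he with rfl | he
        · exact hvy
        · exact hTy e he
    -- the down extension
    have down : ∀ p' z, p = p' + 1 → z ∈ R p' → G.Adj x z → z ≠ y → ∀ k', IS G R p' k' z →
        1 ≤ k' → ρ + 1 + cst p' a0.2 ≤ k' + 1 →
        ∃ T, Ext G R ((x, p) :: H) x p ρ T ∧ ∀ e ∈ T, e.1 ≠ y := by
      intro p' z hpp hz hadj hzy k' hzIS hk' hc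
      subst hpp
      by_cases hzH : z ∈ ((x, p' + 1) :: H).map Prod.fst
      · exfalso
        obtain ⟨a, ha, rfl⟩ := List.mem_map.1 hzH
        rcases List.mem_cons.1 ha with rfl | ha'
        · exact hadj.ne rfl
        · refine ring_b L hH ha' hadj hz ?_
          intro H1 hH1 hH1pos
          exact RC L (p' + 1) p' 1 le_rfl 1 H1 {a.1} a.1 hH1
            (by
              intro e he hep
              rcases List.mem_cons.1 he with rfl | he
              · exact mem_singleton_self _
              · have h1 := hH1pos e he
                omega)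
            (by
              intro w hw
              rw [mem_singleton.1 hw]
              exact hzIS.mono hk')
            (by simp)
      · have hnew := hH.cons hz hadj.symm (by omega) le_rfl hzH
        obtain ⟨T, hT, hTy⟩ := IH p' ρ (by omega) k' ((x, p' + 1) :: H) {z} z a0 hnew
          (by
            rw [List.getLast?_cons_cons]
            exact hl)
          ha0y
          (by
            simp only [List.map_cons, List.mem_cons, not_or]
            simp only [List.map_cons, List.mem_cons, not_or] at hy
            exact ⟨hzy.symm, hy⟩)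
          (by
            intro a ha hap
            rcases List.mem_cons.1 ha with rfl | ha
            · exact mem_singleton_self _
            · have h1 := hH.pos_ge' a ha
              omega)
          (by
            intro w hw
            rw [mem_singleton.1 hw]
            exact hzIS)
          (by simpa using hc)
        refine ⟨_, Ext.down hadj hz hzH hT hρ, ?_⟩
        intro e he
        rcases List.mem_cons.1 he with rfl | he
        · exact hzy
        · exact hTy e he
    by_cases hfar : p + 2 ≤ a0.2
    · have hc0 : cst p a0.2 = 0 := by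
        unfold cst
        rw [if_neg (by omega), if_neg (by omega)]
      rw [hc0] at hcard
      rcases step_choice hxV (hVk x hxV) hρ (by omega) with
        ⟨v, hv, hadj, hvV⟩ | ⟨p', rfl, z, hz, hadj, hle⟩
      · by_cases hvy : v = y
        · subst hvy
          exact (ring_as L hH hl ha0y hy hfar hadj hv.mem).elim
        · exact same v hv hadj hvV hvy
      · have hzIS : IS G R p' ρ z := (colr_spec G R p' z hz).2.2.mono hle
        by_cases hzy : z = y
        · subst hzy
          exact (ring_bs L hH hl ha0y hy (by omega) hadj hz (hzIS.mono hρ)).elim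
        · refine down p' z rfl hz hadj hzy ρ hzIS hρ ?_
          have hc1 : cst p' a0.2 = 0 := by
            unfold cst
            rw [if_neg (by omega), if_neg (by omega)]
          omega
    · -- the top two levels
      have hc2 : 1 ≤ cst p a0.2 := by
        unfold cst
        split_ifs <;> omega
      rcases step_choice' (ρ := ρ + (cst p a0.2 - 1)) (y := y) hxV (hVk x hxV) (by omega) (by omega)
        (by
          intro h1 p' hp' h2
          subst hp'
          exact not_consec L h1 h2) with
        ⟨v, hv, hadj, hvV, hvy⟩ | ⟨p', rfl, z, hz, hadj, hzy, hle⟩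
      · exact same v hv hadj hvV hvy
      · have hzIS : IS G R p' (ρ + (cst (p' + 1) a0.2 - 1)) z :=
          (colr_spec G R p' z hz).2.2.mono hle
        refine down p' z rfl hz hadj hzy _ hzIS (by omega) ?_
        have : cst p' a0.2 + 1 ≤ cst (p' + 1) a0.2 := by
          unfold cst
          split_ifs <;> omega
        omega

/-- Facts about the path of an extension. -/
lemma Ext.path (L : Line G R D b) {H : List (V × ℕ)} {x : V} {p ρ : ℕ} {T : List (V × ℕ)}
    (hT : Ext G R ((x, p) :: H) x p ρ T) (hx : x ∈ R p) :
    (x :: T.map Prod.fst).IsChain G.Adj ∧ (x :: T.map Prod.fst).Nodup ∧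
      (∀ w ∈ x :: T.map Prod.fst, w ∈ D) ∧
      ∃ c, (x :: T.map Prod.fst).getLast? = some c ∧ c ∈ R (lastPos p T) := by
  refine ⟨chain_map_relT hT.chain, ?_, ?_, last_att T x p hx hT.att⟩
  · refine List.nodup_cons.2 ⟨?_, hT.nodup⟩
    intro h
    obtain ⟨a, ha, hax⟩ := List.mem_map.1 h
    exact hT.disj a ha (by simp [hax])
  · intro w hw
    rcases List.mem_cons.1 hw with rfl | hw
    · exact L.sub _ hx
    · obtain ⟨a, ha, rfl⟩ := List.mem_map.1 hw
      exact L.sub _ (hT.att a ha)

/-- Two copies of one vertex on one slot cannot exist. -/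
lemma far_same (L : Line G R D b) {y : V} {q q' : ℕ} (hqq : q' < q) (h1 : y ∈ R q) (h2 : y ∈ R q')
    (hslot : colr G R q y + q = colr G R q' y + q') : False := by
  have hIS : IS G R q' (q - q') y := (colr_spec G R q' y h2).2.2.mono (by omega)
  obtain ⟨T, hT⟩ := RC L (q' + (q - q' - 1)) q' (q - q' - 1) le_rfl (q - q') [] {y} y
    ⟨by simpa using h2, by simp, by simp⟩
    (by simp)
    (by
      intro w hw
      rw [mem_singleton.1 hw]
      exact hIS)
    (by simp)
  obtain ⟨hc, hn, hd, c, hc1, hc2⟩ := hT.path L h2
  have hg := hT.gain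
  refine L.F1 _ y c q (lastPos q' T) hc hn hd (by simp) hc1 h1 hc2 ?_
  simp only [List.length_cons, List.length_map]
  omega

/-- Adjacent incidences on one slot at distance at least two cannot exist. -/
lemma far_adj (L : Line G R D b) {y z : V} {q q' : ℕ} (hqq : q' + 2 ≤ q) (h1 : y ∈ R q)
    (h2 : z ∈ R q') (hadj : G.Adj y z)
    (hslot : colr G R q y + q = colr G R q' z + q') : False := by
  have hIS : IS G R q' (q - q') z := (colr_spec G R q' z h2).2.2.mono (by omega)
  have hcst : cst q' q' = 2 := by simp [cst]
  obtain ⟨T, hT, hTy⟩ := RCs L y (q' + (q - q' - 2)) q' (q - q' - 2) le_rfl (q - q') [] {z} z (z, q')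
    ⟨by simpa using h2, by simp, by simp⟩ (by simp) hadj.symm (by simpa using hadj.ne)
    (by simp)
    (by
      intro w hw
      rw [mem_singleton.1 hw]
      exact hIS)
    (by simp [hcst]; omega)
  obtain ⟨hc, hn, hd, c, hc1, hc2⟩ := hT.path L h2
  have hg := hT.gain
  have hyT : y ∉ z :: T.map Prod.fst := by
    intro h
    rcases List.mem_cons.1 h with h | h
    · exact hadj.ne h
    · obtain ⟨a, ha, hay⟩ := List.mem_map.1 h
      exact hTy a ha hay
  refine L.F1 (y :: z :: T.map Prod.fst) y c q (lastPos q' T) ?_ ?_ ?_ (by simp) ?_ h1 hc2 ?_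
  · rw [List.isChain_cons_cons]
    exact ⟨hadj, hc⟩
  · exact List.nodup_cons.2 ⟨hyT, hn⟩
  · intro w hw
    rcases List.mem_cons.1 hw with rfl | hw
    · exact L.sub _ h1
    · exact hd w hw
  · rw [List.getLast?_cons_cons]
    exact hc1
  · simp only [List.length_cons, List.length_map]
    omega

/-- Adjacent incidences at consecutive levels have different slots. -/
lemma near_adj {y z : V} {q' : ℕ} (h1 : y ∈ R (q' + 1)) (h2 : z ∈ R q') (hadj : G.Adj y z)
    (hslot : colr G R (q' + 1) y + (q' + 1) = colr G R q' z + q') : False := by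
  apply (colr_spec G R (q' + 1) y h1).2.1
  change colr G R (q' + 1) y ∈ blk G (R q') (colr G R q') y
  rw [mem_blk]
  exact ⟨z, h2, hadj, by omega, by omega⟩

/-- Helper for the length bound. -/
lemma dropLast_att : ∀ (T : List (V × ℕ)) (x : V) (p : ℕ), x ∈ R p → (∀ a ∈ T, a.1 ∈ R a.2) →
    Flat p T → ∃ c, (x :: T.map Prod.fst).dropLast.getLast? = some c ∧ c ∈ R (lastPos p T) := by
  intro T
  induction T with
  | nil => simp [Flat]
  | cons a T ih =>
    intro x p hx hT hf
    rcases T with _ | ⟨c', T'⟩
    · have h1 : a.2 = p := hf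
      refine ⟨x, by simp, ?_⟩
      simp only [lastPos]
      rw [h1]
      exact hx
    · have hf' : Flat a.2 (c' :: T') := hf
      obtain ⟨c, h1, h2⟩ := ih a.1 a.2 (hT a (by simp)) (fun e he => hT e (List.mem_cons_of_mem _ he))
        hf'
      refine ⟨c, ?_, h2⟩
      simp only [List.map_cons] at h1 ⊢
      rw [List.dropLast_cons_cons, List.dropLast_cons_cons, List.getLast?_cons_cons]
      rw [List.dropLast_cons_cons] at h1
      exact h1

/-- Near-down paths ending with a same-level step are short. -/
theorem len_bound (L : Line G R D b) : ∀ (T : List (V × ℕ)) (x : V) (p : ℕ), x ∈ R p →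
    (∀ a ∈ T, a.1 ∈ R a.2) → ((x, p) :: T).IsChain (relT G) → (x :: T.map Prod.fst).Nodup →
    Flat p T → T.length + 2 + p ≤ b + lastPos p T := by
  intro T
  induction T with
  | nil => simp [Flat]
  | cons a T ih =>
    intro x p hx hT hch hnd hf
    rcases T with _ | ⟨c', T'⟩
    · have h1 : a.2 = p := hf
      have := L.hb
      simp only [List.length_cons, List.length_nil, lastPos, h1]
      omega
    · have hch' := hch
      rw [List.isChain_cons_cons] at hch'
      obtain ⟨⟨-, h3, h4⟩, hch2⟩ := hch'
      have hf' : Flat a.2 (c' :: T') := hf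
      have hnd' : (a.1 :: (c' :: T').map Prod.fst).Nodup := by
        simp only [List.map_cons] at hnd ⊢
        exact (List.nodup_cons.1 hnd).2
      have hIH := ih a.1 a.2 (hT a (by simp)) (fun e he => hT e (List.mem_cons_of_mem _ he)) hch2
        hnd' hf'
      have hq : lastPos a.2 (c' :: T') = lastPos p (a :: c' :: T') := rfl
      rw [hq] at hIH
      by_contra hcon
      simp only [List.length_cons] at hIH hcon
      set qe := lastPos p (a :: c' :: T') with hqe
      have hqp : qe ≤ p := lastPos_le _ x p hch
      set W := x :: (a :: c' :: T').map Prod.fst with hW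
      have hWch : W.IsChain G.Adj := chain_map_relT hch
      have hWD : ∀ w ∈ W, w ∈ D := by
        intro w hw
        rcases List.mem_cons.1 hw with rfl | hw
        · exact L.sub _ hx
        · obtain ⟨e, he, rfl⟩ := List.mem_map.1 hw
          exact L.sub _ (hT e he)
      have hWlen : W.length = T'.length + 3 := by simp [hW]
      by_cases hcase : W.length + p = b + qe
      · obtain ⟨c, hc1, hc2⟩ := last_att (a :: c' :: T') x p hx hT
        exact L.F2 W x c p qe hWch hnd hWD (by simp [hW]) hc1 hx hc2 hqp hcase
      · obtain ⟨c, hc1, hc2⟩ := dropLast_att (a :: c' :: T') x p hx hT hf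
        refine L.F2 W.dropLast x c p qe ?_ ?_ ?_ ?_ hc1 hx hc2 hqp ?_
        · rw [List.dropLast_eq_take]
          exact hWch.take _
        · exact hnd.sublist (List.dropLast_sublist _)
        · intro w hw
          exact hWD w (List.mem_of_mem_dropLast hw)
        · simp [hW]
        · rw [List.length_dropLast]
          omega

/-- The excess is bounded along the line. -/
theorem e_bound (L : Line G R D b) {x : V} {p : ℕ} (hx : x ∈ R p) : colr G R p x + 2 ≤ b := by
  rcases Nat.eq_zero_or_pos (colr G R p x) with h0 | hpos
  · have := L.hb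
    omega
  have hIS : IS G R p (colr G R p x) x := (colr_spec G R p x hx).2.2
  obtain ⟨T, hT⟩ := RC L (p + colr G R p x) p (colr G R p x) le_rfl (colr G R p x) [] {x} x
    ⟨by simpa using hx, by simp, by simp⟩
    (by simp)
    (by
      intro w hw
      rw [mem_singleton.1 hw]
      exact hIS)
    (by simp)
  obtain ⟨-, hn, -, -⟩ := hT.path L hx
  have h1 := len_bound L T x p hx hT.att hT.chain hn (hT.flat hpos)
  have h2 := hT.gain
  have h3 := lastPos_le T x p hT.chain
  omega

/-- No wrap-around coincidence for one vertex. -/
lemma wrap_same (L : Line G R D b) {y : V} {q q' : ℕ} (h1 : y ∈ R q) (h2 : y ∈ R q')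
    (hslot : colr G R q y + q = colr G R q' y + q' + b) : False := by
  have he := e_bound L h1
  have hqb := L.lt q y h1
  have hqq : q' < q := by omega
  set s := b + q' - q with hs
  have hs1 : 1 ≤ s := by omega
  have hIS : IS G R q s y := (colr_spec G R q y h1).2.2.mono (by omega)
  by_cases hs2 : s = 1
  · refine L.F2 [y] y y q q' (by simp) (by simp) ?_ (by simp) (by simp) h1 h2 (by omega) ?_
    · intro w hw
      have : w = y := by simpa using hw
      rw [this]
      exact L.sub _ h1
    · simp only [List.length_cons, List.length_nil]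
      omega
  · obtain ⟨T, hT⟩ := RC L (q + (s - 1)) q (s - 1) le_rfl s [] {y} y
      ⟨by simpa using h1, by simp, by simp⟩
      (by simp)
      (by
        intro w hw
        rw [mem_singleton.1 hw]
        exact hIS)
      (by simp)
    obtain ⟨hc, hn, hd, c, hc1, hc2⟩ := hT.path L h1
    have hlen := len_bound L T y q h1 hT.att hT.chain hn (hT.flat (by omega))
    have hg := hT.gain
    have hle := lastPos_le T y q hT.chain
    refine L.F2 (y :: T.map Prod.fst).reverse c y (lastPos q T) q' (chain_reverse hc)
      (List.nodup_reverse.2 hn) (fun w hw => hd w (List.mem_reverse.1 hw)) ?_ ?_ hc2 h2 (by omega) ?_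
    · rw [List.head?_reverse]
      exact hc1
    · rw [List.getLast?_reverse]
      rfl
    · simp only [List.length_reverse, List.length_cons, List.length_map]
      omega

/-- No wrap-around coincidence for adjacent vertices, away from position zero. -/
lemma wrap_adj (L : Line G R D b) {y y' : V} {q q' : ℕ} (h1 : y ∈ R q) (h2 : y' ∈ R q')
    (hadj : G.Adj y y') (hq' : 1 ≤ q')
    (hslot : colr G R q y + q = colr G R q' y' + q' + b) : False := by
  have he := e_bound L h1
  have hqb := L.lt q y h1
  have hqq : q' < q := by omega
  set s := b + q' - q with hs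
  have hs1 : 2 ≤ s := by omega
  have hIS : IS G R q s y := (colr_spec G R q y h1).2.2.mono (by omega)
  have hd2 : y' ∈ D := L.sub _ h2
  by_cases hs2 : s = 2
  · refine L.F2 [y, y'] y y' q q' (by simp [hadj]) (by simp [hadj.ne]) ?_ (by simp) (by simp) h1 h2
      (by omega) ?_
    · intro w hw
      simp only [List.mem_cons, List.not_mem_nil, or_false] at hw
      rcases hw with rfl | rfl
      · exact L.sub _ h1
      · exact hd2
    · simp only [List.length_cons, List.length_nil]
      omega
  · have hcst : cst q q = 2 := by simp [cst]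
    obtain ⟨T, hT, hTy⟩ := RCs L y' (q + (s - 2)) q (s - 2) le_rfl s [] {y} y (y, q)
      ⟨by simpa using h1, by simp, by simp⟩ (by simp) hadj (by simpa using hadj.ne')
      (by simp)
      (by
        intro w hw
        rw [mem_singleton.1 hw]
        exact hIS)
      (by simp [hcst]; omega)
    obtain ⟨hc, hn, hd, c, hc1, hc2⟩ := hT.path L h1
    have hlen := len_bound L T y q h1 hT.att hT.chain hn (hT.flat (by omega))
    have hg := hT.gain
    have hle := lastPos_le T y q hT.chain
    have hyT : y' ∉ y :: T.map Prod.fst := by
      intro h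
      rcases List.mem_cons.1 h with h | h
      · exact hadj.ne h.symm
      · obtain ⟨a, ha, hay⟩ := List.mem_map.1 h
        exact hTy a ha hay
    set W := y' :: y :: T.map Prod.fst with hW
    have hWc : W.IsChain G.Adj := by
      rw [hW, List.isChain_cons_cons]
      exact ⟨hadj.symm, hc⟩
    have hWn : W.Nodup := List.nodup_cons.2 ⟨hyT, hn⟩
    refine L.F2 W.reverse c y' (lastPos q T) q' (chain_reverse hWc)
      (List.nodup_reverse.2 hWn) ?_ ?_ ?_ hc2 h2 (by omega) ?_
    · intro w hw
      have hw' : w ∈ W := by simpa using hw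
      rcases List.mem_cons.1 hw' with rfl | hw'
      · exact hd2
      · exact hd w hw'
    · rw [List.head?_reverse, hW, List.getLast?_cons_cons]
      exact hc1
    · rw [List.getLast?_reverse]
      rfl
    · simp only [hW, List.length_reverse, List.length_cons, List.length_map]
      omega

end

end Vale.Agent.Lib.P048
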