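import Mathlib

namespace Vale.Agent.Lib.P048

variable {V : Type*}

/-- A list of at least three distinct vertices, consecutive ones adjacent and the last
adjacent to the first. -/
def IsCyc (G : SimpleGraph V) (l : List V) : Prop :=
  3 ≤ l.length ∧ l.Nodup ∧ l.IsChain G.Adj ∧ ∀ x ∈ l.getLast?, ∀ y ∈ l.head?, G.Adj x y

/-- The arc `u q, u (q+1), ..., u (q+t-1)`. -/
def arc {b : ℕ} (u : ZMod b → V) : ZMod b → ℕ → List V
  | _, 0 => []
  | q, t + 1 => u q :: arc u (q + 1) t

section arc
variable {b : ℕ} (u : ZMod b → V)

@[simp] lemma length_arc (q : ZMod b) (t : ℕ) : (arc u q t).length = t := by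
  induction t generalizing q with
  | zero => simp [arc]
  | succ t ih => simp [arc, ih]

lemma mem_arc {q : ZMod b} {t : ℕ} {x : V} :
    x ∈ arc u q t ↔ ∃ i, i < t ∧ x = u (q + (i : ZMod b)) := by
  induction t generalizing q with
  | zero => simp [arc]
  | succ t ih =>
    simp only [arc, List.mem_cons, ih]
    constructor
    · rintro (rfl | ⟨i, hi, rfl⟩)
      · exact ⟨0, by omega, by simp⟩
      · refine ⟨i + 1, by omega, ?_⟩
        congr 1
        push_cast
        ring
    · rintro ⟨i, hi, rfl⟩
      rcases i with _ | i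
      · left; simp
      · right
        refine ⟨i, by omega, ?_⟩
        congr 1
        push_cast
        ring

lemma chain_arc {G : SimpleGraph V} (hadj : ∀ i, G.Adj (u i) (u (i + 1))) (q : ZMod b) (t : ℕ) :
    (arc u q t).IsChain G.Adj := by
  induction t generalizing q with
  | zero => simp [arc]
  | succ t ih =>
    rcases t with _ | t
    · simp [arc]
    · simp only [arc] at ih ⊢
      rw [List.isChain_cons_cons]
      exact ⟨hadj q, ih (q + 1)⟩

lemma head?_arc (q : ZMod b) (t : ℕ) : (arc u q (t + 1)).head? = some (u q) := by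
  simp [arc]

lemma getLast?_arc (q : ZMod b) (t : ℕ) :
    (arc u q (t + 1)).getLast? = some (u (q + (t : ZMod b))) := by
  induction t generalizing q with
  | zero => simp [arc]
  | succ t ih =>
    have h := ih (q + 1)
    have : arc u q (t + 1 + 1) = u q :: arc u (q + 1) (t + 1) := rfl
    rw [this, List.getLast?_cons_of_ne_nil (by simp [arc]), h]
    congr 2
    push_cast
    ring

lemma natCast_inj_of_lt {i j : ℕ} (hi : i < b) (hj : j < b)
    (h : (i : ZMod b) = (j : ZMod b)) : i = j := by
  rw [ZMod.natCast_eq_natCast_iff'] at h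
  rwa [Nat.mod_eq_of_lt hi, Nat.mod_eq_of_lt hj] at h

lemma nodup_arc (hinj : Function.Injective u) (q : ZMod b) {t : ℕ} (ht : t ≤ b) :
    (arc u q t).Nodup := by
  induction t generalizing q with
  | zero => simp [arc]
  | succ t ih =>
    simp only [arc, List.nodup_cons]
    refine ⟨?_, ih (q + 1) (by omega)⟩
    intro hmem
    obtain ⟨i, hi, hx⟩ := (mem_arc u).1 hmem
    have h1 := hinj hx
    have h2 : ((0 : ℕ) : ZMod b) = ((i + 1 : ℕ) : ZMod b) := by
      push_cast
      have : q + 1 + (i : ZMod b) = q + ((i : ZMod b) + 1) := by ring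
      rw [this] at h1
      have h3 : (i : ZMod b) + 1 = 0 := by simpa using h1
      exact h3.symm
    have := natCast_inj_of_lt (b := b) (i := 0) (j := i + 1) (by omega) (by omega) h2
    omega

end arc

/-- Core cycle surgery: an arc of the cycle, then an outside path. -/
lemma surgery {G : SimpleGraph V} {b : ℕ} (u : ZMod b → V)
    (hinj : Function.Injective u) (hadj : ∀ i, G.Adj (u i) (u (i + 1)))
    (q : ZMod b) {s : ℕ} (hs1 : 1 ≤ s) (hs2 : s ≤ b) (W : List V) (hWne : W ≠ [])
    (hchain : W.IsChain G.Adj) (hnd : W.Nodup) (hdisj : ∀ y ∈ W, ∀ i, y ≠ u i)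
    (hhead : ∀ y ∈ W.head?, G.Adj (u q) y)
    (hlast : ∀ y ∈ W.getLast?, G.Adj y (u (q + (s : ZMod b))))
    (hlen : 3 ≤ b - s + 1 + W.length) :
    IsCyc G (arc u (q + (s : ZMod b)) (b - s + 1) ++ W) := by
  have hqb : q + (s : ZMod b) + ((b - s : ℕ) : ZMod b) = q := by
    have : ((s + (b - s) : ℕ) : ZMod b) = 0 := by
      rw [show s + (b - s) = b by omega]
      exact ZMod.natCast_self b
    push_cast at this
    rw [add_assoc]
    have h2 : (s : ZMod b) + ((b - s : ℕ) : ZMod b) = 0 := this
    rw [h2, add_zero]
  refine ⟨?_, ?_, ?_, ?_⟩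
  · simpa using hlen
  · rw [List.nodup_append]
    refine ⟨nodup_arc u hinj _ (by omega), hnd, ?_⟩
    intro x hx y hy hxy
    obtain ⟨i, -, rfl⟩ := (mem_arc u).1 hx
    exact hdisj y hy _ hxy.symm
  · rw [List.isChain_append]
    refine ⟨chain_arc u hadj _ _, hchain, ?_⟩
    intro x hx y hy
    rw [getLast?_arc] at hx
    simp only [Option.mem_def, Option.some.injEq] at hx
    subst hx
    rw [hqb]
    exact hhead y hy
  · intro x hx y hy
    rw [List.getLast?_append] at hx
    rw [List.head?_append, head?_arc] at hy
    simp only [Option.mem_def, Option.some_or, Option.some.injEq] at hy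
    subst hy
    cases hW : W.getLast? with
    | none =>
      exfalso
      rw [List.getLast?_eq_none_iff] at hW
      exact hWne hW
    | some z =>
      rw [hW] at hx
      simp only [Option.mem_def, Option.some_or, Option.some.injEq] at hx
      subst hx
      exact hlast _ hW

lemma vertices_surgery {b : ℕ} (u : ZMod b → V) {q : ZMod b} {t : ℕ} {W : List V} {x : V}
    (hx : x ∈ arc u q t ++ W) : (∃ i, x = u i) ∨ x ∈ W := by
  rcases List.mem_append.1 hx with h | h
  · obtain ⟨i, -, rfl⟩ := (mem_arc u).1 h
    exact Or.inl ⟨_, rfl⟩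
  · exact Or.inr h

/-- Rotation of a closed path so that it starts at a chosen vertex. -/
lemma walk_closed {G : SimpleGraph V} {L : List V} (hchain : L.IsChain G.Adj) (hnd : L.Nodup)
    (hclosed : ∀ x ∈ L.getLast?, ∀ y ∈ L.head?, G.Adj x y) {y : V} (hy : y ∈ L) {s : ℕ}
    (hs1 : 1 ≤ s) (hs : s ≤ L.length) :
    ∃ W : List V, W.length = s ∧ W.head? = some y ∧ W.IsChain G.Adj ∧ W.Nodup ∧ ∀ z ∈ W, z ∈ L := by
  obtain ⟨L1, L2, rfl⟩ := List.append_of_mem hy
  have hrot : (y :: L2 ++ L1).IsChain G.Adj := by
    rw [List.isChain_append]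
    have h := (List.isChain_append.1 hchain)
    refine ⟨h.2.1, h.1, ?_⟩
    intro x hx z hz
    apply hclosed
    · rw [List.getLast?_append]
      have : (y :: L2).getLast? = some x := hx
      simp [this]
    · rw [List.head?_append]
      have : L1.head? = some z := hz
      simp [this]
  have hnd' : (y :: L2 ++ L1).Nodup := by
    have := (List.perm_append_comm (l₁ := L1) (l₂ := y :: L2)).nodup_iff.1 hnd
    exact this
  refine ⟨(y :: L2 ++ L1).take s, ?_, ?_, hrot.take s, hnd'.sublist (List.take_sublist _ _), ?_⟩
  · simp only [List.length_take, List.length_append, List.length_cons] at hs ⊢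
    omega
  · rcases s with _ | s
    · omega
    · simp
  · intro z hz
    have := List.mem_of_mem_take hz
    simp only [List.mem_append, List.mem_cons] at this ⊢
    tauto

lemma chain_reverse {G : SimpleGraph V} {L : List V} (h : L.IsChain G.Adj) :
    L.reverse.IsChain G.Adj := by
  rw [List.isChain_reverse]
  exact h.imp (fun _ _ hab => hab.symm)

/-- From any vertex of a path, the longer arm gives a path of half the size. -/
lemma walk_open {G : SimpleGraph V} {L : List V} (hchain : L.IsChain G.Adj) (hnd : L.Nodup)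
    {y : V} (hy : y ∈ L) {s : ℕ} (hs1 : 1 ≤ s) (hs : 2 * s ≤ L.length + 1) :
    ∃ W : List V, W.length = s ∧ W.head? = some y ∧ W.IsChain G.Adj ∧ W.Nodup ∧ ∀ z ∈ W, z ∈ L := by
  obtain ⟨L1, L2, rfl⟩ := List.append_of_mem hy
  simp only [List.length_append, List.length_cons] at hs
  have hch := List.isChain_append.1 hchain
  by_cases h : s ≤ L2.length + 1
  · refine ⟨(y :: L2).take s, ?_, ?_, hch.2.1.take s, ?_, ?_⟩
    · simp only [List.length_take, List.length_cons]; omega
    · rcases s with _ | s
      · omega
      · simp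
    · exact ((List.Nodup.sublist (List.sublist_append_right L1 (y :: L2)) hnd)).sublist
        (List.take_sublist _ _)
    · intro z hz
      have := List.mem_of_mem_take hz
      simp only [List.mem_append, List.mem_cons] at this ⊢
      tauto
  · have hs' : s ≤ L1.length + 1 := by omega
    have hsl : (L1 ++ [y]).Sublist (L1 ++ y :: L2) := List.Sublist.append_left (by simp) L1
    have h1 : (L1 ++ [y]).IsChain G.Adj := by
      rw [List.isChain_append]
      refine ⟨hch.1, by simp, fun x hx c hc => hch.2.2 x hx c ?_⟩
      simpa using hc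
    have hnd1 : (L1 ++ [y]).Nodup := hnd.sublist hsl
    have hnd2 : (y :: L1.reverse).Nodup := by simpa using List.nodup_reverse.2 hnd1
    have hchain2 : (y :: L1.reverse).IsChain G.Adj := by simpa using chain_reverse h1
    refine ⟨(y :: L1.reverse).take s, ?_, ?_, hchain2.take s, hnd2.sublist (List.take_sublist _ _), ?_⟩
    · simp only [List.length_take, List.length_cons, List.length_reverse]; omega
    · rcases s with _ | s
      · omega
      · simp
    · intro z hz
      have := List.mem_of_mem_take hz
      simp only [List.mem_cons, List.mem_reverse] at this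
      simp only [List.mem_append, List.mem_cons]
      tauto

end Vale.Agent.Lib.P048
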