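import Vale.Agent.Lib.P048.Basic

namespace Vale.Agent.Lib.P048

open Finset

variable {V : Type*}

/-- A family of vertex-disjoint paths (lists) covering exactly the set `R`. -/
structure IsPathCover (G : SimpleGraph V) (R : Finset V) (P : Finset (List V)) : Prop where
  ne : ∀ L ∈ P, L ≠ []
  nodup : ∀ L ∈ P, L.Nodup
  chain : ∀ L ∈ P, L.IsChain G.Adj
  sub : ∀ L ∈ P, ∀ y ∈ L, y ∈ R
  cover : ∀ y ∈ R, ∃ L ∈ P, y ∈ L
  disj : ∀ L ∈ P, ∀ L' ∈ P, L ≠ L' → ∀ y ∈ L, y ∉ L'

/-- A path cover with the least number of paths. -/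
def IsMinCover (G : SimpleGraph V) (R : Finset V) (P : Finset (List V)) : Prop :=
  IsPathCover G R P ∧ ∀ Q, IsPathCover G R Q → P.card ≤ Q.card

lemma exists_minCover (G : SimpleGraph V) (R : Finset V) : ∃ P, IsMinCover G R P := by
  classical
  have hex : ∃ k, ∃ P, IsPathCover G R P ∧ P.card = k := by
    refine ⟨_, R.image (fun y => [y]), ?_, rfl⟩
    refine ⟨?_, ?_, ?_, ?_, ?_, ?_⟩
    · intro L hL
      obtain ⟨y, -, rfl⟩ := Finset.mem_image.1 hL
      simp
    · intro L hL
      obtain ⟨y, -, rfl⟩ := Finset.mem_image.1 hL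
      simp
    · intro L hL
      obtain ⟨y, -, rfl⟩ := Finset.mem_image.1 hL
      simp
    · intro L hL z hz
      obtain ⟨y, hy, rfl⟩ := Finset.mem_image.1 hL
      simp only [List.mem_singleton] at hz
      rwa [hz]
    · intro y hy
      exact ⟨[y], Finset.mem_image.2 ⟨y, hy, rfl⟩, by simp⟩
    · intro L hL L' hL' hne z hz hz'
      obtain ⟨y, -, rfl⟩ := Finset.mem_image.1 hL
      obtain ⟨y', -, rfl⟩ := Finset.mem_image.1 hL'
      simp only [List.mem_singleton] at hz hz'
      apply hne
      rw [← hz, hz']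
  classical
  obtain ⟨P, hP, hc⟩ := Nat.find_spec hex
  refine ⟨P, hP, ?_⟩
  intro Q hQ
  rw [hc]
  exact Nat.find_min' hex ⟨Q, hQ, rfl⟩

/-- Ends of a list, oriented. -/
lemma orient_last {L : List V} {y : V} {G : SimpleGraph V} (hc : L.IsChain G.Adj) (hn : L.Nodup)
    (hy : L.head? = some y ∨ L.getLast? = some y) :
    ∃ L1 : List V, L1.getLast? = some y ∧ L1.IsChain G.Adj ∧ L1.Nodup ∧ ∀ z, z ∈ L1 ↔ z ∈ L := by
  rcases hy with hy | hy
  · refine ⟨L.reverse, ?_, chain_reverse hc, List.nodup_reverse.2 hn, by simp⟩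
    simpa using hy
  · exact ⟨L, hy, hc, hn, by simp⟩

lemma orient_head {L : List V} {y : V} {G : SimpleGraph V} (hc : L.IsChain G.Adj) (hn : L.Nodup)
    (hy : L.head? = some y ∨ L.getLast? = some y) :
    ∃ L1 : List V, L1.head? = some y ∧ L1.IsChain G.Adj ∧ L1.Nodup ∧ ∀ z, z ∈ L1 ↔ z ∈ L := by
  rcases hy with hy | hy
  · exact ⟨L, hy, hc, hn, by simp⟩
  · refine ⟨L.reverse, ?_, chain_reverse hc, List.nodup_reverse.2 hn, by simp⟩
    simpa using hy

/-- Ends of different paths of a minimum path cover are not adjacent. -/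
lemma no_adj_ends {G : SimpleGraph V} {R : Finset V} {P : Finset (List V)}
    (hmin : IsMinCover G R P) {L L' : List V} (hL : L ∈ P) (hL' : L' ∈ P) (hne : L ≠ L')
    {y y' : V} (hy : L.head? = some y ∨ L.getLast? = some y)
    (hy' : L'.head? = some y' ∨ L'.getLast? = some y') : ¬ G.Adj y y' := by
  classical
  intro hadj
  obtain ⟨hP, hminP⟩ := hmin
  obtain ⟨L1, h1, hc1, hn1, hm1⟩ := orient_last (hP.chain L hL) (hP.nodup L hL) hy
  obtain ⟨L2, h2, hc2, hn2, hm2⟩ := orient_head (hP.chain L' hL') (hP.nodup L' hL') hy'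
  have hM : IsPathCover G R (insert (L1 ++ L2) ((P.erase L).erase L')) := by
    refine ⟨?_, ?_, ?_, ?_, ?_, ?_⟩
    · intro Z hZ
      rcases Finset.mem_insert.1 hZ with rfl | hZ
      · intro h
        have : L1 = [] := (List.append_eq_nil_iff.1 h).1
        rw [this] at h1
        simp at h1
      · exact hP.ne Z (Finset.mem_of_mem_erase (Finset.mem_of_mem_erase hZ))
    · intro Z hZ
      rcases Finset.mem_insert.1 hZ with rfl | hZ
      · rw [List.nodup_append]
        refine ⟨hn1, hn2, ?_⟩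
        intro a ha b hb hab
        subst hab
        exact hP.disj L hL L' hL' hne a ((hm1 a).1 ha) ((hm2 a).1 hb)
      · exact hP.nodup Z (Finset.mem_of_mem_erase (Finset.mem_of_mem_erase hZ))
    · intro Z hZ
      rcases Finset.mem_insert.1 hZ with rfl | hZ
      · rw [List.isChain_append]
        refine ⟨hc1, hc2, ?_⟩
        intro a ha b hb
        rw [h1] at ha
        rw [h2] at hb
        simp only [Option.mem_def, Option.some.injEq] at ha hb
        subst ha hb
        exact hadj
      · exact hP.chain Z (Finset.mem_of_mem_erase (Finset.mem_of_mem_erase hZ))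
    · intro Z hZ z hz
      rcases Finset.mem_insert.1 hZ with rfl | hZ
      · rcases List.mem_append.1 hz with h | h
        · exact hP.sub L hL z ((hm1 z).1 h)
        · exact hP.sub L' hL' z ((hm2 z).1 h)
      · exact hP.sub Z (Finset.mem_of_mem_erase (Finset.mem_of_mem_erase hZ)) z hz
    · intro z hz
      obtain ⟨Z, hZ, hzZ⟩ := hP.cover z hz
      by_cases h1' : Z = L
      · subst h1'
        exact ⟨L1 ++ L2, Finset.mem_insert_self _ _, List.mem_append.2 (Or.inl ((hm1 z).2 hzZ))⟩
      by_cases h2' : Z = L'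
      · subst h2'
        exact ⟨L1 ++ L2, Finset.mem_insert_self _ _, List.mem_append.2 (Or.inr ((hm2 z).2 hzZ))⟩
      exact ⟨Z, Finset.mem_insert_of_mem (Finset.mem_erase.2 ⟨h2', Finset.mem_erase.2 ⟨h1', hZ⟩⟩), hzZ⟩
    · intro Z hZ Z' hZ' hZZ z hz hz'
      rcases Finset.mem_insert.1 hZ with rfl | hZ
      · rcases Finset.mem_insert.1 hZ' with rfl | hZ'
        · exact hZZ rfl
        · have hZ1 := Finset.mem_erase.1 hZ'
          have hZ2 := Finset.mem_erase.1 hZ1.2
          rcases List.mem_append.1 hz with h | h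
          · exact hP.disj L hL Z' hZ2.2 (Ne.symm hZ2.1) z ((hm1 z).1 h) hz'
          · exact hP.disj L' hL' Z' hZ2.2 (Ne.symm hZ1.1) z ((hm2 z).1 h) hz'
      · have hZ1 := Finset.mem_erase.1 hZ
        have hZ2 := Finset.mem_erase.1 hZ1.2
        rcases Finset.mem_insert.1 hZ' with rfl | hZ'
        · rcases List.mem_append.1 hz' with h | h
          · exact hP.disj L hL Z hZ2.2 (Ne.symm hZ2.1) z ((hm1 z).1 h) hz
          · exact hP.disj L' hL' Z hZ2.2 (Ne.symm hZ1.1) z ((hm2 z).1 h) hz
        · exact hP.disj Z hZ2.2 Z' (Finset.mem_of_mem_erase (Finset.mem_of_mem_erase hZ')) hZZ z hz hz'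
  have hcard := hminP _ hM
  have h3 : (insert (L1 ++ L2) ((P.erase L).erase L')).card ≤ ((P.erase L).erase L').card + 1 :=
    Finset.card_insert_le _ _
  have hL'e : L' ∈ P.erase L := Finset.mem_erase.2 ⟨Ne.symm hne, hL'⟩
  have h4 : ((P.erase L).erase L').card = (P.erase L).card - 1 := Finset.card_erase_of_mem hL'e
  have h5 : (P.erase L).card = P.card - 1 := Finset.card_erase_of_mem hL
  have h6 : 0 < (P.erase L).card := Finset.card_pos.2 ⟨_, hL'e⟩
  omega

/-- the total length of a path cover is the size of the covered set. -/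
lemma cover_card [DecidableEq V] {G : SimpleGraph V} {R : Finset V} {P : Finset (List V)}
    (hP : IsPathCover G R P) : R.card = ∑ L ∈ P, L.length := by
  have h1 : R = P.biUnion (fun L => L.toFinset) := by
    ext y
    simp only [Finset.mem_biUnion, List.mem_toFinset]
    constructor
    · exact hP.cover y
    · rintro ⟨L, hL, hy⟩
      exact hP.sub L hL y hy
  rw [h1, Finset.card_biUnion]
  · apply Finset.sum_congr rfl
    intro L hL
    exact List.toFinset_card_of_nodup (hP.nodup L hL)
  · intro L hL L' hL' hne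
    simp only [Function.onFun]
    rw [Finset.disjoint_left]
    intro y hy hy'
    exact hP.disj L hL L' hL' hne y (List.mem_toFinset.1 hy) (List.mem_toFinset.1 hy')

end Vale.Agent.Lib.P048
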