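import Vale.Agent.Lib.P048.Level

namespace Vale.Agent.Lib.P048

open Finset Classical

variable {V : Type*}

/-- Abstract properties of the levels along a cut cycle. -/
structure Line (G : SimpleGraph V) (R : ℕ → Finset V) (D : Finset V) (b : ℕ) : Prop where
  hb : 3 ≤ b
  sub : ∀ p, R p ⊆ D
  lt : ∀ p, ∀ x ∈ R p, p < b
  F1 : ∀ (W : List V) (a c : V) (p q : ℕ), W.IsChain G.Adj → W.Nodup → (∀ y ∈ W, y ∈ D) →
    W.head? = some a → W.getLast? = some c → a ∈ R p → c ∈ R q → p = q + W.length → False
  F2 : ∀ (W : List V) (a c : V) (p q : ℕ), W.IsChain G.Adj → W.Nodup → (∀ y ∈ W, y ∈ D) →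
    W.head? = some a → W.getLast? = some c → a ∈ R p → c ∈ R q → q ≤ p →
    W.length + p = b + q → False

/-- Step relation of histories, newest entry first. -/
def relH (G : SimpleGraph V) (a c : V × ℕ) : Prop := G.Adj a.1 c.1 ∧ a.2 ≤ c.2 ∧ c.2 ≤ a.2 + 1

/-- Step relation of extensions, oldest entry first. -/
def relT (G : SimpleGraph V) (a c : V × ℕ) : Prop := G.Adj a.1 c.1 ∧ c.2 ≤ a.2 ∧ a.2 ≤ c.2 + 1

/-- A history: a near-down path, newest entry first. -/
structure Hist (G : SimpleGraph V) (R : ℕ → Finset V) (H : List (V × ℕ)) : Prop where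
  att : ∀ a ∈ H, a.1 ∈ R a.2
  chain : H.IsChain (relH G)
  nodup : (H.map Prod.fst).Nodup

/-- The final position of a path starting at position `p`. -/
def lastPos : ℕ → List (V × ℕ) → ℕ
  | p, [] => p
  | _, a :: T => lastPos a.2 T

/-- The last step stays at the same position. -/
def Flat : ℕ → List (V × ℕ) → Prop
  | _, [] => False
  | p, [a] => a.2 = p
  | _, a :: c :: T => Flat a.2 (c :: T)

/-- An extension of a history. -/
structure Ext (G : SimpleGraph V) (R : ℕ → Finset V) (H : List (V × ℕ)) (x : V) (p ρ : ℕ)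
    (T : List (V × ℕ)) : Prop where
  chain : ((x, p) :: T).IsChain (relT G)
  att : ∀ a ∈ T, a.1 ∈ R a.2
  nodup : (T.map Prod.fst).Nodup
  disj : ∀ a ∈ T, a.1 ∉ H.map Prod.fst
  gain : T.length + lastPos p T = ρ + p
  zero : ρ = 0 → T = []
  flat : 1 ≤ ρ → Flat p T

/-- Membership in a core at a level. -/
abbrev IS (G : SimpleGraph V) (R : ℕ → Finset V) (p k : ℕ) (x : V) : Prop :=
  InS G (R p) (Blk G R p) k x

section
variable {G : SimpleGraph V} {R : ℕ → Finset V} {D : Finset V} {b : ℕ}

lemma Ext.nil (H : List (V × ℕ)) (x : V) (p : ℕ) : Ext G R H x p 0 [] := by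
  refine ⟨by simp, by simp, by simp, by simp, by simp [lastPos], fun _ => rfl, by simp⟩

lemma Ext.same {H : List (V × ℕ)} {x v : V} {p ρ : ℕ} {T : List (V × ℕ)} (hadj : G.Adj x v)
    (hv : v ∈ R p) (hvH : v ∉ H.map Prod.fst) (hT : Ext G R ((v, p) :: H) v p ρ T) :
    Ext G R H x p (ρ + 1) ((v, p) :: T) := by
  refine ⟨?_, ?_, ?_, ?_, ?_, by simp, ?_⟩
  · rw [List.isChain_cons_cons]
    exact ⟨⟨hadj, le_rfl, by simp⟩, hT.chain⟩
  · intro a ha
    rcases List.mem_cons.1 ha with rfl | ha
    · exact hv
    · exact hT.att a ha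
  · refine List.nodup_cons.2 ⟨?_, hT.nodup⟩
    intro h
    obtain ⟨a, ha, hav⟩ := List.mem_map.1 h
    exact hT.disj a ha (by simp [hav])
  · intro a ha
    rcases List.mem_cons.1 ha with rfl | ha
    · exact hvH
    · intro h
      exact hT.disj a ha (by simp only [List.map_cons, List.mem_cons]; exact Or.inr h)
  · have := hT.gain
    simp only [List.length_cons, lastPos]
    omega
  · intro _
    rcases T with _ | ⟨c, T⟩
    · simp [Flat]
    · have hρ : 1 ≤ ρ := by
        by_contra h
        have := hT.zero (by omega)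
        simp at this
      exact hT.flat hρ

lemma Ext.down {H : List (V × ℕ)} {x z : V} {p' ρ : ℕ} {T : List (V × ℕ)} (hadj : G.Adj x z)
    (hz : z ∈ R p') (hzH : z ∉ H.map Prod.fst) (hT : Ext G R ((z, p') :: H) z p' ρ T)
    (hρ : 1 ≤ ρ) : Ext G R H x (p' + 1) ρ ((z, p') :: T) := by
  refine ⟨?_, ?_, ?_, ?_, ?_, by omega, ?_⟩
  · rw [List.isChain_cons_cons]
    exact ⟨⟨hadj, by simp, le_rfl⟩, hT.chain⟩
  · intro a ha
    rcases List.mem_cons.1 ha with rfl | ha
    · exact hz
    · exact hT.att a ha
  · refine List.nodup_cons.2 ⟨?_, hT.nodup⟩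
    intro h
    obtain ⟨a, ha, hav⟩ := List.mem_map.1 h
    exact hT.disj a ha (by simp [hav])
  · intro a ha
    rcases List.mem_cons.1 ha with rfl | ha
    · exact hzH
    · intro h
      exact hT.disj a ha (by simp only [List.map_cons, List.mem_cons]; exact Or.inr h)
  · have := hT.gain
    simp only [List.length_cons, lastPos]
    omega
  · intro _
    have hf := hT.flat hρ
    rcases T with _ | ⟨c, T⟩
    · simp [Flat] at hf
    · exact hf

lemma chain_pos : ∀ (H : List (V × ℕ)) (c : V × ℕ), (c :: H).IsChain (relH G) →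
    ∀ a ∈ H, c.2 ≤ a.2 := by
  intro H
  induction H with
  | nil => simp
  | cons d H ih =>
    intro c hc a ha
    rw [List.isChain_cons_cons] at hc
    rcases List.mem_cons.1 ha with rfl | ha
    · exact hc.1.2.1
    · exact hc.1.2.1.trans (ih d hc.2 a ha)

lemma Hist.pos_ge {x : V} {p : ℕ} {H : List (V × ℕ)} (h : Hist G R ((x, p) :: H)) :
    ∀ a ∈ H, p ≤ a.2 := chain_pos H (x, p) h.chain

lemma Hist.left {A B : List (V × ℕ)} (h : Hist G R (A ++ B)) : Hist G R A := by
  refine ⟨fun a ha => h.att a (List.mem_append_left _ ha), (List.isChain_append.1 h.chain).1, ?_⟩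
  have := h.nodup
  rw [List.map_append] at this
  exact (List.nodup_append.1 this).1

lemma Hist.right {A B : List (V × ℕ)} (h : Hist G R (A ++ B)) : Hist G R B := by
  refine ⟨fun a ha => h.att a (List.mem_append_right _ ha), (List.isChain_append.1 h.chain).2.1, ?_⟩
  have := h.nodup
  rw [List.map_append] at this
  exact (List.nodup_append.1 this).2.1

lemma Hist.cons {H : List (V × ℕ)} {x v : V} {p q : ℕ} (h : Hist G R ((x, p) :: H))
    (hv : v ∈ R q) (hadj : G.Adj v x) (h1 : q ≤ p) (h2 : p ≤ q + 1)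
    (hnot : v ∉ ((x, p) :: H).map Prod.fst) : Hist G R ((v, q) :: (x, p) :: H) := by
  refine ⟨?_, ?_, ?_⟩
  · intro a ha
    rcases List.mem_cons.1 ha with rfl | ha
    · exact hv
    · exact h.att a ha
  · rw [List.isChain_cons_cons]
    exact ⟨⟨hadj, h1, h2⟩, h.chain⟩
  · rw [List.map_cons]
    exact List.nodup_cons.2 ⟨hnot, h.nodup⟩

lemma last_att : ∀ (T : List (V × ℕ)) (w : V) (q : ℕ), w ∈ R q → (∀ a ∈ T, a.1 ∈ R a.2) →
    ∃ c, (w :: T.map Prod.fst).getLast? = some c ∧ c ∈ R (lastPos q T) := by
  intro T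
  induction T with
  | nil =>
    intro w q hw _
    exact ⟨w, rfl, hw⟩
  | cons a T ih =>
    intro w q _ hT
    obtain ⟨c, h1, h2⟩ := ih a.1 a.2 (hT a (by simp)) (fun e he => hT e (List.mem_cons_of_mem _ he))
    refine ⟨c, ?_, h2⟩
    simp only [List.map_cons]
    rw [List.getLast?_cons_cons]
    exact h1

lemma lastPos_le : ∀ (T : List (V × ℕ)) (x : V) (p : ℕ), ((x, p) :: T).IsChain (relT G) →
    lastPos p T ≤ p := by
  intro T
  induction T with
  | nil => simp [lastPos]
  | cons a T ih =>
    intro x p h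
    rw [List.isChain_cons_cons] at h
    have h1 := h.1.2.1
    have h2 := ih a.1 a.2 h.2
    simp only [lastPos]
    exact h2.trans h1

lemma chain_map_relT {T : List (V × ℕ)} (h : T.IsChain (relT G)) :
    (T.map Prod.fst).IsChain G.Adj := by
  rw [List.isChain_map]
  exact h.imp (fun _ _ hab => hab.1)

lemma chain_map_relH {T : List (V × ℕ)} (h : T.IsChain (relH G)) :
    (T.map Prod.fst).IsChain G.Adj := by
  rw [List.isChain_map]
  exact h.imp (fun _ _ hab => hab.1)

/-- Discrete crossing along a history. -/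
lemma crossing (base : ℕ) : ∀ (Y : List (V × ℕ)) (c a : V × ℕ), (c :: Y).IsChain (relH G) →
    (c :: Y).getLast? = some a → base + 1 ≤ a.2 → c.2 + 1 ≤ base + (Y.length + 1) →
    ∃ (Y1 : List (V × ℕ)) (d : V × ℕ) (Z : List (V × ℕ)), c :: Y = Y1 ++ d :: Z ∧
      (d.2 = base + (Z.length + 1) ∨ (Y1 ≠ [] ∧ d.2 = base + (Z.length + 1) + 1)) := by
  intro Y
  induction Y with
  | nil =>
    intro c a _ hl h1 h2
    have : c = a := by simpa using hl
    subst this
    simp only [List.length_nil] at h2
    omega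
  | cons c' Y ih =>
    intro c a hch hl h1 h2
    rw [List.isChain_cons_cons] at hch
    rw [List.getLast?_cons_cons] at hl
    simp only [List.length_cons] at h2
    obtain ⟨⟨-, h3, h4⟩, hch2⟩ := hch
    by_cases hcase : c'.2 + 1 ≤ base + (Y.length + 1)
    · obtain ⟨Y1, d, Z, hY, hopt⟩ := ih c' a hch2 hl h1 hcase
      refine ⟨c :: Y1, d, Z, by rw [hY]; rfl, ?_⟩
      rcases hopt with h | ⟨-, h⟩
      · exact Or.inl h
      · exact Or.inr ⟨by simp, h⟩
    · refine ⟨[c], c', Y, rfl, ?_⟩
      by_cases h5 : c'.2 = base + (Y.length + 1)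
      · exact Or.inl h5
      · exact Or.inr ⟨by simp, by omega⟩

/-- The closing argument common to all ring configurations. -/
lemma ring_core (L : Line G R D b) {Y T : List (V × ℕ)} {X : List V} {w : V} {qf : ℕ}
    {a c0 : V × ℕ}
    (hatt : ∀ e ∈ Y, e.1 ∈ R e.2) (hP : Y.IsChain (relH G))
    (hW : (Y.map Prod.fst ++ X).IsChain G.Adj) (hnd : (Y.map Prod.fst ++ X).Nodup)
    (hXD : ∀ y ∈ X, y ∈ D) (hlast : (Y.map Prod.fst ++ X).getLast? = some w) (hw : w ∈ R qf)
    (hTc : (w :: T.map Prod.fst).IsChain G.Adj) (hTn : (T.map Prod.fst).Nodup)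
    (hTa : ∀ e ∈ T, e.1 ∈ R e.2) (hTd : ∀ e ∈ T, e.1 ∉ Y.tail.map Prod.fst ++ X)
    (hTg : T.length + lastPos qf T = 1 + qf)
    (ha : Y.getLast? = some a) (hb1 : qf + X.length + 1 ≤ a.2)
    (hc0 : Y.head? = some c0) (hb2 : c0.2 + 1 ≤ qf + X.length + Y.length) : False := by
  obtain ⟨Y', rfl⟩ : ∃ Y', Y = c0 :: Y' := by
    cases Y with
    | nil => simp at hc0
    | cons e Y' =>
      have : e = c0 := by simpa using hc0
      exact ⟨Y', by rw [this]⟩
  simp only [List.length_cons] at hb2
  obtain ⟨Y1, d, Z, hY, hopt⟩ := crossing (qf + X.length) Y' c0 a hP ha hb1 (by omega)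
  rw [hY] at hW hnd hlast hatt
  simp only [List.map_append, List.map_cons, List.append_assoc, List.cons_append] at hW hnd hlast
  set W := d.1 :: (Z.map Prod.fst ++ X) with hWdef
  have hWch : W.IsChain G.Adj := (List.isChain_append.1 hW).2.1
  have hWnd : W.Nodup := (List.nodup_append.1 hnd).2.1
  have hWne : W ≠ [] := by simp [hWdef]
  have hWlast : W.getLast? = some w := by
    rw [List.getLast?_append] at hlast
    cases hW2 : W.getLast? with
    | none =>
      rw [List.getLast?_eq_none_iff] at hW2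
      exact absurd hW2 hWne
    | some z =>
      rw [hW2] at hlast
      simpa using hlast
  have hWD : ∀ y ∈ W, y ∈ D := by
    intro y hy
    rcases List.mem_cons.1 hy with rfl | hy
    · exact L.sub _ (hatt d (by simp))
    · rcases List.mem_append.1 hy with hy | hy
      · obtain ⟨e, he, rfl⟩ := List.mem_map.1 hy
        exact L.sub _ (hatt e (List.mem_append_right _ (List.mem_cons_of_mem _ he)))
      · exact hXD y hy
  have hdR : d.1 ∈ R d.2 := hatt d (by simp)
  have hWlen : W.length = Z.length + 1 + X.length := by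
    simp [hWdef]
    omega
  rcases hopt with hopt | ⟨hY1, hopt⟩
  · exact L.F1 W d.1 w d.2 qf hWch hWnd hWD (by simp [hWdef]) hWlast hdR hw (by omega)
  · -- second option: append the continuation
    obtain ⟨y0, Y1', rfl⟩ : ∃ y0 Y1', Y1 = y0 :: Y1' := by
      cases Y1 with
      | nil => exact absurd rfl hY1
      | cons y0 Y1' => exact ⟨y0, Y1', rfl⟩
    have hY' : Y' = Y1' ++ d :: Z := by
      have h0 := hY
      simp only [List.cons_append, List.cons.injEq] at h0
      exact h0.2
    obtain ⟨t, T', rfl⟩ : ∃ t T', T = t :: T' := by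
      cases T with
      | nil => simp [lastPos] at hTg
      | cons t T' => exact ⟨t, T', rfl⟩
    simp only [List.map_cons] at hTc hTn
    rw [List.isChain_cons_cons] at hTc
    obtain ⟨c, hc1, hc2⟩ := last_att (t :: T') w qf hw hTa
    have hTW : ∀ e ∈ t :: T', e.1 ∉ W := by
      intro e he hmem
      apply hTd e he
      simp only [List.tail_cons, hY', List.map_append, List.map_cons, List.append_assoc,
        List.cons_append]
      exact List.mem_append_right _ hmem
    refine L.F1 (W ++ t.1 :: T'.map Prod.fst) d.1 c d.2 (lastPos qf (t :: T')) ?_ ?_ ?_ ?_ ?_ hdR hc2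
      ?_
    · rw [List.isChain_append]
      refine ⟨hWch, hTc.2, ?_⟩
      intro x hx y hy
      rw [hWlast] at hx
      have hx' : x = w := by simpa using hx.symm
      have hy' : y = t.1 := by simpa using hy.symm
      rw [hx', hy']
      exact hTc.1
    · rw [List.nodup_append]
      refine ⟨hWnd, hTn, ?_⟩
      intro p hp q hq hpq
      subst hpq
      rcases List.mem_cons.1 hq with h | h
      · exact hTW t (by simp) (h ▸ hp)
      · obtain ⟨e, he, rfl⟩ := List.mem_map.1 h
        exact hTW e (List.mem_cons_of_mem _ he) hp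
    · intro y hy
      rcases List.mem_append.1 hy with hy | hy
      · exact hWD y hy
      · rcases List.mem_cons.1 hy with rfl | hy
        · exact L.sub _ (hTa t (by simp))
        · obtain ⟨e, he, rfl⟩ := List.mem_map.1 hy
          exact L.sub _ (hTa e (List.mem_cons_of_mem _ he))
    · simp [hWdef]
    · rw [List.getLast?_append]
      have h3 : (t.1 :: T'.map Prod.fst).getLast? = some c := by
        rw [List.map_cons, List.getLast?_cons_cons] at hc1
        exact hc1
      rw [h3]
      rfl
    · simp only [List.length_append, List.length_cons, List.length_map] at hTg hWlen ⊢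
      omega

lemma getLast?_cons_append_singleton {α : Type*} (x : α) (l : List α) (a : α) :
    (x :: (l ++ [a])).getLast? = some a := by
  have : x :: (l ++ [a]) = (x :: l) ++ [a] := rfl
  rw [this, List.getLast?_append]
  simp

lemma Hist.pos_ge' {x : V} {p : ℕ} {H : List (V × ℕ)} (h : Hist G R ((x, p) :: H)) :
    ∀ a ∈ (x, p) :: H, p ≤ a.2 := by
  intro a ha
  rcases List.mem_cons.1 ha with rfl | ha
  · exact le_rfl
  · exact h.pos_ge a ha

/-- A neighbour at the current level cannot be an upper vertex of the history. -/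
lemma ring_a (L : Line G R D b) {x : V} {p : ℕ} {H : List (V × ℕ)} (hH : Hist G R ((x, p) :: H))
    {a : V × ℕ} (ha : a ∈ H) (hap : p < a.2) (hadj : G.Adj x a.1) (hR : a.1 ∈ R p) : False := by
  obtain ⟨H1, H2, rfl⟩ := List.append_of_mem ha
  have hH' : Hist G R (((x, p) :: H1 ++ [a]) ++ H2) := by
    have : ((x, p) :: H1 ++ [a]) ++ H2 = (x, p) :: (H1 ++ a :: H2) := by simp
    rw [this]
    exact hH
  have hY := hH'.left
  have hxnot : x ∉ ((H1 ++ [a]).map Prod.fst) := by
    have := hY.nodup
    simp only [List.cons_append, List.map_cons] at this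
    exact (List.nodup_cons.1 this).1
  refine ring_core L (Y := (x, p) :: H1 ++ [a]) (X := []) (w := a.1) (qf := p) (T := [(x, p)])
    (a := a) (c0 := (x, p)) hY.att hY.chain ?_ ?_ (by simp) ?_ hR ?_ (by simp) ?_ ?_ ?_ ?_ hap
    (by simp) ?_
  · rw [List.append_nil]
    exact chain_map_relH hY.chain
  · rw [List.append_nil]
    exact hY.nodup
  · simp only [List.append_nil, List.cons_append, List.map_cons, List.map_append, List.map_nil]
    exact getLast?_cons_append_singleton _ _ _
  · simp only [List.map_cons, List.map_nil]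
    rw [List.isChain_cons_cons]
    exact ⟨hadj.symm, by simp⟩
  · intro e he
    have he' : e = (x, p) := by simpa using he
    subst he'
    exact hY.att _ (by simp)
  · intro e he
    have he' : e = (x, p) := by simpa using he
    subst he'
    simpa using hxnot
  · simp [lastPos]
  · exact getLast?_cons_append_singleton _ _ _
  · simp

/-- A blocker at the next level cannot be a vertex of the history. -/
lemma ring_b (L : Line G R D b) {x : V} {p' : ℕ} {H : List (V × ℕ)}
    (hH : Hist G R ((x, p' + 1) :: H)) {a : V × ℕ} (ha : a ∈ H) (hadj : G.Adj x a.1)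
    (hR : a.1 ∈ R p')
    (hcont : ∀ H1 : List (V × ℕ), Hist G R ((a.1, p') :: H1) → (∀ e ∈ H1, p' < e.2) →
      ∃ T, Ext G R ((a.1, p') :: H1) a.1 p' 1 T) : False := by
  have hpos := hH.pos_ge a ha
  obtain ⟨H1, H2, rfl⟩ := List.append_of_mem ha
  have hH' : Hist G R (((x, p' + 1) :: H1 ++ [a]) ++ H2) := by
    have : ((x, p' + 1) :: H1 ++ [a]) ++ H2 = (x, p' + 1) :: (H1 ++ a :: H2) := by simp
    rw [this]
    exact hH
  have hY := hH'.left
  have hH1 : Hist G R ((x, p' + 1) :: H1) := by
    have : (x, p' + 1) :: H1 ++ [a] = ((x, p' + 1) :: H1) ++ [a] := rfl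
    rw [this] at hY
    exact hY.left
  have hnot : a.1 ∉ ((x, p' + 1) :: H1).map Prod.fst := by
    have h0 := hY.nodup
    have : (((x, p' + 1) :: H1) ++ [a]).map Prod.fst
        = ((x, p' + 1) :: H1).map Prod.fst ++ [a.1] := by simp
    have h1 : ((x, p' + 1) :: H1 ++ [a]).map Prod.fst = ((x, p' + 1) :: H1).map Prod.fst ++ [a.1] :=
      this
    rw [h1, List.nodup_append] at h0
    intro hm
    exact h0.2.2 a.1 hm a.1 (by simp) rfl
  obtain ⟨T, hT⟩ := hcont ((x, p' + 1) :: H1)
    (hH1.cons hR hadj.symm (by omega) le_rfl hnot)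
    (by
      intro e he
      have := hH1.pos_ge' e he
      omega)
  refine ring_core L (Y := (x, p' + 1) :: H1 ++ [a]) (X := []) (w := a.1) (qf := p') (T := T)
    (a := a) (c0 := (x, p' + 1)) hY.att hY.chain ?_ ?_ (by simp) ?_ hR ?_ hT.nodup hT.att ?_ ?_ ?_ ?_
    (by simp) ?_
  · rw [List.append_nil]
    exact chain_map_relH hY.chain
  · rw [List.append_nil]
    exact hY.nodup
  · simp only [List.append_nil, List.cons_append, List.map_cons, List.map_append, List.map_nil]
    exact getLast?_cons_append_singleton _ _ _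
  · exact chain_map_relT hT.chain
  · intro e he hm
    apply hT.disj e he
    simp only [List.cons_append, List.tail_cons, List.append_nil, List.map_append, List.map_cons,
      List.map_nil, List.mem_append, List.mem_cons, List.not_mem_nil, or_false] at hm ⊢
    rcases hm with hm | hm
    · exact Or.inr (Or.inr hm)
    · exact Or.inl hm
  · exact hT.gain
  · exact getLast?_cons_append_singleton _ _ _
  · simpa using hpos
  · simp

/-- Pigeonhole for a finite set of naturals. -/
lemma exists_ge_of_card {s : Finset ℕ} {m : ℕ} (h : m + 1 ≤ s.card) : ∃ ν ∈ s, m ≤ ν := by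
  by_contra hcon
  push Not at hcon
  have hsub : s ⊆ range m := fun t ht => mem_range.2 (hcon t ht)
  have := card_le_card hsub
  rw [card_range] at this
  omega

/-- The basic choice at each step. -/
lemma step_choice {p k ρ : ℕ} {Vs : Finset V} {x : V} (hx : x ∈ Vs) (hk : IS G R p k x)
    (hρ : 1 ≤ ρ) (h : ρ + Vs.card ≤ k + 1) :
    (∃ v, IS G R p k v ∧ G.Adj x v ∧ v ∉ Vs) ∨
      (∃ p', p = p' + 1 ∧ ∃ z ∈ R p', G.Adj x z ∧ ρ ≤ colr G R p' z) := by
  by_contra hcon
  push Not at hcon
  obtain ⟨h1, h2⟩ := hcon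
  have hS := kset_Sk (G := G) (R := R p) (N := Blk G R p) k x (mem_Sk.2 hk)
  have hdeg : ((Sk G (R p) (Blk G R p) k).filter (G.Adj x)).card + 1 ≤ Vs.card := by
    have hsub : (Sk G (R p) (Blk G R p) k).filter (G.Adj x) ⊆ Vs.erase x := by
      intro w hw
      obtain ⟨hw1, hw2⟩ := mem_filter.1 hw
      exact mem_erase.2 ⟨hw2.ne', h1 w (mem_Sk.1 hw1) hw2⟩
    have h3 := card_le_card hsub
    rw [card_erase_of_mem hx] at h3
    have : 0 < Vs.card := card_pos.2 ⟨x, hx⟩
    omega
  have hn : ρ ≤ ((Blk G R p x).filter (· < k)).card := by omega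
  obtain ⟨ν, hν, hν2⟩ := exists_ge_of_card (s := (Blk G R p x).filter (· < k)) (m := ρ - 1)
    (by omega)
  have hν1 := (mem_filter.1 hν).1
  cases p with
  | zero => simp [Blk] at hν1
  | succ p' =>
    obtain ⟨z, hz, hadj, hz1, hz2⟩ := mem_blk.1 hν1
    have := h2 p' rfl z hz hadj
    omega

/-- The choice when one vertex must be avoided; costs one unit. -/
lemma step_choice' {p k ρ : ℕ} {Vs : Finset V} {x y : V} (hx : x ∈ Vs) (hk : IS G R p k x)
    (hρ : 1 ≤ ρ) (h : ρ + 1 + Vs.card ≤ k + 1)
    (hy : y ∈ R p → ∀ p', p = p' + 1 → y ∉ R p') :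
    (∃ v, IS G R p k v ∧ G.Adj x v ∧ v ∉ Vs ∧ v ≠ y) ∨
      (∃ p', p = p' + 1 ∧ ∃ z ∈ R p', G.Adj x z ∧ z ≠ y ∧ ρ ≤ colr G R p' z) := by
  by_contra hcon
  push Not at hcon
  obtain ⟨h1, h2⟩ := hcon
  have hS := kset_Sk (G := G) (R := R p) (N := Blk G R p) k x (mem_Sk.2 hk)
  by_cases hyR : y ∈ R p
  · have hdeg : ((Sk G (R p) (Blk G R p) k).filter (G.Adj x)).card ≤ Vs.card := by
      have hsub : (Sk G (R p) (Blk G R p) k).filter (G.Adj x) ⊆ insert y (Vs.erase x) := by
        intro w hw
        obtain ⟨hw1, hw2⟩ := mem_filter.1 hw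
        by_cases hwy : w = y
        · exact mem_insert.2 (Or.inl hwy)
        refine mem_insert_of_mem (mem_erase.2 ⟨hw2.ne', ?_⟩)
        by_contra hwV
        exact hwy (h1 w (mem_Sk.1 hw1) hw2 hwV)
      have h3 := (card_le_card hsub).trans (card_insert_le _ _)
      rw [card_erase_of_mem hx] at h3
      have : 0 < Vs.card := card_pos.2 ⟨x, hx⟩
      omega
    have hn : ρ ≤ ((Blk G R p x).filter (· < k)).card := by omega
    obtain ⟨ν, hν, hν2⟩ := exists_ge_of_card (s := (Blk G R p x).filter (· < k)) (m := ρ - 1)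
      (by omega)
    have hν1 := (mem_filter.1 hν).1
    cases p with
    | zero => simp [Blk] at hν1
    | succ p' =>
      obtain ⟨z, hz, hadj, hz1, hz2⟩ := mem_blk.1 hν1
      have hzy : z ≠ y := by
        rintro rfl
        exact hy hyR p' rfl hz
      have := h2 p' rfl z hz hadj hzy
      omega
  · have hdeg : ((Sk G (R p) (Blk G R p) k).filter (G.Adj x)).card + 1 ≤ Vs.card := by
      have hsub : (Sk G (R p) (Blk G R p) k).filter (G.Adj x) ⊆ Vs.erase x := by
        intro w hw
        obtain ⟨hw1, hw2⟩ := mem_filter.1 hw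
        refine mem_erase.2 ⟨hw2.ne', ?_⟩
        by_contra hwV
        have hwy : w ≠ y := by
          rintro rfl
          exact hyR (mem_Sk.1 hw1).mem
        exact hwy (h1 w (mem_Sk.1 hw1) hw2 hwV)
      have h3 := card_le_card hsub
      rw [card_erase_of_mem hx] at h3
      have : 0 < Vs.card := card_pos.2 ⟨x, hx⟩
      omega
    have hn : ρ + 1 ≤ ((Blk G R p x).filter (· < k)).card := by omega
    cases p with
    | zero =>
      simp [Blk] at hn
    | succ p' =>
      set ν0 := colr G R p' y - 1 with hν0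
      have hcard : ρ ≤ (((Blk G R (p' + 1) x).filter (· < k)).erase ν0).card := by
        have := pred_card_le_card_erase (s := (Blk G R (p' + 1) x).filter (· < k)) (a := ν0)
        omega
      obtain ⟨ν, hν, hν2⟩ := exists_ge_of_card
        (s := ((Blk G R (p' + 1) x).filter (· < k)).erase ν0) (m := ρ - 1) (by omega)
      obtain ⟨hν3, hν4⟩ := mem_erase.1 hν
      have hν1 := (mem_filter.1 hν4).1
      obtain ⟨z, hz, hadj, hz1, hz2⟩ := mem_blk.1 hν1
      have hzy : z ≠ y := by
        rintro rfl
        exact hν3 hz2.symm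
      have := h2 p' rfl z hz hadj hzy
      omega

/-- The main descent lemma. -/
theorem RC (L : Line G R D b) : ∀ N p ρ, p + ρ ≤ N → ∀ (k : ℕ) (H : List (V × ℕ)) (Vs : Finset V)
    (x : V), Hist G R ((x, p) :: H) → (∀ a ∈ (x, p) :: H, a.2 = p → a.1 ∈ Vs) →
    (∀ v ∈ Vs, IS G R p k v) → ρ + Vs.card ≤ k + 1 → ∃ T, Ext G R ((x, p) :: H) x p ρ T := by
  intro N
  induction N with
  | zero =>
    intro p ρ hN k H Vs x _ _ _ _
    have : ρ = 0 := by omega
    subst this
    exact ⟨[], Ext.nil _ _ _⟩
  | succ N IH =>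
    intro p ρ hN k H Vs x hH hVs hVk hcard
    rcases Nat.eq_zero_or_pos ρ with rfl | hρ
    · exact ⟨[], Ext.nil _ _ _⟩
    have hxV : x ∈ Vs := hVs (x, p) (by simp) rfl
    rcases step_choice hxV (hVk x hxV) hρ hcard with ⟨v, hv, hadj, hvV⟩ | ⟨p', rfl, z, hz, hadj, hle⟩
    · by_cases hvH : v ∈ ((x, p) :: H).map Prod.fst
      · exfalso
        obtain ⟨a, ha, rfl⟩ := List.mem_map.1 hvH
        rcases List.mem_cons.1 ha with rfl | ha'
        · exact hadj.ne rfl
        · have h1 := hH.pos_ge a ha'
          have h2 : a.2 ≠ p := fun h => hvV (hVs a ha h)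
          exact ring_a L hH ha' (by omega) hadj hv.mem
      · obtain ⟨ρ', rfl⟩ : ∃ ρ', ρ = ρ' + 1 := ⟨ρ - 1, by omega⟩
        have hnew := hH.cons hv.mem hadj.symm le_rfl (by omega) hvH
        obtain ⟨T, hT⟩ := IH p ρ' (by omega) k ((x, p) :: H) (insert v Vs) v hnew
          (by
            intro a ha hap
            rcases List.mem_cons.1 ha with rfl | ha
            · exact mem_insert_self _ _
            · exact mem_insert_of_mem (hVs a ha hap))
          (by
            intro w hw
            rcases mem_insert.1 hw with rfl | hw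
            · exact hv
            · exact hVk w hw)
          (by
            have := card_insert_le v Vs
            omega)
        exact ⟨_, Ext.same hadj hv.mem hvH hT⟩
    · have hzIS : IS G R p' ρ z := (colr_spec G R p' z hz).2.2.mono hle
      by_cases hzH : z ∈ ((x, p' + 1) :: H).map Prod.fst
      · exfalso
        obtain ⟨a, ha, rfl⟩ := List.mem_map.1 hzH
        rcases List.mem_cons.1 ha with rfl | ha'
        · exact hadj.ne rfl
        · refine ring_b L hH ha' hadj hz ?_
          intro H1 hH1 hH1pos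
          exact IH p' 1 (by omega) 1 H1 {a.1} a.1 hH1
            (by
              intro e he hep
              rcases List.mem_cons.1 he with rfl | he
              · exact mem_singleton_self _
              · have h1 := hH1pos e he
                omega)
            (by
              intro w hw
              rw [mem_singleton.1 hw]
              exact hzIS.mono hρ)
            (by simp)
      · have hnew := hH.cons hz hadj.symm (by omega) le_rfl hzH
        obtain ⟨T, hT⟩ := IH p' ρ (by omega) ρ ((x, p' + 1) :: H) {z} z hnew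
          (by
            intro a ha hap
            rcases List.mem_cons.1 ha with rfl | ha
            · exact mem_singleton_self _
            · have h1 := hH.pos_ge' a ha
              omega)
          (by
            intro w hw
            rw [mem_singleton.1 hw]
            exact hzIS)
          (by simp)
        exact ⟨_, Ext.down hadj hz hzH hT hρ⟩

end

end Vale.Agent.Lib.P048
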