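import Vale.Agent.Lib.P048.LemmaE

namespace Vale.Agent.Lib.P048

open Finset

variable {V : Type*} {G : SimpleGraph V} {b : ℕ} {u : ZMod b → V} {D : Finset V}

/-- A path with exactly `s` vertices outside the cycle, from a neighbour of `u q` to a neighbour of
`u (q + s)`, closes a cycle one longer than `u`. -/
lemma no_path (S : Setup G u D) {q : ZMod b} {s : ℕ} (hs1 : 1 ≤ s) (hs2 : s ≤ b) {W : List V}
    (hlen : W.length = s) (hch : W.IsChain G.Adj) (hnd : W.Nodup) (hD : ∀ z ∈ W, z ∈ D)
    (hhead : ∀ y ∈ W.head?, G.Adj (u q) y)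
    (hlast : ∀ y ∈ W.getLast?, G.Adj y (u (q + (s : ZMod b)))) : False := by
  have hb := S.hb
  have hWne : W ≠ [] := by
    intro h
    rw [h] at hlen
    simp at hlen
    omega
  have hcyc := surgery u S.inj S.adj q hs1 hs2 W hWne hch hnd
    (fun z hz i => S.disj z (hD z hz) i) hhead hlast (by omega)
  refine S.no _ hcyc ?_ ?_
  · simp [hlen]
    omega
  · intro x hx
    rcases vertices_surgery u hx with h | h
    · exact Or.inl h
    · exact Or.inr (hD x h)

/-- `y` is the head of a path with `n` vertices inside `R`. -/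
def Arm (G : SimpleGraph V) (R : Finset V) (y : V) (n : ℕ) : Prop :=
  ∃ T : List V, (y :: T).IsChain G.Adj ∧ (y :: T).Nodup ∧ (∀ z ∈ y :: T, z ∈ R) ∧ T.length + 1 = n

lemma Arm.take {R : Finset V} {y : V} {n j : ℕ} (h : Arm G R y n) (hj1 : 1 ≤ j) (hj : j ≤ n) :
    Arm G R y j := by
  obtain ⟨T, h1, h2, h3, h4⟩ := h
  obtain ⟨j', rfl⟩ : ∃ j', j = j' + 1 := ⟨j - 1, by omega⟩
  refine ⟨T.take j', ?_, ?_, ?_, ?_⟩
  · have := h1.take (j' + 1)
    simpa using this
  · have := h2.sublist (List.take_sublist (j' + 1) (y :: T))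
    simpa using this
  · intro z hz
    apply h3
    have : z ∈ (y :: T).take (j' + 1) := by simpa using hz
    exact List.mem_of_mem_take this
  · simp only [List.length_take]
    omega

/-- Heights: for every finite vertex set there is a function `h` such that every vertex is the head
of a path with `h y` vertices inside the set and adjacent vertices get different values. -/
lemma exists_height (G : SimpleGraph V) (R : Finset V) :
    ∃ h : V → ℕ, (∀ y ∈ R, Arm G R y (h y)) ∧ (∀ y ∈ R, ∀ y' ∈ R, G.Adj y y' → h y ≠ h y') := by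
  classical
  induction R using Finset.induction_on with
  | empty => exact ⟨fun _ => 0, by simp, by simp⟩
  | insert v R hv ih =>
    obtain ⟨h, h1, h2⟩ := ih
    set F := R.filter (G.Adj v) with hF
    set M := F.sup h with hM
    have hle : ∀ z ∈ F, h z ≤ M := fun z hz => Finset.le_sup (f := h) hz
    have hup : ∀ y, y ≠ v → Function.update h v (M + 1) y = h y := fun y hy =>
      Function.update_of_ne hy _ _
    have hvv : Function.update h v (M + 1) v = M + 1 := Function.update_self _ _ _
    have hne : ∀ y ∈ R, y ≠ v := fun y hy h => hv (h ▸ hy)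
    refine ⟨Function.update h v (M + 1), ?_, ?_⟩
    · intro y hy
      rcases Finset.mem_insert.1 hy with rfl | hyR
      · rw [hvv]
        rcases F.eq_empty_or_nonempty with hemp | hnon
        · refine ⟨[], by simp, by simp, by simp, ?_⟩
          have : M = 0 := by rw [hM, hemp]; simp
          simp [this]
        · obtain ⟨z, hz, hzM⟩ := Finset.exists_mem_eq_sup F hnon h
          have hzR : z ∈ R := (Finset.mem_filter.1 hz).1
          obtain ⟨T, t1, t2, t3, t4⟩ := h1 z hzR
          refine ⟨z :: T, ?_, ?_, ?_, ?_⟩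
          · rw [List.isChain_cons_cons]
            exact ⟨(Finset.mem_filter.1 hz).2, t1⟩
          · refine List.nodup_cons.2 ⟨?_, t2⟩
            intro hmem
            exact hv (t3 _ hmem)
          · intro x hx
            rcases List.mem_cons.1 hx with rfl | hx
            · exact Finset.mem_insert_self _ _
            · exact Finset.mem_insert_of_mem (t3 x hx)
          · simp only [List.length_cons]
            rw [hM, hzM]
            omega
      · rw [hup y (hne y hyR)]
        obtain ⟨T, t1, t2, t3, t4⟩ := h1 y hyR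
        exact ⟨T, t1, t2, fun z hz => Finset.mem_insert_of_mem (t3 z hz), t4⟩
    · intro y hy y' hy' hadj
      rcases Finset.mem_insert.1 hy with rfl | hyR
      · rcases Finset.mem_insert.1 hy' with rfl | hyR'
        · exact absurd hadj (G.irrefl)
        · rw [hvv, hup y' (hne y' hyR')]
          have := hle y' (Finset.mem_filter.2 ⟨hyR', hadj⟩)
          omega
      · rcases Finset.mem_insert.1 hy' with rfl | hyR'
        · rw [hvv, hup y (hne y hyR)]
          have := hle y (Finset.mem_filter.2 ⟨hyR, hadj.symm⟩)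
          omega
        · rw [hup y (hne y hyR), hup y' (hne y' hyR')]
          exact h2 y hyR y' hyR' hadj

/-- Two arms joined by an edge, of total size `i + j`. -/
lemma two_arms (S : Setup G u D) {R1 R2 : Finset V} {q1 q2 : ZMod b}
    (h1 : ∀ z ∈ R1, z ∈ RR G u D q1) (h2 : ∀ z ∈ R2, z ∈ RR G u D q2)
    (hdisj : ∀ z ∈ R1, z ∉ R2) {y y' : V} {i j : ℕ} (hy : Arm G R1 y i) (hy' : Arm G R2 y' j)
    (hadj : G.Adj y y') (hsb : i + j ≤ b) (hq : q2 = q1 + ((i + j : ℕ) : ZMod b)) : False := by
  obtain ⟨T, t1, t2, t3, t4⟩ := hy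
  obtain ⟨T', t1', t2', t3', t4'⟩ := hy'
  have hD1 : ∀ z ∈ y :: T, z ∈ D := fun z hz => (mem_RR.1 (h1 z (t3 z hz))).1
  have hD2 : ∀ z ∈ y' :: T', z ∈ D := fun z hz => (mem_RR.1 (h2 z (t3' z hz))).1
  refine no_path S (q := q1) (s := i + j) (W := (y :: T).reverse ++ (y' :: T')) (by omega) hsb ?_ ?_ ?_ ?_
    ?_ ?_
  · simp only [List.length_append, List.length_reverse, List.length_cons] at *
    omega
  · rw [List.isChain_append]
    refine ⟨chain_reverse t1, t1', ?_⟩
    intro x hx z hz
    rw [List.getLast?_reverse] at hx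
    simp only [List.head?_cons, Option.mem_def, Option.some.injEq] at hx hz
    subst hx
    subst hz
    exact hadj
  · rw [List.nodup_append]
    refine ⟨List.nodup_reverse.2 t2, t2', ?_⟩
    intro x hx z hz hxz
    subst hxz
    exact hdisj x (t3 x (List.mem_reverse.1 hx)) (t3' x hz)
  · intro z hz
    rcases List.mem_append.1 hz with h | h
    · exact hD1 z (List.mem_reverse.1 h)
    · exact hD2 z h
  · intro z hz
    have hne : (y :: T).reverse ≠ [] := by simp
    rw [List.head?_append_of_ne_nil _ hne] at hz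
    have : z ∈ (y :: T).reverse := List.mem_of_mem_head? hz
    exact (mem_RR.1 (h1 z (t3 z (List.mem_reverse.1 this)))).2
  · intro z hz
    rw [List.getLast?_append_of_ne_nil _ (by simp)] at hz
    have : z ∈ y' :: T' := List.mem_of_getLast? hz
    have h3 := (mem_RR.1 (h2 z (t3' z this))).2
    rw [hq] at h3
    exact h3.symm

/-- Two arms at different positions, with a suitable size `s`. -/
lemma pair_conflict (S : Setup G u D) {R1 R2 : Finset V} {q1 q2 : ZMod b}
    (h1 : ∀ z ∈ R1, z ∈ RR G u D q1) (h2 : ∀ z ∈ R2, z ∈ RR G u D q2)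
    (hdisj : ∀ z ∈ R1, z ∉ R2) {y y' : V} {h h' : ℕ} (hy : Arm G R1 y h) (hy' : Arm G R2 y' h')
    (hadj : G.Adj y y') {s : ℕ} (hs2 : 2 ≤ s) (hsh : s ≤ h + h') (hsb : s ≤ b)
    (hq : q2 = q1 + (s : ZMod b) ∨ q1 = q2 + (s : ZMod b)) : False := by
  have hh : 1 ≤ h := by
    obtain ⟨T, -, -, -, t4⟩ := hy
    omega
  have hh' : 1 ≤ h' := by
    obtain ⟨T, -, -, -, t4⟩ := hy'
    omega
  -- split `s`
  obtain ⟨i, j, hi1, hi, hj1, hj, hij⟩ : ∃ i j, 1 ≤ i ∧ i ≤ h ∧ 1 ≤ j ∧ j ≤ h' ∧ i + j = s := by
    by_cases hc : s - 1 ≤ h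
    · exact ⟨s - 1, 1, by omega, hc, le_refl _, hh', by omega⟩
    · exact ⟨h, s - h, hh, le_refl _, by omega, by omega, by omega⟩
  have a1 := hy.take hi1 hi
  have a2 := hy'.take hj1 hj
  rcases hq with hq | hq
  · refine two_arms S h1 h2 hdisj a1 a2 hadj (by omega) ?_
    rw [hij]
    exact hq
  · refine two_arms S h2 h1 (fun z hz hz' => hdisj z hz' hz) a2 a1 hadj.symm (by omega) ?_
    rw [add_comm j i, hij]
    exact hq


/-- A proper colouring by `ZMod b` of the relevant vertices gives the counting bound. The sets `A φ`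
of vertices from which a colour-increasing path with `s` vertices reaches `Rs (φ + s - 1)` telescope
around the cycle, and each `A (φ + 1) \ A φ` is independent. -/
theorem telescope_of_colouring [NeZero b] (S : Setup G u D) {a : ℕ}
    (hα : ∀ I : Finset V, I ⊆ D → G.IsIndepSet (I : Set V) → I.card ≤ a)
    (Rs : ZMod b → Finset V) (Ds : Finset V) (hRs : ∀ q, Rs q ⊆ RR G u D q)
    (hDs : ∀ q, Rs q ⊆ Ds) (hDsD : Ds ⊆ D)
    (c : V → ZMod b) (hc : ∀ y ∈ Ds, ∀ y' ∈ Ds, G.Adj y y' → c y ≠ c y') :
    ∑ q : ZMod b, (Rs q).card ≤ a * b := by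
  classical
  set Dir : V → V → Prop := fun x y => G.Adj x y ∧ (c x).val < (c y).val with hDir
  set Reach : ZMod b → V → Prop := fun φ y => ∃ T : List V, (y :: T).IsChain Dir ∧
      (∀ z ∈ T, z ∈ Ds) ∧ ∀ z ∈ (y :: T).getLast?, z ∈ Rs (φ + (T.length : ZMod b)) with hReach
  set A : ZMod b → Finset V := fun φ => Ds.filter (Reach φ) with hA
  have hfacts : ∀ (y : V) (T : List V), (y :: T).IsChain Dir →
      (y :: T).IsChain G.Adj ∧ (y :: T).Nodup ∧ T.length + 1 ≤ b := by
    intro y T h
    have h1 : (y :: T).IsChain G.Adj := h.imp (fun _ _ h => h.1)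
    have h2 : ((y :: T).map (fun z => (c z).val)).IsChain (· < ·) := by
      rw [List.isChain_map]
      exact h.imp (fun _ _ h => h.2)
    have h3 : ((y :: T).map (fun z => (c z).val)).Nodup := by
      have := List.isChain_iff_pairwise.1 h2
      exact this.imp (fun h => ne_of_lt h)
    have h4 : ((y :: T).map c).Nodup := by
      have e : (y :: T).map (fun z => (c z).val) = ((y :: T).map c).map ZMod.val := by simp
      rw [e] at h3
      exact List.Nodup.of_map _ h3
    refine ⟨h1, List.Nodup.of_map _ h4, ?_⟩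
    have := h4.length_le_card
    rw [ZMod.card] at this
    simpa using this
  have hsub : ∀ φ, Rs φ ⊆ A φ \ A (φ + 1) := by
    intro φ y hy
    rw [Finset.mem_sdiff]
    refine ⟨Finset.mem_filter.2 ⟨hDs φ hy, [], by simp, by simp, ?_⟩, ?_⟩
    · intro z hz
      have hzy : z = y := by simpa using hz.symm
      subst hzy
      simpa using hy
    · intro hmem
      obtain ⟨T, t1, t2, t3⟩ := (Finset.mem_filter.1 hmem).2
      obtain ⟨c1, c2, c3⟩ := hfacts y T t1
      refine no_path S (q := φ) (s := T.length + 1) (by omega) c3 (W := y :: T) (by simp) c1 c2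
        ?_ ?_ ?_
      · intro z hz
        rcases List.mem_cons.1 hz with rfl | hz
        · exact hDsD (hDs φ hy)
        · exact hDsD (t2 z hz)
      · intro z hz
        have hzy : z = y := by simpa using hz.symm
        subst hzy
        exact (mem_RR.1 (hRs φ hy)).2
      · intro z hz
        have h1 := t3 z hz
        have h2 := (mem_RR.1 (hRs _ h1)).2
        have e : φ + 1 + (T.length : ZMod b) = φ + ((T.length + 1 : ℕ) : ZMod b) := by
          push_cast
          ring
        rw [e] at h2
        exact h2.symm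
  have hstep : ∀ (φ : ZMod b) (x x' : V), x ∈ Ds → G.Adj x' x → (c x').val < (c x).val →
      Reach (φ + 1) x → Reach φ x' := by
    rintro φ x x' hx hadj hlt ⟨T, t1, t2, t3⟩
    refine ⟨x :: T, ?_, ?_, ?_⟩
    · rw [List.isChain_cons_cons]
      exact ⟨⟨hadj, hlt⟩, t1⟩
    · intro z hz
      rcases List.mem_cons.1 hz with rfl | hz
      · exact hx
      · exact t2 z hz
    · intro z hz
      rw [List.getLast?_cons_of_ne_nil (by simp)] at hz
      have h1 := t3 z hz
      have e : φ + 1 + (T.length : ZMod b) = φ + (((x :: T).length : ℕ) : ZMod b) := by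
        simp only [List.length_cons]
        push_cast
        ring
      rw [e] at h1
      exact h1
  have hcard : ∀ φ, (A (φ + 1) \ A φ).card ≤ a := by
    intro φ
    apply hα
    · intro y hy
      exact hDsD (Finset.mem_filter.1 (Finset.mem_sdiff.1 hy).1).1
    · intro x hx x' hx' _ hadj
      have hx1 := Finset.mem_sdiff.1 (Finset.mem_coe.1 hx)
      have hx2 := Finset.mem_sdiff.1 (Finset.mem_coe.1 hx')
      have hxD := (Finset.mem_filter.1 hx1.1).1
      have hxD' := (Finset.mem_filter.1 hx2.1).1
      have hcne := hc x hxD x' hxD' hadj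
      have hval : (c x).val ≠ (c x').val := fun h => hcne (ZMod.val_injective b h)
      rcases lt_or_gt_of_ne hval with hlt | hlt
      · exact hx1.2 (Finset.mem_filter.2 ⟨hxD, hstep φ x' x hxD' hadj hlt
          (Finset.mem_filter.1 hx2.1).2⟩)
      · exact hx2.2 (Finset.mem_filter.2 ⟨hxD', hstep φ x x' hxD hadj.symm hlt
          (Finset.mem_filter.1 hx1.1).2⟩)
  have hsum : ∑ φ, (A φ \ A (φ + 1)).card = ∑ φ, (A (φ + 1) \ A φ).card := by
    have h1 : ∀ φ, (A φ \ A (φ + 1)).card + (A (φ + 1)).card
        = (A (φ + 1) \ A φ).card + (A φ).card := by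
      intro φ
      have e1 := Finset.card_sdiff_add_card (A φ) (A (φ + 1))
      have e2 := Finset.card_sdiff_add_card (A (φ + 1)) (A φ)
      rw [Finset.union_comm] at e2
      omega
    have h2 : ∑ φ, (A (φ + 1)).card = ∑ φ, (A φ).card :=
      Fintype.sum_equiv (Equiv.addRight (1 : ZMod b)) _ _ (fun φ => rfl)
    have h3 : ∑ φ, ((A φ \ A (φ + 1)).card + (A (φ + 1)).card)
        = ∑ φ, ((A (φ + 1) \ A φ).card + (A φ).card) :=
      Finset.sum_congr rfl (fun φ _ => h1 φ)
    rw [Finset.sum_add_distrib, Finset.sum_add_distrib, h2] at h3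
    omega
  calc ∑ q, (Rs q).card ≤ ∑ φ, (A φ \ A (φ + 1)).card :=
        Finset.sum_le_sum (fun φ _ => Finset.card_le_card (hsub φ))
    _ = ∑ φ, (A (φ + 1) \ A φ).card := hsum
    _ ≤ ∑ _φ : ZMod b, a := Finset.sum_le_sum (fun φ _ => hcard φ)
    _ = a * b := by
        rw [Finset.sum_const, Finset.card_univ, ZMod.card]
        simp [mul_comm]

/-- Choice of the path size for two arms going towards each other. -/
lemma exists_size (hb : 3 ≤ b) {q1 q2 : ZMod b} {τ : ℕ} (h2 : 2 ≤ τ) (hτ : τ + 2 ≤ 2 * b)
    (hq : q2 = q1 + (τ : ZMod b)) :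
    ∃ s : ℕ, 2 ≤ s ∧ s ≤ τ ∧ s ≤ b ∧ (q2 = q1 + (s : ZMod b) ∨ q1 = q2 + (s : ZMod b)) := by
  by_cases hc : τ ≤ b
  · exact ⟨τ, h2, le_refl _, hc, Or.inl hq⟩
  · obtain ⟨t, rfl⟩ : ∃ t, τ = b + t := ⟨τ - b, by omega⟩
    have e : ((b + t : ℕ) : ZMod b) = (t : ZMod b) := by
      push_cast
      simp
    rw [e] at hq
    by_cases ht : 2 ≤ t
    · exact ⟨t, ht, by omega, by omega, Or.inl hq⟩
    · have ht1 : t = 1 := by omega
      subst ht1
      refine ⟨b - 1, by omega, by omega, by omega, Or.inr ?_⟩
      have e2 : ((b - 1 : ℕ) : ZMod b) = -1 := by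
        have : ((b - 1 + 1 : ℕ) : ZMod b) = 0 := by
          rw [show b - 1 + 1 = b by omega]
          exact ZMod.natCast_self b
        push_cast at this
        linear_combination this
      rw [e2, hq]
      push_cast
      ring

/-- The new counting lemma. If the directions `ε` alternate along consecutive nonempty positions,
then the incidences counted by `Rs` number at most `a * b`. -/
theorem telescope [NeZero b] (S : Setup G u D) {a : ℕ}
    (hα : ∀ I : Finset V, I ⊆ D → G.IsIndepSet (I : Set V) → I.card ≤ a)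
    (Rs : ZMod b → Finset V) (hRs : ∀ q, Rs q ⊆ RR G u D q)
    (ε : ZMod b → Bool) (hε : ∀ q, (Rs q).Nonempty → (Rs (q + 1)).Nonempty → ε q ≠ ε (q + 1)) :
    ∑ q : ZMod b, (Rs q).card ≤ a * b := by
  classical
  have hb := S.hb
  set Ds := (Finset.univ : Finset (ZMod b)).biUnion Rs with hDsdef
  have hDs : ∀ q, Rs q ⊆ Ds := fun q => Finset.subset_biUnion_of_mem Rs (Finset.mem_univ q)
  have hDsD : Ds ⊆ D := by
    intro y hy
    obtain ⟨q, -, hq⟩ := Finset.mem_biUnion.1 hy
    exact (mem_RR.1 (hRs q hq)).1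
  have hex : ∀ y, ∃ q, y ∈ Ds → y ∈ Rs q := by
    intro y
    by_cases h : y ∈ Ds
    · obtain ⟨q, -, hq⟩ := Finset.mem_biUnion.1 h
      exact ⟨q, fun _ => hq⟩
    · exact ⟨0, fun h' => absurd h' h⟩
  choose p hp using hex
  set R' : ZMod b → Finset V := fun q => Ds.filter (fun y => p y = q) with hR'
  have hR'RR : ∀ q, ∀ z ∈ R' q, z ∈ RR G u D q := by
    intro q z hz
    obtain ⟨h1, h2⟩ := Finset.mem_filter.1 hz
    have h3 := hp z h1
    rw [h2] at h3
    exact hRs q h3
  have hR'disj : ∀ q q', q ≠ q' → ∀ z ∈ R' q, z ∉ R' q' := by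
    intro q q' hne z hz hz'
    exact hne ((Finset.mem_filter.1 hz).2.symm.trans (Finset.mem_filter.1 hz').2)
  choose hh hh1 hh2 using fun q => exists_height G (R' q)
  set H : V → ℕ := fun y => hh (p y) y with hH
  have hmem : ∀ y ∈ Ds, y ∈ R' (p y) := fun y hy => Finset.mem_filter.2 ⟨hy, rfl⟩
  have harm : ∀ y ∈ Ds, Arm G (R' (p y)) y (H y) := fun y hy => hh1 (p y) y (hmem y hy)
  have hHpos : ∀ y ∈ Ds, 1 ≤ H y := by
    intro y hy
    obtain ⟨T, -, -, -, t4⟩ := harm y hy
    omega
  have hHlt : ∀ y ∈ Ds, H y + 1 ≤ b := by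
    intro y hy
    obtain ⟨T, t1, t2, t3, t4⟩ := harm y hy
    have := path_len S t1 t2 (fun z hz => hR'RR _ z (t3 z hz))
    simp only [List.length_cons] at this
    omega
  have hsame : ∀ y ∈ Ds, ∀ y' ∈ Ds, G.Adj y y' → p y ≠ p y' → ε (p y) = ε (p y') → H y' < H y →
      (p y' = p y + ((H y - H y' : ℕ) : ZMod b) ∨ p y = p y' + ((H y - H y' : ℕ) : ZMod b)) →
      False := by
    intro y hy y' hy' hadj hne heq hlt hq
    have h1 := hHlt y hy
    have h2 := hHlt y' hy'
    have h3 := hHpos y' hy'
    by_cases ht : H y - H y' = 1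
    · rw [ht] at hq
      simp only [Nat.cast_one] at hq
      rcases hq with hq | hq
      · refine hε (p y) ⟨y, hp y hy⟩ ⟨y', ?_⟩ (by rw [← hq]; exact heq)
        rw [← hq]
        exact hp y' hy'
      · refine hε (p y') ⟨y', hp y' hy'⟩ ⟨y, ?_⟩ (by rw [← hq]; exact heq.symm)
        rw [← hq]
        exact hp y hy
    · exact pair_conflict S (hR'RR _) (hR'RR _) (hR'disj _ _ hne) (harm y hy) (harm y' hy') hadj
        (s := H y - H y') (by omega) (by omega) (by omega) hq
  have hopp : ∀ y ∈ Ds, ∀ y' ∈ Ds, G.Adj y y' → p y ≠ p y' →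
      p y' = p y + ((H y + H y' : ℕ) : ZMod b) → False := by
    intro y hy y' hy' hadj hne hq
    have h1 := hHlt y hy
    have h2 := hHlt y' hy'
    have h3 := hHpos y hy
    have h4 := hHpos y' hy'
    obtain ⟨s, s1, s2, s3, s4⟩ := exists_size hb (τ := H y + H y') (by omega) (by omega) hq
    exact pair_conflict S (hR'RR _) (hR'RR _) (hR'disj _ _ hne) (harm y hy) (harm y' hy') hadj
      s1 s2 s3 s4
  set c : V → ZMod b := fun y => if ε (p y) = true then p y + (H y : ZMod b) else p y - (H y : ZMod b)
    with hc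
  refine telescope_of_colouring S hα Rs Ds hRs hDs hDsD c ?_
  intro y hy y' hy' hadj hcc
  have hcc' : (if ε (p y) = true then p y + (H y : ZMod b) else p y - (H y : ZMod b))
      = (if ε (p y') = true then p y' + (H y' : ZMod b) else p y' - (H y' : ZMod b)) := hcc
  by_cases hqq : p y = p y'
  · -- same position
    have e1 : ε (p y) = ε (p y') := by rw [hqq]
    have hcast : (H y : ZMod b) = (H y' : ZMod b) := by
      by_cases h1 : ε (p y) = true
      · have h2 : ε (p y') = true := by rw [← e1]; exact h1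
        rw [if_pos h1, if_pos h2, hqq] at hcc'
        exact add_left_cancel hcc'
      · have h2 : ¬ ε (p y') = true := by rw [← e1]; exact h1
        rw [if_neg h1, if_neg h2, hqq] at hcc'
        exact neg_injective (by simpa [sub_eq_add_neg] using hcc')
    have hval := natCast_inj_of_lt (b := b) (by have := hHlt y hy; omega)
      (by have := hHlt y' hy'; omega) hcast
    have hy2 : y' ∈ R' (p y) := by
      rw [hqq]
      exact hmem y' hy'
    refine hh2 (p y) y (hmem y hy) y' hy2 hadj ?_
    have e2 : hh (p y') y' = H y' := rfl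
    have e3 : hh (p y) y = H y := rfl
    rw [e3, hval, ← e2, hqq]
  · -- different positions
    have hhne : H y ≠ H y' ∨ ε (p y) ≠ ε (p y') := by
      by_contra hcon
      push Not at hcon
      obtain ⟨h1, h2⟩ := hcon
      apply hqq
      by_cases h3 : ε (p y) = true
      · have h4 : ε (p y') = true := by rw [← h2]; exact h3
        rw [if_pos h3, if_pos h4, h1] at hcc'
        exact add_right_cancel hcc'
      · have h4 : ¬ ε (p y') = true := by rw [← h2]; exact h3
        rw [if_neg h3, if_neg h4, h1] at hcc'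
        exact sub_left_injective hcc'
    have hcasts : ∀ m n : ℕ, n < m → (m : ZMod b) = (n : ZMod b) + ((m - n : ℕ) : ZMod b) := by
      intro m n hlt
      rw [← Nat.cast_add]
      congr 1
      omega
    by_cases h1 : ε (p y) = true <;> by_cases h2 : ε (p y') = true
    · -- both forward
      rw [if_pos h1, if_pos h2] at hcc'
      have heq : ε (p y) = ε (p y') := by rw [h1, h2]
      rcases lt_trichotomy (H y) (H y') with hlt | he | hlt
      · refine hsame y' hy' y hy hadj.symm (Ne.symm hqq) heq.symm hlt (Or.inl ?_)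
        have := hcasts _ _ hlt
        rw [this] at hcc'
        linear_combination hcc'
      · rcases hhne with h | h
        · exact h he
        · exact h heq
      · refine hsame y hy y' hy' hadj hqq heq hlt (Or.inl ?_)
        have := hcasts _ _ hlt
        rw [this] at hcc'
        linear_combination -hcc'
    · -- forward, backward
      rw [if_pos h1, if_neg h2] at hcc'
      refine hopp y hy y' hy' hadj hqq ?_
      push_cast
      linear_combination -hcc'
    · -- backward, forward
      rw [if_neg h1, if_pos h2] at hcc'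
      refine hopp y' hy' y hy hadj.symm (Ne.symm hqq) ?_
      push_cast
      linear_combination hcc'
    · -- both backward
      rw [if_neg h1, if_neg h2] at hcc'
      have heq : ε (p y) = ε (p y') := by
        simp only [Bool.not_eq_true] at h1 h2
        rw [h1, h2]
      rcases lt_trichotomy (H y) (H y') with hlt | he | hlt
      · refine hsame y' hy' y hy hadj.symm (Ne.symm hqq) heq.symm hlt (Or.inr ?_)
        have := hcasts _ _ hlt
        rw [this] at hcc'
        linear_combination -hcc'
      · rcases hhne with h | h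
        · exact h he
        · exact h heq
      · refine hsame y hy y' hy' hadj hqq heq hlt (Or.inr ?_)
        have := hcasts _ _ hlt
        rw [this] at hcc'
        linear_combination hcc'

end Vale.Agent.Lib.P048
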