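import Vale.Agent.Lib.P048.Cover

namespace Vale.Agent.Lib.P048

open Finset

variable {V : Type*}

/-- `L` has at most two vertices, or its last vertex is adjacent to its first. -/
def Closed (G : SimpleGraph V) (L : List V) : Prop :=
  L.length ≤ 2 ∨ ∀ x ∈ L.getLast?, ∀ y ∈ L.head?, G.Adj x y

/-- `y` represents the path `L` at level `t`. -/
def RepL (G : SimpleGraph V) (step : ℕ) (L : List V) (t : ℕ) (y : V) : Prop :=
  (Closed G L ∧ step * t + 1 ≤ L.length ∧ L.head? = some y) ∨
  (¬ Closed G L ∧ 2 * step * t + 1 ≤ L.length ∧ (L.head? = some y ∨ L.getLast? = some y))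

lemma RepL.mem {G : SimpleGraph V} {step : ℕ} {L : List V} {t : ℕ} {y : V}
    (h : RepL G step L t y) : y ∈ L := by
  have h1 : L.head? = some y → y ∈ L := fun h => List.mem_of_mem_head? h
  have h2 : L.getLast? = some y → y ∈ L := fun h => List.mem_of_getLast? h
  rcases h with ⟨-, -, h⟩ | ⟨-, -, h | h⟩
  · exact h1 h
  · exact h1 h
  · exact h2 h

lemma RepL.ends {G : SimpleGraph V} {step : ℕ} {L : List V} {t : ℕ} {y : V}
    (h : RepL G step L t y) : L.head? = some y ∨ L.getLast? = some y := by
  rcases h with ⟨-, -, h⟩ | ⟨-, -, h⟩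
  · exact Or.inl h
  · exact h

/-- A ceiling helper. -/
lemma exists_ceil (c n : ℕ) (hc : 1 ≤ c) :
    ∃ K, K ≤ n ∧ n ≤ c * K ∧ ∀ t, t < K → c * t + 1 ≤ n := by
  refine ⟨(n + c - 1) / c, ?_, ?_, ?_⟩
  · rcases n with _ | n
    · apply Nat.le_of_eq
      apply Nat.div_eq_of_lt
      omega
    · apply Nat.div_le_of_le_mul
      obtain ⟨c', rfl⟩ : ∃ c', c = c' + 1 := ⟨c - 1, by omega⟩
      have : n + 1 + (c' + 1) - 1 = n + c' + 1 := by omega
      rw [this]
      nlinarith [Nat.zero_le (c' * n)]
  · have h1 := Nat.div_add_mod (n + c - 1) c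
    have h2 := Nat.mod_lt (n + c - 1) (show 0 < c by omega)
    omega
  · intro t ht
    have h1 := Nat.div_add_mod (n + c - 1) c
    have h3 : c * (t + 1) ≤ c * ((n + c - 1) / c) := Nat.mul_le_mul_left c ht
    have h4 : c * (t + 1) = c * t + c := by ring
    have h5 := Nat.mod_lt (n + c - 1) (show 0 < c by omega)
    omega

section count
variable [DecidableEq V]
open Classical in
/-- The representatives of one path at level `t`. -/
noncomputable def RepOf (G : SimpleGraph V) (step : ℕ) (L : List V) (t : ℕ) : Finset V :=
  L.toFinset.filter (RepL G step L t)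

lemma count_L (G : SimpleGraph V) {step : ℕ} (hstep : 1 ≤ step) {L : List V} (hne : L ≠ [])
    (hnd : L.Nodup) {B : ℕ} (hB : L.length ≤ B) :
    L.length ≤ step * ∑ t ∈ range B, (RepOf G step L t).card := by
  classical
  obtain ⟨x, hx⟩ : ∃ x, L.head? = some x := by
    cases L with
    | nil => exact absurd rfl hne
    | cons a l => exact ⟨a, rfl⟩
  by_cases hcl : Closed G L
  · obtain ⟨K, hK1, hK2, hK3⟩ := exists_ceil step L.length hstep
    have hsub : range K ⊆ range B := by
      intro t ht
      simp only [Finset.mem_range] at ht ⊢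
      omega
    have h1 : K ≤ ∑ t ∈ range B, (RepOf G step L t).card := by
      calc K = ∑ t ∈ range K, 1 := by simp
        _ ≤ ∑ t ∈ range K, (RepOf G step L t).card := by
            apply Finset.sum_le_sum
            intro t ht
            have ht' := Finset.mem_range.1 ht
            apply Finset.card_pos.2
            refine ⟨x, ?_⟩
            simp only [RepOf, Finset.mem_filter, List.mem_toFinset]
            exact ⟨List.mem_of_mem_head? hx, Or.inl ⟨hcl, hK3 t ht', hx⟩⟩
        _ ≤ _ := Finset.sum_le_sum_of_subset hsub
    calc L.length ≤ step * K := hK2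
      _ ≤ _ := Nat.mul_le_mul_left _ h1
  · obtain ⟨z, hz⟩ : ∃ z, L.getLast? = some z := by
      cases hL : L.getLast? with
      | none =>
        rw [List.getLast?_eq_none_iff] at hL
        exact absurd hL hne
      | some z => exact ⟨z, rfl⟩
    have hlen : 2 < L.length := by
      by_contra h
      exact hcl (Or.inl (by omega))
    have hxz : x ≠ z := by
      rintro rfl
      -- head and last of a nodup list of length > 2 differ
      cases L with
      | nil => exact hne rfl
      | cons a l =>
        have ha : a = x := by simpa using hx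
        subst ha
        have hl : l ≠ [] := by
          rintro rfl
          simp at hlen
        have : l.getLast? = some a := by
          rw [List.getLast?_cons_of_ne_nil hl] at hz
          exact hz
        have h2 : a ∈ l := List.mem_of_getLast? this
        exact (List.nodup_cons.1 hnd).1 h2
    obtain ⟨K, hK1, hK2, hK3⟩ := exists_ceil (2 * step) L.length (by omega)
    have hsub : range K ⊆ range B := by
      intro t ht
      simp only [Finset.mem_range] at ht ⊢
      omega
    have h1 : K * 2 ≤ ∑ t ∈ range B, (RepOf G step L t).card := by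
      calc K * 2 = ∑ t ∈ range K, 2 := by simp
        _ ≤ ∑ t ∈ range K, (RepOf G step L t).card := by
            apply Finset.sum_le_sum
            intro t ht
            have ht' := Finset.mem_range.1 ht
            have hsub2 : ({x, z} : Finset V) ⊆ RepOf G step L t := by
              intro w hw
              simp only [Finset.mem_insert, Finset.mem_singleton] at hw
              simp only [RepOf, Finset.mem_filter, List.mem_toFinset]
              rcases hw with rfl | rfl
              · exact ⟨List.mem_of_mem_head? hx, Or.inr ⟨hcl, hK3 t ht', Or.inl hx⟩⟩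
              · exact ⟨List.mem_of_getLast? hz, Or.inr ⟨hcl, hK3 t ht', Or.inr hz⟩⟩
            calc 2 = ({x, z} : Finset V).card := (Finset.card_pair hxz).symm
              _ ≤ _ := Finset.card_le_card hsub2
        _ ≤ _ := Finset.sum_le_sum_of_subset hsub
    calc L.length ≤ 2 * step * K := hK2
      _ = step * (K * 2) := by ring
      _ ≤ _ := Nat.mul_le_mul_left _ h1

end count

/-- The data of a cycle `u` and an outside vertex set `D`, with no cycle one longer on these vertices. -/
structure Setup (G : SimpleGraph V) {b : ℕ} (u : ZMod b → V) (D : Finset V) : Prop where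
  hb : 3 ≤ b
  inj : Function.Injective u
  adj : ∀ i, G.Adj (u i) (u (i + 1))
  disj : ∀ y ∈ D, ∀ i, y ≠ u i
  no : ∀ l, IsCyc G l → l.length = b + 1 → (∀ x ∈ l, (∃ i, x = u i) ∨ x ∈ D) → False

open Classical in
/-- Neighbours of `u q` inside `D`. -/
noncomputable def RR (G : SimpleGraph V) {b : ℕ} (u : ZMod b → V) (D : Finset V) (q : ZMod b) :
    Finset V := D.filter (fun y => G.Adj (u q) y)

lemma mem_RR {G : SimpleGraph V} {b : ℕ} {u : ZMod b → V} {D : Finset V} {q : ZMod b} {y : V} :
    y ∈ RR G u D q ↔ y ∈ D ∧ G.Adj (u q) y := by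
  classical
  simp [RR]

section
variable {G : SimpleGraph V} {b : ℕ} {u : ZMod b → V} {D : Finset V}

/-- A path inside `N(u_q)` has fewer than `b` vertices. -/
lemma path_len (S : Setup G u D) {q : ZMod b} {L : List V} (hch : L.IsChain G.Adj) (hnd : L.Nodup)
    (hsub : ∀ y ∈ L, y ∈ RR G u D q) : L.length + 1 ≤ b := by
  by_contra hcon
  have hb := S.hb
  have hlen : b ≤ L.length := by omega
  set W := L.take b with hW
  have hWlen : W.length = b := by simp [hW, hlen]
  have hWsub : ∀ y ∈ W, y ∈ RR G u D q := fun y hy => hsub y (List.mem_of_mem_take hy)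
  have hWch : W.IsChain G.Adj := hch.take b
  have hWnd : W.Nodup := hnd.sublist (List.take_sublist _ _)
  have hWne : W ≠ [] := by
    intro h
    rw [h] at hWlen
    simp at hWlen
    omega
  obtain ⟨z, zs, hzs⟩ := List.exists_cons_of_ne_nil hWne
  refine S.no (u q :: W) ⟨?_, ?_, ?_, ?_⟩ (by simp [hWlen]) ?_
  · simp [hWlen]
    omega
  · refine List.nodup_cons.2 ⟨?_, hWnd⟩
    intro h
    exact S.disj _ (mem_RR.1 (hWsub _ h)).1 q rfl
  · rw [hzs, List.isChain_cons_cons]
    refine ⟨?_, by rw [← hzs]; exact hWch⟩
    exact (mem_RR.1 (hWsub z (by rw [hzs]; simp))).2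
  · intro x hx y hy
    have hy' : y = u q := by simpa using hy.symm
    rw [List.getLast?_cons_of_ne_nil hWne] at hx
    have hxW : x ∈ W := List.mem_of_getLast? hx
    rw [hy']
    exact (mem_RR.1 (hWsub x hxW)).2.symm
  · intro x hx
    rcases List.mem_cons.1 hx with rfl | h
    · exact Or.inl ⟨q, rfl⟩
    · exact Or.inr (mem_RR.1 (hWsub x h)).1

/-- Conflict between representatives at different levels. -/
lemma conflict (S : Setup G u D) {step : ℕ}
    (hstep : step = 2 ∨ (step = 1 ∧
      ∀ l, IsCyc G l → l.length = b + 2 → (∀ x ∈ l, (∃ i, x = u i) ∨ x ∈ D) → False))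
    {q q' : ZMod b} {t t' : ℕ} (ht : t < t') (hq : q' = q + ((step * (t' - t) : ℕ) : ZMod b))
    {y y' : V} (hy : y ∈ RR G u D q) {L' : List V} (hch : L'.IsChain G.Adj) (hnd : L'.Nodup)
    (hsub : ∀ z ∈ L', z ∈ RR G u D q') (hrep : RepL G step L' t' y') :
    y ≠ y' ∧ ¬ G.Adj y y' := by
  classical
  have hb := S.hb
  have hstep1 : 1 ≤ step := by rcases hstep with rfl | ⟨rfl, -⟩ <;> omega
  set s := step * (t' - t) with hs
  have hs1 : 1 ≤ s := Nat.mul_pos (by omega) (by omega)
  have hst : s ≤ step * t' := Nat.mul_le_mul_left _ (by omega)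
  have hlenb : L'.length + 1 ≤ b := path_len S hch hnd hsub
  have hlen2 : step * t' + 1 ≤ L'.length := by
    rcases hrep with ⟨-, h, -⟩ | ⟨-, h, -⟩
    · exact h
    · nlinarith
  have hsb : s + 2 ≤ b := by omega
  have hsub_D : ∀ z ∈ L', z ∈ D := fun z hz => (mem_RR.1 (hsub z hz)).1
  -- step A : `y` is not on the path
  have hA : y ∉ L' := by
    intro hmem
    obtain ⟨W, hWlen, hWh, hWch, hWnd, hWsub⟩ :
        ∃ W : List V, W.length = s ∧ W.head? = some y ∧ W.IsChain G.Adj ∧ W.Nodup ∧
          ∀ z ∈ W, z ∈ L' := by
      by_cases hs1' : s = 1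
      · apply walk_open hch hnd hmem hs1
        have : 0 < L'.length := List.length_pos_of_mem hmem
        omega
      rcases hrep with ⟨hcl, h, -⟩ | ⟨-, h, -⟩
      · have hs2 : 2 ≤ s := by omega
        apply walk_closed hch hnd ?_ hmem hs1 (by omega)
        rcases hcl with hcl | hcl
        · omega
        · exact hcl
      · apply walk_open hch hnd hmem hs1
        nlinarith
    have hWne : W ≠ [] := by
      intro h
      rw [h] at hWlen
      simp at hWlen
      omega
    have hcyc := surgery u S.inj S.adj q hs1 (by omega) W hWne hWch hWnd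
      (fun z hz i => S.disj z (hsub_D z (hWsub z hz)) i)
      (by
        intro z hz
        rw [hWh] at hz
        simp only [Option.mem_def, Option.some.injEq] at hz
        subst hz
        exact (mem_RR.1 hy).2)
      (by
        intro z hz
        have : z ∈ L' := hWsub z (List.mem_of_getLast? hz)
        have h2 := (mem_RR.1 (hsub z this)).2
        rw [hq] at h2
        exact h2.symm)
      (by omega)
    refine S.no _ hcyc ?_ ?_
    · simp [hWlen]
      omega
    · intro x hx
      rcases vertices_surgery u hx with h | h
      · exact Or.inl h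
      · exact Or.inr (hsub_D x (hWsub x h))
  refine ⟨?_, ?_⟩
  · rintro rfl
    exact hA hrep.mem
  · intro hadj
    have hy'mem := hrep.mem
    have hyne : y ≠ y' := by
      rintro rfl
      exact hA hy'mem
    obtain ⟨L2, hL2h, hL2c, hL2n, hL2m⟩ := orient_head hch hnd hrep.ends
    by_cases hs2 : s = 1
    · -- the short case uses the cycle two longer
      have hstep1' : step = 1 := by
        rcases hstep with rfl | ⟨h, -⟩
        · exfalso
          have : 2 ∣ s := Dvd.intro _ rfl
          omega
        · exact h
      have hno2 : ∀ l, IsCyc G l → l.length = b + 2 →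
          (∀ x ∈ l, (∃ i, x = u i) ∨ x ∈ D) → False := by
        rcases hstep with rfl | ⟨-, h⟩
        · omega
        · exact h
      have hcyc := surgery u S.inj S.adj q hs1 (by omega) [y, y'] (by simp)
        (by simp [hadj]) (by simp [hyne])
        (by
          intro z hz i
          rcases List.mem_cons.1 hz with rfl | hz
          · exact S.disj _ (mem_RR.1 hy).1 i
          · have : z = y' := by simpa using hz
            subst this
            exact S.disj _ (hsub_D _ hy'mem) i)
        (by
          intro z hz
          have : z = y := by simpa using hz.symm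
          subst this
          exact (mem_RR.1 hy).2)
        (by
          intro z hz
          have : z = y' := by simpa using hz.symm
          subst this
          have h2 := (mem_RR.1 (hsub z hy'mem)).2
          rw [hq] at h2
          exact h2.symm)
        (by simp)
      refine hno2 _ hcyc ?_ ?_
      · simp
        omega
      · intro x hx
        rcases vertices_surgery u hx with h | h
        · exact Or.inl h
        · rcases List.mem_cons.1 h with rfl | h
          · exact Or.inr (mem_RR.1 hy).1
          · have : x = y' := by simpa using h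
            subst this
            exact Or.inr (hsub_D _ hy'mem)
    · -- general case
      have hs3 : 2 ≤ s := by omega
      obtain ⟨z0, zs, hz0⟩ : ∃ z0 zs, L2 = z0 :: zs := by
        cases L2 with
        | nil => simp at hL2h
        | cons a l => exact ⟨a, l, rfl⟩
      have hz0y : z0 = y' := by
        rw [hz0] at hL2h
        simpa using hL2h
      have hL2len : L2.length = L'.length := by
        have : L2.Perm L' := (List.perm_ext_iff_of_nodup hL2n hnd).2 hL2m
        exact this.length_eq
      set T := L2.take (s - 1) with hT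
      have hTne : T ≠ [] := by
        intro h
        have : T.length = s - 1 := by simp [hT, hL2len]; omega
        rw [h] at this
        simp at this
        omega
      have hTh : T.head? = some y' := by
        have hs4 : s - 1 = (s - 2) + 1 := by omega
        rw [hT, hs4, hz0, hz0y]
        simp
      have hW1 : (y :: T).IsChain G.Adj := by
        obtain ⟨c, cs, hcs⟩ := List.exists_cons_of_ne_nil hTne
        rw [hcs, List.isChain_cons_cons]
        refine ⟨?_, by rw [← hcs]; exact hL2c.take _⟩
        have : c = y' := by
          rw [hcs] at hTh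
          simpa using hTh
        rw [this]
        exact hadj
      have hTsub : ∀ z ∈ T, z ∈ L' := fun z hz => (hL2m z).1 (List.mem_of_mem_take hz)
      have hW2 : (y :: T).Nodup := by
        refine List.nodup_cons.2 ⟨fun h => hA (hTsub y h), ?_⟩
        exact hL2n.sublist (List.take_sublist _ _)
      have hTlen : T.length = s - 1 := by simp [hT, hL2len]; omega
      have hcyc := surgery u S.inj S.adj q hs1 (by omega) (y :: T) (by simp) hW1 hW2
        (by
          intro z hz i
          rcases List.mem_cons.1 hz with rfl | hz
          · exact S.disj _ (mem_RR.1 hy).1 i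
          · exact S.disj z (hsub_D z (hTsub z hz)) i)
        (by
          intro z hz
          have : z = y := by simpa using hz.symm
          subst this
          exact (mem_RR.1 hy).2)
        (by
          intro z hz
          rw [List.getLast?_cons_of_ne_nil hTne] at hz
          have h1 := hTsub z (List.mem_of_getLast? hz)
          have h2 := (mem_RR.1 (hsub z h1)).2
          rw [hq] at h2
          exact h2.symm)
        (by simp [hTlen]; omega)
      refine S.no _ hcyc ?_ ?_
      · simp [hTlen]
        omega
      · intro x hx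
        rcases vertices_surgery u hx with h | h
        · exact Or.inl h
        · rcases List.mem_cons.1 h with rfl | h
          · exact Or.inr (mem_RR.1 hy).1
          · exact Or.inr (hsub_D x (hTsub x h))

/-- Two representatives at one level from one minimum cover are not adjacent. -/
lemma same_level {R : Finset V} {P : Finset (List V)} (hmin : IsMinCover G R P) {step t : ℕ}
    {L L' : List V} (hL : L ∈ P) (hL' : L' ∈ P) {y y' : V}
    (hy : RepL G step L t y) (hy' : RepL G step L' t y') (hne : y ≠ y') : ¬ G.Adj y y' := by
  by_cases hLL : L = L'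
  · subst hLL
    intro hadj
    rcases hy with ⟨hcl, -, h1⟩ | ⟨hncl, -, h1⟩
    · rcases hy' with ⟨-, -, h2⟩ | ⟨hncl, -, -⟩
      · rw [h1] at h2
        exact hne (by simpa using h2)
      · exact hncl hcl
    · rcases hy' with ⟨hcl, -, -⟩ | ⟨-, -, h2⟩
      · exact hncl hcl
      · apply hncl
        right
        intro a ha c hc
        have ha' : L.getLast? = some a := ha
        have hc' : L.head? = some c := hc
        rcases h1 with h1 | h1 <;> rcases h2 with h2 | h2
        · rw [h1] at h2
          exact absurd (by simpa using h2) hne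
        · rw [h1] at hc'
          rw [h2] at ha'
          have e1 : y = c := by simpa using hc'
          have e2 : y' = a := by simpa using ha'
          rw [← e1, ← e2]
          exact hadj.symm
        · rw [h1] at ha'
          rw [h2] at hc'
          have e1 : y = a := by simpa using ha'
          have e2 : y' = c := by simpa using hc'
          rw [← e1, ← e2]
          exact hadj
        · rw [h1] at h2
          exact absurd (by simpa using h2) hne
  · exact no_adj_ends hmin hL hL' hLL hy.ends hy'.ends

/-- The key counting lemma: `e(C, D) ≤ step * a * b`. -/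
theorem lemmaE [NeZero b] (S : Setup G u D) {a : ℕ}
    (hα : ∀ I : Finset V, I ⊆ D → G.IsIndepSet (I : Set V) → I.card ≤ a) {step : ℕ}
    (hstep : step = 2 ∨ (step = 1 ∧
      ∀ l, IsCyc G l → l.length = b + 2 → (∀ x ∈ l, (∃ i, x = u i) ∨ x ∈ D) → False)) :
    ∑ q : ZMod b, (RR G u D q).card ≤ step * (a * b) := by
  classical
  have hstep1 : 1 ≤ step := by rcases hstep with rfl | ⟨rfl, -⟩ <;> omega
  choose P hP using fun q => exists_minCover G (RR G u D q)
  set RS : ZMod b → ℕ → Finset V := fun q t => (P q).biUnion (fun L => RepOf G step L t) with hRS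
  have memRS : ∀ {q t y}, y ∈ RS q t ↔ ∃ L ∈ P q, RepL G step L t y := by
    intro q t y
    simp only [hRS, RepOf, Finset.mem_biUnion, Finset.mem_filter, List.mem_toFinset]
    constructor
    · rintro ⟨L, hL, -, h⟩
      exact ⟨L, hL, h⟩
    · rintro ⟨L, hL, h⟩
      exact ⟨L, hL, h.mem, h⟩
  have memRSD : ∀ {q t y}, y ∈ RS q t → y ∈ RR G u D q := by
    intro q t y hy
    obtain ⟨L, hL, h⟩ := memRS.1 hy
    exact (hP q).1.sub L hL y h.mem
  -- per-vertex count
  have h1 : ∀ q, (RR G u D q).card ≤ step * ∑ t ∈ range b, (RS q t).card := by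
    intro q
    have hcov := (hP q).1
    rw [cover_card hcov]
    have hcardRS : ∀ t, (RS q t).card = ∑ L ∈ P q, (RepOf G step L t).card := by
      intro t
      apply Finset.card_biUnion
      intro L hL L' hL' hne
      simp only [Function.onFun]
      rw [Finset.disjoint_left]
      intro y hy hy'
      simp only [RepOf, Finset.mem_filter, List.mem_toFinset] at hy hy'
      exact hcov.disj L hL L' hL' hne y hy.1 hy'.1
    simp_rw [hcardRS]
    rw [Finset.sum_comm, Finset.mul_sum]
    apply Finset.sum_le_sum
    intro L hL
    apply count_L G hstep1 (hcov.ne L hL) (hcov.nodup L hL)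
    have := path_len S (hcov.chain L hL) (hcov.nodup L hL) (hcov.sub L hL)
    omega
  -- per-slot bound
  have h2 : ∀ p : ZMod b, ∑ t ∈ range b, (RS (p + ((step * t : ℕ) : ZMod b)) t).card ≤ a := by
    intro p
    have hcross : ∀ t t', t < t' → ∀ y ∈ RS (p + ((step * t : ℕ) : ZMod b)) t,
        ∀ y' ∈ RS (p + ((step * t' : ℕ) : ZMod b)) t', y ≠ y' ∧ ¬ G.Adj y y' := by
      intro t t' htt y hy y' hy'
      obtain ⟨L', hL', hrep⟩ := memRS.1 hy'
      have hcov := (hP (p + ((step * t' : ℕ) : ZMod b))).1
      refine conflict S hstep (q := p + ((step * t : ℕ) : ZMod b)) htt ?_ (memRSD hy)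
        (hcov.chain L' hL') (hcov.nodup L' hL') (hcov.sub L' hL') hrep
      have : step * t' = step * t + step * (t' - t) := by
        rw [← Nat.mul_add]
        congr 1
        omega
      rw [this]
      push_cast
      ring
    have hdisj : ((range b : Finset ℕ) : Set ℕ).PairwiseDisjoint
        (fun t => RS (p + ((step * t : ℕ) : ZMod b)) t) := by
      intro t _ t' _ htt
      simp only [Function.onFun]
      rw [Finset.disjoint_left]
      intro y hy hy'
      rcases Nat.lt_or_gt_of_ne htt with h | h
      · exact (hcross t t' h y hy y hy').1 rfl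
      · exact (hcross t' t h y hy' y hy).1 rfl
    rw [← Finset.card_biUnion hdisj]
    apply hα
    · intro y hy
      obtain ⟨t, -, hyt⟩ := Finset.mem_biUnion.1 hy
      exact (mem_RR.1 (memRSD hyt)).1
    · intro y hy y' hy' hne
      obtain ⟨t, -, hyt⟩ := Finset.mem_biUnion.1 hy
      obtain ⟨t', -, hyt'⟩ := Finset.mem_biUnion.1 hy'
      rcases lt_trichotomy t t' with h | h | h
      · exact (hcross t t' h y hyt y' hyt').2
      · subst h
        obtain ⟨L, hL, hr⟩ := memRS.1 hyt
        obtain ⟨L', hL', hr'⟩ := memRS.1 hyt'
        exact same_level (hP _) hL hL' hr hr' hne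
      · intro hadj
        exact (hcross t' t h y' hyt' y hyt).2 hadj.symm
  -- double count
  have h3 : ∑ q : ZMod b, ∑ t ∈ range b, (RS q t).card
      = ∑ p : ZMod b, ∑ t ∈ range b, (RS (p + ((step * t : ℕ) : ZMod b)) t).card := by
    rw [Finset.sum_comm]
    conv_rhs => rw [Finset.sum_comm]
    apply Finset.sum_congr rfl
    intro t _
    exact (Fintype.sum_equiv (Equiv.addRight ((step * t : ℕ) : ZMod b))
      (fun p => (RS (p + ((step * t : ℕ) : ZMod b)) t).card) (fun q => (RS q t).card)
      (fun p => rfl)).symm
  calc ∑ q : ZMod b, (RR G u D q).card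
      ≤ ∑ q : ZMod b, step * ∑ t ∈ range b, (RS q t).card := Finset.sum_le_sum (fun q _ => h1 q)
    _ = step * ∑ q : ZMod b, ∑ t ∈ range b, (RS q t).card := by rw [Finset.mul_sum]
    _ = step * ∑ p : ZMod b, ∑ t ∈ range b, (RS (p + ((step * t : ℕ) : ZMod b)) t).card := by rw [h3]
    _ ≤ step * ∑ _p : ZMod b, a := Nat.mul_le_mul_left _ (Finset.sum_le_sum (fun p _ => h2 p))
    _ = step * (a * b) := by
        rw [Finset.sum_const, Finset.card_univ, ZMod.card]
        simp [mul_comm]

end

end Vale.Agent.Lib.P048
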