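import Vale.Agent.Lib.P048.Main

namespace Vale.Agent.Lib.P048

open Finset Classical

variable {V : Type*}

/-- `S` is a `k`-set: each vertex has at least `k` neighbours in `S` plus blocked values below `k`. -/
def KSet (G : SimpleGraph V) (N : V → Finset ℕ) (k : ℕ) (S : Finset V) : Prop :=
  ∀ x ∈ S, k ≤ (S.filter (G.Adj x)).card + ((N x).filter (· < k)).card

/-- `x` lies in some `k`-set inside `R`. -/
def InS (G : SimpleGraph V) (R : Finset V) (N : V → Finset ℕ) (k : ℕ) (x : V) : Prop :=
  ∃ S, S ⊆ R ∧ KSet G N k S ∧ x ∈ S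

/-- The union of all `k`-sets inside `R`. -/
noncomputable def Sk (G : SimpleGraph V) (R : Finset V) (N : V → Finset ℕ) (k : ℕ) : Finset V :=
  R.filter (InS G R N k)

section
variable {G : SimpleGraph V} {R : Finset V} {N : V → Finset ℕ}

lemma KSet.succ {k : ℕ} {S : Finset V} (h : KSet G N (k + 1) S) : KSet G N k S := by
  intro x hx
  have h1 := h x hx
  have h2 : ((N x).filter (· < k + 1)).card ≤ ((N x).filter (· < k)).card + 1 := by
    have hsub : (N x).filter (· < k + 1) ⊆ insert k ((N x).filter (· < k)) := by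
      intro t ht
      simp only [mem_filter, mem_insert] at ht ⊢
      by_cases h : t = k
      · exact Or.inl h
      · exact Or.inr ⟨ht.1, by omega⟩
    exact (card_le_card hsub).trans (card_insert_le _ _)
  omega

lemma KSet.mono {j k : ℕ} (hjk : j ≤ k) {S : Finset V} (h : KSet G N k S) : KSet G N j S := by
  induction k, hjk using Nat.le_induction with
  | base => exact h
  | succ k _ ih => exact ih h.succ

lemma KSet.union {k : ℕ} {S S' : Finset V} (h : KSet G N k S) (h' : KSet G N k S') :
    KSet G N k (S ∪ S') := by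
  intro x hx
  rcases mem_union.1 hx with hx | hx
  · have := h x hx
    have h2 : (S.filter (G.Adj x)).card ≤ ((S ∪ S').filter (G.Adj x)).card :=
      card_le_card (filter_subset_filter _ subset_union_left)
    omega
  · have := h' x hx
    have h2 : (S'.filter (G.Adj x)).card ≤ ((S ∪ S').filter (G.Adj x)).card :=
      card_le_card (filter_subset_filter _ subset_union_right)
    omega

lemma InS.mono {j k : ℕ} (hjk : j ≤ k) {x : V} (h : InS G R N k x) : InS G R N j x := by
  obtain ⟨S, h1, h2, h3⟩ := h
  exact ⟨S, h1, h2.mono hjk, h3⟩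

lemma InS.mem {k : ℕ} {x : V} (h : InS G R N k x) : x ∈ R := by
  obtain ⟨S, h1, -, h3⟩ := h
  exact h1 h3

lemma mem_Sk {k : ℕ} {x : V} : x ∈ Sk G R N k ↔ InS G R N k x := by
  simp only [Sk, mem_filter]
  exact ⟨fun h => h.2, fun h => ⟨h.mem, h⟩⟩

lemma kset_Sk (k : ℕ) : KSet G N k (Sk G R N k) := by
  intro x hx
  obtain ⟨S, h1, h2, h3⟩ := mem_Sk.1 hx
  have := h2 x h3
  have hsub : S ⊆ Sk G R N k := by
    intro w hw
    exact mem_Sk.2 ⟨S, h1, h2, hw⟩
  have h4 : (S.filter (G.Adj x)).card ≤ ((Sk G R N k).filter (G.Adj x)).card :=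
    card_le_card (filter_subset_filter _ hsub)
  omega

lemma InS.zero {x : V} (hx : x ∈ R) : InS G R N 0 x := by
  refine ⟨R, subset_rfl, ?_, hx⟩
  intro w _
  omega

lemma InS.le_bound {k : ℕ} {x : V} (h : InS G R N k x) : k ≤ R.card + (N x).card := by
  obtain ⟨S, h1, h2, h3⟩ := h
  have := h2 x h3
  have h4 : (S.filter (G.Adj x)).card ≤ R.card :=
    (card_le_card (filter_subset _ _)).trans (card_le_card h1)
  have h5 : ((N x).filter (· < k)).card ≤ (N x).card := card_le_card (filter_subset _ _)
  omega

/-- Peeling a vertex from a nonempty subset of `R`. -/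
lemma peel {T : Finset V} (hT : T ⊆ R) (hne : T.Nonempty) :
    ∃ k x, x ∈ T ∧ (∀ w ∈ T, InS G R N k w) ∧
      (T.filter (G.Adj x)).card + ((N x).filter (· < k + 1)).card ≤ k := by
  obtain ⟨x0, hx0⟩ := hne
  have hex : ∃ k, ¬ ∀ w ∈ T, InS G R N k w := by
    refine ⟨R.card + (N x0).card + 1, ?_⟩
    intro h
    have := (h x0 hx0).le_bound
    omega
  set k' := Nat.find hex with hk'
  have hk1 : ¬ ∀ w ∈ T, InS G R N k' w := Nat.find_spec hex
  have hk0 : k' ≠ 0 := by
    intro h0
    apply hk1
    rw [h0]
    intro w hw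
    exact InS.zero (hT hw)
  obtain ⟨k, hk⟩ : ∃ k, k' = k + 1 := ⟨k' - 1, by omega⟩
  have hk2 : ∀ w ∈ T, InS G R N k w := by
    have := Nat.find_min hex (m := k) (by omega)
    simpa using this
  rw [hk] at hk1
  set U := T ∪ Sk G R N (k + 1) with hU
  have hUR : U ⊆ R := union_subset hT (filter_subset _ _)
  have hnot : ¬ KSet G N (k + 1) U := by
    intro hK
    apply hk1
    intro w hw
    exact ⟨U, hUR, hK, mem_union_left _ hw⟩
  unfold KSet at hnot
  push Not at hnot
  obtain ⟨x, hxU, hx⟩ := hnot
  have hxnot : x ∉ Sk G R N (k + 1) := by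
    intro h
    have h1 := kset_Sk (G := G) (R := R) (N := N) (k + 1) x h
    have h2 : ((Sk G R N (k + 1)).filter (G.Adj x)).card ≤ (U.filter (G.Adj x)).card :=
      card_le_card (filter_subset_filter _ subset_union_right)
    omega
  have hxT : x ∈ T := by
    rcases mem_union.1 hxU with h | h
    · exact h
    · exact absurd h hxnot
  refine ⟨k, x, hxT, hk2, ?_⟩
  have h2 : (T.filter (G.Adj x)).card ≤ (U.filter (G.Adj x)).card :=
    card_le_card (filter_subset_filter _ subset_union_left)
  omega

/-- The colouring of one level. -/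
theorem level (G : SimpleGraph V) (R : Finset V) (N : V → Finset ℕ) :
    ∃ f : V → ℕ, ∀ x ∈ R, (∀ y ∈ R, G.Adj x y → f x ≠ f y) ∧ f x ∉ N x ∧ InS G R N (f x) x := by
  have key : ∀ T : Finset V, T ⊆ R →
      ∃ f : V → ℕ, ∀ x ∈ T, (∀ y ∈ T, G.Adj x y → f x ≠ f y) ∧ f x ∉ N x ∧ InS G R N (f x) x := by
    intro T
    induction T using Finset.strongInduction with
    | H T ih =>
      intro hT
      rcases T.eq_empty_or_nonempty with rfl | hne
      · exact ⟨fun _ => 0, by simp⟩
      obtain ⟨k, x, hxT, hin, hdeg⟩ := peel (G := G) (N := N) hT hne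
      obtain ⟨f', hf'⟩ := ih (T.erase x) (erase_ssubset hxT) ((erase_subset _ _).trans hT)
      -- a free value
      set F := ((N x).filter (· < k + 1)) ∪ ((T.filter (G.Adj x)).image f') with hF
      have hFcard : F.card ≤ k := by
        calc F.card ≤ ((N x).filter (· < k + 1)).card + ((T.filter (G.Adj x)).image f').card :=
              card_union_le _ _
          _ ≤ ((N x).filter (· < k + 1)).card + (T.filter (G.Adj x)).card := by
              gcongr
              exact card_image_le
          _ ≤ k := by omega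
      obtain ⟨t, ht, htF⟩ : ∃ t ∈ range (k + 1), t ∉ F := by
        by_contra hcon
        push Not at hcon
        have : range (k + 1) ⊆ F := hcon
        have := card_le_card this
        rw [card_range] at this
        omega
      have htk : t ≤ k := by
        have := mem_range.1 ht
        omega
      have ht1 : t ∉ N x := by
        intro h
        exact htF (mem_union_left _ (mem_filter.2 ⟨h, by omega⟩))
      have ht2 : ∀ y ∈ T, G.Adj x y → t ≠ f' y := by
        intro y hy hadj h
        apply htF
        apply mem_union_right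
        rw [h]
        exact mem_image_of_mem _ (mem_filter.2 ⟨hy, hadj⟩)
      refine ⟨Function.update f' x t, ?_⟩
      intro w hw
      by_cases hwx : w = x
      · subst hwx
        rw [Function.update_self]
        refine ⟨?_, ht1, (hin w hw).mono htk⟩
        intro y hy hadj
        rw [Function.update_of_ne hadj.ne']
        exact ht2 y hy hadj
      · rw [Function.update_of_ne hwx]
        have hw' := mem_erase.2 ⟨hwx, hw⟩
        obtain ⟨h1, h2, h3⟩ := hf' w hw'
        refine ⟨?_, h2, h3⟩
        intro y hy hadj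
        by_cases hyx : y = x
        · subst hyx
          rw [Function.update_self]
          exact fun h => ht2 w hw hadj.symm h.symm
        · rw [Function.update_of_ne hyx]
          exact h1 y (mem_erase.2 ⟨hyx, hy⟩) hadj
  exact key R subset_rfl

end

/-- The values blocked at a level, from the excess function `g` on the level below. -/
noncomputable def blk (G : SimpleGraph V) (R' : Finset V) (g : V → ℕ) : V → Finset ℕ :=
  fun x => (R'.filter (fun z => G.Adj x z ∧ 1 ≤ g z)).image (fun z => g z - 1)

lemma mem_blk {G : SimpleGraph V} {R' : Finset V} {g : V → ℕ} {x : V} {ν : ℕ} :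
    ν ∈ blk G R' g x ↔ ∃ z ∈ R', G.Adj x z ∧ 1 ≤ g z ∧ g z - 1 = ν := by
  simp only [blk, mem_image, mem_filter]
  constructor
  · rintro ⟨z, ⟨h1, h2, h3⟩, h4⟩
    exact ⟨z, h1, h2, h3, h4⟩
  · rintro ⟨z, h1, h2, h3, h4⟩
    exact ⟨z, ⟨h1, h2, h3⟩, h4⟩

/-- The excess function, defined level by level. -/
noncomputable def colr (G : SimpleGraph V) (R : ℕ → Finset V) : ℕ → V → ℕ
  | 0 => Classical.choose (level G (R 0) (fun _ => ∅))
  | p + 1 => Classical.choose (level G (R (p + 1)) (blk G (R p) (colr G R p)))

/-- The blocked values at each level. -/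
noncomputable def Blk (G : SimpleGraph V) (R : ℕ → Finset V) : ℕ → V → Finset ℕ
  | 0 => fun _ => ∅
  | p + 1 => blk G (R p) (colr G R p)

lemma colr_spec (G : SimpleGraph V) (R : ℕ → Finset V) (p : ℕ) :
    ∀ x ∈ R p, (∀ y ∈ R p, G.Adj x y → colr G R p x ≠ colr G R p y) ∧
      colr G R p x ∉ Blk G R p x ∧ InS G (R p) (Blk G R p) (colr G R p x) x := by
  cases p with
  | zero => exact Classical.choose_spec (level G (R 0) (fun _ => ∅))
  | succ p => exact Classical.choose_spec (level G (R (p + 1)) (blk G (R p) (colr G R p)))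

end Vale.Agent.Lib.P048
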