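import Vale.Agent.Lib.P048.LemmaE

namespace Vale.Agent.Lib.P048

open Finset

variable {V : Type*}

/-- every independent subset of `X` has at most `a` elements -/
def Bound (G : SimpleGraph V) (X : Finset V) (a : ℕ) : Prop :=
  ∀ I : Finset V, I ⊆ X → G.IsIndepSet (I : Set V) → I.card ≤ a

/-- A cycle list gives a cycle parametrised by `ZMod b`. -/
lemma exists_param {G : SimpleGraph V} {l : List V} (hl : IsCyc G l) {b : ℕ} (hb : l.length = b)
    [NeZero b] :
    ∃ u : ZMod b → V, Function.Injective u ∧ (∀ i, G.Adj (u i) (u (i + 1))) ∧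
      (∀ i, u i ∈ l) := by
  obtain ⟨h3, hnd, hch, hcl⟩ := hl
  have hb3 : 3 ≤ b := by omega
  have : Fact (1 < b) := ⟨by omega⟩
  have hlt : ∀ i : ZMod b, i.val < l.length := fun i => by rw [hb]; exact ZMod.val_lt i
  refine ⟨fun i => l[i.val]'(hlt i), ?_, ?_, ?_⟩
  · intro i j hij
    have := (List.Nodup.getElem_inj_iff hnd).1 hij
    exact ZMod.val_injective b this
  · intro i
    have hv : (i + 1).val = (i.val + 1) % b := by
      rw [ZMod.val_add, ZMod.val_one]
    by_cases h : i.val + 1 < b
    · have h2 : (i + 1).val = i.val + 1 := by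
        rw [hv, Nat.mod_eq_of_lt h]
      have := (List.isChain_iff_getElem.1 hch) i.val (by omega)
      simp only [h2]
      exact this
    · have hi := ZMod.val_lt i
      have h1 : i.val + 1 = b := by omega
      have h2 : (i + 1).val = 0 := by
        rw [hv, h1, Nat.mod_self]
      simp only [h2]
      apply hcl
      · rw [List.getLast?_eq_getElem?]
        have : l.length - 1 = i.val := by omega
        rw [this]
        exact List.getElem?_eq_getElem (hlt i)
      · rw [List.head?_eq_getElem?]
        exact List.getElem?_eq_getElem (by omega)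
  · intro i
    exact List.getElem_mem _

/-- The chord cycle: successors of the neighbours of an outside vertex are independent. -/
lemma chord_cycle {G : SimpleGraph V} {b : ℕ} [NeZero b] {u : ZMod b → V} {D : Finset V}
    (S : Setup G u D) {x : V} (hx : x ∈ D) {q q' : ZMod b} (hqq : q ≠ q')
    (h1 : G.Adj x (u (q - 1))) (h2 : G.Adj x (u (q' - 1))) : ¬ G.Adj (u q') (u q) := by
  intro hadj
  have hb := S.hb
  -- write `q' = q + d`
  set d : ℕ := (q' - q).val with hd
  have hdq : q' = q + (d : ZMod b) := by
    rw [hd, ZMod.natCast_zmod_val]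
    ring
  have hd0 : d ≠ 0 := by
    intro h0
    rw [h0] at hdq
    apply hqq
    simpa using hdq.symm
  have hdb : d < b := ZMod.val_lt _
  set A := arc u q d with hA
  set A' := arc u q' (b - d) with hA'
  have hsum : q' + ((b - d - 1 : ℕ) : ZMod b) = q - 1 := by
    have e : ((d + (b - d - 1) + 1 : ℕ) : ZMod b) = 0 := by
      rw [show d + (b - d - 1) + 1 = b by omega]
      exact ZMod.natCast_self b
    push_cast at e
    rw [hdq]
    have e2 : ((b - d - 1 : ℕ) : ZMod b) = -1 - (d : ZMod b) := by
      have e3 : (d : ZMod b) + ((b - d - 1 : ℕ) : ZMod b) + 1 = 0 := e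
      linear_combination e3
    rw [e2]
    ring
  have hlastA : A.getLast? = some (u (q' - 1)) := by
    obtain ⟨d', hd'⟩ : ∃ d', d = d' + 1 := ⟨d - 1, by omega⟩
    rw [hA, hd', getLast?_arc]
    congr 2
    rw [hdq, hd']
    push_cast
    ring
  have hheadA : A.head? = some (u q) := by
    obtain ⟨d', hd'⟩ : ∃ d', d = d' + 1 := ⟨d - 1, by omega⟩
    rw [hA, hd', head?_arc]
  have hlastA' : A'.getLast? = some (u (q - 1)) := by
    obtain ⟨e', he'⟩ : ∃ e', b - d = e' + 1 := ⟨b - d - 1, by omega⟩
    rw [hA', he', getLast?_arc]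
    congr 2
    rw [← hsum]
    have : e' = b - d - 1 := by omega
    rw [this]
  have hheadA' : A'.head? = some (u q') := by
    obtain ⟨e', he'⟩ : ∃ e', b - d = e' + 1 := ⟨b - d - 1, by omega⟩
    rw [hA', he', head?_arc]
  have hxA : x ∉ A := by
    intro h
    obtain ⟨i, -, hi⟩ := (mem_arc u).1 h
    exact S.disj x hx _ hi
  have hxA' : x ∉ A' := by
    intro h
    obtain ⟨i, -, hi⟩ := (mem_arc u).1 h
    exact S.disj x hx _ hi
  have hAA' : ∀ z ∈ A, z ∉ A' := by
    intro z hz hz'
    obtain ⟨i, hi, rfl⟩ := (mem_arc u).1 hz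
    obtain ⟨j, hj, hij⟩ := (mem_arc u).1 hz'
    have e := S.inj hij
    rw [hdq] at e
    have e2 : (i : ZMod b) = ((d + j : ℕ) : ZMod b) := by
      push_cast
      linear_combination e
    have := natCast_inj_of_lt (b := b) (by omega) (by omega) e2
    omega
  refine S.no (A ++ x :: A'.reverse) ⟨?_, ?_, ?_, ?_⟩ ?_ ?_
  · simp [hA, hA']
    omega
  · rw [List.nodup_append]
    refine ⟨nodup_arc u S.inj q (by omega), ?_, ?_⟩
    · refine List.nodup_cons.2 ⟨?_, List.nodup_reverse.2 (nodup_arc u S.inj q' (by omega))⟩
      simpa using hxA'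
    · intro a ha c hc hac
      subst hac
      rcases List.mem_cons.1 hc with rfl | hc
      · exact hxA ha
      · exact hAA' a ha (by simpa using hc)
  · rw [List.isChain_append]
    refine ⟨chain_arc u S.adj q d, ?_, ?_⟩
    · cases hrev : A'.reverse with
      | nil => simp
      | cons c cs =>
        rw [List.isChain_cons_cons]
        have hc : A'.reverse.head? = some c := by rw [hrev]; rfl
        rw [List.head?_reverse, hlastA'] at hc
        have hc' : u (q - 1) = c := by simpa using hc
        refine ⟨hc' ▸ h1, ?_⟩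
        rw [← hrev]
        exact chain_reverse (chain_arc u S.adj q' (b - d))
    · intro a ha c hc
      rw [hlastA] at ha
      have ha' : a = u (q' - 1) := by simpa using ha.symm
      have hc' : c = x := by simpa using hc.symm
      rw [ha', hc']
      exact h2.symm
  · intro a ha c hc
    rw [List.head?_append, hheadA] at hc
    have hc' : c = u q := by simpa using hc.symm
    rw [List.getLast?_append] at ha
    have hh : (x :: A'.reverse).getLast? = some (u q') := by
      rw [List.getLast?_cons_of_ne_nil]
      · rw [List.getLast?_reverse]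
        exact hheadA'
      · intro h
        have : A'.reverse.length = 0 := by rw [h]; rfl
        simp [hA'] at this
        omega
    rw [hh] at ha
    have ha' : a = u q' := by simpa using ha.symm
    rw [ha', hc']
    exact hadj
  · simp [hA, hA']
    omega
  · intro z hz
    rcases List.mem_append.1 hz with h | h
    · obtain ⟨i, -, rfl⟩ := (mem_arc u).1 h
      exact Or.inl ⟨_, rfl⟩
    · rcases List.mem_cons.1 h with rfl | h
      · exact Or.inr hx
      · have : z ∈ A' := by simpa using h
        obtain ⟨i, -, rfl⟩ := (mem_arc u).1 this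
        exact Or.inl ⟨_, rfl⟩

lemma indep_union {G : SimpleGraph V} [DecidableEq V] {I J : Finset V}
    (hI : G.IsIndepSet (I : Set V)) (hJ : G.IsIndepSet (J : Set V))
    (hIJ : ∀ x ∈ I, ∀ y ∈ J, ¬ G.Adj x y) : G.IsIndepSet ((I ∪ J : Finset V) : Set V) := by
  intro x hx y hy hne
  simp only [Finset.coe_union, Set.mem_union, Finset.mem_coe] at hx hy
  rcases hx with hx | hx <;> rcases hy with hy | hy
  · exact hI hx hy hne
  · exact hIJ x hx y hy
  · intro h
    exact hIJ y hy x hx h.symm
  · exact hJ hx hy hne

lemma indep_singleton {G : SimpleGraph V} (v : V) : G.IsIndepSet (({v} : Finset V) : Set V) := by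
  intro x hx y hy hne
  simp only [Finset.coe_singleton, Set.mem_singleton_iff] at hx hy
  exact absurd (hx.trans hy.symm) hne

/-- The lower bound on `e(C, D)` coming from the induction hypothesis. -/
theorem star {G : SimpleGraph V} {m a b : ℕ} [NeZero b] {u : ZMod b → V} {X D : Finset V}
    (S : Setup G u D) (hm : 1 ≤ m)
    (IH : ∀ a' < a, ∀ Y : Finset V, Bound G Y a' → Y.card ≤ (m - 1) * a')
    (hX : Bound G X a) (hcard : (m - 1) * a + 1 ≤ X.card) (hCX : ∀ i, u i ∈ X)
    (hDX : D ⊆ X) (hDC : ∀ y ∈ X, y ∉ D → ∃ i, y = u i)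
    (hIH' : ¬ Bound G D (a - 1)) (ha : 1 ≤ a) :
    (m - 1) * b + a ≤ ∑ q : ZMod b, (RR G u D q).card + a * b := by
  classical
  have hb := S.hb
  -- a maximum independent set in D
  obtain ⟨J, hJD, hJind, hJcard⟩ : ∃ J : Finset V, J ⊆ D ∧ G.IsIndepSet (J : Set V) ∧ J.card = a := by
    unfold Bound at hIH'
    push Not at hIH'
    obtain ⟨I, hID, hIind, hIc⟩ := hIH'
    have := hX I (hID.trans hDX) hIind
    exact ⟨I, hID, hIind, by omega⟩
  have hJC : ∀ y ∈ J, ∀ i, y ≠ u i := fun y hy i => S.disj y (hJD hy) i
  -- every position has a neighbour in J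
  have hc : ∀ q : ZMod b, ∃ x ∈ J, G.Adj x (u (q - 1)) := by
    intro q
    by_contra hcon
    push Not at hcon
    have hind : G.IsIndepSet ((({u (q - 1)} : Finset V) ∪ J : Finset V) : Set V) := by
      apply indep_union (indep_singleton _) hJind
      intro x hx y hy
      simp only [Finset.mem_singleton] at hx
      subst hx
      intro h
      exact hcon y hy h.symm
    have h1 := hX _ (by
      intro y hy
      rcases Finset.mem_union.1 hy with h | h
      · rw [Finset.mem_singleton.1 h]
        exact hCX _
      · exact hDX (hJD h)) hind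
    rw [Finset.card_union_of_disjoint (by
      rw [Finset.disjoint_left]
      intro y hy hyJ
      rw [Finset.mem_singleton.1 hy] at hyJ
      exact hJC _ hyJ _ rfl), Finset.card_singleton] at h1
    omega
  choose c hcJ hcadj using hc
  -- sets of positions
  have hK : ∀ K : Finset (ZMod b), (∀ q ∈ K, ∀ q' ∈ K, q ≠ q' → ¬ G.Adj (u q) (u q')) →
      (m - 1) * K.card + m ≤ (K.biUnion (RR G u D)).card + (m - 1) + b := by
    intro K hKind
    rcases K.eq_empty_or_nonempty with rfl | hKne
    · simp
      omega
    have hk1 : 1 ≤ K.card := Finset.card_pos.2 hKne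
    have hUK : (K.image u).card = K.card := Finset.card_image_of_injective _ S.inj
    have hUind : G.IsIndepSet ((K.image u : Finset V) : Set V) := by
      intro x hx y hy hne
      simp only [Finset.coe_image, Set.mem_image, Finset.mem_coe] at hx hy
      obtain ⟨q, hq, rfl⟩ := hx
      obtain ⟨q', hq', rfl⟩ := hy
      exact hKind q hq q' hq' (fun h => hne (by rw [h]))
    have hUX : K.image u ⊆ X := by
      intro y hy
      obtain ⟨q, -, rfl⟩ := Finset.mem_image.1 hy
      exact hCX q
    have hka : K.card ≤ a := by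
      have := hX _ hUX hUind
      rwa [hUK] at this
    set Z := D \ K.biUnion (RR G u D) with hZ
    have hZb : Bound G Z (a - K.card) := by
      intro I hIZ hIind
      have hind := indep_union hIind hUind (by
        intro x hx y hy
        obtain ⟨q, hq, rfl⟩ := Finset.mem_image.1 hy
        intro hadj
        have hxZ := Finset.mem_sdiff.1 (hIZ hx)
        apply hxZ.2
        exact Finset.mem_biUnion.2 ⟨q, hq, mem_RR.2 ⟨hxZ.1, hadj.symm⟩⟩)
      have h1 := hX _ (by
        intro y hy
        rcases Finset.mem_union.1 hy with h | h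
        · exact hDX (Finset.mem_sdiff.1 (hIZ h)).1
        · exact hUX h) hind
      rw [Finset.card_union_of_disjoint (by
        rw [Finset.disjoint_left]
        intro y hy hy2
        obtain ⟨q, -, rfl⟩ := Finset.mem_image.1 hy2
        exact S.disj _ (Finset.mem_sdiff.1 (hIZ hy)).1 q rfl), hUK] at h1
      omega
    have hZc := IH (a - K.card) (by omega) Z hZb
    have hXle : X.card ≤ b + D.card := by
      have hsub : X ⊆ (Finset.univ.image u) ∪ D := by
        intro y hy
        by_cases hyD : y ∈ D
        · exact Finset.mem_union_right _ hyD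
        · obtain ⟨i, rfl⟩ := hDC y hy hyD
          exact Finset.mem_union_left _ (Finset.mem_image_of_mem _ (Finset.mem_univ _))
      calc X.card ≤ ((Finset.univ.image u) ∪ D).card := Finset.card_le_card hsub
        _ ≤ (Finset.univ.image u).card + D.card := Finset.card_union_le _ _
        _ ≤ (Finset.univ : Finset (ZMod b)).card + D.card := by
            gcongr
            exact Finset.card_image_le
        _ = b + D.card := by rw [Finset.card_univ, ZMod.card]
    have hDle : D.card ≤ (K.biUnion (RR G u D)).card + Z.card := by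
      have hsub : D ⊆ K.biUnion (RR G u D) ∪ Z := by
        intro y hy
        by_cases h : y ∈ K.biUnion (RR G u D)
        · exact Finset.mem_union_left _ h
        · exact Finset.mem_union_right _ (Finset.mem_sdiff.2 ⟨hy, h⟩)
      exact (Finset.card_le_card hsub).trans (Finset.card_union_le _ _)
    have hsplit : (m - 1) * a = (m - 1) * (a - K.card) + (m - 1) * K.card := by
      rw [← Nat.mul_add]
      congr 1
      omega
    omega
  -- apply to the classes
  set K : V → Finset (ZMod b) := fun x => Finset.univ.filter (fun q => c q = x) with hKdef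
  have hKind : ∀ x ∈ J, (∀ q ∈ K x, ∀ q' ∈ K x, q ≠ q' → ¬ G.Adj (u q) (u q')) := by
    intro x hx q hq q' hq' hne
    have h1 : c q = x := (Finset.mem_filter.1 hq).2
    have h2 : c q' = x := (Finset.mem_filter.1 hq').2
    intro hadj
    refine chord_cycle S (hJD hx) (Ne.symm hne) ?_ ?_ hadj
    · have := hcadj q'
      rwa [h2] at this
    · have := hcadj q
      rwa [h1] at this
  have hsum1 : ∑ x ∈ J, (K x).card = b := by
    have := Finset.card_eq_sum_card_fiberwise (f := c) (s := Finset.univ) (t := J)
      (fun q _ => hcJ q)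
    rw [Finset.card_univ, ZMod.card] at this
    exact this.symm
  have hsum2 : ∑ x ∈ J, ((K x).biUnion (RR G u D)).card ≤ ∑ q : ZMod b, (RR G u D q).card := by
    calc ∑ x ∈ J, ((K x).biUnion (RR G u D)).card
        ≤ ∑ x ∈ J, ∑ q ∈ K x, (RR G u D q).card :=
          Finset.sum_le_sum (fun x _ => Finset.card_biUnion_le)
      _ = ∑ q : ZMod b, (RR G u D q).card :=
          Finset.sum_fiberwise_of_maps_to (fun q _ => hcJ q) _
  have hsum3 : ∑ x ∈ J, ((m - 1) * (K x).card + m)
      ≤ ∑ x ∈ J, (((K x).biUnion (RR G u D)).card + (m - 1) + b) :=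
    Finset.sum_le_sum (fun x hx => hK (K x) (hKind x hx))
  have e1 : ∑ x ∈ J, ((m - 1) * (K x).card + m) = (m - 1) * b + a * m := by
    rw [Finset.sum_add_distrib, ← Finset.mul_sum, hsum1]
    simp [hJcard]
  have e2 : ∑ x ∈ J, (((K x).biUnion (RR G u D)).card + (m - 1) + b)
      = ∑ x ∈ J, ((K x).biUnion (RR G u D)).card + a * (m - 1) + a * b := by
    rw [Finset.sum_add_distrib, Finset.sum_add_distrib]
    simp [hJcard]
  rw [e1, e2] at hsum3
  have h4 : a * m = a * (m - 1) + a := by
    obtain ⟨m', rfl⟩ : ∃ m', m = m' + 1 := ⟨m - 1, by omega⟩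
    simp
    ring
  omega

/-- The induction step in the range `m ≥ 3a + 1`. -/
theorem step_main {G : SimpleGraph V} {m a : ℕ} (ha : 1 ≤ a) (hm : 3 * a + 1 ≤ m)
    (hC : ∀ l, IsCyc G l → l.length = m → False)
    (IH : ∀ a' < a, ∀ Y : Finset V, Bound G Y a' → Y.card ≤ (m - 1) * a')
    (X : Finset V) (hX : Bound G X a) (hcard : (m - 1) * a + 1 ≤ X.card) : False := by
  classical
  -- degree bound
  have hdeg : ∀ v ∈ X, m - 1 ≤ (X.filter (G.Adj v)).card := by
    intro v hv
    set Y := (X.filter (fun y => y ≠ v ∧ ¬ G.Adj v y)) with hY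
    have hYb : Bound G Y (a - 1) := by
      intro I hI hIind
      have hind := indep_union hIind (indep_singleton v) (by
        intro x hx y hy
        rw [Finset.mem_singleton.1 hy]
        intro h
        exact (Finset.mem_filter.1 (hI hx)).2.2 h.symm)
      have h1 := hX _ (by
        intro y hy
        rcases Finset.mem_union.1 hy with h | h
        · exact (Finset.mem_filter.1 (hI h)).1
        · rw [Finset.mem_singleton.1 h]
          exact hv) hind
      rw [Finset.card_union_of_disjoint (by
        rw [Finset.disjoint_left]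
        intro y hy hy2
        rw [Finset.mem_singleton.1 hy2] at hy
        exact (Finset.mem_filter.1 (hI hy)).2.1 rfl), Finset.card_singleton] at h1
      omega
    have hYc := IH (a - 1) (by omega) Y hYb
    have hsub : X ⊆ insert v (X.filter (G.Adj v) ∪ Y) := by
      intro y hy
      by_cases h1 : y = v
      · exact Finset.mem_insert.2 (Or.inl h1)
      · apply Finset.mem_insert_of_mem
        by_cases h2 : G.Adj v y
        · exact Finset.mem_union_left _ (Finset.mem_filter.2 ⟨hy, h2⟩)
        · exact Finset.mem_union_right _ (Finset.mem_filter.2 ⟨hy, h1, h2⟩)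
    have h3 := Finset.card_le_card hsub
    have h4 := Finset.card_insert_le v (X.filter (G.Adj v) ∪ Y)
    have h5 := Finset.card_union_le (X.filter (G.Adj v)) Y
    have hsplit : (m - 1) * a = (m - 1) * (a - 1) + (m - 1) := by
      obtain ⟨a', rfl⟩ : ∃ a', a = a' + 1 := ⟨a - 1, by omega⟩
      simp
      ring
    omega
  -- a triangle
  have hm4 : 4 ≤ m := by omega
  obtain ⟨v, hv⟩ : X.Nonempty := by
    apply Finset.card_pos.1
    omega
  have htri : ∃ l, IsCyc G l ∧ l.length = 3 ∧ ∀ x ∈ l, x ∈ X := by
    have hnot : ¬ G.IsIndepSet ((X.filter (G.Adj v) : Finset V) : Set V) := by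
      intro hind
      have h1 := hX _ (Finset.filter_subset _ _) hind
      have h2 := hdeg v hv
      omega
    unfold SimpleGraph.IsIndepSet Set.Pairwise at hnot
    push Not at hnot
    obtain ⟨y, hy, z, hz, hne, hadj⟩ := hnot
    simp only [Finset.coe_filter, Set.mem_ofPred_eq] at hy hz
    refine ⟨[v, y, z], ⟨by simp, ?_, ?_, ?_⟩, by simp, ?_⟩
    · simp only [List.nodup_cons, List.mem_cons, List.not_mem_nil, or_false, not_or,
        List.nodup_nil, and_true, not_false_eq_true]
      exact ⟨⟨hy.2.ne, hz.2.ne⟩, hne⟩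
    · simp [hy.2, hadj]
    · intro a' ha' c' hc'
      have h1 : a' = z := by simpa using ha'.symm
      have h2 : c' = v := by simpa using hc'.symm
      rw [h1, h2]
      exact hz.2.symm
    · intro x hx
      simp only [List.mem_cons, List.not_mem_nil, or_false] at hx
      rcases hx with rfl | rfl | rfl
      · exact hv
      · exact hy.1
      · exact hz.1
  -- the largest cycle length below `m`
  set PP : ℕ → Prop := fun k => ∃ l, IsCyc G l ∧ l.length = k ∧ ∀ x ∈ l, x ∈ X with hPP
  set b := Nat.findGreatest PP (m - 1) with hbdef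
  have hPb : PP b := Nat.findGreatest_spec (m := 3) (by omega) htri
  have hbm : b ≤ m - 1 := Nat.findGreatest_le _
  have hbig : ∀ k, b < k → k ≤ m - 1 → ¬ PP k := fun k h1 h2 => Nat.findGreatest_is_greatest h1 h2
  obtain ⟨l, hl, hlb, hlX⟩ := hPb
  have hb3 : 3 ≤ b := hlb ▸ hl.1
  have : NeZero b := ⟨by omega⟩
  obtain ⟨u, hinj, hadj, hul⟩ := exists_param hl hlb
  have hCX : ∀ i, u i ∈ X := fun i => hlX _ (hul i)
  set C := Finset.univ.image u with hCdef
  set D := X \ C with hDdef
  have hCcard : C.card = b := by
    rw [hCdef, Finset.card_image_of_injective _ hinj, Finset.card_univ, ZMod.card]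
  have hCsub : C ⊆ X := by
    intro y hy
    obtain ⟨i, -, rfl⟩ := Finset.mem_image.1 hy
    exact hCX i
  have hDX : D ⊆ X := Finset.sdiff_subset
  have hDcard : D.card = X.card - b := by
    rw [hDdef, Finset.card_sdiff_of_subset hCsub, hCcard]
  have hvert : ∀ x, ((∃ i, x = u i) ∨ x ∈ D) → x ∈ X := by
    rintro x (⟨i, rfl⟩ | h)
    · exact hCX i
    · exact hDX h
  have noCyc : ∀ k, b < k → k ≤ m → ∀ l, IsCyc G l → l.length = k →
      (∀ x ∈ l, (∃ i, x = u i) ∨ x ∈ D) → False := by
    intro k hk1 hk2 l' hl' hl'k hl'v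
    by_cases hkm : k = m
    · exact hC l' hl' (hl'k.trans hkm)
    · exact hbig k hk1 (by omega) ⟨l', hl', hl'k, fun x hx => hvert x (hl'v x hx)⟩
  have S : Setup G u D := ⟨hb3, hinj, hadj, by
    intro y hy i h
    subst h
    exact (Finset.mem_sdiff.1 hy).2 (Finset.mem_image_of_mem _ (Finset.mem_univ _)),
    fun l' h1 h2 h3 => noCyc (b + 1) (by omega) (by omega) l' h1 h2 h3⟩
  have hsplit : (m - 1) * a = (m - 1) * (a - 1) + (m - 1) := by
    obtain ⟨a', rfl⟩ : ∃ a', a = a' + 1 := ⟨a - 1, by omega⟩
    simp
    ring
  have hnb : ¬ Bound G D (a - 1) := by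
    intro h
    have := IH (a - 1) (by omega) D h
    omega
  have hst := star (a := a) (X := X) S (by omega) IH hX hcard hCX hDX (by
    intro y hy hyD
    have : y ∈ C := by
      by_contra h
      exact hyD (Finset.mem_sdiff.2 ⟨hy, h⟩)
    obtain ⟨i, -, rfl⟩ := Finset.mem_image.1 this
    exact ⟨i, rfl⟩) hnb ha
  have hαD : ∀ I : Finset V, I ⊆ D → G.IsIndepSet (I : Set V) → I.card ≤ a :=
    fun I hI hind => hX I (hI.trans hDX) hind
  by_cases hcase : b = m - 1
  · have hE := lemmaE S hαD (step := 2) (Or.inl rfl)
    have h1 : (m - 1) * b = b * b := by rw [hcase]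
    have h2 : 3 * a * b ≤ b * b := Nat.mul_le_mul_right _ (by omega)
    have h3 : 2 * (a * b) + a * b = 3 * a * b := by ring
    omega
  · have hE := lemmaE S hαD (step := 1) (Or.inr ⟨rfl,
      fun l' h1 h2 h3 => noCyc (b + 2) (by omega) (by omega) l' h1 h2 h3⟩)
    have h2 : 2 * a * b ≤ (m - 1) * b := Nat.mul_le_mul_right _ (by omega)
    have h3 : 1 * (a * b) + a * b = 2 * a * b := by ring
    omega

/-- The bound by strong induction on `a`. -/
theorem main_bound {G : SimpleGraph V} {m : ℕ} (hC : ∀ l, IsCyc G l → l.length = m → False)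
    (a : ℕ) (hm : 3 * a + 1 ≤ m) (X : Finset V) (hX : Bound G X a) : X.card ≤ (m - 1) * a := by
  induction a using Nat.strong_induction_on generalizing X with
  | _ a ih =>
    rcases Nat.eq_zero_or_pos a with rfl | ha
    · rw [Nat.mul_zero]
      by_contra hcon
      obtain ⟨v, hv⟩ : X.Nonempty := Finset.card_pos.1 (by omega)
      have := hX {v} (Finset.singleton_subset_iff.2 hv) (indep_singleton v)
      simp at this
    · by_contra hcon
      exact step_main ha hm hC (fun a' ha' Y hY => ih a' ha' (by omega) Y hY) X hX (by omega)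

/-- Convert a chain list to a walk. -/
lemma exists_walk_of_chain {G : SimpleGraph V} (xs : List V) (x : V) (h : (x :: xs).IsChain G.Adj) :
    ∃ y, ∃ p : G.Walk x y, p.support = x :: xs ∧ (x :: xs).getLast? = some y := by
  induction xs generalizing x with
  | nil => exact ⟨x, SimpleGraph.Walk.nil, rfl, rfl⟩
  | cons z zs ih =>
    rw [List.isChain_cons_cons] at h
    obtain ⟨y, p, hp, hl⟩ := ih z h.2
    refine ⟨y, SimpleGraph.Walk.cons h.1 p, ?_, ?_⟩
    · simp [hp]
    · rw [List.getLast?_cons_of_ne_nil (by simp)]
      exact hl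

lemma walk_of_cyc {G : SimpleGraph V} {l : List V} (h : IsCyc G l) :
    ∃ (v : V) (w : G.Walk v v), w.IsCycle ∧ w.length = l.length := by
  obtain ⟨h3, hnd, hch, hcl⟩ := h
  cases l with
  | nil => simp at h3
  | cons x xs =>
    obtain ⟨y, p, hp, hl⟩ := exists_walk_of_chain xs x hch
    have hadj : G.Adj y x := hcl y hl x rfl
    have hpath : p.IsPath := by
      rw [SimpleGraph.Walk.isPath_def, hp]
      exact hnd
    refine ⟨y, SimpleGraph.Walk.cons hadj p, ?_, ?_⟩
    · rw [SimpleGraph.Walk.cons_isCycle_iff]
      refine ⟨hpath, ?_⟩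
      intro he
      -- the closing edge cannot be on the path
      cases p with
      | nil => simp at hp; subst hp; simp at h3
      | @cons _ z _ hxz p' =>
        simp only [SimpleGraph.Walk.edges_cons, List.mem_cons] at he
        simp only [SimpleGraph.Walk.support_cons, List.cons.injEq, true_and] at hp
        have hxnot : x ∉ p'.support := by
          rw [hp]
          exact (List.nodup_cons.1 hnd).1
        rcases he with he | he
        · -- then `y = z`
          have hyz : y = z := by
            rcases Sym2.eq_iff.1 he with ⟨h1, _⟩ | ⟨h1, h2⟩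
            · exact absurd h1 hadj.ne
            · exact h1
          subst hyz
          have hlen : 3 ≤ (x :: xs).length := h3
          rw [← hp] at hlen
          have hp'path : p'.IsPath := by
            rw [SimpleGraph.Walk.isPath_def, hp]
            exact (List.nodup_cons.1 hnd).2
          have : p'.length = 0 := by
            have := SimpleGraph.Walk.isPath_iff_nil.1 hp'path
            exact SimpleGraph.Walk.length_eq_zero_iff.2 this
          have h4 := SimpleGraph.Walk.length_support p'
          simp at hlen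
          omega
        · exact hxnot (SimpleGraph.Walk.snd_mem_support_of_mem_edges p' he)
    · simp only [SimpleGraph.Walk.length_cons]
      have := SimpleGraph.Walk.length_support p
      rw [hp] at this
      simp only [List.length_cons] at this ⊢
      omega

/-- The final form. -/
theorem final {V : Type*} [Fintype V] (m n : ℕ) (hn : 2 ≤ n) (hm : 3 * n ≤ m + 2)
    (G : SimpleGraph V) (hcard : (m - 1) * (n - 1) + 1 ≤ Fintype.card V) :
    (∃ s : Finset V, s.card = n ∧ G.IsIndepSet (s : Set V)) ∨
      ∃ (v : V) (w : G.Walk v v), w.IsCycle ∧ w.length = m := by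
  classical
  by_contra hcon
  push Not at hcon
  obtain ⟨h1, h2⟩ := hcon
  have hC : ∀ l, IsCyc G l → l.length = m → False := by
    intro l hl hlm
    obtain ⟨v, w, hw, hwl⟩ := walk_of_cyc hl
    exact h2 v w hw (hwl.trans hlm)
  have hB : Bound G (Finset.univ : Finset V) (n - 1) := by
    intro I _ hI
    by_contra hlt
    obtain ⟨s, hs, hsc⟩ := Finset.exists_subset_card_eq (show n ≤ I.card by omega)
    exact h1 s hsc (hI.mono (by exact_mod_cast hs))
  have := main_bound hC (n - 1) (by omega) Finset.univ hB
  rw [Finset.card_univ] at this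
  omega

end Vale.Agent.Lib.P048
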