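import Vale.Agent.Lib.P048.NCProf

namespace Vale.Agent.Lib.P048

/-- The certificate as a boolean test. -/
def certB (b i a h r₂ τ a' ρ : ℕ) : Bool :=
  Nat.ble 3 b && Nat.ble (a + 1) b && Nat.ble (i + 1) b && Nat.ble 1 h && Nat.ble (h + 1) r₂ &&
  Nat.ble r₂ a && Nat.beq (a' + 1) a && Nat.beq (ρ + 1) r₂ && Nat.ble (2 * h) (i + 1) &&
  Nat.ble (4 * h) b && Nat.ble (3 * triN (a - r₂)) (h * (h + 1)) &&
  Nat.ble (h + 1 + 3 * (2 * h + 1)) (3 * b) &&
  Nat.ble (4 * h ^ 2 + 3 * (h * (h + 1)) + 1) (3 * b * h) &&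
  Nat.ble (4 * a' ^ 2 + 3 * (h * (h + 1)) + 1) (3 * b * a') &&
  Nat.ble (1 + 2 * b * h ^ 2 + b * h + b * (h * (h + 1)))
    (b * b * h + h * (h * (h + 1)) + h * (h + 1) + h) &&
  Nat.ble (1 + 2 * b * ρ ^ 2 + b * ρ + b * (h * (h + 1)))
    (b * b * ρ + ρ * (h * (h + 1)) + h * (h + 1) + ρ) &&
  decide (1 + (b : ℤ) ≤ 9 * ρ + 6) &&
  decide (0 ≤ (2 * (b : ℤ) * ρ * (b - 1 - 2 * ρ) + 2 * (ρ + 1 - b) * (h * (h + 1)) + 2 * ρ) -
      6 * τ ^ 3 - 2) &&
  decide (((2 * (b : ℤ) * (b - 1 - 4 * ρ) + 3 * (ρ + 1 - b) + 2 * (h * (h + 1)) +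
        6 * ρ * (ρ + 1) + 2) + 9 * τ ^ 2) ^ 2 ≤
      4 * (9 * ρ + 6 - b) * ((2 * (b : ℤ) * ρ * (b - 1 - 2 * ρ) + 2 * (ρ + 1 - b) * (h * (h + 1)) +
        2 * ρ) - 6 * τ ^ 3 - 2)) &&
  decide (5 ≤ (i + 2 - 2 * (h : ℤ)) * (b - 2 * h - 1) + (i + 2 - 2 * (h : ℤ))) &&
  decide (1 ≤ (i + 2 - 2 * (h : ℤ)) * (b - 2 * h - 1) +
      (i + 2 - 2 * (h : ℤ) - 3) * (h - 1) - ((h : ℤ) - 1) ^ 2)

lemma certB_spec {b i a h r₂ τ a' ρ : ℕ} (H : certB b i a h r₂ τ a' ρ = true) :
    Cert b i a h r₂ τ a' ρ := by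
  simp only [certB, Bool.and_eq_true, decide_eq_true_eq, Nat.ble_eq] at H
  obtain ⟨⟨⟨⟨⟨⟨⟨⟨⟨⟨⟨⟨⟨⟨⟨⟨⟨⟨⟨⟨h1, h2⟩, h3⟩, h4⟩, h5⟩, h6⟩, h7⟩, h8⟩, h9⟩, h10⟩, h11⟩, h12⟩, h13⟩, h14⟩,
    h15⟩, h16⟩, h17⟩, h18⟩, h19⟩, h20⟩, h21⟩ := H
  exact ⟨h1, h2, h3, h4, h5, h6, Nat.eq_of_beq_eq_true h7, Nat.eq_of_beq_eq_true h8, h9, h10, h11, h12,
    h13, h14, h15, h16, h17, h18, h19, fun _ => h20, fun _ => h21⟩

/-- A test on the dyadic block of length `2 ^ k` starting at `s`. -/
def allB (f : ℕ → Bool) : ℕ → ℕ → Bool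
  | 0, s => f s
  | k + 1, s => allB f k s && allB f k (s + 2 ^ k)

lemma allB_spec {f : ℕ → Bool} (k s : ℕ) (H : allB f k s = true) :
    ∀ x, s ≤ x → x < s + 2 ^ k → f x = true := by
  induction k generalizing s with
  | zero =>
    intro x h1 h2
    have : x = s := by simpa using (by omega : x = s)
    rw [this]
    exact H
  | succ k ih =>
    simp only [allB, Bool.and_eq_true] at H
    intro x h1 h2
    by_cases h3 : x < s + 2 ^ k
    · exact ih s H.1 x h1 h3
    · refine ih (s + 2 ^ k) H.2 x (by omega) ?_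
      have : 2 ^ (k + 1) = 2 * 2 ^ k := by ring
      omega

/-- The largest `a` aimed at for large `b`. -/
def aTop (b : ℕ) : ℕ := 8 * (b + 1) / 13 - 1

/-- The test at `b` with given parameters. -/
def certP (b h r₂ τ : ℕ) : Bool :=
  Nat.ble (2 * (b - aTop b - 1) + 3) b &&
    certB b (b - aTop b - 1) (aTop b) h r₂ τ (aTop b - 1) (r₂ - 1)

/-- The parameters for `201 ≤ b < 505`. -/
def parTab : List (ℕ × ℕ × ℕ) := [
  (34, 96, 12), (34, 96, 12), (34, 97, 12), (34, 98, 12), (35, 97, 12), (35, 98, 12), (35, 99, 12), (35, 99, 12),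
  (35, 100, 12), (35, 100, 12), (36, 100, 12), (36, 101, 12), (36, 101, 12), (36, 102, 12), (36, 102, 12), (36, 103, 12),
  (37, 103, 13), (37, 104, 13), (37, 104, 13), (37, 105, 13), (37, 105, 13), (37, 106, 13), (38, 106, 13), (38, 107, 13),
  (38, 108, 13), (38, 108, 13), (38, 109, 13), (38, 109, 13), (39, 109, 13), (39, 110, 13), (39, 110, 13), (39, 111, 13),
  (40, 111, 13), (40, 111, 14), (40, 112, 14), (40, 112, 14), (40, 113, 14), (40, 114, 14), (40, 114, 14), (41, 114, 14),
  (41, 115, 14), (41, 115, 14), (41, 116, 14), (41, 116, 14), (41, 117, 14), (42, 117, 14), (42, 118, 14), (42, 118, 14),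
  (42, 119, 14), (42, 119, 15), (42, 120, 15), (43, 120, 15), (43, 120, 15), (43, 121, 15), (43, 121, 15), (43, 122, 15),
  (43, 122, 15), (44, 123, 15), (44, 124, 15), (44, 124, 15), (44, 125, 15), (44, 125, 15), (44, 126, 15), (45, 126, 15),
  (45, 126, 15), (45, 127, 15), (45, 127, 16), (45, 128, 16), (45, 129, 16), (46, 129, 16), (46, 129, 16), (46, 130, 16),
  (46, 130, 16), (46, 131, 16), (47, 131, 16), (47, 131, 16), (47, 132, 16), (47, 132, 16), (47, 133, 16), (47, 133, 16),
  (48, 134, 16), (48, 134, 16), (48, 135, 16), (48, 135, 17), (48, 136, 17), (48, 136, 17), (49, 137, 17), (49, 137, 17),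
  (49, 138, 17), (49, 139, 17), (49, 139, 17), (49, 140, 17), (50, 140, 17), (50, 140, 17), (50, 141, 17), (50, 141, 17),
  (50, 142, 17), (50, 143, 17), (51, 142, 17), (51, 143, 18), (51, 143, 18), (51, 144, 18), (51, 145, 18), (51, 145, 18),
  (52, 145, 18), (52, 146, 18), (52, 146, 18), (52, 147, 18), (52, 147, 18), (53, 148, 18), (53, 148, 18), (53, 149, 18),
  (53, 149, 18), (53, 150, 18), (53, 150, 18), (54, 151, 18), (54, 151, 19), (54, 152, 19), (54, 152, 19), (54, 152, 19),
  (54, 153, 19), (55, 153, 19), (55, 154, 19), (55, 155, 19), (55, 155, 19), (55, 156, 19), (55, 156, 19), (56, 156, 19),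
  (56, 157, 19), (56, 157, 19), (56, 158, 19), (56, 158, 19), (56, 159, 19), (57, 159, 20), (57, 160, 20), (57, 160, 20),
  (57, 161, 20), (57, 161, 20), (57, 162, 20), (58, 162, 20), (58, 162, 20), (58, 163, 20), (58, 163, 20), (58, 164, 20),
  (58, 164, 20), (59, 165, 20), (59, 165, 20), (59, 166, 20), (59, 166, 20), (59, 167, 21), (60, 167, 21), (60, 168, 21),
  (60, 168, 21), (60, 169, 21), (60, 170, 21), (60, 170, 21), (61, 170, 21), (61, 171, 21), (61, 171, 21), (61, 172, 21),
  (61, 172, 21), (61, 173, 21), (62, 173, 21), (62, 173, 21), (62, 174, 21), (62, 174, 21), (62, 175, 22), (62, 176, 22),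
  (63, 176, 22), (63, 176, 22), (63, 177, 22), (63, 177, 22), (63, 178, 22), (63, 178, 22), (64, 179, 22), (64, 179, 22),
  (64, 180, 22), (64, 180, 22), (64, 181, 22), (64, 181, 22), (65, 182, 22), (65, 182, 22), (65, 183, 22), (65, 183, 23),
  (65, 184, 23), (66, 184, 23), (66, 184, 23), (66, 185, 23), (66, 186, 23), (66, 186, 23), (66, 187, 23), (67, 187, 23),
  (67, 187, 23), (67, 188, 23), (67, 188, 23), (67, 189, 23), (67, 189, 23), (68, 190, 23), (68, 190, 23), (68, 191, 24),
  (68, 191, 24), (68, 192, 24), (68, 192, 24), (69, 193, 24), (69, 193, 24), (69, 194, 24), (69, 194, 24), (69, 195, 24),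
  (69, 195, 24), (70, 195, 24), (70, 196, 24), (70, 196, 24), (70, 197, 24), (70, 197, 24), (70, 198, 24), (71, 198, 24),
  (71, 199, 25), (71, 199, 25), (71, 200, 25), (71, 201, 25), (71, 201, 25), (72, 201, 25), (72, 202, 25), (72, 202, 25),
  (72, 203, 25), (72, 203, 25), (73, 204, 25), (73, 204, 25), (73, 205, 25), (73, 205, 25), (73, 206, 25), (73, 206, 25),
  (74, 206, 25), (74, 207, 26), (74, 207, 26), (74, 208, 26), (74, 208, 26), (74, 209, 26), (75, 209, 26), (75, 210, 26),
  (75, 210, 26), (75, 211, 26), (75, 211, 26), (75, 212, 26), (76, 212, 26), (76, 213, 26), (76, 213, 26), (76, 214, 26),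
  (76, 214, 26), (76, 215, 27), (77, 215, 27), (77, 216, 27), (77, 216, 27), (77, 217, 27), (77, 217, 27), (77, 218, 27),
  (78, 218, 27), (78, 218, 27), (78, 219, 27), (78, 219, 27), (78, 220, 27), (79, 220, 27), (79, 221, 27), (79, 221, 27),
  (79, 222, 27), (79, 222, 27), (79, 223, 28), (80, 223, 28), (80, 224, 28), (80, 224, 28), (80, 225, 28), (80, 225, 28),
  (80, 226, 28), (81, 226, 28), (81, 227, 28), (81, 227, 28), (81, 228, 28), (81, 228, 28), (81, 228, 28), (82, 229, 28),
  (82, 229, 28), (82, 230, 28), (82, 230, 28), (82, 231, 29), (82, 232, 29), (83, 232, 29), (83, 232, 29), (83, 233, 29),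
  (83, 233, 29), (83, 234, 29), (83, 234, 29), (84, 235, 29), (84, 235, 29), (84, 236, 29), (84, 236, 29), (84, 237, 29),
  (84, 237, 29), (85, 238, 29), (85, 238, 29), (85, 239, 30), (85, 239, 30), (85, 239, 30), (86, 240, 30), (86, 240, 30)]

/-- The test for `201 ≤ b < 505`. -/
def certT (b : ℕ) : Bool :=
  let p := parTab.getD (b - 201) (0, 0, 0)
  certP b p.1 p.2.1 p.2.2

/-- The test for `505 ≤ b`. -/
def certF (b : ℕ) : Bool :=
  certP b (171 * b / 1000) (478 * b / 1000) (6 * b / 100)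

set_option maxRecDepth 100000 in
lemma certT_blocks : allB certT 8 201 = true ∧ allB certT 5 457 = true ∧ allB certT 4 489 = true := by
  decide +kernel

set_option maxRecDepth 100000 in
lemma certF_0 : allB certF 11 505 = true := by
  decide +kernel

set_option maxRecDepth 100000 in
lemma certF_1 : allB certF 11 2553 = true := by
  decide +kernel

set_option maxRecDepth 100000 in
lemma certF_2 : allB certF 11 4601 = true := by
  decide +kernel

set_option maxRecDepth 100000 in
lemma certF_3 : allB certF 11 6649 = true := by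
  decide +kernel

set_option maxRecDepth 100000 in
lemma certF_4 : allB certF 11 8697 = true := by
  decide +kernel

set_option maxRecDepth 100000 in
lemma certF_5 : allB certF 11 10745 = true := by
  decide +kernel

set_option maxRecDepth 100000 in
lemma certF_6 : allB certF 11 12793 = true := by
  decide +kernel

set_option maxRecDepth 100000 in
lemma certF_7 : allB certF 11 14841 = true := by
  decide +kernel

set_option maxRecDepth 100000 in
lemma certF_8 : allB certF 11 16889 = true := by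
  decide +kernel

set_option maxRecDepth 100000 in
lemma certF_9 : allB certF 11 18937 = true := by
  decide +kernel

set_option maxRecDepth 100000 in
lemma certF_10 : allB certF 11 20985 = true := by
  decide +kernel

set_option maxRecDepth 100000 in
lemma certF_11 : allB certF 11 23033 = true := by
  decide +kernel

set_option maxRecDepth 100000 in
lemma certF_12 : allB certF 11 25081 = true := by
  decide +kernel

set_option maxRecDepth 100000 in
lemma certF_13 : allB certF 11 27129 = true := by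
  decide +kernel

set_option maxRecDepth 100000 in
lemma certF_14 : allB certF 11 29177 = true := by
  decide +kernel

set_option maxRecDepth 100000 in
lemma certF_15 : allB certF 11 31225 = true := by
  decide +kernel

set_option maxRecDepth 100000 in
lemma certF_16 : allB certF 11 33273 = true := by
  decide +kernel

set_option maxRecDepth 100000 in
lemma certF_17 : allB certF 11 35321 = true := by
  decide +kernel

set_option maxRecDepth 100000 in
lemma certF_18 : allB certF 11 37369 = true := by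
  decide +kernel

set_option maxRecDepth 100000 in
lemma certF_19 : allB certF 11 39417 = true := by
  decide +kernel

lemma certF_blocks (j : ℕ) (hj : j < 20) : allB certF 11 (505 + 2048 * j) = true := by
  interval_cases j
  · exact certF_0
  · exact certF_1
  · exact certF_2
  · exact certF_3
  · exact certF_4
  · exact certF_5
  · exact certF_6
  · exact certF_7
  · exact certF_8
  · exact certF_9
  · exact certF_10
  · exact certF_11
  · exact certF_12
  · exact certF_13
  · exact certF_14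
  · exact certF_15
  · exact certF_16
  · exact certF_17
  · exact certF_18
  · exact certF_19

/-- A certificate for every `b` with `201 ≤ b < 41465`. -/
theorem cert_mid (b : ℕ) (h1 : 201 ≤ b) (h2 : b < 41465) :
    ∃ h r₂ τ : ℕ, 2 * (b - aTop b - 1) + 3 ≤ b ∧
      Cert b (b - aTop b - 1) (aTop b) h r₂ τ (aTop b - 1) (r₂ - 1) := by
  have key : ∀ h r₂ τ : ℕ, certP b h r₂ τ = true → ∃ h r₂ τ : ℕ, 2 * (b - aTop b - 1) + 3 ≤ b ∧
      Cert b (b - aTop b - 1) (aTop b) h r₂ τ (aTop b - 1) (r₂ - 1) := by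
    intro h r₂ τ H
    simp only [certP, Bool.and_eq_true, Nat.ble_eq] at H
    exact ⟨h, r₂, τ, H.1, certB_spec H.2⟩
  by_cases h3 : b < 505
  · obtain ⟨B1, B2, B3⟩ := certT_blocks
    have T : certT b = true := by
      by_cases h4 : b < 457
      · exact allB_spec 8 201 B1 b h1 (by omega)
      · by_cases h5 : b < 489
        · exact allB_spec 5 457 B2 b (by omega) (by omega)
        · exact allB_spec 4 489 B3 b (by omega) (by omega)
    exact key _ _ _ T
  · have T : certF b = true := by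
      obtain ⟨j, hj⟩ : ∃ j, j = (b - 505) / 2048 := ⟨_, rfl⟩
      have h5 : j < 20 := by omega
      exact allB_spec 11 (505 + 2048 * j) (certF_blocks j h5) b (by omega) (by
        have : 2 ^ 11 = 2048 := by norm_num
        omega)
    exact key _ _ _ T

/-- The scale family: a certificate for all `x`. -/
theorem cert_base (x : ℕ) :
    Cert (157 * x + 314) (60 * x + 119) (97 * x + 194) (27 * x + 54) (75 * x + 150) (6 * x + 12)
      (97 * x + 193) (75 * x + 149) := by
  have hx : (0 : ℤ) ≤ x := by positivity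
  have h2 := pow_nonneg hx 2
  have h3 := pow_nonneg hx 3
  have h4 := pow_nonneg hx 4
  refine ⟨by omega, by omega, by omega, by omega, by omega, by omega, by omega, by omega, by omega,
    by omega, ?_, by omega, ?_, ?_, ?_, ?_, ?_, ?_, ?_, ?_, ?_⟩
  · have e : 97 * x + 194 - (75 * x + 150) = 22 * x + 44 := by omega
    rw [e]
    have := triN_two (22 * x + 44)
    nlinarith
  · nlinarith
  · nlinarith
  · nlinarith
  · nlinarith
  · push_cast
    linarith
  · push_cast
    nlinarith
  · push_cast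
    nlinarith
  · intro _
    push_cast
    nlinarith
  · intro _
    push_cast
    nlinarith

end Vale.Agent.Lib.P048
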