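import Vale.Agent.Lib.P048.NCList

namespace Vale.Agent.Lib.P048

open Finset

/-- A profile for all pairs in the range `13 (a + 1) ≤ 8 (b + 1)`, `b ≥ 201`. -/
theorem prof_large (a b : ℕ) (h1 : 201 ≤ b) (h2 : 13 * (a + 1) ≤ 8 * (b + 1)) :
    ∃ (i : ℕ) (s : ℕ → ℤ), Prof b i a s ∧ 2 * i + 3 ≤ b ∧ a + i < b := by
  by_cases h3 : b < 41465
  · obtain ⟨h, r₂, τ, H1, C⟩ := cert_mid b h1 h3
    have ha : a ≤ aTop b := by
      unfold aTop
      omega
    have hab := C.ab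
    exact ⟨b - aTop b - 1, prS h r₂, (prof_of_cert C).restrict ha, H1, by omega⟩
  · obtain ⟨x, e, hb, he⟩ : ∃ x e : ℕ, b = 157 * x + 314 + e ∧ e < 157 :=
      ⟨b / 157 - 2, b % 157, by omega, Nat.mod_lt _ (by norm_num)⟩
    subst hb
    have ha : a ≤ 97 * x + 194 := by omega
    have P := ((prof_of_cert (cert_base x)).restrict ha).shiftN e
    exact ⟨_, _, P, by omega, by omega⟩

/-- The final form, without additive constant in the range `13 n ≤ 8 m`, and for `m ≤ 201` in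
the range `8 n ≤ 5 m + 5`. -/
theorem final_nc {V : Type*} [Fintype V] (m n : ℕ) (hn : 2 ≤ n) (hm3 : 3 ≤ m)
    (hm : 2 * n ≤ m + 2 ∨ 8 * n + 2997 ≤ 5 * m ∨ 13 * n ≤ 8 * m ∨ (8 * n ≤ 5 * m + 5 ∧ m ≤ 201))
    (G : SimpleGraph V) (hcard : (m - 1) * (n - 1) + 1 ≤ Fintype.card V) :
    (∃ s : Finset V, s.card = n ∧ G.IsIndepSet (s : Set V)) ∨
      ∃ (v : V) (w : G.Walk v v), w.IsCycle ∧ w.length = m := by
  classical
  by_cases hsharp : 2 * n ≤ m + 2
  · exact final_sharp m n hn hsharp hm3 G hcard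
  by_cases h85 : 8 * n + 2997 ≤ 5 * m
  · exact final_85 m n hn h85 G hcard
  by_contra hcon
  push Not at hcon
  obtain ⟨h1, h2⟩ := hcon
  have hC : ∀ l, IsCyc G l → l.length = (m - 1) + 1 → False := by
    intro l hl hlm
    obtain ⟨v, w, hw, hwl⟩ := walk_of_cyc hl
    exact h2 v w hw (hwl.trans (by omega))
  have hB : Bound G (Finset.univ : Finset V) (n - 1) := by
    intro I _ hI
    by_contra hlt
    obtain ⟨s, hs, hsc⟩ := Finset.exists_subset_card_eq (show n ≤ I.card by omega)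
    exact h1 s hsc (hI.mono (by exact_mod_cast hs))
  obtain ⟨i, s, hP, hi, ha⟩ : ∃ (i : ℕ) (s : ℕ → ℤ), Prof (m - 1) i (n - 1) s ∧
      2 * i + 3 ≤ m - 1 ∧ (n - 1) + i < m - 1 := by
    by_cases hm2 : m - 1 ≤ 200
    · exact prof_small (m - 1) (n - 1) hm2 (by
        unfold aSmall
        omega) (by omega)
    · exact prof_large (n - 1) (m - 1) (by omega) (by omega)
  have := main_slope_two hC hP hi ha (n - 1) (le_refl _) Finset.univ hB
  rw [Finset.card_univ] at this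
  rw [Nat.mul_comm] at this
  omega

end Vale.Agent.Lib.P048
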