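import Vale.Agent.Lib.P048.SlopeFinal

namespace Vale.Agent.Lib.P048

/-- Triangular numbers. -/
def triN (t : ℕ) : ℕ := t * (t + 1) / 2

lemma triN_two (t : ℕ) : 2 * triN t = t * (t + 1) := by
  unfold triN
  exact Nat.two_mul_div_two_of_even (Nat.even_mul_succ_self t)

lemma triN_zero : triN 0 = 0 := rfl

lemma triN_succ (t : ℕ) : triN (t + 1) = triN t + (t + 1) := by
  have h1 := triN_two (t + 1)
  have h2 := triN_two t
  nlinarith

lemma triN_mono {s t : ℕ} (h : s ≤ t) : triN s ≤ triN t := by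
  induction t, h using Nat.le_induction with
  | base => exact le_refl _
  | succ t _ ih =>
    rw [triN_succ]
    omega

/-- The closed form profile: a rising parabola, a flat part, a falling parabola. -/
def prS (h r₂ r : ℕ) : ℤ :=
  2 * (h : ℤ) * ((min r h : ℕ) : ℤ) - ((min r h : ℕ) : ℤ) * (((min r h : ℕ) : ℤ) - 1) -
    3 * (triN (r - r₂) : ℤ)

lemma prS_low {h r₂ r : ℕ} (hr : r ≤ h) (hh : h ≤ r₂) :
    prS h r₂ r = 2 * (h : ℤ) * r - r * ((r : ℤ) - 1) := by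
  have h1 : min r h = r := by omega
  have h2 : r - r₂ = 0 := by omega
  simp only [prS, h1, h2, triN_zero]
  simp

lemma prS_mid {h r₂ r : ℕ} (h1 : h ≤ r) (h2 : r ≤ r₂) :
    prS h r₂ r = (h : ℤ) * (h + 1) := by
  have h3 : min r h = h := by omega
  have h4 : r - r₂ = 0 := by omega
  simp only [prS, h3, h4, triN_zero]
  push_cast
  ring

lemma prS_high {h r₂ : ℕ} (hh : h ≤ r₂) (t : ℕ) :
    prS h r₂ (r₂ + t) = (h : ℤ) * (h + 1) - 3 * (triN t : ℤ) := by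
  have h3 : min (r₂ + t) h = h := by omega
  have h4 : r₂ + t - r₂ = t := by omega
  simp only [prS, h3, h4]
  ring

/-- The six statements at a point, with `R = r - 1`, `u = s (r - 1)`, `v = s r`. -/
def Fields (b i R u v : ℤ) : Prop :=
  (R + 1) + 1 ≤ b - v + u ∧
  R ^ 2 + 1 ≤ 3 * (R * (b - R) - u) ∧
  1 ≤ (R + 1) * (R * (u - v) + u + R) - R ^ 2 ∧
  1 ≤ b * (R * (b - 2 * (R + 1) + 1) - u) + (R + 1) * (R * (u - v) + u + R) - R ^ 2 ∧
  (u < v → 0 ≤ R * (b - 2 * R) - u) ∧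
  (u < v → 1 ≤ (i + 2 - (v - u)) * (R * b - u) + R * u + R ^ 2 * (v - u) - 2 * (b + 1) * R ^ 2)

/-- Building a profile from the statements at all points. -/
lemma prof_of_fields {b i a : ℕ} {s : ℕ → ℤ} (hab : a + 1 ≤ b) (hib : i + 1 ≤ b) (hb3 : 3 ≤ b)
    (h0 : s 0 = 0) (h1 : s 1 ≤ i + 1) (hhalf : 2 * s 1 ≤ b)
    (hconc : ∀ j, 1 ≤ j → j + 1 ≤ a → s (j + 1) - s j ≤ s j - s (j - 1))
    (hnn : ∀ r, r ≤ a → 0 ≤ s r)
    (hF : ∀ R : ℕ, 1 ≤ R → R + 1 ≤ a → Fields b i R (s R) (s (R + 1))) :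
    Prof b i a s where
  ab := hab
  ib := hib
  b3 := hb3
  s0 := h0
  s1 := h1
  half := hhalf
  conc := hconc
  nonneg := hnn
  deg := fun r h2 hr => by
    obtain ⟨R, rfl⟩ : ∃ R, r = R + 1 := ⟨r - 1, by omega⟩
    have := (hF R (by omega) hr).1
    simp only [Nat.add_sub_cancel]
    push_cast
    linarith
  U1 := fun r h2 hr => by
    obtain ⟨R, rfl⟩ : ∃ R, r = R + 1 := ⟨r - 1, by omega⟩
    have := (hF R (by omega) hr).2.1
    simp only [Nat.add_sub_cancel]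
    have e : ((R + 1 : ℕ) : ℤ) - 1 = R := by push_cast; ring
    rw [e]
    exact this
  U2 := fun r h2 hr => by
    obtain ⟨R, rfl⟩ : ∃ R, r = R + 1 := ⟨r - 1, by omega⟩
    have := (hF R (by omega) hr).2.2.1
    simp only [Nat.add_sub_cancel]
    have e : ((R + 1 : ℕ) : ℤ) - 1 = R := by push_cast; ring
    rw [e]
    have e2 : ((R + 1 : ℕ) : ℤ) = (R : ℤ) + 1 := by push_cast; ring
    rw [e2]
    exact this
  U3 := fun r h2 hr => by
    obtain ⟨R, rfl⟩ : ∃ R, r = R + 1 := ⟨r - 1, by omega⟩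
    have := (hF R (by omega) hr).2.2.2.1
    simp only [Nat.add_sub_cancel]
    have e : ((R + 1 : ℕ) : ℤ) - 1 = R := by push_cast; ring
    rw [e]
    have e2 : ((R + 1 : ℕ) : ℤ) = (R : ℤ) + 1 := by push_cast; ring
    rw [e2]
    exact this
  R1 := fun r h2 hr => by
    obtain ⟨R, rfl⟩ : ∃ R, r = R + 1 := ⟨r - 1, by omega⟩
    have := (hF R (by omega) hr).2.2.2.2.1
    simp only [Nat.add_sub_cancel]
    have e : ((R + 1 : ℕ) : ℤ) - 1 = R := by push_cast; ring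
    rw [e]
    exact this
  R3 := fun r h2 hr => by
    obtain ⟨R, rfl⟩ : ∃ R, r = R + 1 := ⟨r - 1, by omega⟩
    have := (hF R (by omega) hr).2.2.2.2.2
    simp only [Nat.add_sub_cancel]
    have e : ((R + 1 : ℕ) : ℤ) - 1 = R := by push_cast; ring
    rw [e]
    exact this

/-- The certificate: finitely many inequalities that imply the profile conditions. -/
structure Cert (b i a h r₂ τ a' ρ : ℕ) : Prop where
  b3 : 3 ≤ b
  ab : a + 1 ≤ b
  ib : i + 1 ≤ b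
  h1 : 1 ≤ h
  hr : h + 1 ≤ r₂
  ra : r₂ ≤ a
  ea : a' + 1 = a
  er : ρ + 1 = r₂
  si : 2 * h ≤ i + 1
  hf : 4 * h ≤ b
  nn : 3 * triN (a - r₂) ≤ h * (h + 1)
  ur : h + 1 + 3 * (2 * h + 1) ≤ 3 * b
  uf1 : 4 * h ^ 2 + 3 * (h * (h + 1)) + 1 ≤ 3 * b * h
  uf2 : 4 * a' ^ 2 + 3 * (h * (h + 1)) + 1 ≤ 3 * b * a'
  fl1 : 1 + 2 * b * h ^ 2 + b * h + b * (h * (h + 1)) ≤
    b * b * h + h * (h * (h + 1)) + h * (h + 1) + h
  fl2 : 1 + 2 * b * ρ ^ 2 + b * ρ + b * (h * (h + 1)) ≤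
    b * b * ρ + ρ * (h * (h + 1)) + h * (h + 1) + ρ
  q2 : 1 + (b : ℤ) ≤ 9 * ρ + 6
  q0 : 0 ≤ (2 * (b : ℤ) * ρ * (b - 1 - 2 * ρ) + 2 * (ρ + 1 - b) * (h * (h + 1)) + 2 * ρ) -
      6 * τ ^ 3 - 2
  disc : ((2 * (b : ℤ) * (b - 1 - 4 * ρ) + 3 * (ρ + 1 - b) + 2 * (h * (h + 1)) +
        6 * ρ * (ρ + 1) + 2) + 9 * τ ^ 2) ^ 2 ≤
      4 * (9 * ρ + 6 - b) * ((2 * (b : ℤ) * ρ * (b - 1 - 2 * ρ) + 2 * (ρ + 1 - b) * (h * (h + 1)) +
        2 * ρ) - 6 * τ ^ 3 - 2)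
  r3a : 2 ≤ h → 5 ≤ (i + 2 - 2 * (h : ℤ)) * (b - 2 * h - 1) + (i + 2 - 2 * (h : ℤ))
  r3b : 2 ≤ h → 1 ≤ (i + 2 - 2 * (h : ℤ)) * (b - 2 * h - 1) +
      (i + 2 - 2 * (h : ℤ) - 3) * (h - 1) - ((h : ℤ) - 1) ^ 2

section rising
variable {b i h R : ℤ}

/-- The rising part. -/
lemma fields_rise (hR : 1 ≤ R) (hRh : R + 1 ≤ h) (hf : 4 * h ≤ b)
    (ur : h + 1 + 3 * (2 * h + 1) ≤ 3 * b)
    (hG : 1 ≤ (i + 2 - 2 * h) * (b - 2 * h - 1) + (i + 2 - 2 * h - 3) * R - R ^ 2) :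
    Fields b i R (2 * h * R - R * (R - 1)) (2 * h * (R + 1) - (R + 1) * (R + 1 - 1)) := by
  refine ⟨?_, ?_, ?_, ?_, ?_, ?_⟩
  · nlinarith
  · have h1 : 2 ≤ 3 * (b - 2 * h - 1) - R := by linarith
    have h2 : 2 * 1 ≤ (3 * (b - 2 * h - 1) - R) * R :=
      mul_le_mul h1 hR (by linarith) (by linarith)
    nlinarith
  · have h3 : 0 ≤ R ^ 3 := by positivity
    have h4 : 0 ≤ R ^ 2 := by positivity
    nlinarith
  · have h3 : 0 ≤ R ^ 3 := by positivity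
    have h4 : 0 ≤ R ^ 2 := by positivity
    have hb : 0 ≤ b := by linarith
    have h5 : 0 ≤ b * (R * (b - R - 2 * h - 2)) :=
      mul_nonneg hb (mul_nonneg (by linarith) (by linarith))
    nlinarith
  · intro _
    have h5 : 0 ≤ R * (b - R - 2 * h - 1) := mul_nonneg (by linarith) (by linarith)
    nlinarith
  · intro _
    have h5 : 1 * 1 ≤ R * ((i + 2 - 2 * h) * (b - 2 * h - 1) + (i + 2 - 2 * h - 3) * R - R ^ 2) :=
      mul_le_mul hR hG (by linarith) (by linarith)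
    nlinarith

/-- The flat part. -/
lemma fields_flat {S : ℤ} (hR : 1 ≤ R) (hb : R + 2 ≤ b) (hS : 0 ≤ S)
    (hU1 : R ^ 2 + 1 ≤ 3 * (R * (b - R) - S))
    (hU3 : 1 ≤ b * (R * (b - 2 * (R + 1) + 1) - S) + (R + 1) * (S + R) - R ^ 2) :
    Fields b i R S S := by
  refine ⟨?_, hU1, ?_, ?_, ?_, ?_⟩
  · linarith
  · nlinarith
  · have e : (R + 1) * (R * (S - S) + S + R) - R ^ 2 = (R + 1) * (S + R) - R ^ 2 := by ring
    have e2 : b * (R * (b - 2 * (R + 1) + 1) - S) + (R + 1) * (R * (S - S) + S + R) - R ^ 2 =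
        b * (R * (b - 2 * (R + 1) + 1) - S) + (R + 1) * (S + R) - R ^ 2 := by ring
    rw [e2]
    exact hU3
  · intro h
    exact absurd h (lt_irrefl _)
  · intro h
    exact absurd h (lt_irrefl _)

/-- The falling part. -/
lemma fields_fall {S ρ t τ : ℤ} {T T' : ℤ} (hR : 1 ≤ R) (hRe : R = ρ + t) (ht : 1 ≤ t)
    (hT : 2 * T = t * (t - 1)) (hT' : T' = T + t) (hb : R + 2 ≤ b) (hS : 0 ≤ S) (hu0 : 0 ≤ S - 3 * T)
    (hT0 : 0 ≤ T) (hτ : 0 ≤ τ)
    (hU1 : R ^ 2 + 1 ≤ 3 * (R * (b - R) - S))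
    (q2 : 1 + b ≤ 9 * ρ + 6)
    (q0 : 0 ≤ (2 * b * ρ * (b - 1 - 2 * ρ) + 2 * (ρ + 1 - b) * S + 2 * ρ) - 6 * τ ^ 3 - 2)
    (disc : ((2 * b * (b - 1 - 4 * ρ) + 3 * (ρ + 1 - b) + 2 * S + 6 * ρ * (ρ + 1) + 2) + 9 * τ ^ 2) ^ 2 ≤
      4 * (9 * ρ + 6 - b) * ((2 * b * ρ * (b - 1 - 2 * ρ) + 2 * (ρ + 1 - b) * S + 2 * ρ) - 6 * τ ^ 3 - 2)) :
    Fields b i R (S - 3 * T) (S - 3 * T') := by
  have hbt : 0 ≤ 3 * T' - 3 * T := by rw [hT']; linarith
  refine ⟨?_, ?_, ?_, ?_, ?_, ?_⟩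
  · rw [hT']
    linarith
  · have : 0 ≤ R := by linarith
    nlinarith
  · rw [hT']
    have e : (R + 1) * (R * (S - 3 * T - (S - 3 * (T + t))) + (S - 3 * T) + R) - R ^ 2 =
        (R + 1) * (R * (3 * t) + (S - 3 * T)) + R := by ring
    rw [e]
    have h1 : 0 ≤ (R + 1) * (R * (3 * t) + (S - 3 * T)) :=
      mul_nonneg (by linarith) (add_nonneg (mul_nonneg (by linarith) (by linarith)) hu0)
    linarith
  · rw [hT']
    subst hRe
    -- the polynomial in `t`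
    set Q2 := 9 * ρ + 6 - b with hQ2
    set Q1 := (2 * b * (b - 1 - 4 * ρ) + 3 * (ρ + 1 - b) + 2 * S + 6 * ρ * (ρ + 1) + 2) + 9 * τ ^ 2
      with hQ1
    set Q0 := (2 * b * ρ * (b - 1 - 2 * ρ) + 2 * (ρ + 1 - b) * S + 2 * ρ) - 6 * τ ^ 3 - 2 with hQ0
    have hQ2p : 0 < Q2 := by rw [hQ2]; linarith
    have key : 0 ≤ 4 * Q2 * (Q2 * t ^ 2 + Q1 * t + Q0) := by
      have e : 4 * Q2 * (Q2 * t ^ 2 + Q1 * t + Q0) = (2 * Q2 * t + Q1) ^ 2 + (4 * Q2 * Q0 - Q1 ^ 2) := by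
        ring
      rw [e]
      have := sq_nonneg (2 * Q2 * t + Q1)
      linarith
    have key2 : 0 ≤ Q2 * t ^ 2 + Q1 * t + Q0 := by
      have h4 : 0 < 4 * Q2 := by linarith
      exact nonneg_of_mul_nonneg_right key h4
    have tang : 0 ≤ (t - τ) ^ 2 * (t + 2 * τ) :=
      mul_nonneg (sq_nonneg _) (by linarith)
    have e2 : 2 * (b * ((ρ + t) * (b - 2 * (ρ + t + 1) + 1) - (S - 3 * T)) +
        (ρ + t + 1) * ((ρ + t) * (S - 3 * T - (S - 3 * (T + t))) + (S - 3 * T) + (ρ + t)) -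
        (ρ + t) ^ 2) =
      3 * t ^ 3 + (9 * ρ + 6 - b) * t ^ 2 +
        (2 * b * (b - 1 - 4 * ρ) + 3 * (ρ + 1 - b) + 2 * S + 6 * ρ * (ρ + 1) + 2) * t +
        (2 * b * ρ * (b - 1 - 2 * ρ) + 2 * (ρ + 1 - b) * S + 2 * ρ) +
        (3 * (2 * T - t * (t - 1))) * (b - (ρ + t + 1)) := by
      ring
    have e3 : (3 * (2 * T - t * (t - 1))) * (b - (ρ + t + 1)) = 0 := by
      rw [hT]
      ring
    rw [e3] at e2
    have e4 : Q2 * t ^ 2 + Q1 * t + Q0 + 3 * ((t - τ) ^ 2 * (t + 2 * τ)) + 2 =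
      3 * t ^ 3 + (9 * ρ + 6 - b) * t ^ 2 +
        (2 * b * (b - 1 - 4 * ρ) + 3 * (ρ + 1 - b) + 2 * S + 6 * ρ * (ρ + 1) + 2) * t +
        (2 * b * ρ * (b - 1 - 2 * ρ) + 2 * (ρ + 1 - b) * S + 2 * ρ) := by
      rw [hQ2, hQ1, hQ0]
      ring
    linarith
  · intro h
    rw [hT'] at h
    linarith
  · intro h
    rw [hT'] at h
    linarith

end rising

/-- Increments of the profile. -/
lemma prS_inc {h r₂ : ℕ} (hh : h + 1 ≤ r₂) (R : ℕ) :
    prS h r₂ (R + 1) - prS h r₂ R =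
      (if R + 1 ≤ h then 2 * (h : ℤ) - 2 * R else 0) -
        (if r₂ ≤ R then 3 * ((R : ℤ) + 1 - r₂) else 0) := by
  by_cases h1 : R + 1 ≤ h
  · have h2 : ¬ r₂ ≤ R := by omega
    rw [prS_low h1 (by omega), prS_low (by omega : R ≤ h) (by omega), if_pos h1, if_neg h2]
    push_cast
    ring
  · by_cases h2 : r₂ ≤ R
    · obtain ⟨t, rfl⟩ : ∃ t, R = r₂ + t := ⟨R - r₂, by omega⟩
      have e : r₂ + t + 1 = r₂ + (t + 1) := by omega
      rw [e, prS_high (by omega), prS_high (by omega), triN_succ, if_neg (by omega), if_pos (by omega)]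
      push_cast
      ring
    · rw [prS_mid (by omega) (by omega), prS_mid (by omega) (by omega), if_neg h1, if_neg h2]
      ring

/-- The certificate gives a profile. -/
theorem prof_of_cert {b i a h r₂ τ a' ρ : ℕ} (C : Cert b i a h r₂ τ a' ρ) :
    Prof b i a (prS h r₂) := by
  have hhr : h ≤ r₂ := by have := C.hr; omega
  have hh1 := C.h1
  have hr := C.hr
  have hab := C.ab
  have hra := C.ra
  have hea := C.ea
  have her := C.er
  have hs1 : prS h r₂ 1 = 2 * (h : ℤ) := by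
    rw [prS_low (by omega) hhr]
    push_cast
    ring
  set S : ℤ := (h : ℤ) * (h + 1) with hS
  have hS0 : 0 ≤ S := by positivity
  -- the first quadratic on `[h, a']`
  have hU1 : ∀ R : ℕ, h ≤ R → R + 1 ≤ a →
      (R : ℤ) ^ 2 + 1 ≤ 3 * ((R : ℤ) * ((b : ℤ) - R) - S) := by
    intro R h1 h2
    have e1 : (0 : ℤ) ≤ (-4) * (h : ℤ) ^ 2 + (3 * (b : ℤ)) * h + (-3 * S - 1) := by
      have := C.uf1
      have h3 : (4 * (h : ℤ) ^ 2 + 3 * ((h : ℤ) * (h + 1)) + 1) ≤ 3 * b * h := by exact_mod_cast this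
      rw [hS]
      linarith
    have e2 : (0 : ℤ) ≤ (-4) * (a' : ℤ) ^ 2 + (3 * (b : ℤ)) * a' + (-3 * S - 1) := by
      have := C.uf2
      have h3 : (4 * (a' : ℤ) ^ 2 + 3 * ((h : ℤ) * (h + 1)) + 1) ≤ 3 * b * a' := by exact_mod_cast this
      rw [hS]
      linarith
    have e3 := quad_ge (p := -4) (q := 3 * (b : ℤ)) (t := -3 * S - 1) (R₁ := (h : ℤ)) (R₂ := (a' : ℤ))
      (R := (R : ℤ)) (c := 0) (by norm_num) (by exact_mod_cast h1) (by
        have : R ≤ a' := by omega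
        exact_mod_cast this) e1 e2
    nlinarith
  -- the second quadratic on `[h, ρ]`
  have hU3 : ∀ R : ℕ, h ≤ R → R ≤ ρ →
      1 ≤ (b : ℤ) * ((R : ℤ) * ((b : ℤ) - 2 * ((R : ℤ) + 1) + 1) - S) + ((R : ℤ) + 1) * (S + R) - (R : ℤ) ^ 2 := by
    intro R h1 h2
    have e1 : (1 : ℤ) ≤ (-2 * (b : ℤ)) * (h : ℤ) ^ 2 + ((b : ℤ) * b - b + S + 1) * h + (S - b * S) := by
      have := C.fl1
      have h3 : (1 + 2 * (b : ℤ) * (h : ℤ) ^ 2 + b * h + b * ((h : ℤ) * (h + 1))) ≤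
          b * b * h + h * ((h : ℤ) * (h + 1)) + (h : ℤ) * (h + 1) + h := by exact_mod_cast this
      rw [hS]
      linarith
    have e2 : (1 : ℤ) ≤ (-2 * (b : ℤ)) * (ρ : ℤ) ^ 2 + ((b : ℤ) * b - b + S + 1) * ρ + (S - b * S) := by
      have := C.fl2
      have h3 : (1 + 2 * (b : ℤ) * (ρ : ℤ) ^ 2 + b * ρ + b * ((h : ℤ) * (h + 1))) ≤
          b * b * ρ + ρ * ((h : ℤ) * (h + 1)) + (h : ℤ) * (h + 1) + ρ := by exact_mod_cast this
      rw [hS]
      nlinarith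
    have e3 := quad_ge (p := -2 * (b : ℤ)) (q := (b : ℤ) * b - b + S + 1) (t := S - b * S)
      (R₁ := (h : ℤ)) (R₂ := (ρ : ℤ)) (R := (R : ℤ)) (c := 1) (by
        have : (0 : ℤ) ≤ b := by positivity
        linarith) (by exact_mod_cast h1) (by exact_mod_cast h2) e1 e2
    nlinarith
  refine prof_of_fields C.ab C.ib C.b3 ?_ ?_ ?_ ?_ ?_ ?_
  · simp [prS, triN_zero]
  · rw [hs1]
    have := C.si
    have h2 : 2 * (h : ℤ) ≤ i + 1 := by exact_mod_cast this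
    linarith
  · rw [hs1]
    have := C.hf
    have h2 : 4 * (h : ℤ) ≤ b := by exact_mod_cast this
    linarith
  · intro j hj1 hj2
    obtain ⟨R, rfl⟩ : ∃ R, j = R + 1 := ⟨j - 1, by omega⟩
    have h1 := prS_inc hr (R + 1)
    have h2 := prS_inc hr R
    simp only [Nat.add_sub_cancel]
    rw [h1, h2]
    split_ifs <;> push_cast <;> omega
  · intro r hr'
    by_cases h1 : r ≤ h
    · rw [prS_low h1 hhr]
      have h3 : (r : ℤ) ≤ h := by exact_mod_cast h1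
      have h4 : (0 : ℤ) ≤ r := by positivity
      nlinarith
    · by_cases h2 : r ≤ r₂
      · rw [prS_mid (by omega) h2]
        exact hS0
      · obtain ⟨t, rfl⟩ : ∃ t, r = r₂ + t := ⟨r - r₂, by omega⟩
        rw [prS_high hhr]
        have h3 : triN t ≤ triN (a - r₂) := triN_mono (by omega)
        have h4 := C.nn
        have h5 : 3 * triN t ≤ h * (h + 1) := by omega
        have h6 : 3 * (triN t : ℤ) ≤ (h : ℤ) * (h + 1) := by exact_mod_cast h5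
        linarith
  · intro R hR1 hRa
    have hRz : (1 : ℤ) ≤ R := by exact_mod_cast hR1
    have hb2 : (R : ℤ) + 2 ≤ b := by
      have : R + 2 ≤ b := by omega
      exact_mod_cast this
    by_cases h1 : R + 1 ≤ h
    · rw [prS_low (by omega : R ≤ h) hhr, prS_low h1 hhr]
      have e : ((R + 1 : ℕ) : ℤ) = (R : ℤ) + 1 := by push_cast; ring
      rw [e]
      have hh2 : 2 ≤ h := by omega
      have hhz : (R : ℤ) + 1 ≤ h := by exact_mod_cast h1
      have hG : 1 ≤ ((i : ℤ) + 2 - 2 * h) * (b - 2 * h - 1) + ((i : ℤ) + 2 - 2 * h - 3) * R - (R : ℤ) ^ 2 := by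
        have e1 : (1 : ℤ) ≤ (-1) * (1 : ℤ) ^ 2 + ((i : ℤ) + 2 - 2 * h - 3) * 1 +
            (((i : ℤ) + 2 - 2 * h) * (b - 2 * h - 1)) := by
          have := C.r3a hh2
          linarith
        have e2 : (1 : ℤ) ≤ (-1) * ((h : ℤ) - 1) ^ 2 + ((i : ℤ) + 2 - 2 * h - 3) * ((h : ℤ) - 1) +
            (((i : ℤ) + 2 - 2 * h) * (b - 2 * h - 1)) := by
          have := C.r3b hh2
          linarith
        have e3 := quad_ge (p := -1) (q := (i : ℤ) + 2 - 2 * h - 3)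
          (t := ((i : ℤ) + 2 - 2 * h) * (b - 2 * h - 1)) (R₁ := 1) (R₂ := (h : ℤ) - 1) (R := (R : ℤ))
          (c := 1) (by norm_num) hRz (by linarith) e1 e2
        linarith
      exact fields_rise hRz hhz (by
        have := C.hf
        exact_mod_cast this) (by
        have := C.ur
        exact_mod_cast this) hG
    · by_cases h2 : R + 1 ≤ r₂
      · rw [prS_mid (by omega) (by omega), prS_mid (by omega) (by omega)]
        exact fields_flat hRz hb2 hS0 (hU1 R (by omega) hRa) (hU3 R (by omega) (by omega))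
      · obtain ⟨t, rfl⟩ : ∃ t, R = r₂ + t := ⟨R - r₂, by omega⟩
        have e : r₂ + t + 1 = r₂ + (t + 1) := by omega
        rw [e, prS_high hhr, prS_high hhr]
        have htri : 2 * (triN t : ℤ) = ((t : ℤ) + 1) * (((t : ℤ) + 1) - 1) := by
          have := triN_two t
          have h3 : 2 * (triN t : ℤ) = (t : ℤ) * (t + 1) := by exact_mod_cast this
          rw [h3]
          ring
        have htri2 : (triN (t + 1) : ℤ) = (triN t : ℤ) + ((t : ℤ) + 1) := by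
          rw [triN_succ]
          push_cast
          ring
        have hu0 : 0 ≤ S - 3 * (triN t : ℤ) := by
          have h3 : triN t ≤ triN (a - r₂) := triN_mono (by omega)
          have h4 := C.nn
          have h5 : 3 * triN t ≤ h * (h + 1) := by omega
          have h6 : 3 * (triN t : ℤ) ≤ (h : ℤ) * (h + 1) := by exact_mod_cast h5
          rw [hS]
          linarith
        have hRe : ((r₂ + t : ℕ) : ℤ) = (ρ : ℤ) + ((t : ℤ) + 1) := by
          rw [← her]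
          push_cast
          ring
        have hq2 := C.q2
        have hq0 := C.q0
        have hdisc := C.disc
        exact fields_fall (S := S) (ρ := (ρ : ℤ)) (t := (t : ℤ) + 1) (τ := (τ : ℤ))
          (T := (triN t : ℤ)) (T' := (triN (t + 1) : ℤ)) hRz hRe (by
            have : (0 : ℤ) ≤ t := by positivity
            linarith) htri htri2 hb2 hS0 hu0 (by positivity) (by positivity)
          (hU1 (r₂ + t) (by omega) hRa) hq2 hq0 hdisc

end Vale.Agent.Lib.P048
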