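import Vale.Agent.Lib.P048.RunExact

namespace Vale.Agent.Lib.P048

/-- The scan for `a`, with `b` and `i` given. -/
noncomputable def exactAux (a b i : ℕ) : Bool :=
  Nat.beq (rRun (eStep b i) 12 (RSt.mk (Nat.sub a 1) 2 (Nat.add i 1) (Nat.add i 1) 0)).n 0

/-- The scan for `a`. -/
noncomputable def exactB (a : ℕ) : Bool :=
  (fun b => exactAux a b (Nat.sub (Nat.sub b a) 1)) (Nat.div (Nat.add (Nat.mul 8 a) 2) 5)

/-- The scans for `lo, ..., lo + m - 1`. -/
noncomputable def allE (lo m : ℕ) : Bool :=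
  Nat.rec true (fun k ih => aB (exactB (Nat.add lo k)) ih) m

lemma allE_spec {lo m : ℕ} (h : allE lo m = true) : ∀ a, lo ≤ a → a < lo + m → exactB a = true := by
  induction m with
  | zero =>
    intro a h1 h2
    omega
  | succ k ih =>
    have e : allE lo (k + 1) = aB (exactB (Nat.add lo k)) (allE lo k) := rfl
    rw [e, aB_eq_true] at h
    intro a h1 h2
    rcases Nat.lt_or_ge a (lo + k) with h3 | h3
    · exact ih h.2 a h1 h3
    · have : a = lo + k := by omega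
      subst this
      exact h.1

/-- The exact profile for `a`, shifted to `b`. -/
lemma prof_of_exact {a b : ℕ} (ha : 4 ≤ a) (hE : exactB a = true) (h1 : 8 * a ≤ 5 * b + 2)
    (h2 : b + 1 < 2 * a) :
    ∃ (i : ℕ) (s : ℕ → ℤ), Prof b i a s ∧ 2 * i + 3 ≤ b ∧ a + i < b := by
  obtain ⟨b0, hb0⟩ : ∃ b0, b0 = (8 * a + 2) / 5 := ⟨_, rfl⟩
  have hE' : exactAux a b0 (b0 - a - 1) = true := by
    rw [hb0]
    exact hE
  have hb1 : 5 * b0 ≤ 8 * a + 2 := by omega
  have hb2 : 8 * a + 2 < 5 * b0 + 5 := by omega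
  obtain ⟨i, hi⟩ : ∃ i, i = b0 - a - 1 := ⟨_, rfl⟩
  rw [← hi] at hE'
  have hi2 : i + a + 1 = b0 := by omega
  have hbb : b0 ≤ b := by omega
  obtain ⟨s, hs⟩ := prof_of_run (a := a) (b := b0) (i := i) (by omega) (by omega) (by omega) (by omega)
    (by omega) hE'
  obtain ⟨e, rfl⟩ : ∃ e, b = b0 + e := ⟨b - b0, by omega⟩
  exact ⟨i + e, s, hs.shiftN e, by omega, by omega⟩

end Vale.Agent.Lib.P048
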