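import Vale.Agent.Lib.P048.RunCover

namespace Vale.Agent.Lib.P048

/-- A block of the chain of tables. -/
theorem chain_block_0 : PCover 1222 1281 :=
  cover_of_chain (K := 1222) (I := 457) (E := 1281) (l := [
  (1224, 458), (1225, 458), (1227, 459), (1228, 459), (1230, 460), (1232, 461), (1233, 461),
  (1235, 462), (1236, 462), (1238, 463), (1240, 464), (1241, 464), (1243, 465), (1244, 465),
  (1246, 466), (1248, 467), (1249, 467), (1251, 468), (1252, 468), (1254, 469), (1256, 470),
  (1257, 470), (1259, 471), (1260, 471), (1262, 472), (1264, 473), (1265, 473), (1267, 474),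
  (1268, 474), (1270, 475), (1272, 476), (1273, 476), (1275, 477), (1276, 477), (1278, 478),
  (1280, 479)]) (by decide +kernel)

end Vale.Agent.Lib.P048
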