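import Vale.Agent.Lib.P048.RunCover

namespace Vale.Agent.Lib.P048

/-- A block of the chain of tables. -/
theorem chain_block_1 : PCover 1281 1339 :=
  cover_of_chain (K := 1281) (I := 479) (E := 1339) (l := [
  (1283, 480), (1284, 480), (1286, 481), (1287, 481), (1289, 482), (1291, 483), (1292, 483),
  (1294, 484), (1295, 484), (1297, 485), (1299, 486), (1300, 486), (1302, 487), (1303, 487),
  (1305, 488), (1307, 489), (1308, 489), (1310, 490), (1311, 490), (1313, 491), (1315, 492),
  (1316, 492), (1318, 493), (1319, 493), (1321, 494), (1323, 495), (1324, 495), (1326, 496),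
  (1327, 496), (1329, 497), (1331, 498), (1332, 498), (1334, 499), (1335, 499), (1337, 500)]) (by decide +kernel)

end Vale.Agent.Lib.P048
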