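import Vale.Agent.Lib.P048.RunCover

namespace Vale.Agent.Lib.P048

/-- A block of the chain of tables. -/
theorem chain_block_10 : PCover 1901 1991 :=
  cover_of_chain (K := 1901) (I := 710) (E := 1991) (l := [
  (1905, 712), (1908, 713), (1911, 714), (1914, 715), (1917, 716), (1921, 718), (1924, 719),
  (1928, 720), (1932, 722), (1936, 723), (1940, 725), (1944, 726), (1948, 728), (1952, 729),
  (1956, 731), (1960, 732), (1964, 734), (1968, 735), (1972, 737), (1976, 738), (1980, 740),
  (1983, 741), (1987, 742)]) (by decide +kernel)

end Vale.Agent.Lib.P048
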