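import Vale.Agent.Lib.P048.RunCover

namespace Vale.Agent.Lib.P048

/-- A block of the chain of tables. -/
theorem chain_block_11 : PCover 1991 2082 :=
  cover_of_chain (K := 1991) (I := 744) (E := 2082) (l := [
  (1995, 745), (1999, 747), (2003, 748), (2007, 750), (2011, 751), (2015, 753), (2019, 754),
  (2023, 756), (2027, 757), (2031, 759), (2035, 760), (2039, 762), (2042, 763), (2046, 764),
  (2050, 766), (2054, 767), (2058, 769), (2062, 770), (2066, 772), (2070, 773), (2074, 775),
  (2078, 776)]) (by decide +kernel)

end Vale.Agent.Lib.P048
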