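import Vale.Agent.Lib.P048.RunCover

namespace Vale.Agent.Lib.P048

/-- A block of the chain of tables. -/
theorem chain_block_12 : PCover 2082 2176 :=
  cover_of_chain (K := 2082) (I := 778) (E := 2176) (l := [
  (2086, 779), (2090, 781), (2093, 782), (2097, 783), (2101, 785), (2105, 786), (2109, 788),
  (2113, 789), (2117, 791), (2121, 792), (2125, 794), (2129, 795), (2133, 797), (2137, 798),
  (2142, 800), (2147, 802), (2152, 804), (2156, 805), (2161, 807), (2166, 809), (2171, 811)]) (by decide +kernel)

end Vale.Agent.Lib.P048
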