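import Vale.Agent.Lib.P048.RunCover

namespace Vale.Agent.Lib.P048

/-- A block of the chain of tables. -/
theorem chain_block_13 : PCover 2176 2276 :=
  cover_of_chain (K := 2176) (I := 813) (E := 2276) (l := [
  (2180, 814), (2185, 816), (2190, 818), (2195, 820), (2200, 822), (2204, 823), (2209, 825),
  (2214, 827), (2219, 829), (2223, 830), (2228, 832), (2233, 834), (2238, 836), (2243, 838),
  (2247, 839), (2252, 841), (2257, 843), (2262, 845), (2267, 847), (2271, 848)]) (by decide +kernel)

end Vale.Agent.Lib.P048
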