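import Vale.Agent.Lib.P048.RunCover

namespace Vale.Agent.Lib.P048

/-- A block of the chain of tables. -/
theorem chain_block_14 : PCover 2276 2372 :=
  cover_of_chain (K := 2276) (I := 850) (E := 2372) (l := [
  (2281, 852), (2286, 854), (2290, 855), (2295, 857), (2300, 859), (2305, 861), (2310, 863),
  (2314, 864), (2319, 866), (2324, 868), (2329, 870), (2333, 871), (2338, 873), (2343, 875),
  (2348, 877), (2353, 879), (2357, 880), (2362, 882), (2367, 884)]) (by decide +kernel)

end Vale.Agent.Lib.P048
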