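import Vale.Agent.Lib.P048.RunCover

namespace Vale.Agent.Lib.P048

/-- A block of the chain of tables. -/
theorem chain_block_15 : PCover 2372 2444 :=
  cover_of_chain (K := 2372) (I := 886) (E := 2444) (l := [
  (2377, 888), (2381, 889), (2386, 891), (2392, 893), (2397, 895), (2402, 897), (2408, 899),
  (2413, 901), (2418, 903), (2424, 905), (2429, 907), (2434, 909), (2439, 911)]) (by decide +kernel)

end Vale.Agent.Lib.P048
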