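import Vale.Agent.Lib.P048.RunCover

namespace Vale.Agent.Lib.P048

/-- A block of the chain of tables. -/
theorem chain_block_2 : PCover 1339 1393 :=
  cover_of_chain (K := 1339) (I := 501) (E := 1393) (l := [
  (1340, 501), (1342, 502), (1343, 502), (1345, 503), (1346, 503), (1348, 504), (1350, 505),
  (1351, 505), (1353, 506), (1354, 506), (1356, 507), (1358, 508), (1359, 508), (1361, 509),
  (1362, 509), (1364, 510), (1366, 511), (1367, 511), (1369, 512), (1370, 512), (1372, 513),
  (1374, 514), (1375, 514), (1377, 515), (1378, 515), (1380, 516), (1382, 517), (1383, 517),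
  (1385, 518), (1386, 518), (1388, 519), (1390, 520), (1391, 520)]) (by decide +kernel)

end Vale.Agent.Lib.P048
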