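import Vale.Agent.Lib.P048.RunCover

namespace Vale.Agent.Lib.P048

/-- A block of the chain of tables. -/
theorem chain_block_3 : PCover 1393 1445 :=
  cover_of_chain (K := 1393) (I := 521) (E := 1445) (l := [
  (1394, 521), (1396, 522), (1397, 522), (1399, 523), (1401, 524), (1402, 524), (1404, 525),
  (1405, 525), (1407, 526), (1409, 527), (1410, 527), (1412, 528), (1413, 528), (1415, 529),
  (1417, 530), (1418, 530), (1420, 531), (1421, 531), (1423, 532), (1425, 533), (1426, 533),
  (1428, 534), (1429, 534), (1431, 535), (1433, 536), (1434, 536), (1436, 537), (1437, 537),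
  (1439, 538), (1441, 539), (1442, 539), (1444, 540)]) (by decide +kernel)

end Vale.Agent.Lib.P048
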