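import Vale.Agent.Lib.P048.RunCover

namespace Vale.Agent.Lib.P048

/-- A block of the chain of tables. -/
theorem chain_block_4 : PCover 1445 1506 :=
  cover_of_chain (K := 1445) (I := 540) (E := 1506) (l := [
  (1447, 541), (1449, 542), (1450, 542), (1452, 543), (1453, 543), (1455, 544), (1457, 545),
  (1458, 545), (1460, 546), (1461, 546), (1464, 547), (1466, 548), (1468, 549), (1469, 549),
  (1472, 550), (1474, 551), (1476, 552), (1477, 552), (1480, 553), (1482, 554), (1484, 555),
  (1485, 555), (1488, 556), (1490, 557), (1492, 558), (1493, 558), (1496, 559), (1498, 560),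
  (1500, 561), (1501, 561), (1504, 562)]) (by decide +kernel)

end Vale.Agent.Lib.P048
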