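import Vale.Agent.Lib.P048.RunCover

namespace Vale.Agent.Lib.P048

/-- A block of the chain of tables. -/
theorem chain_block_5 : PCover 1506 1581 :=
  cover_of_chain (K := 1506) (I := 563) (E := 1581) (l := [
  (1508, 564), (1509, 564), (1512, 565), (1514, 566), (1516, 567), (1517, 567), (1520, 568),
  (1523, 569), (1525, 570), (1528, 571), (1531, 572), (1533, 573), (1536, 574), (1539, 575),
  (1541, 576), (1544, 577), (1547, 578), (1549, 579), (1552, 580), (1555, 581), (1557, 582),
  (1560, 583), (1563, 584), (1565, 585), (1568, 586), (1571, 587), (1573, 588), (1576, 589),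
  (1579, 590)]) (by decide +kernel)

end Vale.Agent.Lib.P048
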