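import Vale.Agent.Lib.P048.RunCover

namespace Vale.Agent.Lib.P048

/-- A block of the chain of tables. -/
theorem chain_block_6 : PCover 1581 1659 :=
  cover_of_chain (K := 1581) (I := 591) (E := 1659) (l := [
  (1584, 592), (1587, 593), (1589, 594), (1592, 595), (1595, 596), (1597, 597), (1600, 598),
  (1603, 599), (1605, 600), (1608, 601), (1611, 602), (1613, 603), (1616, 604), (1619, 605),
  (1621, 606), (1624, 607), (1627, 608), (1629, 609), (1632, 610), (1635, 611), (1637, 612),
  (1640, 613), (1643, 614), (1645, 615), (1648, 616), (1651, 617), (1653, 618), (1656, 619)]) (by decide +kernel)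

end Vale.Agent.Lib.P048
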