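import Vale.Agent.Lib.P048.RunCover

namespace Vale.Agent.Lib.P048

/-- A block of the chain of tables. -/
theorem chain_block_7 : PCover 1659 1739 :=
  cover_of_chain (K := 1659) (I := 620) (E := 1739) (l := [
  (1661, 621), (1664, 622), (1667, 623), (1669, 624), (1672, 625), (1675, 626), (1677, 627),
  (1680, 628), (1683, 629), (1685, 630), (1688, 631), (1691, 632), (1694, 633), (1697, 634),
  (1700, 635), (1704, 637), (1707, 638), (1710, 639), (1713, 640), (1716, 641), (1720, 643),
  (1723, 644), (1726, 645), (1729, 646), (1732, 647), (1736, 649)]) (by decide +kernel)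

end Vale.Agent.Lib.P048
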