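import Vale.Agent.Lib.P048.RunCover

namespace Vale.Agent.Lib.P048

/-- A block of the chain of tables. -/
theorem chain_block_8 : PCover 1739 1822 :=
  cover_of_chain (K := 1739) (I := 650) (E := 1822) (l := [
  (1742, 651), (1745, 652), (1748, 653), (1751, 654), (1755, 656), (1758, 657), (1761, 658),
  (1764, 659), (1767, 660), (1771, 662), (1774, 663), (1777, 664), (1780, 665), (1783, 666),
  (1787, 668), (1790, 669), (1793, 670), (1796, 671), (1799, 672), (1803, 674), (1806, 675),
  (1809, 676), (1812, 677), (1815, 678), (1818, 679)]) (by decide +kernel)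

end Vale.Agent.Lib.P048
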