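import Vale.Agent.Lib.P048.RunCover

namespace Vale.Agent.Lib.P048

/-- A block of the chain of tables. -/
theorem chain_block_9 : PCover 1822 1901 :=
  cover_of_chain (K := 1822) (I := 681) (E := 1901) (l := [
  (1825, 682), (1828, 683), (1831, 684), (1834, 685), (1838, 687), (1841, 688), (1844, 689),
  (1847, 690), (1850, 691), (1854, 693), (1857, 694), (1860, 695), (1863, 696), (1866, 697),
  (1869, 698), (1873, 700), (1876, 701), (1879, 702), (1882, 703), (1885, 704), (1889, 706),
  (1892, 707), (1895, 708), (1898, 709)]) (by decide +kernel)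

end Vale.Agent.Lib.P048
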