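import Vale.Agent.Lib.P048.RunChain0
import Vale.Agent.Lib.P048.RunChain1
import Vale.Agent.Lib.P048.RunChain2
import Vale.Agent.Lib.P048.RunChain3
import Vale.Agent.Lib.P048.RunChain4
import Vale.Agent.Lib.P048.RunChain5
import Vale.Agent.Lib.P048.RunChain6
import Vale.Agent.Lib.P048.RunChain7
import Vale.Agent.Lib.P048.RunChain8
import Vale.Agent.Lib.P048.RunChain9
import Vale.Agent.Lib.P048.RunChain10
import Vale.Agent.Lib.P048.RunChain11
import Vale.Agent.Lib.P048.RunChain12
import Vale.Agent.Lib.P048.RunChain13
import Vale.Agent.Lib.P048.RunChain14
import Vale.Agent.Lib.P048.RunChain15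

namespace Vale.Agent.Lib.P048

/-- All of the chain of tables. -/
theorem chain_all : PCover 1222 2444 :=
  (((((((((((((((chain_block_0).trans chain_block_1).trans chain_block_2).trans chain_block_3).trans chain_block_4).trans chain_block_5).trans chain_block_6).trans chain_block_7).trans chain_block_8).trans chain_block_9).trans chain_block_10).trans chain_block_11).trans chain_block_12).trans chain_block_13).trans chain_block_14).trans chain_block_15

end Vale.Agent.Lib.P048
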