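import Vale.Agent.Lib.P048.SlopeTable

namespace Vale.Agent.Lib.P048

/-- The state of a scan: pieces left, position, value, and the candidate slope `D - d`. -/
structure RSt where
  n : ℕ
  x : ℕ
  U : ℕ
  D : ℕ
  d : ℕ

/-- Conjunction, in a form that reduces fast. -/
noncomputable def aB (x y : Bool) : Bool := Bool.rec false y x

lemma aB_eq_true {x y : Bool} : aB x y = true ↔ x = true ∧ y = true := by
  cases x <;> simp [aB]

/-- Iterating a step, with doubling of the number of iterations. -/
noncomputable def rRun (f : RSt → RSt) (d : ℕ) : RSt → RSt :=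
  Nat.rec f (fun _ ih st => (fun st' : RSt => Bool.rec (ih st') st' (Nat.beq st'.n 0)) (ih st)) d

lemma rRun_spec {f : RSt → RSt} {P : RSt → Prop} (hf : ∀ st, P (f st) → P st) :
    ∀ d st, P (rRun f d st) → P st := by
  intro d
  induction d with
  | zero =>
    intro st h
    exact hf st h
  | succ d ih =>
    intro st h
    have e : rRun f (d + 1) st =
        Bool.rec (rRun f d (rRun f d st)) (rRun f d st) (Nat.beq (rRun f d st).n 0) := rfl
    rw [e] at h
    cases hb : Nat.beq (rRun f d st).n 0
    · rw [hb] at h
      exact ih st (ih _ h)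
    · rw [hb] at h
      exact ih st h

end Vale.Agent.Lib.P048
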