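import Vale.Agent.Lib.P048.RunTable

namespace Vale.Agent.Lib.P048

/-- The test of the first slope of a table. -/
noncomputable def headB (K I D0 n : ℕ) : Bool :=
  aB (Nat.ble (Nat.add 2 D0) I) (aB (Nat.ble (Nat.add 3 D0) K) (aB (Nat.ble (Nat.mul 2 D0) K)
  (aB (endF K 0 1 D0) (aB (endR K I D0 1 D0) (aB (Nat.ble (Nat.add n 2) K)
  (aB (Nat.ble 1 I) (aB (Nat.ble 3 K) (Nat.ble I K))))))))

/-- A table found by the scan. -/
lemma table_of_run {K I D0 n : ℕ} (hh : headB K I D0 n = true)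
    (hr : Nat.beq (rRun (tStep K I) 12 (RSt.mk n 1 D0 D0 0)).n 0 = true) :
    ∃ T' : List ℤ, T'.length = n ∧ TableOk K I (D0 : ℤ) T' := by
  simp only [headB, aB_eq_true] at hh
  obtain ⟨h1, h2, h3, h4, h5, h6, h7, h8, h9⟩ := hh
  have h1' : 2 + D0 ≤ I := Nat.le_of_ble_eq_true h1
  have h2' : 3 + D0 ≤ K := Nat.le_of_ble_eq_true h2
  have h3' : 2 * D0 ≤ K := Nat.le_of_ble_eq_true h3
  have h6' : n + 2 ≤ K := Nat.le_of_ble_eq_true h6
  have h7' : 1 ≤ I := Nat.le_of_ble_eq_true h7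
  have h8' : 3 ≤ K := Nat.le_of_ble_eq_true h8
  have h9' : I ≤ K := Nat.le_of_ble_eq_true h9
  have hn0 : (rRun (tStep K I) 12 (RSt.mk n 1 D0 D0 0)).n = 0 := by simpa using hr
  have hP : TPred K I (rRun (tStep K I) 12 (RSt.mk n 1 D0 D0 0)) := by
    refine ⟨[], ?_, rfl⟩
    rw [hn0]
    rfl
  have hP0 : TPred K I (RSt.mk n 1 D0 D0 0) := rRun_spec (P := TPred K I) (tStep_spec K I) 12 _ hP
  unfold TPred at hP0
  simp only [Nat.cast_one, Nat.cast_zero, sub_zero] at hP0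
  obtain ⟨T, hT, hc⟩ := hP0
  have hc' : chk K I T 1 (D0 : ℤ) (D0 : ℤ) = true := hc
  have hE : EndOk K I 0 (D0 : ℤ) 1 := by
    apply endB_ok
    exact endB_of_nat (a := 0) (y := 1) (W := D0) (by simp) (by simp) (by simp) h4
      (Or.inr ⟨D0, rfl, h5⟩)
  have hn : T.length = n := hT
  refine ⟨T, hn, ?_⟩
  refine ⟨hc', ?_, ?_, Int.natCast_nonneg D0, ?_, hE, ?_, h7', h8', ?_, ?_⟩
  · have : (2 : ℤ) + D0 ≤ I := by exact_mod_cast h1'
    linarith
  · have : (3 : ℤ) + D0 ≤ K := by exact_mod_cast h2'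
    linarith
  · exact_mod_cast h3'
  · rw [hn]
    exact h6'
  · rw [hn]
    omega
  · exact_mod_cast h9'

/-- Everything known at the scale `w`, for `K w ≤ b < B w`. -/
def PCover (A B : ℕ) : Prop :=
  ∀ w b a : ℕ, 1 ≤ w → A * w ≤ b → b < B * w → 8 * a ≤ 5 * b + 2 →
    ∃ (i : ℕ) (s : ℕ → ℤ), Prof b i a s ∧ 2 * i + 3 ≤ b ∧ a + i < b

lemma PCover.trans {A B C : ℕ} (h1 : PCover A B) (h2 : PCover B C) : PCover A C := by
  intro w b a hw h3 h4 h5
  rcases Nat.lt_or_ge b (B * w) with h | h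
  · exact h1 w b a hw h3 h h5
  · exact h2 w b a hw h h4 h5

/-- The complete test of one table. -/
noncomputable def tableB (K I K' : ℕ) : Bool :=
  aB (headB K I (Nat.sub I 2) (Nat.sub (Nat.sub K I) 1))
  (aB (Nat.ble (Nat.mul 5 K') (Nat.mul 8 (Nat.sub K I)))
  (aB (Nat.ble (Nat.add (Nat.add (Nat.mul 2 I) K') 1) (Nat.mul 2 K))
  (aB (Nat.ble 2 (Nat.sub K I))
  (Nat.beq (rRun (tStep K I) 12 (RSt.mk (Nat.sub (Nat.sub K I) 1) 1 (Nat.sub I 2) (Nat.sub I 2) 0)).n 0))))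

lemma cover_of_table {K I K' : ℕ} (h : tableB K I K' = true) : PCover K K' := by
  simp only [tableB, aB_eq_true] at h
  obtain ⟨h1, h2, h3, h4, h5⟩ := h
  obtain ⟨T', hT, H⟩ := table_of_run h1 h5
  have h2' : 5 * K' ≤ 8 * (K - I) := Nat.le_of_ble_eq_true h2
  have h3' : 2 * I + K' + 1 ≤ 2 * K := Nat.le_of_ble_eq_true h3
  have h4' : 2 ≤ K - I := Nat.le_of_ble_eq_true h4
  intro w b a hw hb1 hb2 hab
  have hlen : T'.length + 1 = K - I := by
    rw [hT]
    show Nat.sub (Nat.sub K I) 1 + 1 = K - I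
    simp only [Nat.sub_eq]
    omega
  have P := prof_of_table H hw
  rw [hlen] at P
  have hIK : I + (K - I) = K := by omega
  have e1 : K * w = I * w + (K - I) * w := by
    rw [← Nat.add_mul, hIK]
  have e2 : 5 * (K' * w) ≤ 8 * ((K - I) * w) := by
    have := Nat.mul_le_mul_right w h2'
    calc 5 * (K' * w) = 5 * K' * w := by ring
      _ ≤ 8 * (K - I) * w := this
      _ = 8 * ((K - I) * w) := by ring
  have e3 : 2 * (I * w) + K' * w + w ≤ 2 * (K * w) := by
    have := Nat.mul_le_mul_right w h3'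
    calc 2 * (I * w) + K' * w + w = (2 * I + K' + 1) * w := by ring
      _ ≤ 2 * K * w := this
      _ = 2 * (K * w) := by ring
  have haL : a ≤ (K - I) * w := by omega
  obtain ⟨e, he⟩ : ∃ e, b = K * w + e := ⟨b - K * w, by omega⟩
  have P2 := (P.restrict haL).shiftN e
  rw [← he] at P2
  have h0 : 1 ≤ I * w := Nat.mul_pos (by
    have := H.h7
    omega) hw
  refine ⟨I * w - 1 + e, _, P2, ?_, ?_⟩ <;> omega

/-- The test of a chain of tables. -/
noncomputable def chainB (K I : ℕ) : List (ℕ × ℕ) → ℕ → Bool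
  | [], E => tableB K I E
  | p :: r, E => aB (tableB K I p.1) (chainB p.1 p.2 r E)

lemma cover_of_chain {K I E : ℕ} {l : List (ℕ × ℕ)} (h : chainB K I l E = true) : PCover K E := by
  induction l generalizing K I with
  | nil => exact cover_of_table h
  | cons p r ih =>
    simp only [chainB, aB_eq_true] at h
    exact (cover_of_table h.1).trans (ih h.2)

end Vale.Agent.Lib.P048
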