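import Vale.Agent.Lib.P048.RunCover

namespace Vale.Agent.Lib.P048

/-- The conditions at `r` with no rising; `R = r - 1`, `u = s (r - 1)`, `v = s r`. -/
noncomputable def exF (b r R u v : ℕ) : Bool :=
  aB (Nat.ble (Nat.add (Nat.add (Nat.add 1 (Nat.mul R R))
        (Nat.mul b (Nat.add (Nat.mul 2 (Nat.mul r R)) u))) (Nat.mul r (Nat.mul R v)))
      (Nat.add (Nat.mul b (Nat.mul R (Nat.add b 1)))
        (Nat.mul r (Nat.add (Nat.add (Nat.mul R u) u) R))))
  (aB (Nat.ble (Nat.add (Nat.add 1 (Nat.mul R R)) (Nat.mul r (Nat.mul R v)))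
      (Nat.mul r (Nat.add (Nat.add (Nat.mul R u) u) R)))
  (aB (Nat.ble (Nat.add (Nat.add 1 (Nat.mul 4 (Nat.mul R R))) (Nat.mul 3 u))
      (Nat.mul 3 (Nat.mul R b)))
    (Nat.ble (Nat.add (Nat.add r 1) v) (Nat.add b u))))

/-- The conditions at `r` when the profile rises by `D`. -/
noncomputable def exR (b i R u D : ℕ) : Bool :=
  aB (Nat.ble (Nat.add (Nat.add (Nat.add 1 (Nat.mul (Nat.add i 2) u)) (Nat.mul D (Nat.mul R b)))
        (Nat.mul 2 (Nat.mul (Nat.add b 1) (Nat.mul R R))))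
      (Nat.add (Nat.add (Nat.add (Nat.mul (Nat.add i 2) (Nat.mul R b)) (Nat.mul D u)) (Nat.mul R u))
        (Nat.mul (Nat.mul R R) D)))
    (Nat.ble (Nat.add (Nat.mul 2 (Nat.mul R R)) u) (Nat.mul R b))

/-- One step of the exact scan. -/
noncomputable def eStep (b i : ℕ) (st : RSt) : RSt :=
  Bool.rec
   (Bool.rec
     (Bool.rec
       (RSt.mk st.n st.x st.U 0 (Nat.add st.d 1))
       (RSt.mk (Nat.sub st.n 1) (Nat.add st.x 1) (Nat.sub st.U st.d) 0 st.d)
       (aB (Nat.ble st.d st.U) (exF b st.x (Nat.sub st.x 1) st.U (Nat.sub st.U st.d))))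
     (Bool.rec
       (Bool.rec
         (RSt.mk st.n st.x st.U (Nat.sub st.D 1) 0)
         (RSt.mk st.n st.x st.U 0 1)
         (Nat.beq st.D 0))
       (RSt.mk (Nat.sub st.n 1) (Nat.add st.x 1) (Nat.add st.U st.D) st.D 0)
       (aB (Bool.rec (exR b i (Nat.sub st.x 1) st.U st.D) true (Nat.beq st.D 0))
         (exF b st.x (Nat.sub st.x 1) st.U (Nat.add st.U st.D))))
     (Nat.beq st.d 0))
   st (Nat.beq st.n 0)

/-- The fields of a profile at `r`. -/
structure ELocal (b i r : ℕ) (u v : ℤ) : Prop where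
  nn : 0 ≤ v
  deg : (r : ℤ) + 1 ≤ b - v + u
  U1 : ((r : ℤ) - 1) ^ 2 + 1 ≤ 3 * (((r : ℤ) - 1) * ((b : ℤ) - ((r : ℤ) - 1)) - u)
  U2 : 1 ≤ (r : ℤ) * (((r : ℤ) - 1) * (u - v) + u + ((r : ℤ) - 1)) - ((r : ℤ) - 1) ^ 2
  U3 : 1 ≤ (b : ℤ) * (((r : ℤ) - 1) * ((b : ℤ) - 2 * r + 1) - u) +
      (r : ℤ) * (((r : ℤ) - 1) * (u - v) + u + ((r : ℤ) - 1)) - ((r : ℤ) - 1) ^ 2
  R1 : u < v → 0 ≤ ((r : ℤ) - 1) * ((b : ℤ) - 2 * ((r : ℤ) - 1)) - u
  R3 : u < v → 1 ≤ ((i : ℤ) + 2 - (v - u)) * (((r : ℤ) - 1) * b - u) +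
      ((r : ℤ) - 1) * u + ((r : ℤ) - 1) ^ 2 * (v - u) -
      2 * ((b : ℤ) + 1) * ((r : ℤ) - 1) ^ 2

/-- The tail of a profile, from the position `r` on. -/
def ETail (b i a r : ℕ) (s : ℕ → ℤ) (σ : ℤ) : Prop :=
  (r ≤ a → s r - s (r - 1) ≤ σ) ∧
  ∀ j, r ≤ j → j ≤ a → ELocal b i j (s (j - 1)) (s j) ∧
    (j + 1 ≤ a → s (j + 1) - s j ≤ s j - s (j - 1))

/-- The invariant of the exact scan. -/
def EPred (b i : ℕ) (st : RSt) : Prop :=
  2 ≤ st.x → ∃ s : ℕ → ℤ, s (st.x - 1) = st.U ∧
    ETail b i (st.x + st.n - 1) st.x s ((st.D : ℤ) - st.d)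

lemma EPred_mono {b i : ℕ} {n x U D d D' d' : ℕ} (h : (D : ℤ) - d ≤ (D' : ℤ) - d')
    (hP : EPred b i ⟨n, x, U, D, d⟩) : EPred b i ⟨n, x, U, D', d'⟩ := by
  intro hx
  obtain ⟨s, hs, h1, h2⟩ := hP hx
  exact ⟨s, hs, fun h3 => (h1 h3).trans h, h2⟩

/-- Adding a piece in front of a tail. -/
lemma EPred_cons {b i : ℕ} {n x U D d n' U' D' d' : ℕ} (hn : n = n' + 1) {v : ℤ} (hv : v = U')
    (hσ : (D' : ℤ) - d' = v - U) (hle : v - U ≤ (D : ℤ) - d)
    (hL : 2 ≤ x → ELocal b i x U v)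
    (hP : EPred b i ⟨n', x + 1, U', D', d'⟩) : EPred b i ⟨n, x, U, D, d⟩ := by
  intro hx
  dsimp only at hx ⊢
  obtain ⟨s, hs, h1, h2⟩ := hP (by show 2 ≤ x + 1; omega)
  dsimp only at hs h1 h2
  have hax : x + n - 1 = x + 1 + n' - 1 := by omega
  rw [hax]
  have hs' : s x = v := by
    rw [hv]
    simpa using hs
  have hxne : ∀ j, x ≤ j → j ≠ x - 1 := fun j hj => by omega
  refine ⟨fun j => if j = x - 1 then (U : ℤ) else s j, by simp, ?_, ?_⟩
  · intro _
    simp only [if_true]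
    rw [if_neg (hxne x (le_refl _)), hs']
    exact hle
  · intro j hj1 hj2
    simp only
    rw [if_neg (hxne j hj1)]
    rcases Nat.eq_or_lt_of_le hj1 with hj | hj
    · subst hj
      simp only [if_true]
      rw [hs']
      refine ⟨hL hx, ?_⟩
      intro hj3
      rw [if_neg (hxne (x + 1) (by omega))]
      have h3 := h1 (by omega)
      simp only [Nat.add_sub_cancel] at h3
      rw [hs', hσ] at h3
      exact h3
    · have hjm : j - 1 ≠ x - 1 := by omega
      rw [if_neg hjm]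
      have h4 := h2 j (by omega) (by omega)
      refine ⟨h4.1, ?_⟩
      intro hj3
      rw [if_neg (hxne (j + 1) (by omega))]
      exact h4.2 (by omega)

lemma exF_spec {b r R u v : ℕ} (h : exF b r R u v = true) :
    1 + R * R + b * (2 * (r * R) + u) + r * (R * v) ≤ b * (R * (b + 1)) + r * (R * u + u + R) ∧
    1 + R * R + r * (R * v) ≤ r * (R * u + u + R) ∧
    1 + 4 * (R * R) + 3 * u ≤ 3 * (R * b) ∧
    r + 1 + v ≤ b + u := by
  simp only [exF, aB_eq_true] at h
  obtain ⟨h1, h2, h3, h4⟩ := h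
  exact ⟨Nat.le_of_ble_eq_true h1, Nat.le_of_ble_eq_true h2, Nat.le_of_ble_eq_true h3,
    Nat.le_of_ble_eq_true h4⟩

lemma exR_spec {b i R u D : ℕ} (h : exR b i R u D = true) :
    1 + (i + 2) * u + D * (R * b) + 2 * ((b + 1) * (R * R)) ≤
      (i + 2) * (R * b) + D * u + R * u + R * R * D ∧
    2 * (R * R) + u ≤ R * b := by
  simp only [exR, aB_eq_true] at h
  obtain ⟨h1, h2⟩ := h
  exact ⟨Nat.le_of_ble_eq_true h1, Nat.le_of_ble_eq_true h2⟩

/-- The fields at `r`, from the natural number tests. -/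
lemma elocal_of {b i r u v : ℕ} (hr : 2 ≤ r) (hF : exF b r (r - 1) u v = true)
    (hR : (u : ℤ) < v → ∃ D : ℕ, (v : ℤ) - u = D ∧ exR b i (r - 1) u D = true) :
    ELocal b i r u v := by
  obtain ⟨R, rfl⟩ : ∃ R, r = R + 1 := ⟨r - 1, by omega⟩
  simp only [Nat.add_sub_cancel] at hF hR
  obtain ⟨f1, f2, f3, f4⟩ := exF_spec hF
  zify at f1 f2 f3 f4
  have hrc : (((R + 1 : ℕ) : ℤ)) - 1 = R := by push_cast; ring
  have hrc2 : ((R + 1 : ℕ) : ℤ) = (R : ℤ) + 1 := by push_cast; ring
  refine ⟨Int.natCast_nonneg v, ?_, ?_, ?_, ?_, ?_, ?_⟩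
  · rw [hrc2]
    linarith
  · rw [hrc]
    nlinarith
  · rw [hrc, hrc2]
    nlinarith
  · rw [hrc, hrc2]
    nlinarith
  · intro hlt
    obtain ⟨D, hD, hE⟩ := hR hlt
    obtain ⟨r1, r2⟩ := exR_spec hE
    zify at r1 r2
    rw [hrc]
    nlinarith
  · intro hlt
    obtain ⟨D, hD, hE⟩ := hR hlt
    obtain ⟨r1, r2⟩ := exR_spec hE
    zify at r1 r2
    rw [hrc, hD]
    nlinarith

lemma eStep_spec (b i : ℕ) (st : RSt) (h : EPred b i (eStep b i st)) : EPred b i st := by
  obtain ⟨n, x, U, D, d⟩ := st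
  cases hn : Nat.beq n 0
  · have hn0 : n ≠ 0 := by
      intro h0
      subst h0
      simp at hn
    obtain ⟨n', rfl⟩ : ∃ n', n = n' + 1 := ⟨n - 1, by omega⟩
    cases hd : Nat.beq d 0
    · have hd0 : d ≠ 0 := by
        intro h0
        subst h0
        simp at hd
      cases hok : aB (Nat.ble d U) (exF b x (Nat.sub x 1) U (Nat.sub U d))
      · have e : eStep b i ⟨n' + 1, x, U, D, d⟩ = RSt.mk (n' + 1) x U 0 (Nat.add d 1) := by
          simp only [eStep, hn, hd, hok]
        rw [e] at h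
        refine EPred_mono ?_ h
        simp only [Nat.add_eq]
        push_cast
        have : (0 : ℤ) ≤ D := by positivity
        linarith
      · have e : eStep b i ⟨n' + 1, x, U, D, d⟩ =
            RSt.mk (Nat.sub (n' + 1) 1) (Nat.add x 1) (Nat.sub U d) 0 d := by
          simp only [eStep, hn, hd, hok]
        rw [e] at h
        simp only [aB_eq_true] at hok
        obtain ⟨o1, o2⟩ := hok
        have o1' : d ≤ U := Nat.le_of_ble_eq_true o1
        have h' : EPred b i ⟨n', x + 1, U - d, 0, d⟩ := h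
        refine EPred_cons (v := ((U - d : ℕ) : ℤ)) (n' := n') (U' := U - d) (D' := 0) (d' := d) rfl rfl ?_ ?_ ?_ h'
        · push_cast [Nat.cast_sub o1']
          ring
        · push_cast [Nat.cast_sub o1']
          have : (0 : ℤ) ≤ D := by positivity
          linarith
        · intro hx
          refine elocal_of hx o2 ?_
          intro hlt
          exfalso
          push_cast [Nat.cast_sub o1'] at hlt
          have : (0 : ℤ) ≤ d := by positivity
          linarith
    · have hd0 : d = 0 := by simpa using hd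
      subst hd0
      cases hok : aB (Bool.rec (exR b i (Nat.sub x 1) U D) true (Nat.beq D 0))
          (exF b x (Nat.sub x 1) U (Nat.add U D))
      · cases hD : Nat.beq D 0
        · have hD0 : D ≠ 0 := by
            intro h0
            subst h0
            simp at hD
          have e : eStep b i ⟨n' + 1, x, U, D, 0⟩ = RSt.mk (n' + 1) x U (Nat.sub D 1) 0 := by
            simp only [hD] at hok
            simp only [eStep, hn, hd, hD, hok]
          rw [e] at h
          refine EPred_mono ?_ h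
          simp only [Nat.sub_eq, Nat.cast_zero]
          have : D - 1 ≤ D := Nat.sub_le _ _
          have h' : ((D - 1 : ℕ) : ℤ) ≤ D := by exact_mod_cast this
          linarith
        · have hD0 : D = 0 := by simpa using hD
          subst hD0
          have e : eStep b i ⟨n' + 1, x, U, 0, 0⟩ = RSt.mk (n' + 1) x U 0 1 := by
            simp only [hD] at hok
            simp only [eStep, hn, hd, hok]
          rw [e] at h
          refine EPred_mono ?_ h
          simp
      · have e : eStep b i ⟨n' + 1, x, U, D, 0⟩ =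
            RSt.mk (Nat.sub (n' + 1) 1) (Nat.add x 1) (Nat.add U D) D 0 := by
          simp only [eStep, hn, hd, hok]
        rw [e] at h
        simp only [aB_eq_true] at hok
        obtain ⟨o1, o2⟩ := hok
        have h' : EPred b i ⟨n', x + 1, U + D, D, 0⟩ := h
        refine EPred_cons (v := ((U + D : ℕ) : ℤ)) (n' := n') (U' := U + D) (D' := D) (d' := 0) rfl rfl ?_ ?_ ?_ h'
        · push_cast
          ring
        · push_cast
          simp
        · intro hx
          refine elocal_of hx o2 ?_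
          intro hlt
          refine ⟨D, by push_cast; ring, ?_⟩
          cases hD : Nat.beq D 0
          · rw [hD] at o1
            exact o1
          · have hD0 : D = 0 := by simpa using hD
            subst hD0
            exfalso
            push_cast at hlt
            linarith
  · have hn0 : n = 0 := by simpa using hn
    have e : eStep b i ⟨n, x, U, D, d⟩ = ⟨n, x, U, D, d⟩ := by
      simp only [eStep, hn]
    rw [e] at h
    exact h

/-- A profile from a finished scan. -/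
lemma prof_of_run {a b i : ℕ} (h1 : a + 1 ≤ b) (h2 : i + 1 ≤ b) (h3 : 3 ≤ b) (h4 : 2 * (i + 1) ≤ b)
    (ha : 2 ≤ a)
    (hr : Nat.beq (rRun (eStep b i) 12 (RSt.mk (a - 1) 2 (i + 1) (i + 1) 0)).n 0 = true) :
    ∃ s : ℕ → ℤ, Prof b i a s := by
  have hn0 : (rRun (eStep b i) 12 (RSt.mk (a - 1) 2 (i + 1) (i + 1) 0)).n = 0 := by simpa using hr
  have hP : EPred b i (rRun (eStep b i) 12 (RSt.mk (a - 1) 2 (i + 1) (i + 1) 0)) := by
    intro _
    refine ⟨fun _ => ((rRun (eStep b i) 12 (RSt.mk (a - 1) 2 (i + 1) (i + 1) 0)).U : ℤ), rfl, ?_, ?_⟩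
    · intro h
      omega
    · intro j hj1 hj2
      omega
  have hP0 := rRun_spec (P := EPred b i) (eStep_spec b i) 12 _ hP (le_refl 2)
  clear hP hn0 hr
  obtain ⟨s', hs1, ht1, ht2⟩ := hP0
  dsimp only at hs1 ht1 ht2
  have ha' : 2 + (a - 1) - 1 = a := by omega
  rw [ha'] at ht1 ht2
  have hi0 : (s' 1 : ℤ) = (i : ℤ) + 1 := by
    rw [show (1 : ℕ) = 2 - 1 from rfl, hs1]
    push_cast
    ring
  have hzero : ∀ j, j ≠ 0 → (fun j : ℕ => if j = 0 then (0 : ℤ) else s' j) j = s' j := by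
    intro j hj
    simp [hj]
  refine ⟨fun j => if j = 0 then (0 : ℤ) else s' j, ?_⟩
  have hloc : ∀ r, 2 ≤ r → r ≤ a → ELocal b i r (s' (r - 1)) (s' r) := fun r h1 h2 => (ht2 r h1 h2).1
  refine ⟨h1, h2, h3, by simp, ?_, ?_, ?_, ?_, ?_, ?_, ?_, ?_, ?_, ?_⟩
  · simp only [one_ne_zero, if_false, hi0]
    linarith
  · simp only [one_ne_zero, if_false, hi0]
    have : (2 : ℤ) * ((i : ℤ) + 1) ≤ b := by exact_mod_cast h4
    linarith
  · intro j hj1 hj2
    rcases Nat.eq_or_lt_of_le hj1 with hj | hj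
    · subst hj
      simp only [one_ne_zero, if_false, Nat.sub_self, if_true, hi0]
      have := ht1 (by omega)
      simp only [show (2 : ℕ) - 1 = 1 from rfl] at this
      rw [hi0] at this
      push_cast at this
      simp only [Nat.reduceAdd]
      simpa using this
    · rw [if_neg (by omega), if_neg (by omega), if_neg (by omega)]
      exact (ht2 j (by omega) (by omega)).2 hj2
  · intro r hr
    rcases Nat.eq_zero_or_pos r with h | h
    · simp [h]
    · rw [if_neg (by omega)]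
      rcases Nat.lt_or_ge r 2 with h5 | h5
      · have : r = 1 := by omega
        subst this
        rw [hi0]
        positivity
      · exact (hloc r h5 hr).nn
  all_goals
    intro r hr1 hr2
    have hL := hloc r hr1 hr2
    have h0r : r - 1 ≠ 0 := by omega
    have h1r : r ≠ 0 := by omega
    simp only [h0r, h1r, if_false]
  · exact hL.deg
  · exact hL.U1
  · exact hL.U2
  · exact hL.U3
  · exact hL.R1
  · exact hL.R3

end Vale.Agent.Lib.P048
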