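import Vale.Agent.Lib.P048.RunAll

namespace Vale.Agent.Lib.P048

/-- A block of exact scans. -/
theorem exact_block_5 : allE 541 52 = true := by decide +kernel

end Vale.Agent.Lib.P048
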