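import Vale.Agent.Lib.P048.RunExact0
import Vale.Agent.Lib.P048.RunExact1
import Vale.Agent.Lib.P048.RunExact2
import Vale.Agent.Lib.P048.RunExact3
import Vale.Agent.Lib.P048.RunExact4
import Vale.Agent.Lib.P048.RunExact5
import Vale.Agent.Lib.P048.RunExact6
import Vale.Agent.Lib.P048.RunExact7
import Vale.Agent.Lib.P048.RunExact8
import Vale.Agent.Lib.P048.RunExact9
import Vale.Agent.Lib.P048.RunChainAll

namespace Vale.Agent.Lib.P048

/-- All of the exact scans. -/
theorem exact_all (a : ℕ) (h1 : 4 ≤ a) (h2 : a < 764) : exactB a = true := by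
  rcases Nat.lt_or_ge a 242 with h0 | h0
  · exact allE_spec exact_block_0 a (by omega) (by omega)
  rcases Nat.lt_or_ge a 342 with h1 | h1
  · exact allE_spec exact_block_1 a (by omega) (by omega)
  rcases Nat.lt_or_ge a 419 with h2 | h2
  · exact allE_spec exact_block_2 a (by omega) (by omega)
  rcases Nat.lt_or_ge a 484 with h3 | h3
  · exact allE_spec exact_block_3 a (by omega) (by omega)
  rcases Nat.lt_or_ge a 541 with h4 | h4
  · exact allE_spec exact_block_4 a (by omega) (by omega)
  rcases Nat.lt_or_ge a 593 with h5 | h5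
  · exact allE_spec exact_block_5 a (by omega) (by omega)
  rcases Nat.lt_or_ge a 641 with h6 | h6
  · exact allE_spec exact_block_6 a (by omega) (by omega)
  rcases Nat.lt_or_ge a 685 with h7 | h7
  · exact allE_spec exact_block_7 a (by omega) (by omega)
  rcases Nat.lt_or_ge a 727 with h8 | h8
  · exact allE_spec exact_block_8 a (by omega) (by omega)
  exact allE_spec exact_block_9 a (by omega) (by omega)

/-- The profile for all `a`, `b` with `8 a ≤ 5 b + 2` and `b + 1 < 2 a`. -/
theorem exists_prof_all (a b : ℕ) (h1 : 8 * a ≤ 5 * b + 2) (h2 : b + 1 < 2 * a) :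
    ∃ (i : ℕ) (s : ℕ → ℤ), Prof b i a s ∧ 2 * i + 3 ≤ b ∧ a + i < b := by
  have ha : 4 ≤ a := by omega
  rcases Nat.lt_or_ge b 1222 with hb | hb
  · exact prof_of_exact ha (exact_all a ha (by omega)) h1 h2
  · obtain ⟨w, hw⟩ : ∃ w, w = b / 1222 := ⟨_, rfl⟩
    have hw1 : 1 ≤ w := by omega
    have h3 : 1222 * w ≤ b := by omega
    have h4 : b < 1222 * w + 1222 := by omega
    exact chain_all w b a hw1 h3 (by omega) h1

end Vale.Agent.Lib.P048
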