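import Vale.Agent.Lib.P048.RunCore

namespace Vale.Agent.Lib.P048

/-- End point test, the part with no rising. -/
noncomputable def endF (K a y W : ℕ) : Bool :=
  aB (Nat.ble (Nat.add (Nat.add 1 (Nat.mul K (Nat.add (Nat.mul 2 (Nat.mul y y)) W))) (Nat.mul K y))
      (Nat.add (Nat.add (Nat.mul K (Nat.mul y K)) (Nat.mul a y)) a))
  (aB (Nat.ble (Nat.add (Nat.add 1 (Nat.mul 3 W)) (Nat.mul 4 (Nat.mul y y))) (Nat.mul 3 (Nat.mul y K)))
     (Nat.ble a (Nat.add 1 (Nat.mul K y))))

/-- End point test, the rising part. -/
noncomputable def endR (K I D y W : ℕ) : Bool :=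
  aB (Nat.ble (Nat.add (Nat.add (Nat.mul I W) (Nat.mul D (Nat.mul y K))) (Nat.mul 2 (Nat.mul K (Nat.mul y y))))
      (Nat.add (Nat.add (Nat.add (Nat.mul I (Nat.mul y K)) (Nat.mul D W)) (Nat.mul y W)) (Nat.mul (Nat.mul y y) D)))
    (Nat.ble (Nat.add (Nat.add 1 W) (Nat.mul 2 (Nat.mul y y))) (Nat.mul y K))

/-- The test of a falling piece. -/
noncomputable def okD (K x U d : ℕ) : Bool :=
  aB (Nat.ble d U) (aB (endF K (Nat.add U (Nat.mul x d)) (Nat.add x 1) (Nat.sub U d))
     (aB (endF K (Nat.add U (Nat.mul x d)) x U) (Nat.ble (Nat.add x 2) (Nat.add K d))))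

/-- The test of a rising or flat piece. -/
noncomputable def okU (K I x U D : ℕ) : Bool :=
  aB (Nat.ble (Nat.mul x D) U)
  (aB (Bool.rec (endR K I D (Nat.add x 1) (Nat.add U D)) true (Nat.beq D 0))
  (aB (endF K (Nat.sub U (Nat.mul x D)) (Nat.add x 1) (Nat.add U D))
  (aB (Bool.rec (endR K I D x U) true (Nat.beq D 0))
  (aB (endF K (Nat.sub U (Nat.mul x D)) x U)
      (Nat.ble (Nat.add (Nat.add x 2) D) K)))))

/-- One step of the scan. -/
noncomputable def tStep (K I : ℕ) (st : RSt) : RSt :=
  Bool.rec
   (Bool.rec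
     (Bool.rec
       (RSt.mk st.n st.x st.U 0 (Nat.add st.d 1))
       (RSt.mk (Nat.sub st.n 1) (Nat.add st.x 1) (Nat.sub st.U st.d) 0 st.d)
       (okD K st.x st.U st.d))
     (Bool.rec
       (Bool.rec
         (RSt.mk st.n st.x st.U (Nat.sub st.D 1) 0)
         (RSt.mk st.n st.x st.U 0 1)
         (Nat.beq st.D 0))
       (RSt.mk (Nat.sub st.n 1) (Nat.add st.x 1) (Nat.add st.U st.D) st.D 0)
       (okU K I st.x st.U st.D))
     (Nat.beq st.d 0))
   st (Nat.beq st.n 0)

lemma endF_spec {K a y W : ℕ} (h : endF K a y W = true) :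
    1 + K * (2 * (y * y) + W) + K * y ≤ K * (y * K) + a * y + a ∧
    1 + 3 * W + 4 * (y * y) ≤ 3 * (y * K) ∧ a ≤ 1 + K * y := by
  simp only [endF, aB_eq_true] at h
  obtain ⟨h1, h2, h3⟩ := h
  exact ⟨Nat.le_of_ble_eq_true h1, Nat.le_of_ble_eq_true h2, Nat.le_of_ble_eq_true h3⟩

lemma endR_spec {K I D y W : ℕ} (h : endR K I D y W = true) :
    I * W + D * (y * K) + 2 * (K * (y * y)) ≤ I * (y * K) + D * W + y * W + y * y * D ∧
    1 + W + 2 * (y * y) ≤ y * K := by
  simp only [endR, aB_eq_true] at h
  obtain ⟨h1, h2⟩ := h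
  exact ⟨Nat.le_of_ble_eq_true h1, Nat.le_of_ble_eq_true h2⟩

/-- From the natural number tests to the integer test. -/
lemma endB_of_nat {K I a y W : ℕ} {D A Y : ℤ} (hA : A = a) (hY : Y = y) (hW : (a : ℤ) + D * y = W)
    (hF : endF K a y W = true)
    (hR : D ≤ 0 ∨ ∃ D' : ℕ, D = D' ∧ endR K I D' y W = true) :
    endB K I A D Y = true := by
  subst hA hY
  obtain ⟨f1, f2, f3⟩ := endF_spec hF
  zify at f1 f2 f3
  simp only [endB, Bool.and_eq_true, Bool.or_eq_true, decide_eq_true_eq]
  rw [hW]
  refine ⟨⟨⟨?_, ?_⟩, ?_⟩, ?_⟩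
  · nlinarith
  · nlinarith
  · nlinarith
  · rcases hR with hR | ⟨D', rfl, hR⟩
    · exact Or.inl hR
    · right
      obtain ⟨r1, r2⟩ := endR_spec hR
      zify at r1 r2
      constructor
      · nlinarith
      · nlinarith

lemma chk_mono {K I : ℤ} {T : List ℤ} {x U D0 D1 : ℤ} (h : chk K I T x U D0 = true) (hD : D0 ≤ D1) :
    chk K I T x U D1 = true := by
  cases T with
  | nil => rfl
  | cons D T =>
    simp only [chk, Bool.and_eq_true, decide_eq_true_eq] at h ⊢
    obtain ⟨⟨⟨⟨⟨⟨⟨h1, h2⟩, h3⟩, h4⟩, h5⟩, h6⟩, h7⟩, h8⟩ := h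
    exact ⟨⟨⟨⟨⟨⟨⟨h1.trans hD, h2⟩, h3⟩, h4⟩, h5⟩, h6⟩, h7⟩, h8⟩

/-- The invariant of the scan: the state can be completed to a valid table. -/
def TPred (K I : ℕ) (st : RSt) : Prop :=
  ∃ T : List ℤ, T.length = st.n ∧ chk K I T st.x st.U ((st.D : ℤ) - st.d) = true

lemma tStep_spec (K I : ℕ) (st : RSt) (h : TPred K I (tStep K I st)) : TPred K I st := by
  obtain ⟨n, x, U, D, d⟩ := st
  cases hn : Nat.beq n 0
  · have hn0 : n ≠ 0 := by
      intro h0
      subst h0
      simp at hn
    cases hd : Nat.beq d 0
    · have hd0 : d ≠ 0 := by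
        intro h0
        subst h0
        simp at hd
      cases hok : okD K x U d
      · have e : tStep K I ⟨n, x, U, D, d⟩ = RSt.mk n x U 0 (Nat.add d 1) := by
          simp only [tStep, hn, hd, hok]
        rw [e] at h
        obtain ⟨T, hT, hc⟩ := h
        refine ⟨T, hT, chk_mono hc ?_⟩
        have e1 : ((Nat.add d 1 : ℕ) : ℤ) = (d : ℤ) + 1 := by
          simp only [Nat.add_eq]
          push_cast
          ring
        show ((0 : ℕ) : ℤ) - ((Nat.add d 1 : ℕ) : ℤ) ≤ (D : ℤ) - d
        rw [e1]
        have : (0 : ℤ) ≤ D := by positivity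
        simp only [Nat.cast_zero]
        linarith
      · have e : tStep K I ⟨n, x, U, D, d⟩ =
            RSt.mk (Nat.sub n 1) (Nat.add x 1) (Nat.sub U d) 0 d := by
          simp only [tStep, hn, hd, hok]
        rw [e] at h
        obtain ⟨T, hT, hc⟩ := h
        simp only [okD, aB_eq_true] at hok
        obtain ⟨o1, o2, o3, o4⟩ := hok
        have o1' : d ≤ U := Nat.le_of_ble_eq_true o1
        have o4' : x + 2 ≤ K + d := Nat.le_of_ble_eq_true o4
        refine ⟨(-(d : ℤ)) :: T, ?_, ?_⟩
        · simp only [List.length_cons, hT]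
          show Nat.sub n 1 + 1 = n
          simp only [Nat.sub_eq]
          omega
        · simp only [chk, Bool.and_eq_true, decide_eq_true_eq]
          have hUd : ((Nat.sub U d : ℕ) : ℤ) = (U : ℤ) - d := by
            simp only [Nat.sub_eq]
            push_cast [Nat.cast_sub o1']
            ring
          have hx1 : ((Nat.add x 1 : ℕ) : ℤ) = (x : ℤ) + 1 := by
            simp only [Nat.add_eq]
            push_cast
            ring
          refine ⟨⟨⟨⟨⟨⟨⟨?_, ?_⟩, ?_⟩, ?_⟩, ?_⟩, ?_⟩, ?_⟩, ?_⟩
          · have : (0 : ℤ) ≤ D := by positivity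
            linarith
          · positivity
          · have : (d : ℤ) ≤ U := by exact_mod_cast o1'
            linarith
          · have : (0 : ℤ) ≤ (x : ℤ) * d := by positivity
            have h0 : (0 : ℤ) ≤ U := by positivity
            linarith
          · have : (x : ℤ) + 2 ≤ K + d := by exact_mod_cast o4'
            linarith
          · refine endB_of_nat (a := Nat.add U (Nat.mul x d)) (y := x) (W := U) ?_ rfl ?_ o3 ?_
            · simp only [Nat.add_eq, Nat.mul_eq]
              push_cast
              ring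
            · simp only [Nat.add_eq, Nat.mul_eq]
              push_cast
              ring
            · left
              have : (0 : ℤ) ≤ d := by positivity
              linarith
          · refine endB_of_nat (a := Nat.add U (Nat.mul x d)) (y := Nat.add x 1) (W := Nat.sub U d)
              ?_ ?_ ?_ o2 ?_
            · simp only [Nat.add_eq, Nat.mul_eq]
              push_cast
              ring
            · rw [hx1]
            · rw [hx1, hUd]
              simp only [Nat.add_eq, Nat.mul_eq]
              push_cast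
              ring
            · left
              have : (0 : ℤ) ≤ d := by positivity
              linarith
          · have e1 : (x : ℤ) + 1 = ((Nat.add x 1 : ℕ) : ℤ) := hx1.symm
            have e2 : (U : ℤ) + -(d : ℤ) = ((Nat.sub U d : ℕ) : ℤ) := by rw [hUd]; ring
            rw [e1, e2]
            have e3 : -(d : ℤ) = ((0 : ℕ) : ℤ) - (d : ℤ) := by simp
            rw [e3]
            exact hc
    · have hd0 : d = 0 := by simpa using hd
      subst hd0
      cases hok : okU K I x U D
      · cases hD : Nat.beq D 0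
        · have hD0 : D ≠ 0 := by
            intro h0
            subst h0
            simp at hD
          have e : tStep K I ⟨n, x, U, D, 0⟩ = RSt.mk n x U (Nat.sub D 1) 0 := by
            simp only [tStep, hn, hd, hok, hD]
          rw [e] at h
          obtain ⟨T, hT, hc⟩ := h
          refine ⟨T, hT, chk_mono hc ?_⟩
          simp only [Nat.sub_eq, Nat.cast_zero]
          have : D - 1 ≤ D := Nat.sub_le _ _
          have h' : ((D - 1 : ℕ) : ℤ) ≤ D := by exact_mod_cast this
          linarith
        · have hD0 : D = 0 := by simpa using hD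
          subst hD0
          have e : tStep K I ⟨n, x, U, 0, 0⟩ = RSt.mk n x U 0 1 := by
            simp only [tStep, hn, hd, hok]
          rw [e] at h
          obtain ⟨T, hT, hc⟩ := h
          refine ⟨T, hT, chk_mono hc ?_⟩
          simp
      · have e : tStep K I ⟨n, x, U, D, 0⟩ =
            RSt.mk (Nat.sub n 1) (Nat.add x 1) (Nat.add U D) D 0 := by
          simp only [tStep, hn, hd, hok]
        rw [e] at h
        obtain ⟨T, hT, hc⟩ := h
        simp only [okU, aB_eq_true] at hok
        obtain ⟨o1, o2, o3, o4, o5, o6⟩ := hok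
        have o1' : x * D ≤ U := Nat.le_of_ble_eq_true o1
        have o6' : x + 2 + D ≤ K := Nat.le_of_ble_eq_true o6
        have hA : (U : ℤ) - x * D = ((Nat.sub U (Nat.mul x D) : ℕ) : ℤ) := by
          simp only [Nat.sub_eq, Nat.mul_eq]
          push_cast [Nat.cast_sub o1']
          ring
        have hx1 : ((Nat.add x 1 : ℕ) : ℤ) = (x : ℤ) + 1 := by
          simp only [Nat.add_eq]
          push_cast
          ring
        have hU1 : ((Nat.add U D : ℕ) : ℤ) = (U : ℤ) + D := by
          simp only [Nat.add_eq]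
          push_cast
          ring
        refine ⟨(D : ℤ) :: T, ?_, ?_⟩
        · simp only [List.length_cons, hT]
          show Nat.sub n 1 + 1 = n
          simp only [Nat.sub_eq]
          omega
        · simp only [chk, Bool.and_eq_true, decide_eq_true_eq]
          refine ⟨⟨⟨⟨⟨⟨⟨?_, ?_⟩, ?_⟩, ?_⟩, ?_⟩, ?_⟩, ?_⟩, ?_⟩
          · simp
          · positivity
          · positivity
          · rw [hA]
            positivity
          · have : (x : ℤ) + 2 + D ≤ K := by exact_mod_cast o6'
            linarith
          · refine endB_of_nat (a := Nat.sub U (Nat.mul x D)) (y := x) (W := U) hA rfl ?_ o5 ?_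
            · rw [← hA]
              ring
            · cases hD : Nat.beq D 0
              · rw [hD] at o4
                exact Or.inr ⟨D, rfl, o4⟩
              · have hD0 : D = 0 := by simpa using hD
                subst hD0
                left
                simp
          · refine endB_of_nat (a := Nat.sub U (Nat.mul x D)) (y := Nat.add x 1) (W := Nat.add U D)
              hA hx1.symm ?_ o3 ?_
            · rw [← hA, hx1, hU1]
              ring
            · cases hD : Nat.beq D 0
              · rw [hD] at o2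
                exact Or.inr ⟨D, rfl, o2⟩
              · have hD0 : D = 0 := by simpa using hD
                subst hD0
                left
                simp
          · have e1 : (x : ℤ) + 1 = ((Nat.add x 1 : ℕ) : ℤ) := hx1.symm
            have e2 : (U : ℤ) + (D : ℤ) = ((Nat.add U D : ℕ) : ℤ) := hU1.symm
            rw [e1, e2]
            simpa using hc
  · have hn0 : n = 0 := by simpa using hn
    have e : tStep K I ⟨n, x, U, D, d⟩ = ⟨n, x, U, D, d⟩ := by
      simp only [tStep, hn]
    rw [e] at h
    exact h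

end Vale.Agent.Lib.P048
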