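import Vale.Agent.Lib.P048.Telescope

namespace Vale.Agent.Lib.P048

open Finset

variable {V : Type*} {G : SimpleGraph V} {b : ℕ} {u : ZMod b → V} {D : Finset V}

open Classical in
/-- Sharper form of the telescoping count: each set `A (φ + 1) \ A φ` together with `u φ` is
independent, so it has at most `a - 1` elements. -/
theorem telescope_sharp [NeZero b] (S : Setup G u D) {a : ℕ}
    (hX : ∀ I : Finset V, (∀ x ∈ I, (∃ i, x = u i) ∨ x ∈ D) → G.IsIndepSet (I : Set V) → I.card ≤ a)
    (Ds : Finset V) (hDsD : Ds ⊆ D)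
    (c : V → ZMod b) (hc : ∀ y ∈ Ds, ∀ y' ∈ Ds, G.Adj y y' → c y ≠ c y') :
    ∑ q : ZMod b, ((RR G u D q) ∩ Ds).card + b ≤ a * b := by
  classical
  set Rs : ZMod b → Finset V := fun q => (RR G u D q) ∩ Ds with hRsdef
  have hRs : ∀ q, Rs q ⊆ RR G u D q := fun q => Finset.inter_subset_left
  have hDs : ∀ q, Rs q ⊆ Ds := fun q => Finset.inter_subset_right
  set Dir : V → V → Prop := fun x y => G.Adj x y ∧ (c x).val < (c y).val with hDir
  set Reach : ZMod b → V → Prop := fun φ y => ∃ T : List V, (y :: T).IsChain Dir ∧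
      (∀ z ∈ T, z ∈ Ds) ∧ ∀ z ∈ (y :: T).getLast?, z ∈ Rs (φ + (T.length : ZMod b)) with hReach
  set A : ZMod b → Finset V := fun φ => Ds.filter (Reach φ) with hA
  have hfacts : ∀ (y : V) (T : List V), (y :: T).IsChain Dir →
      (y :: T).IsChain G.Adj ∧ (y :: T).Nodup ∧ T.length + 1 ≤ b := by
    intro y T h
    have h1 : (y :: T).IsChain G.Adj := h.imp (fun _ _ h => h.1)
    have h2 : ((y :: T).map (fun z => (c z).val)).IsChain (· < ·) := by
      rw [List.isChain_map]
      exact h.imp (fun _ _ h => h.2)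
    have h3 : ((y :: T).map (fun z => (c z).val)).Nodup := by
      have := List.isChain_iff_pairwise.1 h2
      exact this.imp (fun h => ne_of_lt h)
    have h4 : ((y :: T).map c).Nodup := by
      have e : (y :: T).map (fun z => (c z).val) = ((y :: T).map c).map ZMod.val := by simp
      rw [e] at h3
      exact List.Nodup.of_map _ h3
    refine ⟨h1, List.Nodup.of_map _ h4, ?_⟩
    have := h4.length_le_card
    rw [ZMod.card] at this
    simpa using this
  have hinA : ∀ φ, Rs φ ⊆ A φ := by
    intro φ y hy
    refine Finset.mem_filter.2 ⟨hDs φ hy, [], by simp, by simp, ?_⟩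
    intro z hz
    have hzy : z = y := by simpa using hz.symm
    subst hzy
    simpa using hy
  have hsub : ∀ φ, Rs φ ⊆ A φ \ A (φ + 1) := by
    intro φ y hy
    rw [Finset.mem_sdiff]
    refine ⟨hinA φ hy, ?_⟩
    intro hmem
    obtain ⟨T, t1, t2, t3⟩ := (Finset.mem_filter.1 hmem).2
    obtain ⟨c1, c2, c3⟩ := hfacts y T t1
    refine no_path S (q := φ) (s := T.length + 1) (by omega) c3 (W := y :: T) (by simp) c1 c2
      ?_ ?_ ?_
    · intro z hz
      rcases List.mem_cons.1 hz with rfl | hz
      · exact hDsD (hDs φ hy)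
      · exact hDsD (t2 z hz)
    · intro z hz
      have hzy : z = y := by simpa using hz.symm
      subst hzy
      exact (mem_RR.1 (hRs φ hy)).2
    · intro z hz
      have h1 := t3 z hz
      have h2 := (mem_RR.1 (hRs _ h1)).2
      have e : φ + 1 + (T.length : ZMod b) = φ + ((T.length + 1 : ℕ) : ZMod b) := by
        push_cast
        ring
      rw [e] at h2
      exact h2.symm
  have hstep : ∀ (φ : ZMod b) (x x' : V), x ∈ Ds → G.Adj x' x → (c x').val < (c x).val →
      Reach (φ + 1) x → Reach φ x' := by
    rintro φ x x' hx hadj hlt ⟨T, t1, t2, t3⟩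
    refine ⟨x :: T, ?_, ?_, ?_⟩
    · rw [List.isChain_cons_cons]
      exact ⟨⟨hadj, hlt⟩, t1⟩
    · intro z hz
      rcases List.mem_cons.1 hz with rfl | hz
      · exact hx
      · exact t2 z hz
    · intro z hz
      rw [List.getLast?_cons_of_ne_nil (by simp)] at hz
      have h1 := t3 z hz
      have e : φ + 1 + (T.length : ZMod b) = φ + (((x :: T).length : ℕ) : ZMod b) := by
        simp only [List.length_cons]
        push_cast
        ring
      rw [e] at h1
      exact h1
  have hcard : ∀ φ, (A (φ + 1) \ A φ).card + 1 ≤ a := by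
    intro φ
    have hnot : u φ ∉ A (φ + 1) \ A φ := by
      intro h
      exact S.disj _ (hDsD (Finset.mem_filter.1 (Finset.mem_sdiff.1 h).1).1) φ rfl
    rw [← Finset.card_insert_of_notMem hnot]
    apply hX
    · intro x hx
      rcases Finset.mem_insert.1 hx with rfl | hx
      · exact Or.inl ⟨φ, rfl⟩
      · exact Or.inr (hDsD (Finset.mem_filter.1 (Finset.mem_sdiff.1 hx).1).1)
    · -- independence
      have hind : ∀ x ∈ A (φ + 1) \ A φ, ∀ x' ∈ A (φ + 1) \ A φ, x ≠ x' → ¬ G.Adj x x' := by
        intro x hx x' hx' _ hadj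
        have hx1 := Finset.mem_sdiff.1 hx
        have hx2 := Finset.mem_sdiff.1 hx'
        have hxD := (Finset.mem_filter.1 hx1.1).1
        have hxD' := (Finset.mem_filter.1 hx2.1).1
        have hcne := hc x hxD x' hxD' hadj
        have hval : (c x).val ≠ (c x').val := fun h => hcne (ZMod.val_injective b h)
        rcases lt_or_gt_of_ne hval with hlt | hlt
        · exact hx1.2 (Finset.mem_filter.2 ⟨hxD, hstep φ x' x hxD' hadj hlt
            (Finset.mem_filter.1 hx2.1).2⟩)
        · exact hx2.2 (Finset.mem_filter.2 ⟨hxD', hstep φ x x' hxD hadj.symm hlt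
            (Finset.mem_filter.1 hx1.1).2⟩)
      have hu : ∀ x ∈ A (φ + 1) \ A φ, ¬ G.Adj (u φ) x := by
        intro x hx hadj
        have hx1 := Finset.mem_sdiff.1 hx
        have hxD := (Finset.mem_filter.1 hx1.1).1
        apply hx1.2
        apply hinA φ
        exact Finset.mem_inter.2 ⟨mem_RR.2 ⟨hDsD hxD, hadj⟩, hxD⟩
      intro x hx x' hx' hne
      simp only [Finset.coe_insert, Set.mem_insert_iff, Finset.mem_coe] at hx hx'
      rcases hx with rfl | hx <;> rcases hx' with rfl | hx'
      · exact absurd rfl hne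
      · exact hu x' hx'
      · exact fun h => hu x hx h.symm
      · exact hind x hx x' hx' hne
  have hsum : ∑ φ, (A φ \ A (φ + 1)).card = ∑ φ, (A (φ + 1) \ A φ).card := by
    have h1 : ∀ φ, (A φ \ A (φ + 1)).card + (A (φ + 1)).card
        = (A (φ + 1) \ A φ).card + (A φ).card := by
      intro φ
      have e1 := Finset.card_sdiff_add_card (A φ) (A (φ + 1))
      have e2 := Finset.card_sdiff_add_card (A (φ + 1)) (A φ)
      rw [Finset.union_comm] at e2
      omega
    have h2 : ∑ φ, (A (φ + 1)).card = ∑ φ, (A φ).card :=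
      Fintype.sum_equiv (Equiv.addRight (1 : ZMod b)) _ _ (fun φ => rfl)
    have h3 : ∑ φ, ((A φ \ A (φ + 1)).card + (A (φ + 1)).card)
        = ∑ φ, ((A (φ + 1) \ A φ).card + (A φ).card) :=
      Finset.sum_congr rfl (fun φ _ => h1 φ)
    rw [Finset.sum_add_distrib, Finset.sum_add_distrib, h2] at h3
    omega
  have hbb : ∑ _φ : ZMod b, 1 = b := by
    simp [Finset.card_univ, ZMod.card]
  calc ∑ q, (Rs q).card + b = ∑ q, (Rs q).card + ∑ _φ : ZMod b, 1 := by rw [hbb]
    _ ≤ ∑ φ, (A φ \ A (φ + 1)).card + ∑ _φ : ZMod b, 1 := by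
        gcongr with φ
        exact hsub φ
    _ = ∑ φ, (A (φ + 1) \ A φ).card + ∑ _φ : ZMod b, 1 := by rw [hsum]
    _ = ∑ φ, ((A (φ + 1) \ A φ).card + 1) := by rw [Finset.sum_add_distrib]
    _ ≤ ∑ _φ : ZMod b, a := Finset.sum_le_sum (fun φ _ => hcard φ)
    _ = a * b := by
        rw [Finset.sum_const, Finset.card_univ, ZMod.card]
        simp [mul_comm]

open Classical in
/-- The colouring: if the directions `ε` differ on consecutive positions joined by an edge, then the
vertices in the sets `Rs q` have a proper colouring by `ZMod b`. -/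
theorem exists_colouring [NeZero b] (S : Setup G u D)
    (Rs : ZMod b → Finset V) (hRs : ∀ q, Rs q ⊆ RR G u D q)
    (ε : ZMod b → Bool)
    (hε : ∀ q, ∀ y ∈ Rs q, ∀ y' ∈ Rs (q + 1), G.Adj y y' → ε q ≠ ε (q + 1)) :
    ∃ c : V → ZMod b, ∀ y ∈ (Finset.univ : Finset (ZMod b)).biUnion Rs,
      ∀ y' ∈ (Finset.univ : Finset (ZMod b)).biUnion Rs, G.Adj y y' → c y ≠ c y' := by
  classical
  have hb := S.hb
  set Ds := (Finset.univ : Finset (ZMod b)).biUnion Rs with hDsdef
  have hex : ∀ y, ∃ q, y ∈ Ds → y ∈ Rs q := by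
    intro y
    by_cases h : y ∈ Ds
    · obtain ⟨q, -, hq⟩ := Finset.mem_biUnion.1 h
      exact ⟨q, fun _ => hq⟩
    · exact ⟨0, fun h' => absurd h' h⟩
  choose p hp using hex
  set R' : ZMod b → Finset V := fun q => Ds.filter (fun y => p y = q) with hR'
  have hR'RR : ∀ q, ∀ z ∈ R' q, z ∈ RR G u D q := by
    intro q z hz
    obtain ⟨h1, h2⟩ := Finset.mem_filter.1 hz
    have h3 := hp z h1
    rw [h2] at h3
    exact hRs q h3
  have hR'disj : ∀ q q', q ≠ q' → ∀ z ∈ R' q, z ∉ R' q' := by
    intro q q' hne z hz hz'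
    exact hne ((Finset.mem_filter.1 hz).2.symm.trans (Finset.mem_filter.1 hz').2)
  choose hh hh1 hh2 using fun q => exists_height G (R' q)
  set H : V → ℕ := fun y => hh (p y) y with hH
  have hmem : ∀ y ∈ Ds, y ∈ R' (p y) := fun y hy => Finset.mem_filter.2 ⟨hy, rfl⟩
  have harm : ∀ y ∈ Ds, Arm G (R' (p y)) y (H y) := fun y hy => hh1 (p y) y (hmem y hy)
  have hHpos : ∀ y ∈ Ds, 1 ≤ H y := by
    intro y hy
    obtain ⟨T, -, -, -, t4⟩ := harm y hy
    omega
  have hHlt : ∀ y ∈ Ds, H y + 1 ≤ b := by
    intro y hy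
    obtain ⟨T, t1, t2, t3, t4⟩ := harm y hy
    have := path_len S t1 t2 (fun z hz => hR'RR _ z (t3 z hz))
    simp only [List.length_cons] at this
    omega
  have hsame : ∀ y ∈ Ds, ∀ y' ∈ Ds, G.Adj y y' → p y ≠ p y' → ε (p y) = ε (p y') → H y' < H y →
      (p y' = p y + ((H y - H y' : ℕ) : ZMod b) ∨ p y = p y' + ((H y - H y' : ℕ) : ZMod b)) →
      False := by
    intro y hy y' hy' hadj hne heq hlt hq
    have h1 := hHlt y hy
    have h2 := hHlt y' hy'
    have h3 := hHpos y' hy'
    by_cases ht : H y - H y' = 1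
    · rw [ht] at hq
      simp only [Nat.cast_one] at hq
      rcases hq with hq | hq
      · refine hε (p y) y (hp y hy) y' ?_ hadj (by rw [← hq]; exact heq)
        rw [← hq]
        exact hp y' hy'
      · refine hε (p y') y' (hp y' hy') y ?_ hadj.symm (by rw [← hq]; exact heq.symm)
        rw [← hq]
        exact hp y hy
    · exact pair_conflict S (hR'RR _) (hR'RR _) (hR'disj _ _ hne) (harm y hy) (harm y' hy') hadj
        (s := H y - H y') (by omega) (by omega) (by omega) hq
  have hopp : ∀ y ∈ Ds, ∀ y' ∈ Ds, G.Adj y y' → p y ≠ p y' →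
      p y' = p y + ((H y + H y' : ℕ) : ZMod b) → False := by
    intro y hy y' hy' hadj hne hq
    have h1 := hHlt y hy
    have h2 := hHlt y' hy'
    have h3 := hHpos y hy
    have h4 := hHpos y' hy'
    obtain ⟨s, s1, s2, s3, s4⟩ := exists_size hb (τ := H y + H y') (by omega) (by omega) hq
    exact pair_conflict S (hR'RR _) (hR'RR _) (hR'disj _ _ hne) (harm y hy) (harm y' hy') hadj
      s1 s2 s3 s4
  refine ⟨fun y => if ε (p y) = true then p y + (H y : ZMod b) else p y - (H y : ZMod b), ?_⟩
  intro y hy y' hy' hadj hcc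
  have hcc' : (if ε (p y) = true then p y + (H y : ZMod b) else p y - (H y : ZMod b))
      = (if ε (p y') = true then p y' + (H y' : ZMod b) else p y' - (H y' : ZMod b)) := hcc
  by_cases hqq : p y = p y'
  · -- same position
    have e1 : ε (p y) = ε (p y') := by rw [hqq]
    have hcast : (H y : ZMod b) = (H y' : ZMod b) := by
      by_cases h1 : ε (p y) = true
      · have h2 : ε (p y') = true := by rw [← e1]; exact h1
        rw [if_pos h1, if_pos h2, hqq] at hcc'
        exact add_left_cancel hcc'
      · have h2 : ¬ ε (p y') = true := by rw [← e1]; exact h1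
        rw [if_neg h1, if_neg h2, hqq] at hcc'
        exact neg_injective (by simpa [sub_eq_add_neg] using hcc')
    have hval := natCast_inj_of_lt (b := b) (by have := hHlt y hy; omega)
      (by have := hHlt y' hy'; omega) hcast
    have hy2 : y' ∈ R' (p y) := by
      rw [hqq]
      exact hmem y' hy'
    refine hh2 (p y) y (hmem y hy) y' hy2 hadj ?_
    have e2 : hh (p y') y' = H y' := rfl
    have e3 : hh (p y) y = H y := rfl
    rw [e3, hval, ← e2, hqq]
  · -- different positions
    have hhne : H y ≠ H y' ∨ ε (p y) ≠ ε (p y') := by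
      by_contra hcon
      push Not at hcon
      obtain ⟨h1, h2⟩ := hcon
      apply hqq
      by_cases h3 : ε (p y) = true
      · have h4 : ε (p y') = true := by rw [← h2]; exact h3
        rw [if_pos h3, if_pos h4, h1] at hcc'
        exact add_right_cancel hcc'
      · have h4 : ¬ ε (p y') = true := by rw [← h2]; exact h3
        rw [if_neg h3, if_neg h4, h1] at hcc'
        exact sub_left_injective hcc'
    have hcasts : ∀ m n : ℕ, n < m → (m : ZMod b) = (n : ZMod b) + ((m - n : ℕ) : ZMod b) := by
      intro m n hlt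
      rw [← Nat.cast_add]
      congr 1
      omega
    by_cases h1 : ε (p y) = true <;> by_cases h2 : ε (p y') = true
    · -- both forward
      rw [if_pos h1, if_pos h2] at hcc'
      have heq : ε (p y) = ε (p y') := by rw [h1, h2]
      rcases lt_trichotomy (H y) (H y') with hlt | he | hlt
      · refine hsame y' hy' y hy hadj.symm (Ne.symm hqq) heq.symm hlt (Or.inl ?_)
        have := hcasts _ _ hlt
        rw [this] at hcc'
        linear_combination hcc'
      · rcases hhne with h | h
        · exact h he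
        · exact h heq
      · refine hsame y hy y' hy' hadj hqq heq hlt (Or.inl ?_)
        have := hcasts _ _ hlt
        rw [this] at hcc'
        linear_combination -hcc'
    · -- forward, backward
      rw [if_pos h1, if_neg h2] at hcc'
      refine hopp y hy y' hy' hadj hqq ?_
      push_cast
      linear_combination -hcc'
    · -- backward, forward
      rw [if_neg h1, if_pos h2] at hcc'
      refine hopp y' hy' y hy hadj.symm (Ne.symm hqq) ?_
      push_cast
      linear_combination hcc'
    · -- both backward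
      rw [if_neg h1, if_neg h2] at hcc'
      have heq : ε (p y) = ε (p y') := by
        simp only [Bool.not_eq_true] at h1 h2
        rw [h1, h2]
      rcases lt_trichotomy (H y) (H y') with hlt | he | hlt
      · refine hsame y' hy' y hy hadj.symm (Ne.symm hqq) heq.symm hlt (Or.inr ?_)
        have := hcasts _ _ hlt
        rw [this] at hcc'
        linear_combination -hcc'
      · rcases hhne with h | h
        · exact h he
        · exact h heq
      · refine hsame y hy y' hy' hadj hqq heq hlt (Or.inr ?_)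
        have := hcasts _ _ hlt
        rw [this] at hcc'
        linear_combination hcc'

end Vale.Agent.Lib.P048
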