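import Vale.Agent.Lib.P048.Half
import Vale.Agent.Lib.P048.Telescope2

namespace Vale.Agent.Lib.P048

open Finset

variable {V : Type*}

/-- Even length: every position counted. -/
theorem sum_sharp_even {G : SimpleGraph V} {b : ℕ} [NeZero b] {u : ZMod b → V} {D : Finset V}
    (S : Setup G u D) {a : ℕ}
    (hX : ∀ I : Finset V, (∀ x ∈ I, (∃ i, x = u i) ∨ x ∈ D) → G.IsIndepSet (I : Set V) → I.card ≤ a)
    (hpar : Even b) :
    ∑ q : ZMod b, (RR G u D q).card + b ≤ a * b := by
  classical
  have hb := S.hb
  obtain ⟨c, hc⟩ := exists_colouring S (RR G u D) (fun q => Finset.Subset.refl _)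
    (fun q => decide (Even (q - 0).val)) (by
      intro q _ _ _ _ _
      by_cases hq : (q - 0).val + 1 < b
      · exact alt_dir hb 0 q hq
      · have hq' : q.val + 1 = b := by
          have := ZMod.val_lt q
          simp only [sub_zero] at hq
          omega
        have e : q + 1 = 0 := by
          have h1 : ((q.val + 1 : ℕ) : ZMod b) = 0 := by
            rw [hq']
            exact ZMod.natCast_self b
          push_cast at h1
          rwa [ZMod.natCast_zmod_val] at h1
        simp only [sub_zero, e, ZMod.val_zero]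
        intro h
        have h2 : Even q.val := by simpa using h
        have h3 : Even (q.val + 1) := by rw [hq']; exact hpar
        rw [Nat.even_add_one] at h3
        exact h3 h2)
  have hDs : ((Finset.univ : Finset (ZMod b)).biUnion (RR G u D)) ⊆ D := by
    intro y hy
    obtain ⟨q, -, hq⟩ := Finset.mem_biUnion.1 hy
    exact (mem_RR.1 hq).1
  have h1 := telescope_sharp S hX _ hDs c hc
  have h2 : ∀ q, (RR G u D q) ∩ ((Finset.univ : Finset (ZMod b)).biUnion (RR G u D))
      = RR G u D q := by
    intro q
    apply Finset.inter_eq_left.2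
    exact Finset.subset_biUnion_of_mem _ (Finset.mem_univ q)
  simp only [h2] at h1
  exact h1

/-- Any length, leaving out one position. -/
theorem sum_sharp_erase {G : SimpleGraph V} {b : ℕ} [NeZero b] {u : ZMod b → V} {D : Finset V}
    (S : Setup G u D) {a : ℕ}
    (hX : ∀ I : Finset V, (∀ x ∈ I, (∃ i, x = u i) ∨ x ∈ D) → G.IsIndepSet (I : Set V) → I.card ≤ a)
    (q0 : ZMod b) :
    ∑ q : ZMod b, (RR G u D q).card + b ≤ a * b + (RR G u D q0).card := by
  classical
  have hb := S.hb
  set Rs : ZMod b → Finset V := fun q => if q = q0 then ∅ else RR G u D q with hRsdef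
  have hRs : ∀ q, Rs q ⊆ RR G u D q := by
    intro q
    by_cases h : q = q0
    · simp [hRsdef, h]
    · simp [hRsdef, h]
  obtain ⟨c, hc⟩ := exists_colouring S Rs hRs (fun q => decide (Even (q - q0).val)) (by
      intro q y hy y' hy' _
      have hq2 : q ≠ q0 := by
        intro h
        simp [hRsdef, h] at hy
      have hq3 : q + 1 ≠ q0 := by
        intro h
        simp [hRsdef, h] at hy'
      apply alt_dir hb q0 q
      have := ZMod.val_lt (q - q0)
      by_contra hcon
      have hv : (q - q0).val + 1 = b := by omega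
      apply hq3
      have h2 : (((q - q0).val + 1 : ℕ) : ZMod b) = 0 := by
        rw [hv]
        exact ZMod.natCast_self b
      push_cast at h2
      rw [ZMod.natCast_zmod_val] at h2
      linear_combination h2)
  have hDs : ((Finset.univ : Finset (ZMod b)).biUnion Rs) ⊆ D := by
    intro y hy
    obtain ⟨q, -, hq⟩ := Finset.mem_biUnion.1 hy
    exact (mem_RR.1 (hRs q hq)).1
  have h1 := telescope_sharp S hX _ hDs c hc
  set Ds := (Finset.univ : Finset (ZMod b)).biUnion Rs with hDsdef
  have h2 : ∑ q : ZMod b, (RR G u D q).card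
      ≤ ∑ q : ZMod b, ((RR G u D q) ∩ Ds).card + (RR G u D q0).card := by
    rw [← Finset.add_sum_erase Finset.univ (fun q => (RR G u D q).card) (Finset.mem_univ q0),
      ← Finset.add_sum_erase Finset.univ (fun q => ((RR G u D q) ∩ Ds).card) (Finset.mem_univ q0)]
    have h3 : ∑ q ∈ Finset.univ.erase q0, ((RR G u D q) ∩ Ds).card
        = ∑ q ∈ Finset.univ.erase q0, (RR G u D q).card := by
      apply Finset.sum_congr rfl
      intro q hq
      have hne := Finset.ne_of_mem_erase hq
      congr 1
      apply Finset.inter_eq_left.2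
      have : RR G u D q = Rs q := by simp [hRsdef, hne]
      rw [this]
      exact Finset.subset_biUnion_of_mem _ (Finset.mem_univ q)
    rw [h3]
    omega
  omega

/-- No cycle two longer: all positions, no parity condition. -/
theorem sum_sharp_two {G : SimpleGraph V} {b : ℕ} [NeZero b] {u : ZMod b → V} {D : Finset V}
    (S : Setup G u D) {a : ℕ}
    (hX : ∀ I : Finset V, (∀ x ∈ I, (∃ i, x = u i) ∨ x ∈ D) → G.IsIndepSet (I : Set V) → I.card ≤ a)
    (hno2 : ∀ l, IsCyc G l → l.length = b + 2 → (∀ x ∈ l, (∃ i, x = u i) ∨ x ∈ D) → False) :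
    ∑ q : ZMod b, (RR G u D q).card + b ≤ a * b := by
  classical
  have hb := S.hb
  obtain ⟨c, hc⟩ := exists_colouring S (RR G u D) (fun q => Finset.Subset.refl _)
    (fun _ => true) (by
      intro q y hy y' hy' hadj
      exfalso
      have hD1 := (mem_RR.1 hy).1
      have hD2 := (mem_RR.1 hy').1
      have hcyc := surgery u S.inj S.adj q (s := 1) (by omega) (by omega) [y, y'] (by simp)
        (by simp [hadj]) (by simp [hadj.ne])
        (by
          intro z hz i
          rcases List.mem_cons.1 hz with rfl | hz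
          · exact S.disj _ hD1 i
          · have : z = y' := by simpa using hz
            subst this
            exact S.disj _ hD2 i)
        (by
          intro z hz
          have : z = y := by simpa using hz.symm
          subst this
          exact (mem_RR.1 hy).2)
        (by
          intro z hz
          have : z = y' := by simpa using hz.symm
          subst this
          have h2 := (mem_RR.1 hy').2
          simpa using h2.symm)
        (by simp)
      refine hno2 _ hcyc ?_ ?_
      · simp
        omega
      · intro x hx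
        rcases vertices_surgery u hx with h | h
        · exact Or.inl h
        · rcases List.mem_cons.1 h with rfl | h
          · exact Or.inr hD1
          · have : x = y' := by simpa using h
            subst this
            exact Or.inr hD2)
  have hDs : ((Finset.univ : Finset (ZMod b)).biUnion (RR G u D)) ⊆ D := by
    intro y hy
    obtain ⟨q, -, hq⟩ := Finset.mem_biUnion.1 hy
    exact (mem_RR.1 hq).1
  have h1 := telescope_sharp S hX _ hDs c hc
  have h2 : ∀ q, (RR G u D q) ∩ ((Finset.univ : Finset (ZMod b)).biUnion (RR G u D))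
      = RR G u D q := by
    intro q
    apply Finset.inter_eq_left.2
    exact Finset.subset_biUnion_of_mem _ (Finset.mem_univ q)
  simp only [h2] at h1
  exact h1

/-- The induction step in the range `m ≥ 2a`, `m ≥ 3`. -/
theorem step_sharp {G : SimpleGraph V} {m a : ℕ} (ha : 1 ≤ a) (hm : 2 * a ≤ m) (hm3 : 3 ≤ m)
    (hC : ∀ l, IsCyc G l → l.length = m → False)
    (IH : ∀ a' < a, ∀ Y : Finset V, Bound G Y a' → Y.card ≤ (m - 1) * a')
    (X : Finset V) (hX : Bound G X a) (hcard : (m - 1) * a + 1 ≤ X.card) : False := by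
  classical
  -- degree bound
  have hdeg : ∀ v ∈ X, m - 1 ≤ (X.filter (G.Adj v)).card := by
    intro v hv
    set Y := (X.filter (fun y => y ≠ v ∧ ¬ G.Adj v y)) with hY
    have hYb : Bound G Y (a - 1) := by
      intro I hI hIind
      have hind := indep_union hIind (indep_singleton v) (by
        intro x hx y hy
        rw [Finset.mem_singleton.1 hy]
        intro h
        exact (Finset.mem_filter.1 (hI hx)).2.2 h.symm)
      have h1 := hX _ (by
        intro y hy
        rcases Finset.mem_union.1 hy with h | h
        · exact (Finset.mem_filter.1 (hI h)).1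
        · rw [Finset.mem_singleton.1 h]
          exact hv) hind
      rw [Finset.card_union_of_disjoint (by
        rw [Finset.disjoint_left]
        intro y hy hy2
        rw [Finset.mem_singleton.1 hy2] at hy
        exact (Finset.mem_filter.1 (hI hy)).2.1 rfl), Finset.card_singleton] at h1
      omega
    have hYc := IH (a - 1) (by omega) Y hYb
    have hsub : X ⊆ insert v (X.filter (G.Adj v) ∪ Y) := by
      intro y hy
      by_cases h1 : y = v
      · exact Finset.mem_insert.2 (Or.inl h1)
      · apply Finset.mem_insert_of_mem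
        by_cases h2 : G.Adj v y
        · exact Finset.mem_union_left _ (Finset.mem_filter.2 ⟨hy, h2⟩)
        · exact Finset.mem_union_right _ (Finset.mem_filter.2 ⟨hy, h1, h2⟩)
    have h3 := Finset.card_le_card hsub
    have h4 := Finset.card_insert_le v (X.filter (G.Adj v) ∪ Y)
    have h5 := Finset.card_union_le (X.filter (G.Adj v)) Y
    have hsplit : (m - 1) * a = (m - 1) * (a - 1) + (m - 1) := by
      obtain ⟨a', rfl⟩ : ∃ a', a = a' + 1 := ⟨a - 1, by omega⟩
      simp
      ring
    omega
  -- a triangle
  obtain ⟨v, hv⟩ : X.Nonempty := by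
    apply Finset.card_pos.1
    omega
  have htri : ∃ l, IsCyc G l ∧ l.length = 3 ∧ ∀ x ∈ l, x ∈ X := by
    have hnot : ¬ G.IsIndepSet ((X.filter (G.Adj v) : Finset V) : Set V) := by
      intro hind
      have h1 := hX _ (Finset.filter_subset _ _) hind
      have h2 := hdeg v hv
      omega
    unfold SimpleGraph.IsIndepSet Set.Pairwise at hnot
    push Not at hnot
    obtain ⟨y, hy, z, hz, hne, hadj⟩ := hnot
    simp only [Finset.coe_filter, Set.mem_ofPred_eq] at hy hz
    refine ⟨[v, y, z], ⟨by simp, ?_, ?_, ?_⟩, by simp, ?_⟩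
    · simp only [List.nodup_cons, List.mem_cons, List.not_mem_nil, or_false, not_or,
        List.nodup_nil, and_true, not_false_eq_true]
      exact ⟨⟨hy.2.ne, hz.2.ne⟩, hne⟩
    · simp [hy.2, hadj]
    · intro a' ha' c' hc'
      have h1 : a' = z := by simpa using ha'.symm
      have h2 : c' = v := by simpa using hc'.symm
      rw [h1, h2]
      exact hz.2.symm
    · intro x hx
      simp only [List.mem_cons, List.not_mem_nil, or_false] at hx
      rcases hx with rfl | rfl | rfl
      · exact hv
      · exact hy.1
      · exact hz.1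
  have hm4 : 4 ≤ m := by
    by_contra hcon
    obtain ⟨l, hl, hl3, -⟩ := htri
    exact hC l hl (by omega)
  -- the largest cycle length below `m`
  set PP : ℕ → Prop := fun k => ∃ l, IsCyc G l ∧ l.length = k ∧ ∀ x ∈ l, x ∈ X with hPP
  set b := Nat.findGreatest PP (m - 1) with hbdef
  have hPb : PP b := Nat.findGreatest_spec (m := 3) (by omega) htri
  have hbm : b ≤ m - 1 := Nat.findGreatest_le _
  have hbig : ∀ k, b < k → k ≤ m - 1 → ¬ PP k := fun k h1 h2 => Nat.findGreatest_is_greatest h1 h2
  obtain ⟨l, hl, hlb, hlX⟩ := hPb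
  have hb3 : 3 ≤ b := hlb ▸ hl.1
  have : NeZero b := ⟨by omega⟩
  obtain ⟨u, hinj, hadj, hul⟩ := exists_param hl hlb
  have hCX : ∀ i, u i ∈ X := fun i => hlX _ (hul i)
  set C := Finset.univ.image u with hCdef
  set D := X \ C with hDdef
  have hCcard : C.card = b := by
    rw [hCdef, Finset.card_image_of_injective _ hinj, Finset.card_univ, ZMod.card]
  have hCsub : C ⊆ X := by
    intro y hy
    obtain ⟨i, -, rfl⟩ := Finset.mem_image.1 hy
    exact hCX i
  have hDX : D ⊆ X := Finset.sdiff_subset
  have hDcard : D.card = X.card - b := by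
    rw [hDdef, Finset.card_sdiff_of_subset hCsub, hCcard]
  have hvert : ∀ x, ((∃ i, x = u i) ∨ x ∈ D) → x ∈ X := by
    rintro x (⟨i, rfl⟩ | h)
    · exact hCX i
    · exact hDX h
  have noCyc : ∀ k, b < k → k ≤ m → ∀ l, IsCyc G l → l.length = k →
      (∀ x ∈ l, (∃ i, x = u i) ∨ x ∈ D) → False := by
    intro k hk1 hk2 l' hl' hl'k hl'v
    by_cases hkm : k = m
    · exact hC l' hl' (hl'k.trans hkm)
    · exact hbig k hk1 (by omega) ⟨l', hl', hl'k, fun x hx => hvert x (hl'v x hx)⟩
  have S : Setup G u D := ⟨hb3, hinj, hadj, by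
    intro y hy i h
    subst h
    exact (Finset.mem_sdiff.1 hy).2 (Finset.mem_image_of_mem _ (Finset.mem_univ _)),
    fun l' h1 h2 h3 => noCyc (b + 1) (by omega) (by omega) l' h1 h2 h3⟩
  have hsplit : (m - 1) * a = (m - 1) * (a - 1) + (m - 1) := by
    obtain ⟨a', rfl⟩ : ∃ a', a = a' + 1 := ⟨a - 1, by omega⟩
    simp
    ring
  have hnb : ¬ Bound G D (a - 1) := by
    intro h
    have := IH (a - 1) (by omega) D h
    omega
  have hst := star (a := a) (X := X) S (by omega) IH hX hcard hCX hDX (by
    intro y hy hyD
    have : y ∈ C := by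
      by_contra h
      exact hyD (Finset.mem_sdiff.2 ⟨hy, h⟩)
    obtain ⟨i, -, rfl⟩ := Finset.mem_image.1 this
    exact ⟨i, rfl⟩) hnb ha
  have hαD : ∀ I : Finset V, I ⊆ D → G.IsIndepSet (I : Set V) → I.card ≤ a :=
    fun I hI hind => hX I (hI.trans hDX) hind
  have hXall : ∀ I : Finset V, (∀ x ∈ I, (∃ i, x = u i) ∨ x ∈ D) → G.IsIndepSet (I : Set V) →
      I.card ≤ a := fun I hI hind => hX I (fun x hx => hvert x (hI x hx)) hind
  by_cases hcase : b = m - 1
  · rw [← hcase] at hst
    have hb2a : 2 * a ≤ b + 1 := by omega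
    by_cases hpar : Even b
    · have hE := sum_sharp_even S hXall hpar
      have h1 : 2 * a * b ≤ (b + 1) * b := Nat.mul_le_mul_right _ hb2a
      nlinarith
    · have hE : ∀ q0 : ZMod b, ∑ q : ZMod b, (RR G u D q).card + b
          ≤ a * b + (RR G u D q0).card := fun q0 => sum_sharp_erase S hXall q0
      set e := ∑ q : ZMod b, (RR G u D q).card with he
      have hsum : ∑ _q0 : ZMod b, (e + b) ≤ ∑ q0 : ZMod b, (a * b + (RR G u D q0).card) :=
        Finset.sum_le_sum (fun q0 _ => hE q0)
      rw [Finset.sum_add_distrib, Finset.sum_add_distrib, ← he] at hsum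
      simp only [Finset.sum_const, Finset.card_univ, ZMod.card, smul_eq_mul] at hsum
      have hz1 : (b : ℤ) * e + b * b ≤ b * (a * b) + e := by exact_mod_cast hsum
      have hz2 : (b : ℤ) * b + a ≤ e + a * b := by exact_mod_cast hst
      have hz3 : (2 * a : ℤ) ≤ b + 1 := by exact_mod_cast hb2a
      have hz4 : (1 : ℤ) ≤ a := by exact_mod_cast ha
      have hz5 : (3 : ℤ) ≤ b := by exact_mod_cast hb3
      have hz6 : ((b : ℤ) - 1) * (b * b + a - a * b) ≤ ((b : ℤ) - 1) * e :=
        mul_le_mul_of_nonneg_left (by linarith) (by linarith)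
      have hz7 : (0 : ℤ) ≤ (b : ℤ) * (b + 1 - 2 * a) * (b - 1) :=
        mul_nonneg (mul_nonneg (by linarith) (by linarith)) (by linarith)
      have hz8 : (a : ℤ) < b := by
        by_contra hcon
        push Not at hcon
        have : (a : ℤ) ≤ 1 := by linarith
        linarith
      nlinarith
  · have hE := sum_sharp_two S hXall
      (fun l' h1 h2 h3 => noCyc (b + 2) (by omega) (by omega) l' h1 h2 h3)
    have h2 : 2 * a * b ≤ m * b := Nat.mul_le_mul_right _ hm
    have h3 : (m - 1) * b + b = m * b := by
      obtain ⟨m', rfl⟩ : ∃ m', m = m' + 1 := ⟨m - 1, by omega⟩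
      simp
      ring
    have h4 : 2 * a * b = 2 * (a * b) := by ring
    omega

/-- The bound by strong induction on `a`. -/
theorem main_sharp {G : SimpleGraph V} {m : ℕ} (hC : ∀ l, IsCyc G l → l.length = m → False)
    (hm3 : 3 ≤ m) (a : ℕ) (hm : 2 * a ≤ m) (X : Finset V) (hX : Bound G X a) :
    X.card ≤ (m - 1) * a := by
  induction a using Nat.strong_induction_on generalizing X with
  | _ a ih =>
    rcases Nat.eq_zero_or_pos a with rfl | ha
    · rw [Nat.mul_zero]
      by_contra hcon
      obtain ⟨v, hv⟩ : X.Nonempty := Finset.card_pos.1 (by omega)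
      have := hX {v} (Finset.singleton_subset_iff.2 hv) (indep_singleton v)
      simp at this
    · by_contra hcon
      exact step_sharp ha hm hm3 hC (fun a' ha' Y hY => ih a' ha' (by omega) Y hY) X hX (by omega)

/-- The final form: `R(C_m, K_n) ≤ (m - 1)(n - 1) + 1` for `m ≥ 2n - 2`, `m ≥ 3`. -/
theorem final_sharp {V : Type*} [Fintype V] (m n : ℕ) (hn : 2 ≤ n) (hm : 2 * n ≤ m + 2) (hm3 : 3 ≤ m)
    (G : SimpleGraph V) (hcard : (m - 1) * (n - 1) + 1 ≤ Fintype.card V) :
    (∃ s : Finset V, s.card = n ∧ G.IsIndepSet (s : Set V)) ∨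
      ∃ (v : V) (w : G.Walk v v), w.IsCycle ∧ w.length = m := by
  classical
  by_contra hcon
  push Not at hcon
  obtain ⟨h1, h2⟩ := hcon
  have hC : ∀ l, IsCyc G l → l.length = m → False := by
    intro l hl hlm
    obtain ⟨v, w, hw, hwl⟩ := walk_of_cyc hl
    exact h2 v w hw (hwl.trans hlm)
  have hB : Bound G (Finset.univ : Finset V) (n - 1) := by
    intro I _ hI
    by_contra hlt
    obtain ⟨s, hs, hsc⟩ := Finset.exists_subset_card_eq (show n ≤ I.card by omega)
    exact h1 s hsc (hI.mono (by exact_mod_cast hs))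
  have := main_sharp hC hm3 (n - 1) (by omega) Finset.univ hB
  rw [Finset.card_univ] at this
  omega

end Vale.Agent.Lib.P048
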