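import Vale.Agent.Lib.P048.SlopeFinal
import Vale.Agent.Lib.P048.SlopeX0
import Vale.Agent.Lib.P048.SlopeX1
import Vale.Agent.Lib.P048.SlopeX2
import Vale.Agent.Lib.P048.SlopeS0
import Vale.Agent.Lib.P048.SlopeS1
import Vale.Agent.Lib.P048.SlopeS2
import Vale.Agent.Lib.P048.SlopeS3
import Vale.Agent.Lib.P048.SlopeS4
import Vale.Agent.Lib.P048.SlopeS5
import Vale.Agent.Lib.P048.SlopeS6
import Vale.Agent.Lib.P048.SlopeS7
import Vale.Agent.Lib.P048.SlopeS8
import Vale.Agent.Lib.P048.SlopeS9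
import Vale.Agent.Lib.P048.SlopeS10

namespace Vale.Agent.Lib.P048

open Finset

variable {V : Type*}

theorem exReach_all : ExReach 6 1221 :=
  exReach_trans (exReach_trans (reachSlopeX0) reachSlopeX1) reachSlopeX2

theorem reach_all : Reach 1221 2446 :=
  reach_trans (reach_trans (reach_trans (reach_trans (reach_trans (reach_trans (reach_trans (reach_trans (reach_trans (reach_trans (reachSlopeS0) reachSlopeS1) reachSlopeS2) reachSlopeS3) reachSlopeS4) reachSlopeS5) reachSlopeS6) reachSlopeS7) reachSlopeS8) reachSlopeS9) reachSlopeS10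

/-- A profile exists whenever `8 a ≤ 5 b + 2` and `b + 1 < 2 a`. -/
theorem concl_all (a b : ℕ) (h3 : 8 * a ≤ 5 * b + 2) (h4 : b + 1 < 2 * a) : Concl a b := by
  by_cases hb : b < 6
  · exfalso
    omega
  by_cases hb2 : b < 1221
  · exact exReach_all b a (by omega) hb2 h3 h4
  · exact large_of_reach reach_all (by norm_num) (by norm_num) (by omega) h3 h4

/-- The final form: `R(C_m, K_n) ≤ (m - 1)(n - 1) + 1` for `5 m + 5 ≥ 8 n`. -/
theorem final_85b {V : Type*} [Fintype V] (m n : ℕ) (hn : 2 ≤ n) (hm3 : 3 ≤ m)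
    (hm : 8 * n ≤ 5 * m + 5) (G : SimpleGraph V)
    (hcard : (m - 1) * (n - 1) + 1 ≤ Fintype.card V) :
    (∃ s : Finset V, s.card = n ∧ G.IsIndepSet (s : Set V)) ∨
      ∃ (v : V) (w : G.Walk v v), w.IsCycle ∧ w.length = m := by
  classical
  by_cases hsharp : 2 * n ≤ m + 2
  · exact final_sharp m n hn hsharp hm3 G hcard
  by_contra hcon
  push Not at hcon
  obtain ⟨h1, h2⟩ := hcon
  have hC : ∀ l, IsCyc G l → l.length = (m - 1) + 1 → False := by
    intro l hl hlm
    obtain ⟨v, w, hw, hwl⟩ := walk_of_cyc hl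
    exact h2 v w hw (hwl.trans (by omega))
  have hB : Bound G (Finset.univ : Finset V) (n - 1) := by
    intro I _ hI
    by_contra hlt
    obtain ⟨s, hs, hsc⟩ := Finset.exists_subset_card_eq (show n ≤ I.card by omega)
    exact h1 s hsc (hI.mono (by exact_mod_cast hs))
  obtain ⟨i, s, hP, hi, ha⟩ := concl_all (n - 1) (m - 1) (by omega) (by omega)
  have := main_slope_two hC hP hi ha (n - 1) (le_refl _) Finset.univ hB
  rw [Finset.card_univ] at this
  rw [Nat.mul_comm] at this
  omega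

end Vale.Agent.Lib.P048
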