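import Vale.Agent.Lib.P048.SlopeClass

namespace Vale.Agent.Lib.P048

/-- Flat part: the main inequality. -/
lemma arith_flat {w b R T : ℤ} (hw : 1 ≤ w) (hb1 : 36 * w + 8 ≤ b)
    (hT : 2 * R + 1 + T = b) (hT0 : 4 * w + 5 ≤ 5 * T) (hR : 3 * w + 1 ≤ R) :
    1 ≤ b * R * T - (R + T) * ((6 * w + 1) * (3 * w + 1)) + R := by
  have hS : 0 ≤ (6 * w + 1) * (3 * w + 1) := by nlinarith
  by_cases hTs : 6 * w + 1 ≤ T
  · have h1 : (3 * w + 1) * (6 * w + 1) ≤ R * T := by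
      apply mul_le_mul hR hTs (by linarith) (by linarith)
    have hb0 : 0 ≤ b := by linarith
    have h2 : b * ((3 * w + 1) * (6 * w + 1)) ≤ b * (R * T) :=
      mul_le_mul_of_nonneg_left h1 hb0
    have h3 : 0 ≤ (R + 1) * ((6 * w + 1) * (3 * w + 1)) := by
      apply mul_nonneg (by linarith) hS
    have hb : b = 2 * R + 1 + T := hT.symm
    subst hb
    nlinarith
  · have hT1 : T ≤ 6 * w := by omega
    have hR2 : 15 * w + 3 ≤ R := by linarith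
    set S := (6 * w + 1) * (3 * w + 1) with hSdef
    have hS2 : S = 18 * w ^ 2 + 9 * w + 1 := by rw [hSdef]; ring
    have hbR : 0 ≤ b * R - S := by
      have : (36 * w + 8) * (15 * w + 3) ≤ b * R :=
        mul_le_mul hb1 hR2 (by linarith) (by linarith)
      nlinarith
    have h2 : 0 ≤ (5 * T - (4 * w + 5)) * (b * R - S) :=
      mul_nonneg (by linarith) hbR
    have hc : 0 ≤ (4 * w + 5) * b - 5 * S + 5 := by
      have : (4 * w + 5) * (36 * w + 8) ≤ (4 * w + 5) * b :=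
        mul_le_mul_of_nonneg_left hb1 (by linarith)
      nlinarith
    have h3 : 0 ≤ (R - (15 * w + 3)) * ((4 * w + 5) * b - 5 * S + 5) :=
      mul_nonneg (by linarith) hc
    have h4 : 0 ≤ (15 * w + 3) * ((4 * w + 5) * (b - (36 * w + 8))) :=
      mul_nonneg (by linarith) (mul_nonneg (by linarith) (by linarith))
    have h5 : 0 ≤ w ^ 2 := sq_nonneg w
    have h6 : 0 ≤ (w - 1) * w ^ 2 := mul_nonneg (by linarith) h5
    rw [hS2] at h2 h3 ⊢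
    nlinarith

/-- The numerical core of the tail. -/
lemma arith_tail_core {w b a D L : ℤ} (hw : 1 ≤ w) (hb1 : 36 * w + 8 ≤ b) (hb2 : b < 36 * w + 44)
    (ha2 : 2 * a ≤ b + 4 * w) (ha1 : b + 3 ≤ 2 * a) (hD1 : 15 * w ≤ 2 * D) (hL1 : 12 * w ≤ 5 * L) :
    0 ≤ D * (a + L - 1) - b * (2 * a - b - 1) - (6 * w + 1) * (3 * w + 1) := by
  have hal : 0 ≤ a + L - 1 := by linarith
  have h1 : 0 ≤ (2 * D - 15 * w) * (a + L - 1) := mul_nonneg (by linarith) hal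
  have h2 : 0 ≤ w * (5 * L - 12 * w) := mul_nonneg (by linarith) (by linarith)
  have h3 : 0 ≤ (20 * b - 75 * w) * (b + 4 * w - 2 * a) :=
    mul_nonneg (by linarith) (by linarith)
  by_cases hw4 : w ≤ 4
  · have h4 : 0 ≤ (b - (36 * w + 8)) * (4 - w) := mul_nonneg (by linarith) (by linarith)
    nlinarith
  · have h4 : 0 ≤ (36 * w + 44 - b) * (w - 4) := mul_nonneg (by linarith) (by omega)
    nlinarith

/-- Tail: the inequality `U3`. -/
lemma arith_tail {w b a D L R u : ℤ} (hw : 1 ≤ w) (hb1 : 36 * w + 8 ≤ b) (hb2 : b < 36 * w + 44)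
    (ha2 : 2 * a ≤ b + 4 * w) (ha1 : b + 3 ≤ 2 * a) (hD1 : 15 * w ≤ 2 * D) (hD2 : 2 * D ≤ 15 * w + 1)
    (hL1 : 12 * w ≤ 5 * L) (hL2 : 5 * L ≤ 12 * w + 4) (hR1 : a - L ≤ R) (hR2 : R + 1 ≤ a)
    (hu : u = (6 * w + 1) * (3 * w + 1) - D * (R - (a - L))) (hu0 : 0 ≤ u) :
    1 ≤ b * (R * (b - 2 * (R + 1) + 1) - u) + (R + 1) * (R * D + u + R) - R ^ 2 := by
  have hR0 : 1 ≤ R := by linarith
  have hDw : 0 ≤ D := by linarith
  by_cases hT : 0 ≤ b - 2 * R - 1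
  · -- `T ≥ 0`
    have huS : u ≤ (6 * w + 1) * (3 * w + 1) := by
      rw [hu]
      have : 0 ≤ D * (R - (a - L)) := mul_nonneg hDw (by linarith)
      linarith
    have h3R : b ≤ 3 * R + 1 := by linarith
    have h1 : 0 ≤ b * (R * (b - 2 * R - 1)) :=
      mul_nonneg (by linarith) (mul_nonneg (by linarith) hT)
    have h2 : (b - R - 1) * u ≤ (2 * R) * ((6 * w + 1) * (3 * w + 1)) := by
      apply mul_le_mul (by linarith) huS hu0 (by linarith)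
    have h3 : 2 * ((6 * w + 1) * (3 * w + 1)) ≤ (R + 1) * D := by
      have h4 : (15 * w) * (15 * w) ≤ (2 * (R + 1)) * (2 * D) := by
        apply mul_le_mul (by linarith) hD1 (by linarith) (by linarith)
      nlinarith
    have h4 : R * (2 * ((6 * w + 1) * (3 * w + 1))) ≤ R * ((R + 1) * D) :=
      mul_le_mul_of_nonneg_left h3 (by linarith)
    nlinarith
  · have hZ : 1 ≤ 2 * R + 1 - b := by omega
    have hf0 := arith_tail_core hw hb1 hb2 ha2 ha1 hD1 hL1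
    have hf1 : 0 ≤ (b - D) * (a - 1 - R) := mul_nonneg (by linarith) (by linarith)
    have hf : 0 ≤ (R + 1) * D - b * (2 * R + 1 - b) - u := by
      rw [hu]
      nlinarith
    have h1 : 0 ≤ R * ((R + 1) * D - b * (2 * R + 1 - b) - u) :=
      mul_nonneg (by linarith) hf
    have h2 : 0 ≤ (2 * R + 1 - b) * u := mul_nonneg (by linarith) hu0
    nlinarith

/-- `U1`, generic. -/
lemma arith_U1 {w b a R u : ℤ} (hw : 1 ≤ w) (hb1 : 36 * w + 8 ≤ b) (ha2 : 2 * a ≤ b + 4 * w)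
    (hR1 : 3 * w + 1 ≤ R) (hR2 : R + 1 ≤ a) (hu : u ≤ (6 * w + 1) * (3 * w + 1)) :
    R ^ 2 + 1 ≤ 3 * (R * (b - R) - u) := by
  have h1 : (3 * w + 1) * (28 * w + 12) ≤ R * (3 * b - 4 * R) :=
    mul_le_mul hR1 (by linarith) (by linarith) (by linarith)
  nlinarith

/-- The numerical part for `r ≤ h`. -/
lemma arith_small {w b R : ℤ} (hw : 1 ≤ w) (hb1 : 36 * w + 8 ≤ b) (hR1 : 1 ≤ R)
    (hR2 : R ≤ 3 * w) :
    R ^ 2 + 1 ≤ 3 * (R * (b - R) - (6 * w + 1) * R) ∧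
    1 ≤ b * (R * (b - 2 * (R + 1) + 1) - (6 * w + 1) * R) +
      (R + 1) * (R * ((6 * w + 1) * R - (6 * w + 1) * (R + 1)) + (6 * w + 1) * R + R) - R ^ 2 ∧
    0 ≤ R * (b - 2 * R) - (6 * w + 1) * R ∧
    1 ≤ (12 * w + 2 - ((6 * w + 1) * (R + 1) - (6 * w + 1) * R)) * (R * b - (6 * w + 1) * R) +
      R * ((6 * w + 1) * R) + R ^ 2 * ((6 * w + 1) * (R + 1) - (6 * w + 1) * R) -
      2 * (b + 1) * R ^ 2 := by
  refine ⟨?_, ?_, ?_, ?_⟩
  · have h1 : 1 * 1 ≤ R * (3 * b - 4 * R - 3 * (6 * w + 1)) :=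
      mul_le_mul hR1 (by linarith) (by linarith) (by linarith)
    nlinarith
  · have h1 : 0 ≤ b * (R * (b - 2 * R - 1 - (6 * w + 1))) :=
      mul_nonneg (by linarith) (mul_nonneg (by linarith) (by linarith))
    nlinarith
  · have h1 : 0 ≤ R * (b - 2 * R - (6 * w + 1)) :=
      mul_nonneg (by linarith) (by linarith)
    nlinarith
  · have h1 : 0 ≤ (6 * w - 2 * R) * (b + 1 - (6 * w + 1)) :=
      mul_nonneg (by linarith) (by linarith)
    have h2 : 1 ≤ (6 * w + 1) * (b - (6 * w + 1)) - 2 * R * (b + 1 - (6 * w + 1)) := by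
      nlinarith
    have h3 : 1 * 1 ≤ R * ((6 * w + 1) * (b - (6 * w + 1)) - 2 * R * (b + 1 - (6 * w + 1))) :=
      mul_le_mul hR1 h2 (by linarith) (by linarith)
    nlinarith

/-- The profile. -/
def profS (w D r0 : ℕ) (r : ℕ) : ℤ :=
  ((6 * w + 1 : ℕ) : ℤ) * ((min r (3 * w + 1) : ℕ) : ℤ) - (D : ℤ) * ((r - r0 : ℕ) : ℤ)

lemma profS_A {w D r0 r : ℕ} (h0 : 3 * w + 1 ≤ r0) (h : r ≤ 3 * w + 1) :
    profS w D r0 r = (6 * (w : ℤ) + 1) * r := by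
  have h1 : min r (3 * w + 1) = r := by omega
  have h2 : r - r0 = 0 := by omega
  simp only [profS, h1, h2]
  push_cast
  ring

lemma profS_B {w D r0 r : ℕ} (h1 : 3 * w + 1 ≤ r) (h : r ≤ r0) :
    profS w D r0 r = (6 * (w : ℤ) + 1) * (3 * w + 1) := by
  have h3 : min r (3 * w + 1) = 3 * w + 1 := by omega
  have h2 : r - r0 = 0 := by omega
  simp only [profS, h3, h2]
  push_cast
  ring

lemma profS_C {w D r0 r : ℕ} (h0 : 3 * w + 1 ≤ r0) (h : r0 ≤ r) :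
    profS w D r0 r = (6 * (w : ℤ) + 1) * (3 * w + 1) - D * ((r : ℤ) - r0) := by
  have h3 : min r (3 * w + 1) = 3 * w + 1 := by omega
  simp only [profS, h3]
  rw [Nat.cast_sub h]
  push_cast
  ring

/-- The conclusions needed at `r = R + 1`, with `u = s R`, `v = s (R + 1)`. -/
def KeyConcl (b w R u v : ℤ) : Prop :=
  (R + 1 + 1 ≤ b - v + u) ∧
  (R ^ 2 + 1 ≤ 3 * (R * (b - R) - u)) ∧
  (1 ≤ (R + 1) * (R * (u - v) + u + R) - R ^ 2) ∧
  (1 ≤ b * (R * (b - 2 * (R + 1) + 1) - u) + (R + 1) * (R * (u - v) + u + R) - R ^ 2) ∧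
  (u < v → (0 ≤ R * (b - 2 * R) - u) ∧
    (1 ≤ (12 * w + 2 - (v - u)) * (R * b - u) + R * u + R ^ 2 * (v - u) - 2 * (b + 1) * R ^ 2))

lemma keyA {w b R : ℤ} (hw : 1 ≤ w) (hb1 : 36 * w + 8 ≤ b) (hR1 : 1 ≤ R) (hR2 : R ≤ 3 * w) :
    KeyConcl b w R ((6 * w + 1) * R) ((6 * w + 1) * (R + 1)) := by
  obtain ⟨a1, a2, a3, a4⟩ := arith_small hw hb1 hR1 hR2
  refine ⟨by nlinarith, by linarith, by nlinarith, by linarith,
    fun _ => ⟨by linarith, by linarith⟩⟩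

lemma keyB {w b a L R : ℤ} (hw : 1 ≤ w) (hb1 : 36 * w + 8 ≤ b) (ha2 : 2 * a ≤ b + 4 * w)
    (ha3 : a + 1 ≤ b) (hL1 : 12 * w ≤ 5 * L) (hB1 : 3 * w + 1 ≤ R) (hB2 : R + 1 ≤ a - L)
    (hRa : R + 1 ≤ a) :
    KeyConcl b w R ((6 * w + 1) * (3 * w + 1)) ((6 * w + 1) * (3 * w + 1)) := by
  have zS : 0 ≤ (6 * w + 1) * (3 * w + 1) := by nlinarith
  have hU1 := arith_U1 (u := (6 * w + 1) * (3 * w + 1)) hw hb1 ha2 hB1 hRa le_rfl
  have hF := arith_flat (T := b - 2 * R - 1) hw hb1 (by ring) (by linarith) hB1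
  refine ⟨by linarith, hU1, ?_, ?_, ?_⟩
  · have : 0 ≤ (R + 1) * ((6 * w + 1) * (3 * w + 1)) := mul_nonneg (by linarith) zS
    nlinarith
  · nlinarith
  · intro h
    exact absurd h (lt_irrefl _)

lemma keyC {w b a D L R : ℤ} (hw : 1 ≤ w) (hb1 : 36 * w + 8 ≤ b) (hb2 : b < 36 * w + 44)
    (ha2 : 2 * a ≤ b + 4 * w) (ha1 : b + 3 ≤ 2 * a) (ha3 : a + 1 ≤ b)
    (hD1 : 15 * w ≤ 2 * D) (hD2 : 2 * D ≤ 15 * w + 1)
    (hL1 : 12 * w ≤ 5 * L) (hL2 : 5 * L ≤ 12 * w + 4) (hC2 : 3 * w + 1 ≤ R) (hC : a - L ≤ R)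
    (hRa : R + 1 ≤ a) (hu0 : 0 ≤ (6 * w + 1) * (3 * w + 1) - D * (R - (a - L))) :
    KeyConcl b w R ((6 * w + 1) * (3 * w + 1) - D * (R - (a - L)))
      ((6 * w + 1) * (3 * w + 1) - D * (R + 1 - (a - L))) := by
  have hDD : 0 ≤ D := by linarith
  have hu1 : (6 * w + 1) * (3 * w + 1) - D * (R - (a - L)) ≤ (6 * w + 1) * (3 * w + 1) := by
    have : 0 ≤ D * (R - (a - L)) := mul_nonneg hDD (by linarith)
    linarith
  have hU1 := arith_U1 hw hb1 ha2 hC2 hRa hu1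
  have hT := arith_tail hw hb1 hb2 ha2 ha1 hD1 hD2 hL1 hL2 hC hRa rfl hu0
  have e1 : (6 * w + 1) * (3 * w + 1) - D * (R - (a - L)) -
      ((6 * w + 1) * (3 * w + 1) - D * (R + 1 - (a - L))) = D := by ring
  refine ⟨by linarith, hU1, ?_, ?_, ?_⟩
  · rw [e1]
    have h1 : 0 ≤ (R + 1) * (R * D) :=
      mul_nonneg (by linarith) (mul_nonneg (by linarith) hDD)
    have h2 : 0 ≤ (R + 1) * ((6 * w + 1) * (3 * w + 1) - D * (R - (a - L))) :=
      mul_nonneg (by linarith) hu0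
    nlinarith
  · rw [e1]
    exact hT
  · intro h
    exfalso
    linarith

/-- The parameters. -/
structure Par (a b w D L r0 : ℕ) : Prop where
  hw1 : 1 ≤ w
  hb1 : 36 * w + 8 ≤ b
  hb2 : b < 36 * w + 44
  ha2 : 2 * a ≤ b + 4 * w
  ha1 : b + 3 ≤ 2 * a
  hD1 : 15 * w ≤ 2 * D
  hD2 : 2 * D ≤ 15 * w + 1
  hL1 : 12 * w ≤ 5 * L
  hL2 : 5 * L ≤ 12 * w + 4
  hr0 : r0 + L = a

lemma Par.tail0 {a b w D L r0 : ℕ} (P : Par a b w D L r0) {r : ℕ} (h3 : r0 ≤ r) (h4 : r ≤ a) :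
    0 ≤ (6 * (w : ℤ) + 1) * (3 * w + 1) - D * ((r : ℤ) - r0) := by
  have zD2 : 2 * (D : ℤ) ≤ 15 * w + 1 := by exact_mod_cast P.hD2
  have zL2 : 5 * (L : ℤ) ≤ 12 * w + 4 := by exact_mod_cast P.hL2
  have zr0 : (r0 : ℤ) + L = a := by exact_mod_cast P.hr0
  have zw1 : (1 : ℤ) ≤ w := by exact_mod_cast P.hw1
  have zDL : (D : ℤ) * L ≤ (6 * w + 1) * (3 * w + 1) := by
    have h3 : (2 * (D : ℤ)) * (5 * L) ≤ (15 * w + 1) * (12 * w + 4) :=
      mul_le_mul zD2 zL2 (by positivity) (by positivity)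
    nlinarith
  have h5 : (r : ℤ) - r0 ≤ L := by
    have : (r : ℤ) ≤ a := by exact_mod_cast h4
    linarith
  have h6 : (D : ℤ) * ((r : ℤ) - r0) ≤ D * L :=
    mul_le_mul_of_nonneg_left h5 (by positivity)
  linarith

lemma Par.key {a b w D L r0 : ℕ} (P : Par a b w D L r0) {R : ℕ} (hR1 : 1 ≤ R) (hRa : R + 1 ≤ a) :
    KeyConcl b w R (profS w D r0 R) (profS w D r0 (R + 1)) := by
  have hh : 3 * w + 1 ≤ r0 := by
    have h1 := P.hb1
    have h2 := P.ha1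
    have h3 := P.hL2
    have h4 := P.hr0
    omega
  have zw1 : (1 : ℤ) ≤ w := by exact_mod_cast P.hw1
  have zb1 : 36 * (w : ℤ) + 8 ≤ b := by exact_mod_cast P.hb1
  have zb2 : (b : ℤ) < 36 * w + 44 := by exact_mod_cast P.hb2
  have za2 : 2 * (a : ℤ) ≤ b + 4 * w := by exact_mod_cast P.ha2
  have za1 : (b : ℤ) + 3 ≤ 2 * a := by exact_mod_cast P.ha1
  have zD1 : 15 * (w : ℤ) ≤ 2 * D := by exact_mod_cast P.hD1
  have zD2 : 2 * (D : ℤ) ≤ 15 * w + 1 := by exact_mod_cast P.hD2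
  have zL1 : 12 * (w : ℤ) ≤ 5 * L := by exact_mod_cast P.hL1
  have zL2 : 5 * (L : ℤ) ≤ 12 * w + 4 := by exact_mod_cast P.hL2
  have zr0 : (r0 : ℤ) = a - L := by
    have : (r0 : ℤ) + L = a := by exact_mod_cast P.hr0
    linarith
  have za3 : (a : ℤ) + 1 ≤ b := by
    have h1 := P.hb1
    have h2 := P.ha2
    have : a + 1 ≤ b := by omega
    exact_mod_cast this
  have zR1 : (1 : ℤ) ≤ R := by exact_mod_cast hR1
  have zRa : (R : ℤ) + 1 ≤ a := by exact_mod_cast hRa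
  rcases (show R + 1 ≤ 3 * w + 1 ∨ (3 * w + 1 ≤ R ∧ R + 1 ≤ r0) ∨ (r0 ≤ R ∧ 3 * w + 1 ≤ R) by omega)
    with hA | ⟨hB1, hB2⟩ | ⟨hC, hC2⟩
  · rw [profS_A hh hA, profS_A hh (by omega : R ≤ 3 * w + 1)]
    have zR3 : (R : ℤ) ≤ 3 * w := by
      have : R ≤ 3 * w := by omega
      exact_mod_cast this
    have := keyA zw1 zb1 zR1 zR3
    push_cast
    exact this
  · rw [profS_B hB1 (by omega), profS_B (by omega) hB2]
    have zB1 : 3 * (w : ℤ) + 1 ≤ R := by exact_mod_cast hB1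
    have zB2 : (R : ℤ) + 1 ≤ a - L := by
      have : (R : ℤ) + 1 ≤ r0 := by exact_mod_cast hB2
      linarith
    exact keyB zw1 zb1 za2 za3 zL1 zB1 zB2 zRa
  · rw [profS_C hh hC, profS_C hh (by omega : r0 ≤ R + 1)]
    have zC2 : 3 * (w : ℤ) + 1 ≤ R := by exact_mod_cast hC2
    have zC : (a : ℤ) - L ≤ R := by
      have : (r0 : ℤ) ≤ R := by exact_mod_cast hC
      linarith
    have hu0 := P.tail0 hC (by omega)
    rw [zr0] at hu0 ⊢
    push_cast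
    exact keyC zw1 zb1 zb2 za2 za1 za3 zD1 zD2 zL1 zL2 zC2 zC zRa hu0

lemma Par.prof {a b w D L r0 : ℕ} (P : Par a b w D L r0) : Prof b (12 * w) a (profS w D r0) := by
  have hh : 3 * w + 1 ≤ r0 := by
    have h1 := P.hb1
    have h2 := P.ha1
    have h3 := P.hL2
    have h4 := P.hr0
    omega
  have hw1 := P.hw1
  have hb1 := P.hb1
  have ha2 := P.ha2
  have zw1 : (1 : ℤ) ≤ w := by exact_mod_cast hw1
  have zb1 : 36 * (w : ℤ) + 8 ≤ b := by exact_mod_cast hb1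
  refine ⟨by omega, by omega, by omega, ?_, ?_, ?_, ?_, ?_, ?_, ?_, ?_, ?_, ?_, ?_⟩
  · -- s0
    simp [profS]
  · -- s1
    rw [profS_A hh (by omega)]
    push_cast
    linarith
  · -- half
    rw [profS_A hh (by omega)]
    push_cast
    linarith
  · -- conc
    intro j hj hja
    obtain ⟨k, rfl⟩ : ∃ k, j = k + 1 := ⟨j - 1, by omega⟩
    simp only [profS, Nat.add_sub_cancel]
    have e1 : ((min (k + 1 + 1) (3 * w + 1) : ℕ) : ℤ) - (min (k + 1) (3 * w + 1) : ℕ) ≤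
        ((min (k + 1) (3 * w + 1) : ℕ) : ℤ) - (min k (3 * w + 1) : ℕ) := by omega
    have e2 : ((k + 1 - r0 : ℕ) : ℤ) - (k - r0 : ℕ) ≤ ((k + 1 + 1 - r0 : ℕ) : ℤ) - (k + 1 - r0 : ℕ) := by
      omega
    have n1 : (0 : ℤ) ≤ ((6 * w + 1 : ℕ) : ℤ) := by positivity
    have n2 : (0 : ℤ) ≤ (D : ℤ) := by positivity
    nlinarith [mul_le_mul_of_nonneg_left e1 n1, mul_le_mul_of_nonneg_left e2 n2]
  · -- nonneg
    intro r hr
    by_cases h3 : r ≤ r0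
    · simp only [profS]
      have h4 : r - r0 = 0 := by omega
      rw [h4]
      simp only [Nat.cast_zero, mul_zero, sub_zero]
      positivity
    · rw [profS_C hh (by omega)]
      exact P.tail0 (by omega) hr
  · -- deg
    intro r h3 h4
    obtain ⟨R, rfl⟩ : ∃ R, r = R + 1 := ⟨r - 1, by omega⟩
    obtain ⟨k1, k2, k3, k4, k5⟩ := P.key (R := R) (by omega) h4
    simp only [Nat.add_sub_cancel]
    push_cast
    linarith
  · -- U1
    intro r h3 h4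
    obtain ⟨R, rfl⟩ : ∃ R, r = R + 1 := ⟨r - 1, by omega⟩
    obtain ⟨k1, k2, k3, k4, k5⟩ := P.key (R := R) (by omega) h4
    simp only [Nat.add_sub_cancel]
    push_cast
    have e : (R : ℤ) + 1 - 1 = R := by ring
    rw [e]
    linarith
  · -- U2
    intro r h3 h4
    obtain ⟨R, rfl⟩ : ∃ R, r = R + 1 := ⟨r - 1, by omega⟩
    obtain ⟨k1, k2, k3, k4, k5⟩ := P.key (R := R) (by omega) h4
    simp only [Nat.add_sub_cancel]
    push_cast
    have e : (R : ℤ) + 1 - 1 = R := by ring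
    rw [e]
    linarith
  · -- U3
    intro r h3 h4
    obtain ⟨R, rfl⟩ : ∃ R, r = R + 1 := ⟨r - 1, by omega⟩
    obtain ⟨k1, k2, k3, k4, k5⟩ := P.key (R := R) (by omega) h4
    simp only [Nat.add_sub_cancel]
    push_cast
    have e : (R : ℤ) + 1 - 1 = R := by ring
    rw [e]
    linarith
  · -- R1
    intro r h3 h4 h5
    obtain ⟨R, rfl⟩ : ∃ R, r = R + 1 := ⟨r - 1, by omega⟩
    obtain ⟨k1, k2, k3, k4, k5⟩ := P.key (R := R) (by omega) h4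
    simp only [Nat.add_sub_cancel] at h5 ⊢
    push_cast
    have e : (R : ℤ) + 1 - 1 = R := by ring
    rw [e]
    linarith [(k5 h5).1]
  · -- R3
    intro r h3 h4 h5
    obtain ⟨R, rfl⟩ : ∃ R, r = R + 1 := ⟨r - 1, by omega⟩
    obtain ⟨k1, k2, k3, k4, k5⟩ := P.key (R := R) (by omega) h4
    simp only [Nat.add_sub_cancel] at h5 ⊢
    push_cast
    have e : (R : ℤ) + 1 - 1 = R := by ring
    rw [e]
    linarith [(k5 h5).2]

/-- The instance: for `5 b ≥ 9 a + 22` (and `2 a > b + 2`, say) a profile exists. -/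
theorem exists_prof (a b : ℕ) (h1 : 9 * a + 22 ≤ 5 * b) (h2 : b + 2 < 2 * a) :
    ∃ (i : ℕ) (s : ℕ → ℤ), Prof b i a s ∧ 3 * i + 8 ≤ b ∧ a + i < b := by
  obtain ⟨w, hw1, hb1, hb2⟩ : ∃ w : ℕ, 1 ≤ w ∧ 36 * w + 8 ≤ b ∧ b < 36 * w + 44 :=
    ⟨(b - 8) / 36, by omega, by omega, by omega⟩
  have hawb : 2 * a ≤ b + 4 * w := by omega
  obtain ⟨D, hD1, hD2⟩ : ∃ D : ℕ, 15 * w ≤ 2 * D ∧ 2 * D ≤ 15 * w + 1 :=
    ⟨(15 * w + 1) / 2, by omega, by omega⟩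
  obtain ⟨L, hL1, hL2⟩ : ∃ L : ℕ, 12 * w ≤ 5 * L ∧ 5 * L ≤ 12 * w + 4 :=
    ⟨(12 * w + 4) / 5, by omega, by omega⟩
  have hLa : L ≤ a := by omega
  have P : Par a b w D L (a - L) :=
    ⟨hw1, hb1, hb2, hawb, by omega, hD1, hD2, hL1, hL2, by omega⟩
  exact ⟨12 * w, profS w D (a - L), P.prof, by omega, by omega⟩

end Vale.Agent.Lib.P048
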