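import Vale.Agent.Lib.P048.Sharp

namespace Vale.Agent.Lib.P048

open Finset

variable {V : Type*}

/-- Every clique inside `Y` has at most `w` vertices. -/
def CliqueBd (G : SimpleGraph V) (Y : Finset V) (w : ℕ) : Prop :=
  ∀ Q : Finset V, Q ⊆ Y → G.IsClique (Q : Set V) → Q.card ≤ w

/-- The numerical conditions on the deficit profile `s`. With `R = r - 1`, `u = s (r-1)`, `v = s r`. -/
structure Prof (b i a : ℕ) (s : ℕ → ℤ) : Prop where
  ab : a + 1 ≤ b
  ib : i + 1 ≤ b
  b3 : 3 ≤ b
  s0 : s 0 = 0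
  s1 : s 1 ≤ i + 1
  half : 2 * s 1 ≤ b
  conc : ∀ j, 1 ≤ j → j + 1 ≤ a → s (j + 1) - s j ≤ s j - s (j - 1)
  nonneg : ∀ r, r ≤ a → 0 ≤ s r
  deg : ∀ r, 2 ≤ r → r ≤ a → (r : ℤ) + 1 ≤ b - s r + s (r - 1)
  U1 : ∀ r, 2 ≤ r → r ≤ a →
    ((r : ℤ) - 1) ^ 2 + 1 ≤ 3 * (((r : ℤ) - 1) * ((b : ℤ) - ((r : ℤ) - 1)) - s (r - 1))
  U2 : ∀ r, 2 ≤ r → r ≤ a →
    1 ≤ (r : ℤ) * (((r : ℤ) - 1) * (s (r - 1) - s r) + s (r - 1) + ((r : ℤ) - 1)) - ((r : ℤ) - 1) ^ 2
  U3 : ∀ r, 2 ≤ r → r ≤ a →
    1 ≤ (b : ℤ) * (((r : ℤ) - 1) * ((b : ℤ) - 2 * r + 1) - s (r - 1)) +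
      (r : ℤ) * (((r : ℤ) - 1) * (s (r - 1) - s r) + s (r - 1) + ((r : ℤ) - 1)) - ((r : ℤ) - 1) ^ 2
  R1 : ∀ r, 2 ≤ r → r ≤ a → s (r - 1) < s r →
    0 ≤ ((r : ℤ) - 1) * ((b : ℤ) - 2 * ((r : ℤ) - 1)) - s (r - 1)
  R3 : ∀ r, 2 ≤ r → r ≤ a → s (r - 1) < s r →
    1 ≤ ((i : ℤ) + 2 - (s r - s (r - 1))) * (((r : ℤ) - 1) * b - s (r - 1)) +
      ((r : ℤ) - 1) * s (r - 1) + ((r : ℤ) - 1) ^ 2 * (s r - s (r - 1)) -
      2 * ((b : ℤ) + 1) * ((r : ℤ) - 1) ^ 2

section profile
variable {b i a : ℕ} {s : ℕ → ℤ}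

/-- Increments of `s` are non-increasing. -/
lemma Prof.anti (P : Prof b i a s) {k m : ℕ} (hkm : k ≤ m) (hm : m + 1 ≤ a) :
    s (m + 1) - s m ≤ s (k + 1) - s k := by
  induction m, hkm using Nat.le_induction with
  | base => exact le_refl _
  | succ m hkm ih =>
    have h1 := P.conc (m + 1) (by omega) hm
    have h2 := ih (by omega)
    simp only [Nat.add_sub_cancel] at h1
    linarith

/-- Increments are at most `s 1`. -/
lemma Prof.incr (P : Prof b i a s) {j n : ℕ} (h : j + n ≤ a) :
    s (j + n) - s j ≤ n * s 1 := by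
  induction n with
  | zero => simp
  | succ n ih =>
    have h1 := ih (by omega)
    have h2 := P.anti (k := 0) (m := j + n) (by omega) (by omega)
    rw [P.s0] at h2
    simp only [zero_add, sub_zero] at h2
    have e : j + (n + 1) = j + n + 1 := by omega
    rw [e]
    push_cast
    linarith

/-- A jump bound. -/
lemma Prof.jump (P : Prof b i a s) {j r : ℕ} (hj : j + 2 ≤ r) (hr : r ≤ a) :
    s r - s j ≤ ((r : ℤ) - j - 1) * b := by
  obtain ⟨n, rfl⟩ : ∃ n, r = j + n := ⟨r - j, by omega⟩
  have h1 := P.incr (j := j) (n := n) hr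
  have h2 := P.half
  have hn : (2 : ℤ) ≤ n := by exact_mod_cast (by omega : 2 ≤ n)
  push_cast
  have hb : (0 : ℤ) ≤ b := by positivity
  nlinarith

/-- The chord inequality from concavity. -/
lemma Prof.chord (P : Prof b i a s) {j n : ℕ} (hjn : j ≤ n) (hn : n ≤ a) :
    (j : ℤ) * s n ≤ n * s j := by
  rcases Nat.eq_or_lt_of_le hjn with rfl | hlt
  · exact le_refl _
  set d := s (j + 1) - s j with hd
  -- the left part
  have h1 : ∀ t : ℕ, t ≤ j → (t : ℤ) * d ≤ s t := by
    intro t
    induction t with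
    | zero => intro _; simp [P.s0]
    | succ t ih =>
      intro ht
      have h2 := ih (by omega)
      have h3 := P.anti (k := t) (m := j) (by omega) (by omega)
      push_cast
      linarith
  -- the right part
  have h2 : ∀ t : ℕ, j + t ≤ n → s (j + t) - s j ≤ (t : ℤ) * d := by
    intro t
    induction t with
    | zero => intro _; simp
    | succ t ih =>
      intro ht
      have h3 := ih (by omega)
      have h4 := P.anti (k := j) (m := j + t) (by omega) (by omega)
      have e : j + (t + 1) = j + t + 1 := by omega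
      rw [e]
      push_cast
      linarith
  obtain ⟨t, rfl⟩ : ∃ t, n = j + t := ⟨n - j, by omega⟩
  have h3 := h1 j (le_refl _)
  have h4 := h2 t (le_refl _)
  push_cast
  have hj0 : (0 : ℤ) ≤ j := by positivity
  have ht0 : (0 : ℤ) ≤ t := by positivity
  nlinarith [mul_le_mul_of_nonneg_left h3 ht0, mul_le_mul_of_nonneg_left h4 hj0]

end profile

/-- The arithmetic closing the case of all positions covered. -/
lemma final_A {b r c p u v R : ℤ} (hR : R = r - 1) (hR1 : 1 ≤ R) (hc3 : 3 ≤ c) (hcb : c ≤ b)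
    (hp1 : 1 ≤ p) (hpr : p ≤ r)
    (hW : c * (R * b - u) + p * (R * (1 - v - c) + r * u) ≤ R * (R * (c + 1)))
    (U1 : R ^ 2 + 1 ≤ 3 * (R * (b - R) - u))
    (U2 : 1 ≤ r * (R * (u - v) + u + R) - R ^ 2)
    (U3 : 1 ≤ b * (R * (b - 2 * r + 1) - u) + (r * (R * (u - v) + u + R) - R ^ 2)) : False := by
  subst hR
  set R := r - 1 with hRdef
  have hr : r = R + 1 := by omega
  set B := R * (1 - v - c) + r * u with hB
  set M := R * (b - R) - u with hM
  have hW2 : c * M + p * B - R ^ 2 ≤ 0 := by
    have : c * (R * b - u) - R * (R * (c + 1)) = c * M - R ^ 2 := by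
      rw [hM]; ring
    linarith
  by_cases hB0 : 0 ≤ B
  · have h1 : B ≤ p * B := by nlinarith
    have h2 : 3 * M ≤ c * M := by
      have hM0 : 0 ≤ M := by nlinarith [sq_nonneg R]
      nlinarith
    nlinarith
  · have hB1 : B < 0 := by omega
    have h1 : r * B ≤ p * B := by nlinarith
    have h2 : c * (R * (b - 2 * r + 1) - u) + (r * (R * (u - v) + u + R) - R ^ 2) ≤ 0 := by
      have e : c * M + r * B - R ^ 2
          = c * (R * (b - 2 * r + 1) - u) + (r * (R * (u - v) + u + R) - R ^ 2) := by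
        rw [hM, hB, hr]; ring
      linarith
    by_cases hM2 : 0 ≤ R * (b - 2 * r + 1) - u
    · have : 0 ≤ c * (R * (b - 2 * r + 1) - u) := by
        apply mul_nonneg (by omega) hM2
      linarith
    · have hM3 : R * (b - 2 * r + 1) - u < 0 := by omega
      have : b * (R * (b - 2 * r + 1) - u) ≤ c * (R * (b - 2 * r + 1) - u) := by nlinarith
      linarith

/-- The arithmetic closing the case of a clique of uncovered positions. -/
lemma final_B {b r c p u v R g i D : ℤ} (hR : R = r - 1) (hR1 : 1 ≤ R) (hcb : c ≤ b)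
    (hD : D = v - u) (hcD : b + 1 - D ≤ c)
    (hp0 : 0 ≤ p) (hpr : p ≤ R) (hg : c - b + i + 1 ≤ g)
    (hW : g * (R * b - u) + p * (R * (1 - v - c) + r * u) ≤ R * (R * (c + 1)))
    (R1 : 0 ≤ R * (b - 2 * R) - u)
    (R3 : 1 ≤ (i + 2 - D) * (R * b - u) + R * u + R ^ 2 * D - 2 * (b + 1) * R ^ 2) : False := by
  subst hR hD
  set R := r - 1 with hRdef
  set D := v - u with hDdef
  have hr : r = R + 1 := by omega
  have hv : v = u + D := by omega
  have hRb : 0 ≤ R * b - u := by nlinarith [sq_nonneg R]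
  set B := R * (1 - v - c) + r * u with hB
  have hB1 : B = u - R * D - R * (c - 1) := by
    rw [hB, hr, hv]; ring
  have hB2 : B ≤ 0 := by
    have : R * (b - D) ≤ R * (c - 1) := by
      apply mul_le_mul_of_nonneg_left (by omega) (by omega)
    nlinarith
  have h1 : R * B ≤ p * B := by nlinarith
  have h2 : (c - b + i + 1) * (R * b - u) ≤ g * (R * b - u) :=
    mul_le_mul_of_nonneg_right hg hRb
  obtain ⟨x, hx⟩ : ∃ x, c = b + 1 - D + x := ⟨c - (b + 1 - D), by ring⟩
  have hx0 : 0 ≤ x := by omega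
  have h3 : 0 ≤ x * (R * (b - 2 * R) - u) := mul_nonneg hx0 R1
  have e : (c - b + i + 1) * (R * b - u) + R * (u - R * D - R * (c - 1)) - R * (R * (c + 1))
      = ((i + 2 - D) * (R * b - u) + R * u + R ^ 2 * D - 2 * (b + 1) * R ^ 2)
        + x * (R * (b - 2 * R) - u) := by
    rw [hx]; ring
  rw [hB1] at h1 hW
  linarith


/-- Cliques bounds pass to subsets. -/
lemma CliqueBd.mono {G : SimpleGraph V} {Y Y' : Finset V} {w : ℕ} (h : CliqueBd G Y w)
    (hs : Y' ⊆ Y) : CliqueBd G Y' w := fun Q hQ hc => h Q (hQ.trans hs) hc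

/-- The upper bound on the edges between the cycle and the rest. -/
lemma edge_upper {G : SimpleGraph V} {b c r : ℕ} [NeZero c] {u : ZMod c → V} {D : Finset V}
    (S : Setup G u D) (hcb : c ≤ b) (hr1 : 1 ≤ r) (hrb : r + 1 ≤ b)
    (hX : ∀ I : Finset V, (∀ x ∈ I, (∃ i, x = u i) ∨ x ∈ D) → G.IsIndepSet (I : Set V) → I.card ≤ r)
    (hno2 : c < b → ∀ l, IsCyc G l → l.length = c + 2 →
      (∀ x ∈ l, (∃ i, x = u i) ∨ x ∈ D) → False) :
    ((∑ q : ZMod c, (RR G u D q).card : ℕ) : ℤ) ≤ ((r : ℤ) - 1) * ((c : ℤ) + 1) := by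
  have hc3 := S.hb
  set e := ∑ q : ZMod c, (RR G u D q).card with he
  have hrz : (1 : ℤ) ≤ r := by exact_mod_cast hr1
  have hcz : (3 : ℤ) ≤ c := by exact_mod_cast hc3
  by_cases hlt : c < b
  · have h1 := sum_sharp_two S hX (hno2 hlt)
    rw [← he] at h1
    have h2 : (e : ℤ) + c ≤ r * c := by exact_mod_cast h1
    nlinarith
  have hceq : c = b := by omega
  by_cases hpar : Even c
  · have h1 := sum_sharp_even S hX hpar
    rw [← he] at h1
    have h2 : (e : ℤ) + c ≤ r * c := by exact_mod_cast h1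
    nlinarith
  · have hE : ∀ q0 : ZMod c, e + c ≤ r * c + (RR G u D q0).card :=
      fun q0 => sum_sharp_erase S hX q0
    have hsum : ∑ _q0 : ZMod c, (e + c) ≤ ∑ q0 : ZMod c, (r * c + (RR G u D q0).card) :=
      Finset.sum_le_sum (fun q0 _ => hE q0)
    rw [Finset.sum_add_distrib, Finset.sum_add_distrib, ← he] at hsum
    simp only [Finset.sum_const, Finset.card_univ, ZMod.card, smul_eq_mul] at hsum
    have hz1 : (c : ℤ) * e + c * c ≤ c * (r * c) + e := by exact_mod_cast hsum
    have hrc : (r : ℤ) + 1 ≤ c := by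
      have : r + 1 ≤ c := by omega
      exact_mod_cast this
    -- `(c-1)(e - (r-1)(c+1)) ≤ r - 1 < c - 1`
    by_contra hcon
    push Not at hcon
    have h3 : ((r : ℤ) - 1) * ((c : ℤ) + 1) + 1 ≤ e := by omega
    have h4 : ((c : ℤ) - 1) * (((r : ℤ) - 1) * ((c : ℤ) + 1) + 1) ≤ ((c : ℤ) - 1) * e :=
      mul_le_mul_of_nonneg_left h3 (by linarith)
    nlinarith

/-- The triangle of the class step. -/
lemma class_triangle {G : SimpleGraph V} {b i a : ℕ} {s : ℕ → ℤ} (P : Prof b i a s) {r : ℕ}
    (hr2 : 2 ≤ r) (hra : r ≤ a)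
    (IH : ∀ r', r' < r → ∀ Y' : Finset V, Bound G Y' r' → CliqueBd G Y' (b - i - 1) →
      (Y'.card : ℤ) ≤ r' * b - s r')
    (Y : Finset V) (hY : Bound G Y r) (hQ : CliqueBd G Y (b - i - 1))
    (hcard : (r : ℤ) * b - s r < Y.card) :
    ∃ l, IsCyc G l ∧ l.length = 3 ∧ ∀ x ∈ l, x ∈ Y := by
  classical
  have hb3 := P.b3
  have hab := P.ab
  have hrZ : (2 : ℤ) ≤ r := by exact_mod_cast hr2
  set R : ℤ := (r : ℤ) - 1 with hRdef
  have hR1 : (1 : ℤ) ≤ R := by omega
  have hcastR : ((r - 1 : ℕ) : ℤ) = R := by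
    rw [hRdef]; push_cast [Nat.cast_sub (show 1 ≤ r by omega)]; ring
  -- `s r` is small
  have hsr : s r ≤ r * b := by
    have h1 := P.incr (j := 0) (n := r) (by omega)
    have h2 := P.half
    rw [zero_add, P.s0] at h1
    have hb0 : (0 : ℤ) ≤ b := by positivity
    nlinarith
  have hYpos : 0 < Y.card := by
    have : (0 : ℤ) < Y.card := by linarith
    exact_mod_cast this
  obtain ⟨v0, hv0⟩ : Y.Nonempty := Finset.card_pos.1 hYpos
  set Y' := Y.filter (fun y => y ≠ v0 ∧ ¬ G.Adj v0 y) with hY'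
  have hY'sub : Y' ⊆ Y := Finset.filter_subset _ _
  have hY'b : Bound G Y' (r - 1) := by
    intro I hI hIind
    have hind := indep_union hIind (indep_singleton v0) (by
      intro x hx y hy
      rw [Finset.mem_singleton.1 hy]
      intro h
      exact (Finset.mem_filter.1 (hI hx)).2.2 h.symm)
    have h1 := hY _ (by
      intro y hy
      rcases Finset.mem_union.1 hy with h | h
      · exact (Finset.mem_filter.1 (hI h)).1
      · rw [Finset.mem_singleton.1 h]
        exact hv0) hind
    rw [Finset.card_union_of_disjoint (by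
      rw [Finset.disjoint_left]
      intro y hy hy2
      rw [Finset.mem_singleton.1 hy2] at hy
      exact (Finset.mem_filter.1 (hI hy)).2.1 rfl), Finset.card_singleton] at h1
    omega
  have h1 := IH (r - 1) (by omega) Y' hY'b (hQ.mono hY'sub)
  rw [hcastR] at h1
  set N := Y.filter (G.Adj v0) with hN
  have hsub : Y ⊆ insert v0 (N ∪ Y') := by
    intro y hy
    by_cases h1 : y = v0
    · exact Finset.mem_insert.2 (Or.inl h1)
    · apply Finset.mem_insert_of_mem
      by_cases h2 : G.Adj v0 y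
      · exact Finset.mem_union_left _ (Finset.mem_filter.2 ⟨hy, h2⟩)
      · exact Finset.mem_union_right _ (Finset.mem_filter.2 ⟨hy, h1, h2⟩)
  have h3 := Finset.card_le_card hsub
  have h4 := Finset.card_insert_le v0 (N ∪ Y')
  have h5 := Finset.card_union_le N Y'
  have h6 : (Y.card : ℤ) ≤ 1 + N.card + Y'.card := by
    have : Y.card ≤ 1 + N.card + Y'.card := by omega
    exact_mod_cast this
  have h7 := P.deg r hr2 hra
  have h8 : (r : ℤ) + 1 ≤ N.card := by
    have e : (r : ℤ) * b = R * b + b := by rw [hRdef]; ring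
    linarith
  have hnot : ¬ G.IsIndepSet ((N : Finset V) : Set V) := by
    intro hind
    have h1 := hY _ (Finset.filter_subset _ _) hind
    have h2 : (N.card : ℤ) ≤ r := by exact_mod_cast h1
    omega
  unfold SimpleGraph.IsIndepSet Set.Pairwise at hnot
  push Not at hnot
  obtain ⟨y, hy, z, hz, hne, hadj⟩ := hnot
  simp only [hN, Finset.coe_filter, Set.mem_ofPred_eq] at hy hz
  refine ⟨[v0, y, z], ⟨by simp, ?_, ?_, ?_⟩, by simp, ?_⟩
  · simp only [List.nodup_cons, List.mem_cons, List.not_mem_nil, or_false, not_or,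
      List.nodup_nil, and_true, not_false_eq_true]
    exact ⟨⟨hy.2.ne, hz.2.ne⟩, hne⟩
  · simp [hy.2, hadj]
  · intro a' ha' c' hc'
    have h1 : a' = z := by simpa using ha'.symm
    have h2 : c' = v0 := by simpa using hc'.symm
    rw [h1, h2]
    exact hz.2.symm
  · intro x hx
    simp only [List.mem_cons, List.not_mem_nil, or_false] at hx
    rcases hx with rfl | rfl | rfl
    · exact hv0
    · exact hy.1
    · exact hz.1

/-- The star count: the positions `A` are mapped to `J`; independent classes force many edges. -/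
lemma core_star {G : SimpleGraph V} {b i a : ℕ} {s : ℕ → ℤ} (P : Prof b i a s) {r : ℕ}
    (hr2 : 2 ≤ r) (hra : r ≤ a)
    (IH : ∀ r', r' < r → ∀ Y' : Finset V, Bound G Y' r' → CliqueBd G Y' (b - i - 1) →
      (Y'.card : ℤ) ≤ r' * b - s r')
    {Y : Finset V} (hY : Bound G Y r) (hQ : CliqueBd G Y (b - i - 1)) {c : ℕ} [NeZero c]
    {u : ZMod c → V} {D : Finset V} (S : Setup G u D) (hDY : D ⊆ Y) (hCY : ∀ q, u q ∈ Y)
    (hDge : (r : ℤ) * b - s r - c + 1 ≤ D.card) (J : Finset V) (hJD : J ⊆ D)
    (A : Finset (ZMod c)) (f : ZMod c → V) (hfJ : ∀ q ∈ A, f q ∈ J)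
    (hfadj : ∀ q ∈ A, G.Adj (f q) (u (q - 1))) :
    ∃ p : ℕ, p ≤ J.card ∧ (A.Nonempty → 1 ≤ p) ∧
      (A.card : ℤ) * (((r : ℤ) - 1) * b - s (r - 1)) +
        (p : ℤ) * (((r : ℤ) - 1) * (1 - s r - c) + r * s (r - 1)) ≤
        ((r : ℤ) - 1) * ((∑ q : ZMod c, (RR G u D q).card : ℕ) : ℤ) := by
  classical
  have hinj := S.inj
  have hrZ : (2 : ℤ) ≤ r := by exact_mod_cast hr2
  set R : ℤ := (r : ℤ) - 1 with hRdef
  have hR1 : (1 : ℤ) ≤ R := by omega
  have hcastR : ((r - 1 : ℕ) : ℤ) = R := by
    rw [hRdef]; push_cast [Nat.cast_sub (show 1 ≤ r by omega)]; ring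
  set e := ∑ q : ZMod c, (RR G u D q).card with he
  set K : V → Finset (ZMod c) := fun x => A.filter (fun q => f q = x) with hK
  have hKmem : ∀ x q, q ∈ K x ↔ q ∈ A ∧ f q = x := by
    intro x q
    simp [hK]
  have hKind : ∀ x ∈ J, ∀ q ∈ K x, ∀ q' ∈ K x, q ≠ q' → ¬ G.Adj (u q) (u q') := by
    intro x hx q hq q' hq' hne hadj
    obtain ⟨h1, h2⟩ := (hKmem x q).1 hq
    obtain ⟨h3, h4⟩ := (hKmem x q').1 hq'
    have h5 := hfadj q h1
    have h6 := hfadj q' h3
    rw [h2] at h5
    rw [h4] at h6
    exact chord_cycle S (hJD hx) (Ne.symm hne) h6 h5 hadj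
  set RK : V → Finset V := fun x => (K x).biUnion (RR G u D) with hRK
  -- the bound for one active vertex
  have hper : ∀ x ∈ J, (K x).Nonempty →
      R * (((K x).card : ℤ) * b - s r - c + 1) + ((r : ℤ) - (K x).card) * s (r - 1)
        ≤ R * ((RK x).card : ℤ) := by
    intro x hx hne
    have hk1 : 1 ≤ (K x).card := Finset.card_pos.2 hne
    have hUK : ((K x).image u).card = (K x).card := Finset.card_image_of_injective _ hinj
    have hUind : G.IsIndepSet (((K x).image u : Finset V) : Set V) := by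
      intro y hy z hz hne
      simp only [Finset.coe_image, Set.mem_image, Finset.mem_coe] at hy hz
      obtain ⟨q, hq, rfl⟩ := hy
      obtain ⟨q', hq', rfl⟩ := hz
      exact hKind x hx q hq q' hq' (fun h => hne (by rw [h]))
    have hUY : (K x).image u ⊆ Y := by
      intro y hy
      obtain ⟨q, -, rfl⟩ := Finset.mem_image.1 hy
      exact hCY q
    have hkr : (K x).card ≤ r := by
      have := hY _ hUY hUind
      rwa [hUK] at this
    set Z := D \ RK x with hZ
    have hZb : Bound G Z (r - (K x).card) := by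
      intro I hIZ hIind
      have hind := indep_union hIind hUind (by
        intro y hy z hz
        obtain ⟨q, hq, rfl⟩ := Finset.mem_image.1 hz
        intro hadj
        have hxZ := Finset.mem_sdiff.1 (hIZ hy)
        apply hxZ.2
        exact Finset.mem_biUnion.2 ⟨q, hq, mem_RR.2 ⟨hxZ.1, hadj.symm⟩⟩)
      have h1 := hY _ (by
        intro y hy
        rcases Finset.mem_union.1 hy with h | h
        · exact hDY (Finset.mem_sdiff.1 (hIZ h)).1
        · exact hUY h) hind
      rw [Finset.card_union_of_disjoint (by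
        rw [Finset.disjoint_left]
        intro y hy hy2
        obtain ⟨q, -, rfl⟩ := Finset.mem_image.1 hy2
        exact S.disj _ (Finset.mem_sdiff.1 (hIZ hy)).1 q rfl), hUK] at h1
      omega
    have hZc := IH (r - (K x).card) (by omega) Z hZb (hQ.mono (Finset.sdiff_subset.trans hDY))
    have hDle : D.card ≤ (RK x).card + Z.card := by
      have hsub : D ⊆ RK x ∪ Z := by
        intro y hy
        by_cases h : y ∈ RK x
        · exact Finset.mem_union_left _ h
        · exact Finset.mem_union_right _ (Finset.mem_sdiff.2 ⟨hy, h⟩)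
      exact (Finset.card_le_card hsub).trans (Finset.card_union_le _ _)
    have hDleZ : (D.card : ℤ) ≤ (RK x).card + Z.card := by exact_mod_cast hDle
    have hcast : ((r - (K x).card : ℕ) : ℤ) = (r : ℤ) - (K x).card := by
      rw [Nat.cast_sub hkr]
    rw [hcast] at hZc
    have hch := P.chord (j := r - (K x).card) (n := r - 1) (by omega) (by omega)
    rw [hcast, hcastR] at hch
    have h5 : (K x).card * (b : ℤ) - s r - c + 1 + s (r - (K x).card) ≤ (RK x).card := by
      have e : (r : ℤ) * b - ((r : ℤ) - (K x).card) * b = (K x).card * (b : ℤ) := by ring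
      linarith
    have h6 := mul_le_mul_of_nonneg_left h5 (show (0 : ℤ) ≤ R by omega)
    nlinarith
  -- summing up
  set PS := J.filter (fun x => (K x).Nonempty) with hPS
  have hPSJ : PS ⊆ J := Finset.filter_subset _ _
  have hsumK : ∑ x ∈ PS, (K x).card = A.card := by
    have h1 : A.card = ∑ x ∈ J, (K x).card :=
      Finset.card_eq_sum_card_fiberwise (fun q hq => hfJ q hq)
    rw [h1]
    apply Finset.sum_subset hPSJ
    intro x hx hx2
    have : ¬ (K x).Nonempty := fun h => hx2 (Finset.mem_filter.2 ⟨hx, h⟩)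
    rw [Finset.not_nonempty_iff_eq_empty] at this
    rw [this, Finset.card_empty]
  have hsumR : ∑ x ∈ PS, (RK x).card ≤ e := by
    calc ∑ x ∈ PS, (RK x).card ≤ ∑ x ∈ J, (RK x).card :=
          Finset.sum_le_sum_of_subset hPSJ
      _ ≤ ∑ x ∈ J, ∑ q ∈ K x, (RR G u D q).card :=
          Finset.sum_le_sum (fun x _ => Finset.card_biUnion_le)
      _ = ∑ q ∈ A, (RR G u D q).card :=
          Finset.sum_fiberwise_of_maps_to (fun q hq => hfJ q hq) _
      _ ≤ e := Finset.sum_le_sum_of_subset (Finset.subset_univ _)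
  have hsumZ : (∑ x ∈ PS, ((K x).card : ℤ)) = A.card := by exact_mod_cast hsumK
  have hsumRZ : (∑ x ∈ PS, ((RK x).card : ℤ)) ≤ e := by exact_mod_cast hsumR
  refine ⟨PS.card, Finset.card_le_card hPSJ, ?_, ?_⟩
  · intro hne
    by_contra hcon
    have h0 : PS = ∅ := Finset.card_eq_zero.1 (by omega)
    rw [h0, Finset.sum_empty] at hsumK
    have := Finset.card_pos.2 hne
    omega
  · have h1 : ∑ x ∈ PS, (R * (((K x).card : ℤ) * b - s r - c + 1) +
        ((r : ℤ) - (K x).card) * s (r - 1)) ≤ ∑ x ∈ PS, (R * ((RK x).card : ℤ)) :=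
      Finset.sum_le_sum (fun x hx => hper x (hPSJ hx) (Finset.mem_filter.1 hx).2)
    have h2 : ∑ x ∈ PS, (R * (((K x).card : ℤ) * b - s r - c + 1) +
        ((r : ℤ) - (K x).card) * s (r - 1))
        = ∑ x ∈ PS, (((K x).card : ℤ) * (R * b - s (r - 1)) +
          (R * (1 - s r - c) + r * s (r - 1))) :=
      Finset.sum_congr rfl (fun x _ => by ring)
    rw [h2, Finset.sum_add_distrib, ← Finset.sum_mul, hsumZ, Finset.sum_const, nsmul_eq_mul,
      ← Finset.mul_sum] at h1
    have h3 : R * (∑ x ∈ PS, ((RK x).card : ℤ)) ≤ R * (e : ℤ) :=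
      mul_le_mul_of_nonneg_left hsumRZ (by omega)
    linarith

/-- The main step of the class bound. -/
theorem class_step {G : SimpleGraph V} {b i a : ℕ} {s : ℕ → ℤ}
    (hC : ∀ l, IsCyc G l → l.length = b + 1 → False) (P : Prof b i a s) {r : ℕ} (hr2 : 2 ≤ r)
    (hra : r ≤ a)
    (IH : ∀ r', r' < r → ∀ Y' : Finset V, Bound G Y' r' → CliqueBd G Y' (b - i - 1) →
      (Y'.card : ℤ) ≤ r' * b - s r')
    (Y : Finset V) (hY : Bound G Y r) (hQ : CliqueBd G Y (b - i - 1))
    (hcard : (r : ℤ) * b - s r < Y.card) : False := by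
  classical
  have hb3 := P.b3
  have hab := P.ab
  have hrZ : (2 : ℤ) ≤ r := by exact_mod_cast hr2
  set R : ℤ := (r : ℤ) - 1 with hRdef
  have hR1 : (1 : ℤ) ≤ R := by omega
  have hcastR : ((r - 1 : ℕ) : ℤ) = R := by
    rw [hRdef]; push_cast [Nat.cast_sub (show 1 ≤ r by omega)]; ring
  have hsr : s r ≤ r * b := by
    have h1 := P.incr (j := 0) (n := r) (by omega)
    have h2 := P.half
    rw [zero_add, P.s0] at h1
    have hb0 : (0 : ℤ) ≤ b := by positivity
    nlinarith
  have hYpos : 0 < Y.card := by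
    have : (0 : ℤ) < Y.card := by linarith
    exact_mod_cast this
  obtain ⟨v0, hv0⟩ : Y.Nonempty := Finset.card_pos.1 hYpos
  have htri := class_triangle P hr2 hra IH Y hY hQ hcard
  -- the largest cycle length at most `b`
  set PP : ℕ → Prop := fun k => ∃ l, IsCyc G l ∧ l.length = k ∧ ∀ x ∈ l, x ∈ Y with hPP
  set c := Nat.findGreatest PP b with hcdef
  have hPc : PP c := Nat.findGreatest_spec (m := 3) (by omega) htri
  have hcb : c ≤ b := Nat.findGreatest_le _
  have hbig : ∀ k, c < k → k ≤ b → ¬ PP k := fun k h1 h2 => Nat.findGreatest_is_greatest h1 h2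
  obtain ⟨l, hl, hlc, hlY⟩ := hPc
  have hc3 : 3 ≤ c := hlc ▸ hl.1
  have : NeZero c := ⟨by omega⟩
  obtain ⟨u, hinj, hadj, hul⟩ := exists_param hl hlc
  have hCY : ∀ q, u q ∈ Y := fun q => hlY _ (hul q)
  set C := Finset.univ.image u with hCdef
  set D := Y \ C with hDdef
  have hCcard : C.card = c := by
    rw [hCdef, Finset.card_image_of_injective _ hinj, Finset.card_univ, ZMod.card]
  have hCsub : C ⊆ Y := by
    intro y hy
    obtain ⟨q, -, rfl⟩ := Finset.mem_image.1 hy
    exact hCY q
  have hDY : D ⊆ Y := Finset.sdiff_subset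
  have hDcard : (D.card : ℤ) = Y.card - c := by
    have h1 : D.card + C.card = Y.card := by
      rw [hDdef]
      exact Finset.card_sdiff_add_card_eq_card hCsub
    rw [hCcard] at h1
    have : (D.card : ℤ) + c = Y.card := by exact_mod_cast h1
    linarith
  have hvert : ∀ x, ((∃ q, x = u q) ∨ x ∈ D) → x ∈ Y := by
    rintro x (⟨q, rfl⟩ | h)
    · exact hCY q
    · exact hDY h
  have noCyc : ∀ k, c < k → k ≤ b + 1 → ∀ l, IsCyc G l → l.length = k →
      (∀ x ∈ l, (∃ q, x = u q) ∨ x ∈ D) → False := by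
    intro k hk1 hk2 l' hl' hl'k hl'v
    by_cases hkm : k = b + 1
    · exact hC l' hl' (hl'k.trans hkm)
    · exact hbig k hk1 (by omega) ⟨l', hl', hl'k, fun x hx => hvert x (hl'v x hx)⟩
  have S : Setup G u D := ⟨hc3, hinj, hadj, by
    intro y hy q h
    subst h
    exact (Finset.mem_sdiff.1 hy).2 (Finset.mem_image_of_mem _ (Finset.mem_univ _)),
    fun l' h1 h2 h3 => noCyc (c + 1) (by omega) (by omega) l' h1 h2 h3⟩
  have hXall : ∀ I : Finset V, (∀ x ∈ I, (∃ q, x = u q) ∨ x ∈ D) → G.IsIndepSet (I : Set V) →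
      I.card ≤ r := fun I hI hind => hY I (fun x hx => hvert x (hI x hx)) hind
  set e := ∑ q : ZMod c, (RR G u D q).card with he
  have hupper : (e : ℤ) ≤ R * ((c : ℤ) + 1) := edge_upper (b := b) S hcb (by omega) (by omega) hXall
    (fun hlt l' h1 h2 h3 => noCyc (c + 2) (by omega) (by omega) l' h1 h2 h3)
  -- a maximum independent set in `D`
  obtain ⟨J, hJD, hJind, hJmax⟩ : ∃ J : Finset V, J ⊆ D ∧ G.IsIndepSet (J : Set V) ∧
      ∀ I : Finset V, I ⊆ D → G.IsIndepSet (I : Set V) → I.card ≤ J.card := by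
    have hne : (D.powerset.filter (fun I : Finset V => G.IsIndepSet (I : Set V))).Nonempty :=
      ⟨∅, Finset.mem_filter.2 ⟨Finset.empty_mem_powerset _, by simp [SimpleGraph.IsIndepSet]⟩⟩
    obtain ⟨J, hJ, hmax⟩ := Finset.exists_max_image _ Finset.card hne
    obtain ⟨h1, h2⟩ := Finset.mem_filter.1 hJ
    exact ⟨J, Finset.mem_powerset.1 h1, h2, fun I hI hind =>
      hmax I (Finset.mem_filter.2 ⟨Finset.mem_powerset.2 hI, hind⟩)⟩
  have hJC : ∀ y ∈ J, ∀ q, y ≠ u q := fun y hy q => S.disj y (hJD hy) q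
  have hJr : J.card ≤ r := hY J (hJD.trans hDY) hJind
  have hDbound : Bound G D J.card := hJmax
  have hDge : (r : ℤ) * b - s r - c + 1 ≤ D.card := by
    rw [hDcard]; linarith
  have hcZ : (c : ℤ) ≤ b := by exact_mod_cast hcb
  have hc3Z : (3 : ℤ) ≤ c := by exact_mod_cast hc3
  -- `J` is almost of full size
  have hJlarge : r ≤ J.card + 1 := by
    by_contra hcon
    have hj2 : J.card + 2 ≤ r := by omega
    have h1 := IH J.card (by omega) D hDbound (hQ.mono hDY)
    have h2 := P.jump hj2 hra
    have hbz : (0 : ℤ) ≤ b := by positivity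
    have e1 : (r : ℤ) * b - s r - c + 1 ≤ (J.card : ℤ) * b - s J.card := by linarith
    have e2 : (r : ℤ) * b - (J.card : ℤ) * b = ((r : ℤ) - J.card - 1) * b + b := by ring
    linarith
  -- uncovered positions
  set T0 := (Finset.univ : Finset (ZMod c)).filter (fun q => ∀ x ∈ J, ¬ G.Adj x (u (q - 1))) with hT0
  have hT0mem : ∀ q, q ∈ T0 ↔ ∀ x ∈ J, ¬ G.Adj x (u (q - 1)) := by
    intro q
    simp [hT0]
  -- independent extensions of `J`
  have hext1 : ∀ q ∈ T0, G.IsIndepSet ((({u (q - 1)} : Finset V) ∪ J : Finset V) : Set V) := by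
    intro q hq
    apply indep_union (indep_singleton _) hJind
    intro x hx y hy
    simp only [Finset.mem_singleton] at hx
    subst hx
    intro h
    exact (hT0mem q).1 hq y hy h.symm
  have hT0full : J.card = r → T0 = ∅ := by
    intro hJ
    apply Finset.eq_empty_of_forall_notMem
    intro q hq
    have h1 := hXall _ (by
      intro y hy
      rcases Finset.mem_union.1 hy with h | h
      · exact Or.inl ⟨q - 1, Finset.mem_singleton.1 h⟩
      · exact Or.inr (hJD h)) (hext1 q hq)
    rw [Finset.card_union_of_disjoint (by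
      rw [Finset.disjoint_left]
      intro y hy hyJ
      rw [Finset.mem_singleton.1 hy] at hyJ
      exact hJC _ hyJ _ rfl), Finset.card_singleton] at h1
    omega
  have hT0clique : T0.card ≤ b - i - 1 := by
    have hcl : G.IsClique ((T0.image (fun q => u (q - 1)) : Finset V) : Set V) := by
      intro x hx y hy hne
      simp only [Finset.coe_image, Set.mem_image, Finset.mem_coe] at hx hy
      obtain ⟨q, hq, rfl⟩ := hx
      obtain ⟨q', hq', rfl⟩ := hy
      by_contra hnadj
      have hneq : u (q - 1) ≠ u (q' - 1) := hne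
      have hind : G.IsIndepSet (((({u (q - 1), u (q' - 1)} : Finset V)) ∪ J : Finset V) : Set V) := by
        apply indep_union _ hJind
        · intro x hx y hy
          simp only [Finset.mem_insert, Finset.mem_singleton] at hx
          intro h
          rcases hx with rfl | rfl
          · exact (hT0mem q).1 hq y hy h.symm
          · exact (hT0mem q').1 hq' y hy h.symm
        · intro x hx y hy hxy
          simp only [Finset.coe_insert, Finset.coe_singleton, Set.mem_insert_iff,
            Set.mem_singleton_iff] at hx hy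
          rcases hx with rfl | rfl <;> rcases hy with rfl | rfl
          · exact absurd rfl hxy
          · exact hnadj
          · exact fun h => hnadj h.symm
          · exact absurd rfl hxy
      have h1 := hXall _ (by
        intro y hy
        rcases Finset.mem_union.1 hy with h | h
        · simp only [Finset.mem_insert, Finset.mem_singleton] at h
          rcases h with rfl | rfl
          · exact Or.inl ⟨_, rfl⟩
          · exact Or.inl ⟨_, rfl⟩
        · exact Or.inr (hJD h)) hind
      rw [Finset.card_union_of_disjoint (by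
        rw [Finset.disjoint_left]
        intro y hy hyJ
        simp only [Finset.mem_insert, Finset.mem_singleton] at hy
        rcases hy with rfl | rfl
        · exact hJC _ hyJ _ rfl
        · exact hJC _ hyJ _ rfl), Finset.card_pair hneq] at h1
      omega
    have himg : (T0.image (fun q => u (q - 1))).card = T0.card := by
      apply Finset.card_image_of_injective
      intro q q' h
      have := hinj h
      exact sub_left_injective this
    have h1 := hQ _ (by
      intro y hy
      obtain ⟨q, -, rfl⟩ := Finset.mem_image.1 hy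
      exact hCY _) hcl
    rwa [himg] at h1
  -- the choice function
  have hex : ∀ q, ∃ x, q ∉ T0 → x ∈ J ∧ G.Adj x (u (q - 1)) := by
    intro q
    by_cases hq : q ∈ T0
    · exact ⟨v0, fun h => absurd hq h⟩
    · have := (not_congr (hT0mem q)).1 hq
      push Not at this
      obtain ⟨x, h1, h2⟩ := this
      exact ⟨x, fun _ => ⟨h1, h2⟩⟩
  choose f hf using hex
  set A := (Finset.univ : Finset (ZMod c)).filter (fun q => q ∉ T0) with hA
  have hAmem : ∀ q, q ∈ A ↔ q ∉ T0 := by
    intro q
    simp [hA]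
  have hAT : A.card + T0.card = c := by
    have h1 := Finset.card_filter_add_card_filter_not (s := (Finset.univ : Finset (ZMod c)))
      (fun q => q ∈ T0)
    simp only [Finset.filter_mem_eq_inter, Finset.univ_inter, Finset.card_univ, ZMod.card] at h1
    have h2 : (Finset.univ : Finset (ZMod c)).filter (fun q => q ∉ T0) = A := rfl
    rw [h2] at h1
    omega
  obtain ⟨PSc, hpJ, hpne, hW0⟩ := core_star P hr2 hra IH hY hQ S hDY hCY hDge J hJD A f
    (fun q hq => (hf q ((hAmem q).1 hq)).1) (fun q hq => (hf q ((hAmem q).1 hq)).2)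
  have hW : (A.card : ℤ) * (R * b - s (r - 1)) +
      (PSc : ℤ) * (R * (1 - s r - c) + r * s (r - 1)) ≤ R * (R * ((c : ℤ) + 1)) := by
    have h4 : R * (e : ℤ) ≤ R * (R * ((c : ℤ) + 1)) :=
      mul_le_mul_of_nonneg_left hupper (by omega)
    linarith
  by_cases hJfull : J.card = r
  · -- all positions covered
    have hT : T0 = ∅ := hT0full hJfull
    have hAc : A.card = c := by
      rw [hT, Finset.card_empty] at hAT
      omega
    have hp1 : 1 ≤ PSc := hpne (by
      apply Finset.card_pos.1
      omega)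
    rw [hAc] at hW
    refine final_A (b := b) (r := r) (c := c) (p := PSc) (u := s (r - 1)) (v := s r) (R := R)
      rfl hR1 hc3Z hcZ (by exact_mod_cast hp1) (by exact_mod_cast (hJfull ▸ hpJ)) hW ?_ ?_ ?_
    · exact P.U1 r hr2 hra
    · exact P.U2 r hr2 hra
    · have h := P.U3 r hr2 hra
      linarith
  · -- a clique of uncovered positions
    have hJ1 : J.card + 1 = r := by omega
    have hJ2 : J.card = r - 1 := by omega
    have h1 := IH J.card (by omega) D hDbound (hQ.mono hDY)
    rw [hJ2, hcastR] at h1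
    have hcD : (b : ℤ) + 1 - (s r - s (r - 1)) ≤ c := by
      have e : (r : ℤ) * b = R * b + b := by rw [hRdef]; ring
      linarith
    have hlt : s (r - 1) < s r := by linarith
    have hg : (c : ℤ) - b + i + 1 ≤ A.card := by
      have h2 : c ≤ A.card + (b - i - 1) := by omega
      have hib := P.ib
      have h3 : (c : ℤ) ≤ A.card + ((b : ℤ) - i - 1) := by
        have : c + i + 1 ≤ A.card + b := by omega
        have h4 : ((c + i + 1 : ℕ) : ℤ) ≤ ((A.card + b : ℕ) : ℤ) := by exact_mod_cast this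
        push_cast at h4
        linarith
      linarith
    refine final_B (b := b) (r := r) (c := c) (p := PSc) (u := s (r - 1)) (v := s r) (R := R)
      (g := A.card) (i := i) (D := s r - s (r - 1)) rfl hR1 hcZ rfl hcD (by positivity) ?_ hg hW
      (P.R1 r hr2 hra hlt) (P.R3 r hr2 hra hlt)
    have : PSc ≤ r - 1 := by omega
    have h5 : ((PSc : ℕ) : ℤ) ≤ ((r - 1 : ℕ) : ℤ) := by exact_mod_cast this
    rwa [hcastR] at h5

/-- The class bound. -/
theorem class_bound {G : SimpleGraph V} {b i a : ℕ} {s : ℕ → ℤ}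
    (hC : ∀ l, IsCyc G l → l.length = b + 1 → False) (P : Prof b i a s) :
    ∀ r, r ≤ a → ∀ Y : Finset V, Bound G Y r → CliqueBd G Y (b - i - 1) →
      (Y.card : ℤ) ≤ r * b - s r := by
  intro r
  induction r using Nat.strong_induction_on with
  | _ r ih =>
    classical
    intro hra Y hY hQ
    rcases Nat.lt_or_ge r 2 with hr | hr
    · interval_cases r
      · -- no vertices at all
        have : Y = ∅ := by
          by_contra hne
          obtain ⟨v, hv⟩ := Finset.nonempty_iff_ne_empty.2 hne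
          have := hY {v} (Finset.singleton_subset_iff.2 hv) (indep_singleton v)
          simp at this
        subst this
        simp [P.s0]
      · -- a clique
        have hcl : G.IsClique (Y : Set V) := by
          intro x hx y hy hne
          by_contra hnadj
          have h1 := hY {x, y} (by
            intro z hz
            simp only [Finset.mem_insert, Finset.mem_singleton] at hz
            rcases hz with rfl | rfl
            · exact hx
            · exact hy) (by
            intro z hz w hw hzw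
            simp only [Finset.coe_insert, Finset.coe_singleton, Set.mem_insert_iff,
              Set.mem_singleton_iff] at hz hw
            rcases hz with rfl | rfl <;> rcases hw with rfl | rfl
            · exact absurd rfl hzw
            · exact hnadj
            · exact fun h => hnadj h.symm
            · exact absurd rfl hzw)
          rw [Finset.card_pair hne] at h1
          omega
        have h1 := hQ Y (Finset.Subset.refl _) hcl
        have hib := P.ib
        have h2 : Y.card + i + 1 ≤ b := by omega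
        have h3 : (Y.card : ℤ) + i + 1 ≤ b := by exact_mod_cast h2
        have h4 := P.s1
        push_cast
        linarith
    · by_contra hcon
      push Not at hcon
      exact class_step hC P hr hra (fun r' hr' Y' hY' hQ' => ih r' hr' (by omega) Y' hY' hQ') Y hY hQ hcon

end Vale.Agent.Lib.P048
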