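import Vale.Agent.Lib.P048.SlopeTwoOpt

namespace Vale.Agent.Lib.P048

open Finset

variable {V : Type*}

section defs
variable [DecidableEq V]

/-- Number of consecutive pairs of the list with both vertices in `Q`. -/
def qqc (Q : Finset V) : List V → ℕ
  | [] => 0
  | [_] => 0
  | x :: y :: t => (if x ∈ Q ∧ y ∈ Q then 1 else 0) + qqc Q (y :: t)

open Classical in
/-- Cyclic count: consecutive pairs plus the closing pair. -/
noncomputable def qqm (Q : Finset V) (l : List V) : ℕ :=
  qqc Q l + (if ∃ x ∈ l.getLast?, ∃ y ∈ l.head?, x ∈ Q ∧ y ∈ Q then 1 else 0)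

/-- A ring: a cycle list in `X` through all of `Q`. -/
structure Ring (G : SimpleGraph V) (X Q : Finset V) (l : List V) : Prop where
  cyc : IsCyc G l
  memX : ∀ x ∈ l, x ∈ X
  memQ : ∀ x ∈ Q, x ∈ l

/-- Outer count of a ring. -/
def gOut (Q : Finset V) (l : List V) : ℕ := (l.toFinset \ Q).card

end defs

section qqmAux
variable [DecidableEq V]

private lemma qqc_append_pair (Q : Finset V) (A : List V) (x y : V) (B : List V) :
    qqc Q (A ++ x :: y :: B) =
      qqc Q (A ++ [x]) + (if x ∈ Q ∧ y ∈ Q then 1 else 0) + qqc Q (y :: B) := by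
  induction A with
  | nil => simp [qqc]
  | cons a A ih =>
    rcases A with _ | ⟨a', A⟩
    · simp only [List.nil_append, List.cons_append, qqc] at ih ⊢
      omega
    · simp only [List.cons_append, qqc] at ih ⊢
      omega

private lemma qqc_reverse (Q : Finset V) (l : List V) : qqc Q l.reverse = qqc Q l := by
  induction l with
  | nil => rfl
  | cons x l ih =>
    rcases l with _ | ⟨y, t⟩
    · rfl
    · have h1 : (x :: y :: t).reverse = t.reverse ++ y :: x :: [] := by simp
      rw [h1, qqc_append_pair]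
      have h2 : t.reverse ++ [y] = (y :: t).reverse := by simp
      rw [h2, ih]
      simp only [qqc]
      have h3 : (y ∈ Q ∧ x ∈ Q) ↔ (x ∈ Q ∧ y ∈ Q) := and_comm
      simp only [h3]
      omega

private lemma qqc_add_last_le (Q : Finset V) (x : V) (l : List V) :
    qqc Q (x :: l) + (if l.getLastD x ∈ Q then 1 else 0) ≤
      ((x :: l).filter (· ∈ Q)).length := by
  induction l generalizing x with
  | nil =>
    by_cases hx : x ∈ Q <;> simp [qqc, hx]
  | cons y t ih =>
    have h := ih y
    have h1 : (y :: t).getLastD x = t.getLastD y := by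
      cases t <;> simp [List.getLastD]
    rw [h1]
    simp only [qqc]
    by_cases hx : x ∈ Q
    · rw [List.filter_cons_of_pos (by simpa using hx), List.length_cons]
      have h2 : (if x ∈ Q ∧ y ∈ Q then 1 else 0) ≤ 1 := by split_ifs <;> omega
      omega
    · rw [List.filter_cons_of_neg (by simpa using hx)]
      simp only [hx, false_and, if_false]
      omega

end qqmAux

/-- `qqm` is at most the size of `Q` on a nodup list. -/
lemma qqm_le [DecidableEq V] (Q : Finset V) {G : SimpleGraph V} {l : List V} (hl : IsCyc G l) :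
    qqm Q l ≤ Q.card := by
  classical
  rcases l with _ | ⟨x, t⟩
  · have := hl.1
    simp at this
  · have h1 := qqc_add_last_le Q x t
    have hnd : ((x :: t).filter (· ∈ Q)).Nodup := hl.2.1.filter _
    have h2 : ((x :: t).filter (· ∈ Q)).length ≤ Q.card := by
      rw [← List.toFinset_card_of_nodup hnd]
      apply Finset.card_le_card
      intro z hz
      have h3 := List.mem_toFinset.1 hz
      simpa using (List.mem_filter.1 h3).2
    have h3 : (if ∃ a ∈ (x :: t).getLast?, ∃ b ∈ (x :: t).head?, a ∈ Q ∧ b ∈ Q then 1 else 0) ≤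
        (if t.getLastD x ∈ Q then 1 else 0) := by
      split_ifs with h4 h5
      · exact le_rfl
      · exfalso
        obtain ⟨a, ha, b, -, haQ, -⟩ := h4
        rw [List.getLast?_cons] at ha
        have ha2 : t.getLastD x = a := by
          have h7 : t.getLast?.getD x = a := by simpa using ha
          rw [List.getLastD_eq_getLast?]; exact h7
        exact h5 (ha2.symm ▸ haQ)
      · exact Nat.zero_le _
      · exact le_rfl
    unfold qqm
    omega

section qqmTwoOpt
variable [DecidableEq V] {L : ℕ}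

private def tt (Q : Finset V) (u : ZMod L → V) (i : ZMod L) : ℕ :=
  if u i ∈ Q ∧ u (i + 1) ∈ Q then 1 else 0

private lemma qqc_arc (Q : Finset V) (u : ZMod L → V) (q : ZMod L) (t : ℕ) :
    qqc Q (arc u q (t + 1)) = ∑ j ∈ Finset.range t, tt Q u (q + (j : ZMod L)) := by
  induction t generalizing q with
  | zero => simp [arc, qqc]
  | succ t ih =>
    have h1 : arc u q (t + 1 + 1) = u q :: u (q + 1) :: arc u (q + 1 + 1) t := rfl
    have h2 : arc u (q + 1) (t + 1) = u (q + 1) :: arc u (q + 1 + 1) t := rfl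
    rw [h1]
    simp only [qqc]
    rw [← h2, ih (q + 1), Finset.sum_range_succ']
    have h3 : tt Q u (q + ((0 : ℕ) : ZMod L)) = if u q ∈ Q ∧ u (q + 1) ∈ Q then 1 else 0 := by
      simp [tt]
    rw [h3, add_comm]
    congr 1
    apply Finset.sum_congr rfl
    intro j _
    congr 1
    push_cast
    ring

omit [DecidableEq V] in
private lemma arc_snoc (u : ZMod L → V) (q : ZMod L) (t : ℕ) :
    arc u q (t + 1) = arc u q t ++ [u (q + (t : ZMod L))] := by
  induction t generalizing q with
  | zero => simp [arc]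
  | succ t ih =>
    have h1 : arc u q (t + 1 + 1) = u q :: arc u (q + 1) (t + 1) := rfl
    have h2 : arc u q (t + 1) = u q :: arc u (q + 1) t := rfl
    rw [h1, ih (q + 1), h2]
    simp only [List.cons_append]
    congr 3
    push_cast
    ring

private lemma sum_rot (Q : Finset V) (u : ZMod L → V) [NeZero L] (q : ZMod L) :
    ∑ j ∈ Finset.range L, tt Q u (q + 1 + (j : ZMod L)) =
      ∑ j ∈ Finset.range L, tt Q u (q + (j : ZMod L)) := by
  obtain ⟨m, hm⟩ : ∃ m, L = m + 1 := ⟨L - 1, by have := NeZero.pos L; omega⟩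
  have hL : ((m : ℕ) : ZMod L) + 1 = 0 := by
    have : ((m + 1 : ℕ) : ZMod L) = 0 := by
      rw [← hm]; exact ZMod.natCast_self L
    simpa using this
  have h1 : Finset.range L = Finset.range (m + 1) := by rw [hm]
  rw [h1, Finset.sum_range_succ, Finset.sum_range_succ']
  have h2 : q + 1 + ((m : ℕ) : ZMod L) = q := by
    calc q + 1 + ((m : ℕ) : ZMod L) = q + (((m : ℕ) : ZMod L) + 1) := by ring
      _ = q := by rw [hL, add_zero]
  rw [h2]
  congr 1
  · apply Finset.sum_congr rfl
    intro j _
    congr 1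
    push_cast
    ring
  · simp

private lemma sum_rot_all (Q : Finset V) (u : ZMod L → V) [NeZero L] (z : ZMod L) :
    ∑ j ∈ Finset.range L, tt Q u (z + (j : ZMod L)) =
      ∑ j ∈ Finset.range L, tt Q u (0 + (j : ZMod L)) := by
  have key : ∀ n : ℕ, ∑ j ∈ Finset.range L, tt Q u ((n : ZMod L) + (j : ZMod L)) =
      ∑ j ∈ Finset.range L, tt Q u (0 + (j : ZMod L)) := by
    intro n
    induction n with
    | zero => simp
    | succ n ih =>
      have := sum_rot Q u ((n : ℕ) : ZMod L)
      push_cast
      rw [this, ih]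
  have := key z.val
  rwa [ZMod.natCast_zmod_val] at this

private lemma qqm_arc_zero (Q : Finset V) (u : ZMod L → V) [NeZero L] :
    qqm Q (arc u 0 L) = ∑ j ∈ Finset.range L, tt Q u (0 + (j : ZMod L)) := by
  classical
  obtain ⟨m, hm⟩ : ∃ m, L = m + 1 := ⟨L - 1, by have := NeZero.pos L; omega⟩
  have hL : ((m : ℕ) : ZMod L) + 1 = 0 := by
    have : ((m + 1 : ℕ) : ZMod L) = 0 := by
      rw [← hm]; exact ZMod.natCast_self L
    simpa using this
  have h1 : Finset.range L = Finset.range (m + 1) := by rw [hm]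
  have h0 : arc u 0 L = arc u 0 (m + 1) := by
    have h9 : ∀ t, t = m + 1 → arc u 0 t = arc u 0 (m + 1) := by
      rintro t rfl; rfl
    exact h9 L hm
  rw [h1, Finset.sum_range_succ]
  unfold qqm
  rw [h0, qqc_arc, getLast?_arc, head?_arc]
  congr 1
  have h3 : (0 : ZMod L) + ((m : ℕ) : ZMod L) + 1 = 0 := by
    rw [zero_add]; exact hL
  simp only [tt, h3, Option.mem_def, Option.some.injEq, exists_eq_left']

end qqmTwoOpt

/-- Measure after a two-opt with empty `W` between two outer vertices and two clique vertices. -/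
lemma qqm_two_opt [DecidableEq V] (Q : Finset V) {L : ℕ} [NeZero L] {u : ZMod L → V} (hL : 3 ≤ L)
    {p p' : ZMod L} (hpp : p ≠ p') (hp : u p ∉ Q) (hp' : u p' ∉ Q) (ha : u (p + 1) ∈ Q)
    (ha' : u (p' + 1) ∈ Q) :
    qqm Q (arc u (p' + 1) (L - (p' - p).val) ++ ([] : List V) ++
        (arc u (p + 1) (p' - p).val).reverse) = qqm Q (arc u 0 L) + 1 := by
  classical
  have hd0 : (p' - p).val ≠ 0 := by
    intro h
    have : p' - p = 0 := (ZMod.val_eq_zero _).1 h
    exact hpp (sub_eq_zero.1 this).symm
  have hdlt : (p' - p).val < L := ZMod.val_lt _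
  obtain ⟨k, hk⟩ : ∃ k, (p' - p).val = k + 1 := ⟨(p' - p).val - 1, by omega⟩
  obtain ⟨m, hm⟩ : ∃ m, L - (p' - p).val = m + 1 := ⟨L - (p' - p).val - 1, by omega⟩
  have hLkm : L = k + 1 + (m + 1) := by omega
  have hcast : ((k + 1 : ℕ) : ZMod L) = p' - p := by
    rw [← hk, ZMod.natCast_zmod_val]
  have hpk : p + 1 + ((k : ℕ) : ZMod L) = p' := by
    have h1 : ((k : ℕ) : ZMod L) + 1 = p' - p := by simpa using hcast
    calc p + 1 + ((k : ℕ) : ZMod L) = p + (((k : ℕ) : ZMod L) + 1) := by ring
      _ = p' := by rw [h1]; ring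
  have hLz : ((k + 1 + (m + 1) : ℕ) : ZMod L) = 0 := by
    rw [← hLkm]; exact ZMod.natCast_self L
  have hpm : p' + 1 + ((m : ℕ) : ZMod L) = p := by
    have h1 : ((k : ℕ) : ZMod L) + 1 + (((m : ℕ) : ZMod L) + 1) = 0 := by
      simpa using hLz
    calc p' + 1 + ((m : ℕ) : ZMod L) = (p + 1 + ((k : ℕ) : ZMod L)) + 1 + ((m : ℕ) : ZMod L) := by
          rw [hpk]
      _ = p + (((k : ℕ) : ZMod L) + 1 + (((m : ℕ) : ZMod L) + 1)) := by ring
      _ = p := by rw [h1, add_zero]
  rw [hm, hk, List.append_nil]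
  -- the new list
  have hA : arc u (p' + 1) (m + 1) = arc u (p' + 1) m ++ [u p] := by
    rw [arc_snoc, hpm]
  have hB : (arc u (p + 1) (k + 1)).reverse = u p' :: (arc u (p + 1) k).reverse := by
    rw [arc_snoc, hpk]
    simp
  have hlist : arc u (p' + 1) (m + 1) ++ (arc u (p + 1) (k + 1)).reverse =
      arc u (p' + 1) m ++ u p :: u p' :: (arc u (p + 1) k).reverse := by
    rw [hA, hB]
    simp
  have hqqc : qqc Q (arc u (p' + 1) (m + 1) ++ (arc u (p + 1) (k + 1)).reverse) =
      qqc Q (arc u (p' + 1) (m + 1)) + qqc Q (arc u (p + 1) (k + 1)) := by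
    rw [hlist, qqc_append_pair, ← hA, ← hB, qqc_reverse]
    simp [hp]
  -- closing pair
  have hclose : (if ∃ x ∈ (arc u (p' + 1) (m + 1) ++ (arc u (p + 1) (k + 1)).reverse).getLast?,
      ∃ y ∈ (arc u (p' + 1) (m + 1) ++ (arc u (p + 1) (k + 1)).reverse).head?,
        x ∈ Q ∧ y ∈ Q then 1 else 0) = 1 := by
    rw [if_pos]
    refine ⟨u (p + 1), ?_, u (p' + 1), ?_, ha, ha'⟩
    · have hne : (arc u (p + 1) (k + 1)).reverse ≠ [] := by simp [arc]
      rw [List.getLast?_append_of_ne_nil _ hne, List.getLast?_reverse, head?_arc]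
      simp
    · have h1 : arc u (p' + 1) (m + 1) = u (p' + 1) :: arc u (p' + 1 + 1) m := rfl
      rw [h1]
      simp
  have hsum : ∑ j ∈ Finset.range L, tt Q u (p + 1 + (j : ZMod L)) =
      ∑ j ∈ Finset.range k, tt Q u (p + 1 + (j : ZMod L)) +
        ∑ j ∈ Finset.range m, tt Q u (p' + 1 + (j : ZMod L)) := by
    have h1 : Finset.range L = Finset.range (k + 1 + (m + 1)) := by rw [← hLkm]
    rw [h1, Finset.sum_range_add, Finset.sum_range_succ, Finset.sum_range_succ]
    have h2 : tt Q u (p + 1 + ((k : ℕ) : ZMod L)) = 0 := by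
      rw [hpk]; simp [tt, hp']
    have h3 : tt Q u (p + 1 + ((k + 1 + m : ℕ) : ZMod L)) = 0 := by
      have h4 : p + 1 + ((k + 1 + m : ℕ) : ZMod L) = p := by
        push_cast
        calc p + 1 + (((k : ℕ) : ZMod L) + 1 + ((m : ℕ) : ZMod L))
            = (p + 1 + ((k : ℕ) : ZMod L)) + 1 + ((m : ℕ) : ZMod L) := by ring
          _ = p := by rw [hpk, hpm]
      rw [h4]; simp [tt, hp]
    rw [h2, h3, add_zero, add_zero]
    congr 1
    apply Finset.sum_congr rfl
    intro j _
    have h5 : p + 1 + ((k + 1 + j : ℕ) : ZMod L) = p' + 1 + (j : ZMod L) := by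
      push_cast
      calc p + 1 + (((k : ℕ) : ZMod L) + 1 + (j : ZMod L))
          = (p + 1 + ((k : ℕ) : ZMod L)) + 1 + (j : ZMod L) := by ring
        _ = p' + 1 + (j : ZMod L) := by rw [hpk]
    rw [h5]
  rw [qqm_arc_zero, ← sum_rot_all Q u (p + 1), hsum]
  unfold qqm
  rw [hqqc, hclose, qqc_arc, qqc_arc]
  omega


/-- Deleting clique vertices: a cycle longer than `b+1` with few outer vertices gives a cycle of
length exactly `b+1`. -/
lemma shorten [DecidableEq V] {G : SimpleGraph V} {Q : Finset V} (hQ : G.IsClique (Q : Set V)) {b : ℕ}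
    (hb : 3 ≤ b) (n : ℕ) (l : List V) (hl : IsCyc G l) (hlen : l.length = b + 1 + n)
    (hout : 3 * (l.toFinset \ Q).card ≤ b + 1) : ∃ l', IsCyc G l' ∧ l'.length = b + 1 := by
  induction n generalizing l with
  | zero => exact ⟨l, hl, by omega⟩
  | succ n ih =>
    classical
    obtain ⟨L, hLdef⟩ : ∃ L, L = l.length := ⟨_, rfl⟩
    have hL4 : 4 ≤ L := by omega
    have hne : NeZero L := ⟨by omega⟩
    obtain ⟨u, hinj, hadj, hmem⟩ := exists_param hl (b := L) hLdef.symm
    have hfact : Fact (1 < L) := ⟨by omega⟩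
    set B : Finset (ZMod L) := univ.filter (fun q => u q ∉ Q) with hB
    have hBc : B.card ≤ (l.toFinset \ Q).card := by
      refine Finset.card_le_card_of_injOn u ?_ hinj.injOn
      intro q hq
      have hq' : q ∈ B := hq
      rw [hB, mem_filter] at hq'
      exact Finset.mem_coe.2 (mem_sdiff.2 ⟨List.mem_toFinset.2 (hmem q), hq'.2⟩)
    have hex : ∃ p : ZMod L, p ∉ B ∧ p + 1 ∉ B ∧ p + 2 ∉ B := by
      by_contra hcon
      push Not at hcon
      have hsub : (univ : Finset (ZMod L)) ⊆
          B ∪ (B.image (fun q => q - 1) ∪ B.image (fun q => q - 2)) := by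
        intro p _
        by_cases h0 : p ∈ B
        · exact mem_union_left _ h0
        · by_cases h1 : p + 1 ∈ B
          · exact mem_union_right _ (mem_union_left _ (mem_image.2 ⟨p + 1, h1, by ring⟩))
          · exact mem_union_right _ (mem_union_right _ (mem_image.2 ⟨p + 2, hcon p h0 h1, by ring⟩))
      have h1 := Finset.card_le_card hsub
      rw [Finset.card_univ, ZMod.card] at h1
      have h2 := Finset.card_union_le B (B.image (fun q => q - 1) ∪ B.image (fun q => q - 2))
      have h3 := Finset.card_union_le (B.image (fun q => q - 1)) (B.image (fun q => q - 2))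
      have h4 : (B.image (fun q => q - 1)).card ≤ B.card := Finset.card_image_le
      have h5 : (B.image (fun q => q - 2)).card ≤ B.card := Finset.card_image_le
      omega
    obtain ⟨p, hp0, hp1, hp2⟩ := hex
    have hQ0 : u p ∈ Q := by
      by_contra h
      exact hp0 (by rw [hB, mem_filter]; exact ⟨mem_univ _, h⟩)
    have hQ2 : u (p + 2) ∈ Q := by
      by_contra h
      exact hp2 (by rw [hB, mem_filter]; exact ⟨mem_univ _, h⟩)
    have hp2ne : p ≠ p + 2 := by
      intro h
      have h2 : ((2 : ℕ) : ZMod L) = ((0 : ℕ) : ZMod L) := by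
        push_cast
        have := h
        have h3 : p + 2 = p + 0 := by rw [← h, add_zero]
        exact add_left_cancel h3
      have := natCast_inj_of_lt (b := L) (i := 2) (j := 0) (by omega) (by omega) h2
      omega
    have hcyc : IsCyc G (arc u (p + 2) (L - 1)) := by
      refine ⟨by simp; omega, nodup_arc u hinj _ (by omega), chain_arc u hadj _ _, ?_⟩
      intro x hx y hy
      obtain ⟨t, ht⟩ : ∃ t, L - 1 = t + 1 := ⟨L - 2, by omega⟩
      rw [ht] at hx hy
      rw [getLast?_arc] at hx
      rw [head?_arc] at hy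
      simp only [Option.mem_def, Option.some.injEq] at hx hy
      subst hx hy
      have hlast : p + 2 + (t : ZMod L) = p := by
        have h0 : ((t + 2 : ℕ) : ZMod L) = 0 := by
          rw [show t + 2 = L by omega]
          exact ZMod.natCast_self L
        push_cast at h0
        calc p + 2 + (t : ZMod L) = p + ((t : ZMod L) + 2) := by ring
          _ = p := by rw [h0, add_zero]
      rw [hlast]
      exact hQ (Finset.mem_coe.2 hQ0) (Finset.mem_coe.2 hQ2) (fun h => hp2ne (hinj h))
    have hlen' : (arc u (p + 2) (L - 1)).length = b + 1 + n := by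
      rw [length_arc]
      omega
    refine ih _ hcyc hlen' ?_
    have hsub : (arc u (p + 2) (L - 1)).toFinset \ Q ⊆ l.toFinset \ Q := by
      intro x hx
      rw [mem_sdiff, List.mem_toFinset] at hx ⊢
      obtain ⟨i, -, rfl⟩ := (mem_arc u).1 hx.1
      exact ⟨hmem _, hx.2⟩
    exact le_trans (Nat.mul_le_mul_left 3 (Finset.card_le_card hsub)) hout

/-- The descent step. -/
lemma ring_step [DecidableEq V] {G : SimpleGraph V} {X Q : Finset V} {i : ℕ}
    (hQX : Q ⊆ X) (hQ : G.IsClique (Q : Set V))
    (hdeg : ∀ x ∈ Q, ∃ S : Finset V, S ⊆ X \ Q ∧ i + 1 ≤ S.card ∧ ∀ y ∈ S, G.Adj x y)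
    (hα : ∀ I : Finset V, I ⊆ X \ Q → G.IsIndepSet (I : Set V) → I.card < Q.card)
    (l : List V) (hl : Ring G X Q l) (hg : gOut Q l ≤ i) :
    ∃ l', Ring G X Q l' ∧ ((gOut Q l < gOut Q l' ∧ gOut Q l' ≤ gOut Q l + 2) ∨
      (gOut Q l' = gOut Q l ∧ qqm Q l < qqm Q l')) := by
  classical
  obtain ⟨L, hLdef⟩ : ∃ L, l.length = L := ⟨_, rfl⟩
  have hL3 : 3 ≤ L := hLdef ▸ hl.cyc.1
  haveI : NeZero L := ⟨by omega⟩
  obtain ⟨u, hinj, hadj, hlu⟩ := exists_param_arc hl.cyc hLdef
  haveI : Nonempty V := ⟨u 0⟩
  -- membership in the ring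
  have hmem : ∀ x, x ∈ l ↔ ∃ j, x = u j := by
    intro x
    rw [hlu, mem_arc]
    constructor
    · rintro ⟨j, _, rfl⟩
      exact ⟨_, rfl⟩
    · rintro ⟨j, rfl⟩
      refine ⟨j.val, ZMod.val_lt j, ?_⟩
      simp
  -- representatives outside the ring
  have hrepEx : ∀ x ∈ Q, ∃ y, y ∉ Q ∧ y ∈ X ∧ y ∉ l ∧ G.Adj x y := by
    intro x hx
    obtain ⟨S, hSX, hScard, hSadj⟩ := hdeg x hx
    by_contra hcon
    push Not at hcon
    have hsub : S ⊆ l.toFinset \ Q := by
      intro y hy
      have hy2 := Finset.mem_sdiff.1 (hSX hy)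
      refine Finset.mem_sdiff.2 ⟨List.mem_toFinset.2 ?_, hy2.2⟩
      by_contra hyl
      exact hcon y hy2.2 hy2.1 hyl (hSadj y hy)
    have := Finset.card_le_card hsub
    unfold gOut at hg
    omega
  choose! rep hrep using hrepEx
  have hpredEx : ∀ a ∈ Q, ∃ q, u (q + 1) = a := by
    intro a ha
    obtain ⟨j, hj⟩ := (hmem a).1 (hl.memQ a ha)
    exact ⟨j - 1, by rw [hj]; simp⟩
  choose! pred hpred using hpredEx
  -- the map to outside vertices
  set ψ : V → V := fun a => if u (pred a) ∈ Q then rep (u (pred a)) else u (pred a) with hψ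
  have hψX : ∀ a ∈ Q, ψ a ∈ X \ Q := by
    intro a _
    simp only [hψ]
    split_ifs with h
    · exact Finset.mem_sdiff.2 ⟨(hrep _ h).2.1, (hrep _ h).1⟩
    · refine Finset.mem_sdiff.2 ⟨hl.memX _ ((hmem _).2 ⟨_, rfl⟩), h⟩
  have hbad : ∃ a ∈ Q, ∃ a' ∈ Q, a ≠ a' ∧ (ψ a = ψ a' ∨ G.Adj (ψ a) (ψ a')) := by
    by_contra hcon
    push Not at hcon
    have hinjψ : Set.InjOn ψ (Q : Set V) := by
      intro a ha a' ha' he
      by_contra hne
      exact (hcon a ha a' ha' hne).1 he
    have hcard : (Q.image ψ).card = Q.card := Finset.card_image_of_injOn hinjψ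
    have hsub : Q.image ψ ⊆ X \ Q := by
      intro y hy
      obtain ⟨a, ha, rfl⟩ := Finset.mem_image.1 hy
      exact hψX a ha
    have hind : G.IsIndepSet ((Q.image ψ : Finset V) : Set V) := by
      intro x hx y hy hxy
      obtain ⟨a, ha, rfl⟩ := Finset.mem_image.1 (Finset.mem_coe.1 hx)
      obtain ⟨a', ha', rfl⟩ := Finset.mem_image.1 (Finset.mem_coe.1 hy)
      have hne : a ≠ a' := fun h => hxy (by rw [h])
      exact (hcon a ha a' ha' hne).2
    have := hα _ hsub hind
    omega
  obtain ⟨a, ha, a', ha', hne, hcase⟩ := hbad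
  set p := pred a with hp
  set p' := pred a' with hp'
  have hpa : u (p + 1) = a := hpred a ha
  have hpa' : u (p' + 1) = a' := hpred a' ha'
  have hpp : p ≠ p' := by
    intro h
    apply hne
    rw [← hpa, ← hpa', h]
  have hclose : G.Adj (u (p + 1)) (u (p' + 1)) := by
    rw [hpa, hpa']
    exact hQ ha ha' hne
  -- the surgery
  have key : ∀ W : List V, W.IsChain G.Adj → W.Nodup → (∀ y ∈ W, y ∉ Q ∧ y ∈ X ∧ y ∉ l) →
      (∀ y ∈ W.head?, G.Adj (u p) y) → (∀ y ∈ W.getLast?, G.Adj y (u p')) →
      (W = [] → G.Adj (u p) (u p')) →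
      Ring G X Q (arc u (p' + 1) (L - (p' - p).val) ++ W ++ (arc u (p + 1) (p' - p).val).reverse) ∧
      gOut Q (arc u (p' + 1) (L - (p' - p).val) ++ W ++ (arc u (p + 1) (p' - p).val).reverse) =
        gOut Q l + W.length := by
    intro W hch hnd hW hhead hlast hnil
    have hdisj : ∀ y ∈ W, ∀ j, y ≠ u j := by
      intro y hy j he
      exact (hW y hy).2.2 ((hmem y).2 ⟨j, he⟩)
    have hcyc := two_opt hL3 hinj hadj hpp W hch hnd hdisj hhead hlast hnil hclose
    have hm := fun x => mem_two_opt (u := u) hpp W x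
    refine ⟨⟨hcyc, ?_, ?_⟩, ?_⟩
    · intro x hx
      rcases (hm x).1 hx with ⟨j, rfl⟩ | hx
      · exact hl.memX _ ((hmem _).2 ⟨j, rfl⟩)
      · exact (hW x hx).2.1
    · intro x hx
      exact (hm x).2 (Or.inl ((hmem x).1 (hl.memQ x hx)))
    · unfold gOut
      have he : (arc u (p' + 1) (L - (p' - p).val) ++ W ++ (arc u (p + 1) (p' - p).val).reverse).toFinset \ Q
          = (l.toFinset \ Q) ∪ W.toFinset := by
        ext x
        simp only [Finset.mem_sdiff, List.mem_toFinset, Finset.mem_union]
        rw [hm x, hmem x]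
        constructor
        · rintro ⟨h1 | h1, h2⟩
          · exact Or.inl ⟨h1, h2⟩
          · exact Or.inr h1
        · rintro (⟨h1, h2⟩ | h1)
          · exact ⟨Or.inl h1, h2⟩
          · exact ⟨Or.inr h1, (hW x h1).1⟩
      rw [he, Finset.card_union_of_disjoint, List.toFinset_card_of_nodup hnd]
      rw [Finset.disjoint_left]
      intro x hx hx'
      exact (hW x (List.mem_toFinset.1 hx')).2.2 (List.mem_toFinset.1 (Finset.mem_sdiff.1 hx).1)
  by_cases hq : u p ∈ Q
  · have hψa : ψ a = rep (u p) := by simp only [hψ, ← hp, if_pos hq]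
    have hr := hrep _ hq
    by_cases hq' : u p' ∈ Q
    · have hψa' : ψ a' = rep (u p') := by simp only [hψ, ← hp', if_pos hq']
      have hr' := hrep _ hq'
      rw [hψa, hψa'] at hcase
      rcases hcase with he | hadjy
      · -- equal representatives
        have hkey := key [rep (u p)] (by simp) (by simp)
          (by
            intro y hy
            simp only [List.mem_singleton] at hy
            subst hy
            exact ⟨hr.1, hr.2.1, hr.2.2.1⟩)
          (by simpa using hr.2.2.2)
          (by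
            simp only [List.getLast?_singleton, Option.mem_def, Option.some.injEq]
            rintro y rfl
            rw [he]
            exact hr'.2.2.2.symm)
          (by simp)
        refine ⟨_, hkey.1, Or.inl ?_⟩
        rw [hkey.2]
        simp
      · -- adjacent representatives
        have hkey := key [rep (u p), rep (u p')]
          (by simpa using hadjy)
          (by simpa using hadjy.ne)
          (by
            intro y hy
            simp only [List.mem_cons, List.not_mem_nil, or_false] at hy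
            rcases hy with rfl | rfl
            · exact ⟨hr.1, hr.2.1, hr.2.2.1⟩
            · exact ⟨hr'.1, hr'.2.1, hr'.2.2.1⟩)
          (by simpa using hr.2.2.2)
          (by
            simp only [List.getLast?_cons_cons, List.getLast?_singleton, Option.mem_def,
              Option.some.injEq]
            rintro y rfl
            exact hr'.2.2.2.symm)
          (by simp)
        refine ⟨_, hkey.1, Or.inl ?_⟩
        rw [hkey.2]
        simp
    · have hψa' : ψ a' = u p' := by simp only [hψ, ← hp', if_neg hq']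
      rw [hψa, hψa'] at hcase
      have hadjy : G.Adj (rep (u p)) (u p') := by
        rcases hcase with he | h
        · exact absurd ((hmem _).2 ⟨p', he⟩) hr.2.2.1
        · exact h
      have hkey := key [rep (u p)] (by simp) (by simp)
        (by
          intro y hy
          simp only [List.mem_singleton] at hy
          subst hy
          exact ⟨hr.1, hr.2.1, hr.2.2.1⟩)
        (by simpa using hr.2.2.2)
        (by simpa using hadjy)
        (by simp)
      refine ⟨_, hkey.1, Or.inl ?_⟩
      rw [hkey.2]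
      simp
  · have hψa : ψ a = u p := by simp only [hψ, ← hp, if_neg hq]
    by_cases hq' : u p' ∈ Q
    · have hψa' : ψ a' = rep (u p') := by simp only [hψ, ← hp', if_pos hq']
      have hr' := hrep _ hq'
      rw [hψa, hψa'] at hcase
      have hadjy : G.Adj (u p) (rep (u p')) := by
        rcases hcase with he | h
        · exact absurd ((hmem _).2 ⟨p, he.symm⟩) hr'.2.2.1
        · exact h
      have hkey := key [rep (u p')] (by simp) (by simp)
        (by
          intro y hy
          simp only [List.mem_singleton] at hy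
          subst hy
          exact ⟨hr'.1, hr'.2.1, hr'.2.2.1⟩)
        (by simpa using hadjy)
        (by simpa using hr'.2.2.2.symm)
        (by simp)
      refine ⟨_, hkey.1, Or.inl ?_⟩
      rw [hkey.2]
      simp
    · have hψa' : ψ a' = u p' := by simp only [hψ, ← hp', if_neg hq']
      rw [hψa, hψa'] at hcase
      have hadjy : G.Adj (u p) (u p') := by
        rcases hcase with he | h
        · exact absurd (hinj he) hpp
        · exact h
      have hkey := key [] (by simp) (by simp) (by simp) (by simp) (by simp) (fun _ => hadjy)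
      refine ⟨_, hkey.1, Or.inr ⟨?_, ?_⟩⟩
      · rw [hkey.2]
        simp
      · have hq2 := qqm_two_opt Q hL3 hpp hq hq' (by rw [hpa]; exact ha) (by rw [hpa']; exact ha')
        rw [hq2, hlu]
        omega

/-- Rings with many outer vertices exist. -/
lemma ring_reach [DecidableEq V] {G : SimpleGraph V} {X Q : Finset V} {i : ℕ}
    (hQX : Q ⊆ X) (hQ : G.IsClique (Q : Set V)) (hQ3 : 3 ≤ Q.card)
    (hdeg : ∀ x ∈ Q, ∃ S : Finset V, S ⊆ X \ Q ∧ i + 1 ≤ S.card ∧ ∀ y ∈ S, G.Adj x y)
    (hα : ∀ I : Finset V, I ⊆ X \ Q → G.IsIndepSet (I : Set V) → I.card < Q.card) :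
    ∃ l, Ring G X Q l ∧ i + 1 ≤ gOut Q l ∧ gOut Q l ≤ i + 2 := by
  classical
  have hstart : Ring G X Q Q.toList := by
    refine ⟨⟨by simpa using hQ3, Q.nodup_toList, ?_, ?_⟩, ?_, ?_⟩
    · refine List.Pairwise.isChain ?_
      refine List.Pairwise.imp_of_mem ?_ Q.nodup_toList
      intro a c ha hc hac
      exact hQ (Finset.mem_coe.2 (Finset.mem_toList.1 ha)) (Finset.mem_coe.2 (Finset.mem_toList.1 hc)) hac
    · intro x hx y hy
      have hxm : x ∈ Q.toList := List.mem_of_getLast? hx
      have hym : y ∈ Q.toList := List.mem_of_head? hy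
      refine hQ (Finset.mem_coe.2 (Finset.mem_toList.1 hxm)) (Finset.mem_coe.2 (Finset.mem_toList.1 hym)) ?_
      intro hxy
      subst hxy
      have hnd := Q.nodup_toList
      have hlen : 3 ≤ Q.toList.length := by simpa using hQ3
      rw [List.getLast?_eq_getElem?, List.getElem?_eq_getElem (by omega)] at hx
      rw [List.head?_eq_getElem?, List.getElem?_eq_getElem (by omega)] at hy
      simp only [Option.mem_def, Option.some.injEq] at hx hy
      have h1 := (List.Nodup.getElem_inj_iff hnd).1 (hx.trans hy.symm)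
      omega
    · intro x hx
      exact hQX (Finset.mem_toList.1 hx)
    · intro x hx
      exact Finset.mem_toList.2 hx
  have hg0 : gOut Q Q.toList = 0 := by
    unfold gOut
    rw [Finset.toList_toFinset, Finset.sdiff_self, Finset.card_empty]
  have key : ∀ k : ℕ, ∀ l, Ring G X Q l → gOut Q l ≤ i →
      (i + 1) * (Q.card + 1) ≤ k + (gOut Q l * (Q.card + 1) + qqm Q l) →
      ∃ l, Ring G X Q l ∧ i + 1 ≤ gOut Q l ∧ gOut Q l ≤ i + 2 := by
    intro k
    induction k with
    | zero =>
      intro l hl hg hk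
      exfalso
      have h1 := qqm_le Q hl.cyc
      have h2 : gOut Q l * (Q.card + 1) ≤ i * (Q.card + 1) := Nat.mul_le_mul_right _ hg
      have h3 : (i + 1) * (Q.card + 1) = i * (Q.card + 1) + (Q.card + 1) := by ring
      omega
    | succ k ih =>
      intro l hl hg hk
      obtain ⟨l', hl', hcase⟩ := ring_step hQX hQ hdeg hα l hl hg
      by_cases hbig : i + 1 ≤ gOut Q l'
      · refine ⟨l', hl', hbig, ?_⟩
        rcases hcase with h | h
        · omega
        · omega
      · refine ih l' hl' (by omega) ?_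
        have h1 := qqm_le Q hl.cyc
        rcases hcase with ⟨h2, -⟩ | ⟨h2, h3⟩
        · have h4 : (gOut Q l + 1) * (Q.card + 1) ≤ gOut Q l' * (Q.card + 1) :=
            Nat.mul_le_mul_right _ h2
          have h5 : (gOut Q l + 1) * (Q.card + 1) = gOut Q l * (Q.card + 1) + (Q.card + 1) := by ring
          omega
        · rw [h2]
          omega
  exact key ((i + 1) * (Q.card + 1)) _ hstart (by omega) (by omega)

/-- The ear lemma: `X \ Q` has an independent set of `|Q|` vertices. -/
theorem ear_lemma [DecidableEq V] {G : SimpleGraph V} {b i : ℕ}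
    (hC : ∀ l, IsCyc G l → l.length = b + 1 → False)
    {X Q : Finset V} (hQX : Q ⊆ X) (hQ : G.IsClique (Q : Set V)) (hQc : Q.card + i = b)
    (hi : 3 * i + 8 ≤ b)
    (hdeg : ∀ x ∈ Q, ∃ S : Finset V, S ⊆ X \ Q ∧ i + 1 ≤ S.card ∧ ∀ y ∈ S, G.Adj x y) :
    ∃ I : Finset V, I ⊆ X \ Q ∧ G.IsIndepSet (I : Set V) ∧ Q.card ≤ I.card := by
  classical
  by_contra hcon
  push Not at hcon
  have hα : ∀ I : Finset V, I ⊆ X \ Q → G.IsIndepSet (I : Set V) → I.card < Q.card :=
    fun I h1 h2 => hcon I h1 h2
  obtain ⟨l, hl, h1, h2⟩ := ring_reach hQX hQ (by omega) hdeg hα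
  -- the ring is long
  have hlen : b + 1 ≤ l.length := by
    have hnd := hl.cyc.2.1
    have h3 : l.toFinset.card = l.length := List.toFinset_card_of_nodup hnd
    have h4 : Q ⊆ l.toFinset := fun x hx => List.mem_toFinset.2 (hl.memQ x hx)
    have h5 := Finset.card_sdiff_add_card_eq_card h4
    unfold gOut at h1
    omega
  obtain ⟨n, hn⟩ : ∃ n, l.length = b + 1 + n := ⟨l.length - (b + 1), by omega⟩
  have h6 : 3 * (l.toFinset \ Q).card ≤ b + 1 := by
    unfold gOut at h2
    omega
  obtain ⟨l', hl', hl'len⟩ := shorten hQ (by omega) n l hl.cyc hn h6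
  exact hC l' hl' hl'len

end Vale.Agent.Lib.P048
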