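import Vale.Agent.Lib.P048.SlopeEar

namespace Vale.Agent.Lib.P048

open Finset

variable {V : Type*}

/-- The ear lemma in the range `2 * i + 3 ≤ b`: a ring of length `b + 2` loses one vertex. -/
theorem ear_lemma_two [DecidableEq V] {G : SimpleGraph V} {b i : ℕ}
    (hC : ∀ l, IsCyc G l → l.length = b + 1 → False)
    {X Q : Finset V} (hQX : Q ⊆ X) (hQ : G.IsClique (Q : Set V)) (hQc : Q.card + i = b)
    (hi : 2 * i + 3 ≤ b)
    (hdeg : ∀ x ∈ Q, ∃ S : Finset V, S ⊆ X \ Q ∧ i + 1 ≤ S.card ∧ ∀ y ∈ S, G.Adj x y) :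
    ∃ I : Finset V, I ⊆ X \ Q ∧ G.IsIndepSet (I : Set V) ∧ Q.card ≤ I.card := by
  classical
  by_contra hcon
  push Not at hcon
  have hα : ∀ I : Finset V, I ⊆ X \ Q → G.IsIndepSet (I : Set V) → I.card < Q.card :=
    fun I h1 h2 => hcon I h1 h2
  obtain ⟨l, hl, h1, h2⟩ := ring_reach hQX hQ (by omega) hdeg hα
  have hnd := hl.cyc.2.1
  have h3 : l.toFinset.card = l.length := List.toFinset_card_of_nodup hnd
  have h4 : Q ⊆ l.toFinset := fun x hx => List.mem_toFinset.2 (hl.memQ x hx)
  have h5 := Finset.card_sdiff_add_card_eq_card h4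
  unfold gOut at h1 h2
  by_cases hg : (l.toFinset \ Q).card = i + 1
  · exact hC l hl.cyc (by omega)
  obtain ⟨L, hLdef⟩ : ∃ L, l.length = L := ⟨_, rfl⟩
  have hLb : L = b + 2 := by omega
  have hne : NeZero L := ⟨by omega⟩
  obtain ⟨u, hinj, hadj, hlu⟩ := exists_param_arc hl.cyc hLdef
  have hmem : ∀ x, x ∈ l → ∃ j, x = u j := by
    intro x hx
    rw [hlu, mem_arc] at hx
    obtain ⟨j, _, rfl⟩ := hx
    exact ⟨_, rfl⟩
  have hfact : Fact (1 < L) := ⟨by omega⟩
  set B : Finset (ZMod L) := univ.filter (fun q => u q ∈ Q) with hB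
  have hBc : Q.card ≤ B.card := by
    have hsub : Q ⊆ B.image u := by
      intro x hx
      obtain ⟨j, rfl⟩ := hmem x (hl.memQ x hx)
      exact mem_image.2 ⟨j, by rw [hB, mem_filter]; exact ⟨mem_univ _, hx⟩, rfl⟩
    exact le_trans (Finset.card_le_card hsub) Finset.card_image_le
  have hex : ∃ p : ZMod L, p ∈ B ∧ p + 2 ∈ B := by
    by_contra hcon2
    push Not at hcon2
    have hdis : Disjoint B (B.image (fun q => q - 2)) := by
      rw [Finset.disjoint_left]
      intro q hq hq'
      obtain ⟨q', hq'B, rfl⟩ := mem_image.1 hq'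
      refine hcon2 _ hq ?_
      simpa using hq'B
    have hc : (B.image (fun q => q - 2)).card = B.card :=
      Finset.card_image_of_injective _ (fun x y h => by simpa using h)
    have hle : (B ∪ B.image (fun q => q - 2)).card ≤ L := by
      have := Finset.card_le_univ (B ∪ B.image (fun q => q - 2))
      rwa [ZMod.card] at this
    rw [Finset.card_union_of_disjoint hdis, hc] at hle
    omega
  obtain ⟨p, hp0, hp2⟩ := hex
  have hQ0 : u p ∈ Q := by
    rw [hB, mem_filter] at hp0
    exact hp0.2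
  have hQ2 : u (p + 2) ∈ Q := by
    rw [hB, mem_filter] at hp2
    exact hp2.2
  have hp2ne : p ≠ p + 2 := by
    intro h
    have h2 : ((2 : ℕ) : ZMod L) = ((0 : ℕ) : ZMod L) := by
      push_cast
      have h3 : p + 2 = p + 0 := by rw [← h, add_zero]
      exact add_left_cancel h3
    have := natCast_inj_of_lt (b := L) (i := 2) (j := 0) (by omega) (by omega) h2
    omega
  have hcyc : IsCyc G (arc u (p + 2) (L - 1)) := by
    refine ⟨by simp; omega, nodup_arc u hinj _ (by omega), chain_arc u hadj _ _, ?_⟩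
    intro x hx y hy
    obtain ⟨t, ht⟩ : ∃ t, L - 1 = t + 1 := ⟨L - 2, by omega⟩
    rw [ht] at hx hy
    rw [getLast?_arc] at hx
    rw [head?_arc] at hy
    simp only [Option.mem_def, Option.some.injEq] at hx hy
    subst hx hy
    have hlast : p + 2 + (t : ZMod L) = p := by
      have h0 : ((t + 2 : ℕ) : ZMod L) = 0 := by
        rw [show t + 2 = L by omega]
        exact ZMod.natCast_self L
      push_cast at h0
      calc p + 2 + (t : ZMod L) = p + ((t : ZMod L) + 2) := by ring
        _ = p := by rw [h0, add_zero]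
    rw [hlast]
    exact hQ (Finset.mem_coe.2 hQ0) (Finset.mem_coe.2 hQ2) (fun h => hp2ne (hinj h))
  refine hC _ hcyc ?_
  rw [length_arc]
  omega

end Vale.Agent.Lib.P048
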