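import Vale.Agent.Lib.P048.SlopeTable2

namespace Vale.Agent.Lib.P048

/-- All numeric fields of a profile at one value of `R = r - 1`. -/
structure ExOk (b i R u d : ℤ) : Prop where
  dg : R + 2 ≤ b - d
  f1 : R ^ 2 + 1 ≤ 3 * (R * (b - R) - u)
  f2 : 1 ≤ (R + 1) * (R * (-d) + u + R) - R ^ 2
  f3 : 1 ≤ b * (R * (b - 2 * (R + 1) + 1) - u) + (R + 1) * (R * (-d) + u + R) - R ^ 2
  f4 : 0 < d → 0 ≤ R * (b - 2 * R) - u
  f5 : 0 < d → 1 ≤ (i + 2 - d) * (R * b - u) + R * u + R ^ 2 * d - 2 * (b + 1) * R ^ 2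

/-- Boolean version of `ExOk`. -/
def exB (b i R u d : ℤ) : Bool :=
  decide (R + 2 ≤ b - d) && decide (R ^ 2 + 1 ≤ 3 * (R * (b - R) - u)) &&
  decide (1 ≤ (R + 1) * (R * (-d) + u + R) - R ^ 2) &&
  decide (1 ≤ b * (R * (b - 2 * (R + 1) + 1) - u) + (R + 1) * (R * (-d) + u + R) - R ^ 2) &&
  (decide (d ≤ 0) || (decide (0 ≤ R * (b - 2 * R) - u) &&
    decide (1 ≤ (i + 2 - d) * (R * b - u) + R * u + R ^ 2 * d - 2 * (b + 1) * R ^ 2)))

lemma exB_ok {b i R u d : ℤ} (h : exB b i R u d = true) : ExOk b i R u d := by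
  simp only [exB, Bool.and_eq_true, Bool.or_eq_true, decide_eq_true_eq] at h
  obtain ⟨⟨⟨⟨h1, h2⟩, h3⟩, h4⟩, h5⟩ := h
  refine ⟨h1, h2, h3, h4, ?_, ?_⟩
  · intro hd
    rcases h5 with h5 | h5
    · omega
    · exact h5.1
  · intro hd
    rcases h5 with h5 | h5
    · omega
    · exact h5.2

/-- The exact check of a list of increments. -/
def exChk (b i : ℤ) : List ℤ → ℤ → ℤ → ℤ → Bool
  | [], _, _, _ => true
  | d :: T, R, u, d0 =>
    decide (d ≤ d0) && decide (0 ≤ u + d) && exB b i R u d && exChk b i T (R + 1) (u + d) d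

lemma exChk_spec {b i : ℤ} (T : List ℤ) (R u d0 : ℤ) (h : exChk b i T R u d0 = true) :
    ∀ c, c < T.length → ExOk b i (R + c) (u + pT T c) (dT T c) ∧ 0 ≤ u + pT T c + dT T c := by
  induction T generalizing R u d0 with
  | nil => intro c hc; simp at hc
  | cons d T ih =>
    simp only [exChk, Bool.and_eq_true, decide_eq_true_eq] at h
    obtain ⟨⟨⟨h1, h2⟩, h3⟩, h4⟩ := h
    intro c hc
    rcases c with _ | c
    · simp only [pT, dT, Nat.cast_zero, add_zero]
      exact ⟨exB_ok h3, h2⟩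
    · have := ih (R + 1) (u + d) d h4 c (by simpa using hc)
      simp only [pT, dT]
      have e1 : R + 1 + (c : ℤ) = R + ((c + 1 : ℕ) : ℤ) := by push_cast; ring
      have e2 : u + d + pT T c = u + (d + pT T c) := by ring
      rw [e1, e2] at this
      exact this

lemma exChk_anti {b i : ℤ} (T : List ℤ) (R u d0 : ℤ) (h : exChk b i T R u d0 = true) :
    (∀ c, c < T.length → dT T c ≤ d0) ∧
    (∀ c c', c ≤ c' → c' < T.length → dT T c' ≤ dT T c) := by
  induction T generalizing R u d0 with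
  | nil => simp
  | cons d T ih =>
    simp only [exChk, Bool.and_eq_true, decide_eq_true_eq] at h
    obtain ⟨⟨⟨h1, h2⟩, h3⟩, h4⟩ := h
    obtain ⟨ih1, ih2⟩ := ih (R + 1) (u + d) d h4
    constructor
    · intro c hc
      rcases c with _ | c
      · exact h1
      · exact le_trans (ih1 c (by simpa using hc)) h1
    · intro c c' hcc hc'
      rcases c' with _ | c'
      · have : c = 0 := by omega
        subst this
        exact le_refl _
      · rcases c with _ | c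
        · exact ih1 c' (by simpa using hc')
        · exact ih2 c c' (by omega) (by simpa using hc')

/-- A checked list of increments is a profile. -/
theorem exact_prof {b i a : ℕ} {D₀ : ℤ} {T : List ℤ}
    (h : exChk (b : ℤ) (i : ℤ) T 1 D₀ D₀ = true) (hlen : T.length + 1 = a) (hab : a + 1 ≤ b)
    (hib : i + 1 ≤ b) (hb3 : 3 ≤ b) (h0 : 0 ≤ D₀) (h1 : D₀ ≤ (i : ℤ) + 1) (h2 : 2 * D₀ ≤ (b : ℤ)) :
    Prof b i a (pT (D₀ :: T)) := by
  have hspec := exChk_spec T 1 D₀ D₀ h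
  obtain ⟨hanti1, hanti2⟩ := exChk_anti T 1 D₀ D₀ h
  -- values
  have hval : ∀ c : ℕ, pT (D₀ :: T) (c + 1) = D₀ + pT T c := fun c => rfl
  have hstep : ∀ c : ℕ, c < T.length → pT T (c + 1) = pT T c + dT T c := fun c hc => pT_succ T c hc
  -- the fields at `r`
  have hfields : ∀ r, 2 ≤ r → r ≤ a → ExOk (b : ℤ) (i : ℤ) ((r : ℤ) - 1) (pT (D₀ :: T) (r - 1))
      (pT (D₀ :: T) r - pT (D₀ :: T) (r - 1)) ∧ 0 ≤ pT (D₀ :: T) r := by
    intro r hr hra
    obtain ⟨c, rfl⟩ : ∃ c, r = c + 2 := ⟨r - 2, by omega⟩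
    have hc : c < T.length := by omega
    obtain ⟨h3, h4⟩ := hspec c hc
    have e1 : c + 2 - 1 = c + 1 := by omega
    rw [e1, hval c, show c + 2 = (c + 1) + 1 from rfl, hval (c + 1), hstep c hc]
    have e2 : D₀ + (pT T c + dT T c) - (D₀ + pT T c) = dT T c := by ring
    have e3 : ((c + 1 + 1 : ℕ) : ℤ) - 1 = 1 + (c : ℤ) := by push_cast; ring
    rw [e2, e3]
    refine ⟨h3, ?_⟩
    linarith
  refine ⟨hab, hib, hb3, rfl, ?_, ?_, ?_, ?_, ?_, ?_, ?_, ?_, ?_, ?_⟩
  · -- s1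
    show D₀ + pT T 0 ≤ (i : ℤ) + 1
    rw [pT_zero]
    linarith
  · -- half
    show 2 * (D₀ + pT T 0) ≤ (b : ℤ)
    rw [pT_zero]
    linarith
  · -- conc
    intro j hj1 hj2
    obtain ⟨c, rfl⟩ : ∃ c, j = c + 1 := ⟨j - 1, by omega⟩
    have hc : c < T.length := by omega
    have e1 : c + 1 - 1 = c := by omega
    rw [e1, hval c, show c + 1 + 1 = (c + 1) + 1 from rfl, hval (c + 1), hstep c hc]
    rcases c with _ | c
    · have h5 := hanti1 0 hc
      show D₀ + (pT T 0 + dT T 0) - (D₀ + pT T 0) ≤ D₀ + pT T 0 - 0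
      rw [pT_zero]
      linarith
    · rw [hval c, hstep c (by omega)]
      have h5 := hanti2 c (c + 1) (by omega) hc
      linarith
  · -- nonneg
    intro r hr
    rcases r with _ | r
    · exact le_refl _
    · rcases r with _ | r
      · show 0 ≤ D₀ + pT T 0
        rw [pT_zero]
        linarith
      · exact (hfields (r + 1 + 1) (by omega) hr).2
  · -- deg
    intro r h3 h4
    have h5 := (hfields r h3 h4).1.dg
    linarith
  · -- U1
    intro r h3 h4
    exact (hfields r h3 h4).1.f1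
  · -- U2
    intro r h3 h4
    have h5 := (hfields r h3 h4).1.f2
    have e : (r : ℤ) = ((r : ℤ) - 1) + 1 := by ring
    rw [← e] at h5
    have e2 : -(pT (D₀ :: T) r - pT (D₀ :: T) (r - 1)) = pT (D₀ :: T) (r - 1) - pT (D₀ :: T) r := by
      ring
    rw [e2] at h5
    exact h5
  · -- U3
    intro r h3 h4
    have h5 := (hfields r h3 h4).1.f3
    have e : (r : ℤ) = ((r : ℤ) - 1) + 1 := by ring
    rw [← e] at h5
    have e2 : -(pT (D₀ :: T) r - pT (D₀ :: T) (r - 1)) = pT (D₀ :: T) (r - 1) - pT (D₀ :: T) r := by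
      ring
    rw [e2] at h5
    exact h5
  · -- R1
    intro r h3 h4 h5
    exact (hfields r h3 h4).1.f4 (by linarith)
  · -- R3
    intro r h3 h4 h5
    exact (hfields r h3 h4).1.f5 (by linarith)

/-- What a row of the exact data has to satisfy. -/
def exRow (b a : ℕ) (D₀ : ℤ) (g : ℕ) : Bool :=
  exChk (b : ℤ) ((b - a - 1 : ℕ) : ℤ) (decT (a - 1) g D₀) 1 D₀ D₀ &&
  decide (a + 1 ≤ b) && decide (3 ≤ b) && decide (0 ≤ D₀) &&
  decide (D₀ ≤ ((b - a - 1 : ℕ) : ℤ) + 1) && decide (2 * D₀ ≤ (b : ℤ)) && decide (1 ≤ a)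

/-- Pairs covered in the exact range. -/
def ExReach (lo hi : ℕ) : Prop :=
  ∀ b a : ℕ, lo ≤ b → b < hi → 8 * a ≤ 5 * b + 2 → b + 1 < 2 * a → Concl a b

lemma exReach_self (K : ℕ) : ExReach K K := by
  intro b a h1 h2
  omega

lemma exReach_trans {l m h : ℕ} (h1 : ExReach l m) (h2 : ExReach m h) : ExReach l h := by
  intro b a hl hh h3 h4
  by_cases hm : b < m
  · exact h1 b a hl hm h3 h4
  · exact h2 b a (by omega) hh h3 h4

/-- One row of the exact data. -/
lemma exReach_row {b a bp : ℕ} {D₀ : ℤ} {g : ℕ} (h : exRow b a D₀ g = true)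
    (hp : 5 * bp ≤ 8 * a + 10) : ExReach b bp := by
  simp only [exRow, Bool.and_eq_true, decide_eq_true_eq] at h
  obtain ⟨⟨⟨⟨⟨⟨h1, h2⟩, h3⟩, h4⟩, h5⟩, h6⟩, h7⟩ := h
  have hlen := decT_length (a - 1) g D₀
  have P : Prof b (b - a - 1) a (pT (D₀ :: decT (a - 1) g D₀)) :=
    exact_prof h1 (by omega) h2 (by omega) h3 h4 h5 h6
  intro b' a' hb1 hb2 h8 h9
  obtain ⟨e, rfl⟩ : ∃ e, b' = b + e := ⟨b' - b, by omega⟩
  have ha : a' ≤ a := by omega
  refine ⟨b - a - 1 + e, _, (P.restrict ha).shiftN e, ?_, ?_⟩ <;> omega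

/-- A chain of exact rows: `(a, D₀, g, b⁺)`. -/
def exChainB : List (ℕ × ℤ × ℕ × ℕ) → ℕ → ℕ → Bool
  | [], b, bend => decide (b = bend)
  | (a, D₀, g, bp) :: rest, b, bend =>
    exRow b a D₀ g && decide (5 * bp ≤ 8 * a + 10) && exChainB rest bp bend

lemma exChain_reach (L : List (ℕ × ℤ × ℕ × ℕ)) (b bend : ℕ) (h : exChainB L b bend = true) :
    ExReach b bend := by
  induction L generalizing b with
  | nil =>
    simp only [exChainB, decide_eq_true_eq] at h
    rw [h]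
    exact exReach_self _
  | cons x rest ih =>
    obtain ⟨a, D₀, g, bp⟩ := x
    simp only [exChainB, Bool.and_eq_true, decide_eq_true_eq] at h
    exact exReach_trans (exReach_row h.1.1 h.1.2) (ih bp h.2)

end Vale.Agent.Lib.P048
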