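import Vale.Agent.Lib.P048.SlopeExact

namespace Vale.Agent.Lib.P048

/-- The scale free conditions at `y` in natural number arithmetic; the slope is `Dp - Dn`. -/
def endF (K I a V y Dp Dn : ℕ) : Bool :=
  (fun (yK yy : ℕ) =>
    and (Nat.ble (Nat.add (Nat.mul (Nat.mul 2 K) yy) (Nat.mul K V))
          (Nat.add (Nat.mul K yK) (Nat.mul a y)))
    (and (Nat.ble (Nat.add (Nat.add (Nat.add (Nat.mul (Nat.mul 2 K) yy) (Nat.mul K V)) yK) 1)
          (Nat.add (Nat.add (Nat.mul K yK) (Nat.mul a y)) a))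
    (and (Nat.ble (Nat.add (Nat.add (Nat.mul 4 yy) (Nat.mul 3 V)) 1) (Nat.mul 3 yK))
    (or (Nat.ble Dp Dn)
      (and (Nat.ble
          (Nat.add (Nat.add (Nat.add (Nat.mul (Nat.add I Dn) V) (Nat.mul Dp yK)) (Nat.mul yy Dn))
            (Nat.mul (Nat.mul 2 K) yy))
          (Nat.add (Nat.add (Nat.add (Nat.mul (Nat.add I Dn) yK) (Nat.mul Dp V)) (Nat.mul y V))
            (Nat.mul yy Dp)))
        (Nat.ble (Nat.add (Nat.add V (Nat.mul 2 yy)) 1) yK))))))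
  (Nat.mul y K) (Nat.mul y y)

lemma endF_ok {K I a V y Dp Dn : ℕ} {D : ℤ} (hD : D = (Dp : ℤ) - Dn)
    (hV : (V : ℤ) = a + D * y) (h : endF K I a V y Dp Dn = true) :
    EndOk K I a D y := by
  subst hD
  simp only [endF, Bool.and_eq_true, Bool.or_eq_true, Nat.ble_eq, Nat.add_eq, Nat.mul_eq] at h
  obtain ⟨h1, h2, h3, h4⟩ := h
  have h1' : (2 * (K : ℤ) * (y * y) + K * V) ≤ K * (y * K) + a * y := by exact_mod_cast h1
  have h2' : (2 * (K : ℤ) * (y * y) + K * V + y * K + 1) ≤ K * (y * K) + a * y + a := by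
    exact_mod_cast h2
  have h3' : (4 * ((y : ℤ) * y) + 3 * V + 1) ≤ 3 * (y * K) := by exact_mod_cast h3
  have hV' : (a : ℤ) + ((Dp : ℤ) - Dn) * y = V := hV.symm
  refine ⟨?_, ?_, ?_, ?_, ?_⟩
  · rw [hV']; nlinarith
  · rw [hV']; nlinarith
  · rw [hV']; nlinarith
  · intro hpos
    rw [hV']
    rcases h4 with h4 | ⟨h4, -⟩
    · have : (Dp : ℤ) ≤ Dn := by exact_mod_cast h4
      omega
    · have h5 : ((I + Dn : ℕ) : ℤ) * V + Dp * (y * K) + (y * y) * Dn + 2 * K * (y * y) ≤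
          ((I + Dn : ℕ) : ℤ) * (y * K) + Dp * V + y * V + (y * y) * Dp := by exact_mod_cast h4
      push_cast at h5
      nlinarith
  · intro hpos
    rw [hV']
    rcases h4 with h4 | ⟨-, h4⟩
    · have : (Dp : ℤ) ≤ Dn := by exact_mod_cast h4
      omega
    · have h5 : ((V : ℤ) + 2 * (y * y) + 1) ≤ y * K := by exact_mod_cast h4
      nlinarith

/-- The digit decoding loop with the check of the scale table. -/
def fastS (K I : ℕ) : ℕ → ℕ → ℕ → ℕ → ℕ → ℕ → Bool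
  | 0, _, _, _, _, _ => true
  | n + 1, g, c, U, Dp, Dn =>
    (fun (k : ℕ) =>
      (fun (Dp' Dn' : ℕ) =>
        (fun (V a : ℕ) =>
          and (Nat.ble Dn' (Nat.add U Dp'))
          (and (Nat.ble (Nat.mul c Dp') (Nat.add U (Nat.mul c Dn')))
          (and (Nat.ble (Nat.add (Nat.add c 2) Dp') (Nat.add K Dn'))
          (and (endF K I a V (Nat.add c 1) Dp' Dn')
            (fastS K I n (Nat.div g 16) (Nat.add c 1) V Dp' Dn')))))
        (Nat.sub (Nat.add U Dp') Dn')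
        (Nat.sub (Nat.add U (Nat.mul c Dn')) (Nat.mul c Dp')))
      (Nat.sub Dp k) (Nat.add Dn (Nat.sub k Dp)))
    (Nat.mod g 16)

/-- The slope after a digit. -/
lemma digit_slope (Dp Dn k : ℕ) : ((Dp - k : ℕ) : ℤ) - ((Dn + (k - Dp) : ℕ) : ℤ) = (Dp : ℤ) - Dn - k := by
  push_cast
  omega

lemma fastS_chkR {K I : ℕ} (n g c U Dp Dn : ℕ) {D : ℤ} (hD : D = (Dp : ℤ) - Dn)
    (h : fastS K I n g c U Dp Dn = true) :
    chkR (K : ℤ) (I : ℤ) (decT n g D) (c : ℤ) (U : ℤ) D = true := by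
  induction n generalizing g c U Dp Dn D with
  | zero => simp [decT, chkR]
  | succ n ih =>
    have e1 : g.mod 16 = g % 16 := rfl
    have e2 : g.div 16 = g / 16 := rfl
    simp only [fastS, Bool.and_eq_true, Nat.ble_eq, Nat.add_eq, Nat.mul_eq, Nat.sub_eq, e1, e2] at h
    obtain ⟨h1, h2, h3, h4, h5⟩ := h
    obtain ⟨k, hk⟩ : ∃ k, k = g % 16 := ⟨_, rfl⟩
    rw [← hk] at h1 h2 h3 h4 h5
    obtain ⟨Dp', hDp'⟩ : ∃ x, x = Dp - k := ⟨_, rfl⟩
    obtain ⟨Dn', hDn'⟩ : ∃ x, x = Dn + (k - Dp) := ⟨_, rfl⟩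
    have hs : (Dp' : ℤ) - Dn' = D - k := by
      rw [hD, hDp', hDn', digit_slope]
    rw [← hDp', ← hDn'] at h1 h2 h3 h4 h5
    have h1' : (Dn' : ℤ) ≤ U + Dp' := by exact_mod_cast h1
    have h2' : (c : ℤ) * Dp' ≤ U + c * Dn' := by exact_mod_cast h2
    have h3' : (c : ℤ) + 2 + Dp' ≤ K + Dn' := by exact_mod_cast h3
    have hV : ((U + Dp' - Dn' : ℕ) : ℤ) = (U : ℤ) + ((D : ℤ) - k) := by
      rw [Nat.cast_sub (by omega)]
      push_cast
      linarith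
    have ha : ((U + c * Dn' - c * Dp' : ℕ) : ℤ) = (U : ℤ) - c * ((D : ℤ) - k) := by
      rw [Nat.cast_sub (by omega), ← hs]
      push_cast
      ring
    have hdec : decT (n + 1) g D = (D - ((g % 16 : ℕ) : ℤ)) :: decT n (g / 16) (D - ((g % 16 : ℕ) : ℤ)) :=
      rfl
    rw [hdec, ← hk]
    simp only [chkR, Bool.and_eq_true, decide_eq_true_eq]
    have hk0 : (0 : ℤ) ≤ k := by positivity
    have hE := endF_ok (K := K) (I := I) (a := U + c * Dn' - c * Dp') (V := U + Dp' - Dn') (y := c + 1)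
      (Dp := Dp') (Dn := Dn') (D := D - k) hs.symm (by
        rw [hV, ha]
        push_cast
        ring) h4
    have hih := ih (g / 16) (c + 1) (U + Dp' - Dn') Dp' Dn' (D := D - k) hs.symm h5
    rw [hV] at hih
    push_cast at hih
    rw [ha] at hE
    push_cast at hE
    refine ⟨⟨⟨⟨⟨⟨by linarith, by positivity⟩, ?_⟩, ?_⟩, ?_⟩, ?_⟩, hih⟩
    · rw [← hV]
      positivity
    · rw [← ha]
      positivity
    · linarith
    · -- the Boolean form of the end point conditions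
      simp only [endB, Bool.and_eq_true, Bool.or_eq_true, decide_eq_true_eq]
      refine ⟨⟨⟨hE.u0, hE.u1⟩, hE.u2⟩, ?_⟩
      by_cases hpos : D - (k : ℤ) ≤ 0
      · exact Or.inl hpos
      · have hpos' : 0 < D - (k : ℤ) := by omega
        exact Or.inr ⟨hE.r0 hpos', hE.r1 hpos'⟩

/-- A row of the scale data, fast form. -/
def famF (K A D₀ g : ℕ) : Bool :=
  (fun (I : ℕ) =>
    and (fastS K I (Nat.sub A 1) g 1 D₀ D₀ 0)
    (and (endF K I 0 D₀ 1 D₀ 0)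
    (and (Nat.ble (Nat.add D₀ 2) I)
    (and (Nat.ble (Nat.add D₀ 3) K)
    (and (Nat.ble (Nat.mul 2 D₀) K)
    (and (Nat.ble (Nat.add A 1) K)
    (and (Nat.ble 1 I) (and (Nat.ble 3 K) (Nat.ble 1 A)))))))))
  (Nat.sub K A)

lemma famF_famB {K A D₀ g : ℕ} (h : famF K A D₀ g = true) : famB K A (D₀ : ℤ) g = true := by
  simp only [famF, Bool.and_eq_true, Nat.ble_eq, Nat.add_eq, Nat.mul_eq, Nat.sub_eq] at h
  obtain ⟨h1, h2, h3, h4, h5, h6, h7, h8, h9⟩ := h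
  have hE := endF_ok (K := K) (I := K - A) (a := 0) (V := D₀) (y := 1) (Dp := D₀) (Dn := 0)
    (D := (D₀ : ℤ)) (by simp) (by simp) h2
  have hc := fastS_chkR (K := K) (I := K - A) (A - 1) g 1 D₀ D₀ 0 (D := (D₀ : ℤ)) (by simp) h1
  simp only [famB, Bool.and_eq_true, decide_eq_true_eq]
  push_cast at hc hE
  refine ⟨⟨⟨⟨⟨⟨⟨⟨⟨hc, ?_⟩, ?_⟩, by positivity⟩, ?_⟩, ?_⟩, h6⟩, h7⟩, h8⟩, h9⟩
  · have : (D₀ : ℤ) + 2 ≤ ((K - A : ℕ) : ℤ) := by exact_mod_cast h3
    linarith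
  · have : (D₀ : ℤ) + 3 ≤ K := by exact_mod_cast h4
    linarith
  · exact_mod_cast h5
  · simp only [endB, Bool.and_eq_true, Bool.or_eq_true, decide_eq_true_eq]
    refine ⟨⟨⟨?_, ?_⟩, ?_⟩, ?_⟩
    · simpa using hE.u0
    · simpa using hE.u1
    · simpa using hE.u2
    · by_cases hpos : (D₀ : ℤ) ≤ 0
      · exact Or.inl hpos
      · have hpos' : 0 < (D₀ : ℤ) := by omega
        have h1' := hE.r0 hpos'
        have h2' := hE.r1 hpos'
        exact Or.inr ⟨by simpa using h1', by simpa using h2'⟩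

/-- A chain of rows in fast form: `(A, D₀, g, K⁺)`. -/
def chainF : List (ℕ × ℕ × ℕ × ℕ) → ℕ → ℕ → Bool
  | [], K, Kend => Nat.beq K Kend
  | (A, D₀, g, Kp) :: rest, K, Kend =>
    and (famF K A D₀ g) (and (Nat.ble (Nat.mul 5 Kp) (Nat.mul 8 A)) (chainF rest Kp Kend))

lemma chainF_reach (L : List (ℕ × ℕ × ℕ × ℕ)) (K Kend : ℕ) (h : chainF L K Kend = true) :
    Reach K Kend := by
  induction L generalizing K with
  | nil =>
    simp only [chainF] at h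
    rw [Nat.eq_of_beq_eq_true h]
    exact reach_self _
  | cons x rest ih =>
    obtain ⟨A, D₀, g, Kp⟩ := x
    simp only [chainF, Bool.and_eq_true, Nat.ble_eq, Nat.mul_eq] at h
    exact reach_trans (reach_row (famF_famB h.1) h.2.1) (ih Kp h.2.2)

/-- The exact conditions in natural number arithmetic; `d = Dp - Dn`. -/
def exF (b i R u Dp Dn : ℕ) : Bool :=
  (fun (RR Rb X : ℕ) =>
    and (Nat.ble (Nat.add (Nat.add R 2) Dp) (Nat.add b Dn))
    (and (Nat.ble (Nat.add (Nat.add (Nat.mul 4 RR) (Nat.mul 3 u)) 1) (Nat.mul 3 Rb))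
    (and (Nat.ble (Nat.add (Nat.add (Nat.mul (Nat.add R 1) (Nat.mul R Dp)) RR) 1) X)
    (and (Nat.ble
        (Nat.add (Nat.add (Nat.add (Nat.mul b (Nat.add (Nat.add (Nat.mul 2 RR) R) u))
          (Nat.mul (Nat.add R 1) (Nat.mul R Dp))) RR) 1)
        (Nat.add (Nat.mul b Rb) X))
    (or (Nat.ble Dp Dn)
      (and (Nat.ble (Nat.add (Nat.mul 2 RR) u) Rb)
        (Nat.ble
          (Nat.add (Nat.add (Nat.add (Nat.add (Nat.mul (Nat.add (Nat.add i 2) Dn) u) (Nat.mul Dp Rb))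
            (Nat.mul RR Dn)) (Nat.mul (Nat.mul 2 (Nat.add b 1)) RR)) 1)
          (Nat.add (Nat.add (Nat.add (Nat.mul (Nat.add (Nat.add i 2) Dn) Rb) (Nat.mul Dp u))
            (Nat.mul R u)) (Nat.mul RR Dp)))))))))
  (Nat.mul R R) (Nat.mul R b) (Nat.mul (Nat.add R 1) (Nat.add (Nat.add (Nat.mul R Dn) u) R))

lemma exF_ok {b i R u Dp Dn : ℕ} {d : ℤ} (hd : d = (Dp : ℤ) - Dn) (h : exF b i R u Dp Dn = true) :
    exB (b : ℤ) (i : ℤ) (R : ℤ) (u : ℤ) d = true := by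
  subst hd
  simp only [exF, Bool.and_eq_true, Bool.or_eq_true, Nat.ble_eq, Nat.add_eq, Nat.mul_eq] at h
  obtain ⟨h1, h2, h3, h4, h5⟩ := h
  have h1' : (R : ℤ) + 2 + Dp ≤ b + Dn := by exact_mod_cast h1
  have h2' : 4 * ((R : ℤ) * R) + 3 * u + 1 ≤ 3 * (R * b) := by exact_mod_cast h2
  have h3' : ((R : ℤ) + 1) * (R * Dp) + R * R + 1 ≤ (R + 1) * (R * Dn + u + R) := by
    exact_mod_cast h3
  have h4' : (b : ℤ) * (2 * (R * R) + R + u) + (R + 1) * (R * Dp) + R * R + 1 ≤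
      b * (R * b) + (R + 1) * (R * Dn + u + R) := by exact_mod_cast h4
  simp only [exB, Bool.and_eq_true, Bool.or_eq_true, decide_eq_true_eq]
  refine ⟨⟨⟨⟨by linarith, by nlinarith⟩, by nlinarith⟩, by nlinarith⟩, ?_⟩
  rcases h5 with h5 | ⟨h5, h6⟩
  · left
    have : (Dp : ℤ) ≤ Dn := by exact_mod_cast h5
    linarith
  · right
    have h5' : 2 * ((R : ℤ) * R) + u ≤ R * b := by exact_mod_cast h5
    have h6' : ((i : ℤ) + 2 + Dn) * u + Dp * (R * b) + (R * R) * Dn + 2 * (b + 1) * (R * R) + 1 ≤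
        (i + 2 + Dn) * (R * b) + Dp * u + R * u + (R * R) * Dp := by exact_mod_cast h6
    exact ⟨by nlinarith, by nlinarith⟩

/-- The digit decoding loop with the exact check. -/
def fastX (b i : ℕ) : ℕ → ℕ → ℕ → ℕ → ℕ → ℕ → Bool
  | 0, _, _, _, _, _ => true
  | n + 1, g, R, u, Dp, Dn =>
    (fun (k : ℕ) =>
      (fun (Dp' Dn' : ℕ) =>
        and (Nat.ble Dn' (Nat.add u Dp'))
        (and (exF b i R u Dp' Dn')
          (fastX b i n (Nat.div g 16) (Nat.add R 1) (Nat.sub (Nat.add u Dp') Dn') Dp' Dn')))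
      (Nat.sub Dp k) (Nat.add Dn (Nat.sub k Dp)))
    (Nat.mod g 16)

lemma fastX_exChk {b i : ℕ} (n g R u Dp Dn : ℕ) {D : ℤ} (hD : D = (Dp : ℤ) - Dn)
    (h : fastX b i n g R u Dp Dn = true) :
    exChk (b : ℤ) (i : ℤ) (decT n g D) (R : ℤ) (u : ℤ) D = true := by
  induction n generalizing g R u Dp Dn D with
  | zero => simp [decT, exChk]
  | succ n ih =>
    have e1 : g.mod 16 = g % 16 := rfl
    have e2 : g.div 16 = g / 16 := rfl
    simp only [fastX, Bool.and_eq_true, Nat.ble_eq, Nat.add_eq, Nat.mul_eq, Nat.sub_eq, e1, e2] at h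
    obtain ⟨h1, h2, h3⟩ := h
    obtain ⟨k, hk⟩ : ∃ k, k = g % 16 := ⟨_, rfl⟩
    rw [← hk] at h1 h2 h3
    obtain ⟨Dp', hDp'⟩ : ∃ x, x = Dp - k := ⟨_, rfl⟩
    obtain ⟨Dn', hDn'⟩ : ∃ x, x = Dn + (k - Dp) := ⟨_, rfl⟩
    have hs : (Dp' : ℤ) - Dn' = D - k := by
      rw [hD, hDp', hDn', digit_slope]
    rw [← hDp', ← hDn'] at h1 h2 h3
    have h1' : (Dn' : ℤ) ≤ u + Dp' := by exact_mod_cast h1
    have hV : ((u + Dp' - Dn' : ℕ) : ℤ) = (u : ℤ) + ((D : ℤ) - k) := by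
      rw [Nat.cast_sub (by omega)]
      push_cast
      linarith
    have hdec : decT (n + 1) g D = (D - ((g % 16 : ℕ) : ℤ)) :: decT n (g / 16) (D - ((g % 16 : ℕ) : ℤ)) :=
      rfl
    rw [hdec, ← hk]
    simp only [exChk, Bool.and_eq_true, decide_eq_true_eq]
    have hk0 : (0 : ℤ) ≤ k := by positivity
    have hih := ih (g / 16) (R + 1) (u + Dp' - Dn') Dp' Dn' (D := D - k) hs.symm h3
    rw [hV] at hih
    push_cast at hih
    refine ⟨⟨⟨by linarith, ?_⟩, exF_ok hs.symm h2⟩, hih⟩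
    rw [← hV]
    positivity

/-- A row of the exact data, fast form. -/
def exRowF (b a D₀ g : ℕ) : Bool :=
  (fun (i : ℕ) =>
    and (fastX b i (Nat.sub a 1) g 1 D₀ D₀ 0)
    (and (Nat.ble (Nat.add a 1) b)
    (and (Nat.ble 3 b)
    (and (Nat.ble D₀ (Nat.add i 1))
    (and (Nat.ble (Nat.mul 2 D₀) b) (Nat.ble 1 a))))))
  (Nat.sub (Nat.sub b a) 1)

lemma exRowF_exRow {b a D₀ g : ℕ} (h : exRowF b a D₀ g = true) : exRow b a (D₀ : ℤ) g = true := by
  simp only [exRowF, Bool.and_eq_true, Nat.ble_eq, Nat.add_eq, Nat.mul_eq, Nat.sub_eq] at h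
  obtain ⟨h1, h2, h3, h4, h5, h6⟩ := h
  have hc := fastX_exChk (b := b) (i := b - a - 1) (a - 1) g 1 D₀ D₀ 0 (D := (D₀ : ℤ)) (by simp) h1
  push_cast at hc
  simp only [exRow, Bool.and_eq_true, decide_eq_true_eq]
  refine ⟨⟨⟨⟨⟨⟨hc, h2⟩, h3⟩, by positivity⟩, ?_⟩, ?_⟩, h6⟩
  · exact_mod_cast h4
  · exact_mod_cast h5

/-- A chain of exact rows in fast form: `(a, D₀, g, b⁺)`. -/
def exChainF : List (ℕ × ℕ × ℕ × ℕ) → ℕ → ℕ → Bool
  | [], b, bend => Nat.beq b bend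
  | (a, D₀, g, bp) :: rest, b, bend =>
    and (exRowF b a D₀ g) (and (Nat.ble (Nat.mul 5 bp) (Nat.add (Nat.mul 8 a) 10))
      (exChainF rest bp bend))

lemma exChainF_reach (L : List (ℕ × ℕ × ℕ × ℕ)) (b bend : ℕ) (h : exChainF L b bend = true) :
    ExReach b bend := by
  induction L generalizing b with
  | nil =>
    simp only [exChainF] at h
    rw [Nat.eq_of_beq_eq_true h]
    exact exReach_self _
  | cons x rest ih =>
    obtain ⟨a, D₀, g, bp⟩ := x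
    simp only [exChainF, Bool.and_eq_true, Nat.ble_eq, Nat.mul_eq, Nat.add_eq] at h
    exact exReach_trans (exReach_row (exRowF_exRow h.1) h.2.1) (ih bp h.2.2)

end Vale.Agent.Lib.P048
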