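import Vale.Agent.Lib.P048.SlopeMain
import Vale.Agent.Lib.P048.SlopeEar2
import Vale.Agent.Lib.P048.SlopeTab85

namespace Vale.Agent.Lib.P048

open Finset

variable {V : Type*}

/-- The bound for all levels, from a profile, in the range `2 * i + 3 ≤ b`. -/
theorem main_slope_two {G : SimpleGraph V} {b i a : ℕ} {s : ℕ → ℤ}
    (hC : ∀ l, IsCyc G l → l.length = b + 1 → False) (P : Prof b i a s)
    (hi : 2 * i + 3 ≤ b) (ha : a + i < b) :
    ∀ r, r ≤ a → ∀ X : Finset V, Bound G X r → X.card ≤ r * b := by
  classical
  intro r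
  induction r using Nat.strong_induction_on with
  | _ r ih =>
    intro hra X hX
    rcases Nat.eq_zero_or_pos r with rfl | hr
    · rw [Nat.zero_mul]
      by_contra hcon
      obtain ⟨v, hv⟩ : X.Nonempty := Finset.card_pos.1 (by omega)
      have := hX {v} (Finset.singleton_subset_iff.2 hv) (indep_singleton v)
      simp at this
    · by_contra hcon
      have hcard : r * b + 1 ≤ X.card := by omega
      have hdeg := degree_large (b := b) hr
        (fun Y hY => ih (r - 1) (by omega) (by omega) Y hY) X hX hcard
      -- no large clique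
      have hQ : CliqueBd G X (b - i - 1) := by
        intro Q' hQ'X hQ'
        by_contra hlarge
        have hbig : b - i ≤ Q'.card := by omega
        obtain ⟨Q, hQQ', hQc⟩ := Finset.exists_subset_card_eq hbig
        have hQX : Q ⊆ X := hQQ'.trans hQ'X
        have hQcl : G.IsClique (Q : Set V) := hQ'.subset (by exact_mod_cast hQQ')
        have hQi : Q.card + i = b := by omega
        obtain ⟨I, hI1, hI2, hI3⟩ := ear_lemma_two (i := i) hC hQX hQcl hQi hi (by
          intro x hxQ
          obtain ⟨N, hN1, hN2, hN3⟩ := hdeg x (hQX hxQ)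
          refine ⟨N \ Q, ?_, ?_, fun y hy => hN3 y (Finset.mem_sdiff.1 hy).1⟩
          · intro y hy
            obtain ⟨h1, h2⟩ := Finset.mem_sdiff.1 hy
            exact Finset.mem_sdiff.2 ⟨hN1 h1, h2⟩
          · -- at most `|Q| - 1` neighbours in `Q`
            have hxN : x ∉ N := fun h => (hN3 x h).ne rfl
            have h1 : (N ∩ Q).card + 1 ≤ Q.card := by
              have h2 : N ∩ Q ⊂ Q := by
                refine ⟨Finset.inter_subset_right, fun h => ?_⟩
                exact hxN (Finset.mem_inter.1 (h hxQ)).1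
              exact Finset.card_lt_card h2
            have h3 := Finset.card_sdiff_add_card_inter N Q
            omega)
        have h1 := hX I (hI1.trans Finset.sdiff_subset) hI2
        omega
      have h1 := class_bound hC P r hra X hX hQ
      have h2 := P.nonneg r hra
      have h3 : (X.card : ℤ) ≤ r * b := by linarith
      have h4 : X.card ≤ r * b := by exact_mod_cast h3
      omega

/-- The final form: `R(C_m, K_n) ≤ (m - 1)(n - 1) + 1` for `5 m ≥ 8 n + 2997`. -/
theorem final_85 {V : Type*} [Fintype V] (m n : ℕ) (hn : 2 ≤ n) (hm : 8 * n + 2997 ≤ 5 * m)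
    (G : SimpleGraph V) (hcard : (m - 1) * (n - 1) + 1 ≤ Fintype.card V) :
    (∃ s : Finset V, s.card = n ∧ G.IsIndepSet (s : Set V)) ∨
      ∃ (v : V) (w : G.Walk v v), w.IsCycle ∧ w.length = m := by
  classical
  have hm3 : 3 ≤ m := by omega
  by_cases hsharp : 2 * n ≤ m + 2
  · exact final_sharp m n hn hsharp hm3 G hcard
  by_contra hcon
  push Not at hcon
  obtain ⟨h1, h2⟩ := hcon
  have hC : ∀ l, IsCyc G l → l.length = (m - 1) + 1 → False := by
    intro l hl hlm
    obtain ⟨v, w, hw, hwl⟩ := walk_of_cyc hl
    exact h2 v w hw (hwl.trans (by omega))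
  have hB : Bound G (Finset.univ : Finset V) (n - 1) := by
    intro I _ hI
    by_contra hlt
    obtain ⟨s, hs, hsc⟩ := Finset.exists_subset_card_eq (show n ≤ I.card by omega)
    exact h1 s hsc (hI.mono (by exact_mod_cast hs))
  obtain ⟨i, s, hP, hi, ha⟩ := exists_prof_85 (n - 1) (m - 1) (by omega) (by omega)
  have := main_slope_two hC hP hi ha (n - 1) (le_refl _) Finset.univ hB
  rw [Finset.card_univ] at this
  rw [Nat.mul_comm] at this
  omega

end Vale.Agent.Lib.P048
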