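import Vale.Agent.Lib.P048.SlopeClass
import Vale.Agent.Lib.P048.SlopeEar

namespace Vale.Agent.Lib.P048

open Finset

variable {V : Type*}

/-- A vertex set with too many vertices has large degrees. -/
lemma degree_large {G : SimpleGraph V} {b r : ℕ} (hr : 1 ≤ r)
    (IH : ∀ Y : Finset V, Bound G Y (r - 1) → Y.card ≤ (r - 1) * b)
    (X : Finset V) (hX : Bound G X r) (hcard : r * b + 1 ≤ X.card) (v : V) (hv : v ∈ X) :
    ∃ N : Finset V, N ⊆ X ∧ b ≤ N.card ∧ ∀ y ∈ N, G.Adj v y := by
  classical
  refine ⟨X.filter (G.Adj v), Finset.filter_subset _ _, ?_, fun y hy => (Finset.mem_filter.1 hy).2⟩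
  set Y := X.filter (fun y => y ≠ v ∧ ¬ G.Adj v y) with hY
  have hYb : Bound G Y (r - 1) := by
    intro I hI hIind
    have hind := indep_union hIind (indep_singleton v) (by
      intro x hx y hy
      rw [Finset.mem_singleton.1 hy]
      intro h
      exact (Finset.mem_filter.1 (hI hx)).2.2 h.symm)
    have h1 := hX _ (by
      intro y hy
      rcases Finset.mem_union.1 hy with h | h
      · exact (Finset.mem_filter.1 (hI h)).1
      · rw [Finset.mem_singleton.1 h]
        exact hv) hind
    rw [Finset.card_union_of_disjoint (by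
      rw [Finset.disjoint_left]
      intro y hy hy2
      rw [Finset.mem_singleton.1 hy2] at hy
      exact (Finset.mem_filter.1 (hI hy)).2.1 rfl), Finset.card_singleton] at h1
    omega
  have hYc := IH Y hYb
  have hsub : X ⊆ insert v (X.filter (G.Adj v) ∪ Y) := by
    intro y hy
    by_cases h1 : y = v
    · exact Finset.mem_insert.2 (Or.inl h1)
    · apply Finset.mem_insert_of_mem
      by_cases h2 : G.Adj v y
      · exact Finset.mem_union_left _ (Finset.mem_filter.2 ⟨hy, h2⟩)
      · exact Finset.mem_union_right _ (Finset.mem_filter.2 ⟨hy, h1, h2⟩)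
  have h3 := Finset.card_le_card hsub
  have h4 := Finset.card_insert_le v (X.filter (G.Adj v) ∪ Y)
  have h5 := Finset.card_union_le (X.filter (G.Adj v)) Y
  have hsplit : r * b = (r - 1) * b + b := by
    obtain ⟨r', rfl⟩ : ∃ r', r = r' + 1 := ⟨r - 1, by omega⟩
    simp
    ring
  omega

/-- The bound for all levels, from a profile. -/
theorem main_slope {G : SimpleGraph V} {b i a : ℕ} {s : ℕ → ℤ}
    (hC : ∀ l, IsCyc G l → l.length = b + 1 → False) (P : Prof b i a s)
    (hi : 3 * i + 8 ≤ b) (ha : a + i < b) :
    ∀ r, r ≤ a → ∀ X : Finset V, Bound G X r → X.card ≤ r * b := by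
  classical
  intro r
  induction r using Nat.strong_induction_on with
  | _ r ih =>
    intro hra X hX
    rcases Nat.eq_zero_or_pos r with rfl | hr
    · rw [Nat.zero_mul]
      by_contra hcon
      obtain ⟨v, hv⟩ : X.Nonempty := Finset.card_pos.1 (by omega)
      have := hX {v} (Finset.singleton_subset_iff.2 hv) (indep_singleton v)
      simp at this
    · by_contra hcon
      have hcard : r * b + 1 ≤ X.card := by omega
      have hdeg := degree_large (b := b) hr
        (fun Y hY => ih (r - 1) (by omega) (by omega) Y hY) X hX hcard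
      -- no large clique
      have hQ : CliqueBd G X (b - i - 1) := by
        intro Q' hQ'X hQ'
        by_contra hlarge
        have hbig : b - i ≤ Q'.card := by omega
        obtain ⟨Q, hQQ', hQc⟩ := Finset.exists_subset_card_eq hbig
        have hQX : Q ⊆ X := hQQ'.trans hQ'X
        have hQcl : G.IsClique (Q : Set V) := hQ'.subset (by exact_mod_cast hQQ')
        have hQi : Q.card + i = b := by omega
        obtain ⟨I, hI1, hI2, hI3⟩ := ear_lemma (i := i) hC hQX hQcl hQi hi (by
          intro x hxQ
          obtain ⟨N, hN1, hN2, hN3⟩ := hdeg x (hQX hxQ)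
          refine ⟨N \ Q, ?_, ?_, fun y hy => hN3 y (Finset.mem_sdiff.1 hy).1⟩
          · intro y hy
            obtain ⟨h1, h2⟩ := Finset.mem_sdiff.1 hy
            exact Finset.mem_sdiff.2 ⟨hN1 h1, h2⟩
          · -- at most `|Q| - 1` neighbours in `Q`
            have hxN : x ∉ N := fun h => (hN3 x h).ne rfl
            have h1 : (N ∩ Q).card + 1 ≤ Q.card := by
              have h2 : N ∩ Q ⊂ Q := by
                refine ⟨Finset.inter_subset_right, fun h => ?_⟩
                exact hxN (Finset.mem_inter.1 (h hxQ)).1
              exact Finset.card_lt_card h2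
            have h3 := Finset.card_sdiff_add_card_inter N Q
            omega)
        have h1 := hX I (hI1.trans Finset.sdiff_subset) hI2
        omega
      have h1 := class_bound hC P r hra X hX hQ
      have h2 := P.nonneg r hra
      have h3 : (X.card : ℤ) ≤ r * b := by linarith
      have h4 : X.card ≤ r * b := by exact_mod_cast h3
      omega

end Vale.Agent.Lib.P048
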