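import Vale.Agent.Lib.P048.SlopeClass

namespace Vale.Agent.Lib.P048

/-- Restricting the range of a profile. -/
lemma Prof.restrict {b i a a' : ℕ} {s : ℕ → ℤ} (P : Prof b i a s) (h : a' ≤ a) : Prof b i a' s where
  ab := by have := P.ab; omega
  ib := P.ib
  b3 := P.b3
  s0 := P.s0
  s1 := P.s1
  half := P.half
  conc := fun j h1 h2 => P.conc j h1 (by omega)
  nonneg := fun r hr => P.nonneg r (by omega)
  deg := fun r h1 h2 => P.deg r h1 (by omega)
  U1 := fun r h1 h2 => P.U1 r h1 (by omega)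
  U2 := fun r h1 h2 => P.U2 r h1 (by omega)
  U3 := fun r h1 h2 => P.U3 r h1 (by omega)
  R1 := fun r h1 h2 => P.R1 r h1 (by omega)
  R3 := fun r h1 h2 => P.R3 r h1 (by omega)

/-- A profile for `(b, i)` is a profile for `(b + 1, i + 1)`. -/
lemma Prof.shift {b i a : ℕ} {s : ℕ → ℤ} (P : Prof b i a s) : Prof (b + 1) (i + 1) a s where
  ab := by have := P.ab; omega
  ib := by have := P.ib; omega
  b3 := by have := P.b3; omega
  s0 := P.s0
  s1 := by have := P.s1; push_cast; linarith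
  half := by have := P.half; push_cast; linarith
  conc := P.conc
  nonneg := P.nonneg
  deg := fun r h1 h2 => by
    have := P.deg r h1 h2
    push_cast
    linarith
  U1 := fun r h1 h2 => by
    have := P.U1 r h1 h2
    have hR : (0 : ℤ) ≤ (r : ℤ) - 1 := by
      have : (2 : ℤ) ≤ r := by exact_mod_cast h1
      linarith
    push_cast
    nlinarith
  U2 := P.U2
  U3 := fun r h1 h2 => by
    have h3 := P.U3 r h1 h2
    have h4 := P.U1 r h1 h2
    have hab := P.ab
    obtain ⟨R, hR⟩ : ∃ R : ℤ, R = (r : ℤ) - 1 := ⟨_, rfl⟩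
    have hr : (r : ℤ) = R + 1 := by omega
    have hR1 : (1 : ℤ) ≤ R := by
      have : (2 : ℤ) ≤ r := by exact_mod_cast h1
      omega
    have hRb : R + 1 ≤ (b : ℤ) := by
      have : (r : ℤ) + 1 ≤ b := by exact_mod_cast (by omega : r + 1 ≤ b)
      omega
    rw [← hR] at h3 h4 ⊢
    rw [hr] at h3 ⊢
    obtain ⟨u, hu⟩ : ∃ u, u = s (r - 1) := ⟨_, rfl⟩
    rw [← hu] at h3 h4 ⊢
    have h6 : 0 ≤ R * (2 * (b : ℤ) - 2 * R) - u := by nlinarith
    have h7 : ((b + 1 : ℕ) : ℤ) * (R * (((b + 1 : ℕ) : ℤ) - 2 * (R + 1) + 1) - u) +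
          (R + 1) * (R * (u - s r) + u + R) - R ^ 2 =
        ((b : ℤ) * (R * ((b : ℤ) - 2 * (R + 1) + 1) - u) +
          (R + 1) * (R * (u - s r) + u + R) - R ^ 2) + (R * (2 * (b : ℤ) - 2 * R) - u) := by
      push_cast
      ring
    rw [h7]
    linarith
  R1 := fun r h1 h2 h3 => by
    have := P.R1 r h1 h2 h3
    have hR : (0 : ℤ) ≤ (r : ℤ) - 1 := by
      have : (2 : ℤ) ≤ r := by exact_mod_cast h1
      linarith
    push_cast
    nlinarith
  R3 := fun r h1 h2 h3 => by
    have h4 := P.R3 r h1 h2 h3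
    have h5 := P.R1 r h1 h2 h3
    have hR : (0 : ℤ) ≤ (r : ℤ) - 1 := by
      have : (2 : ℤ) ≤ r := by exact_mod_cast h1
      linarith
    -- the increment is at most `s 1`
    have h6 : s r - s (r - 1) ≤ s 1 := by
      have h7 := P.anti (k := 0) (m := r - 1) (by omega) (by omega)
      rw [P.s0] at h7
      have h8 : r - 1 + 1 = r := by omega
      rw [h8] at h7
      simpa using h7
    have h9 := P.s1
    have h10 : 0 ≤ (i : ℤ) + 3 - (s r - s (r - 1)) := by linarith
    push_cast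
    nlinarith [mul_nonneg h10 hR]

/-- Iterated shift. -/
lemma Prof.shiftN {b i a : ℕ} {s : ℕ → ℤ} (P : Prof b i a s) (e : ℕ) :
    Prof (b + e) (i + e) a s := by
  induction e with
  | zero => exact P
  | succ e ih => exact ih.shift

end Vale.Agent.Lib.P048
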