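import Vale.Agent.Lib.P048.SlopeShift

namespace Vale.Agent.Lib.P048

/-- A concave quadratic on an interval is at least the smaller endpoint value. -/
lemma quad_ge {p q t R₁ R₂ R c : ℤ} (hp : p ≤ 0) (h1 : R₁ ≤ R) (h2 : R ≤ R₂)
    (hc1 : c ≤ p * R₁ ^ 2 + q * R₁ + t) (hc2 : c ≤ p * R₂ ^ 2 + q * R₂ + t) :
    c ≤ p * R ^ 2 + q * R + t := by
  rcases eq_or_lt_of_le (le_trans h1 h2) with h | h
  · have h3 : R = R₁ := le_antisymm (by rw [h]; exact h2) h1
    rw [h3]
    exact hc1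
  · have hd : 0 < R₂ - R₁ := by linarith
    have key : (R₂ - R₁) * (p * R ^ 2 + q * R + t - c) =
        (R₂ - R) * (p * R₁ ^ 2 + q * R₁ + t - c) + (R - R₁) * (p * R₂ ^ 2 + q * R₂ + t - c) +
        (-p) * ((R - R₁) * (R₂ - R) * (R₂ - R₁)) := by ring
    have h3 : 0 ≤ (R₂ - R) * (p * R₁ ^ 2 + q * R₁ + t - c) :=
      mul_nonneg (by linarith) (by linarith)
    have h4 : 0 ≤ (R - R₁) * (p * R₂ ^ 2 + q * R₂ + t - c) :=
      mul_nonneg (by linarith) (by linarith)
    have h5 : 0 ≤ (-p) * ((R - R₁) * (R₂ - R) * (R₂ - R₁)) :=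
      mul_nonneg (by linarith) (mul_nonneg (mul_nonneg (by linarith) (by linarith)) hd.le)
    have h6 : 0 ≤ (R₂ - R₁) * (p * R ^ 2 + q * R + t - c) := by
      rw [key]
      linarith
    have h7 := nonneg_of_mul_nonneg_right h6 hd
    linarith

/-- The quadratic expressions at an end point, all at once. -/
structure EndVals (b i2 d A R : ℤ) : Prop where
  e1 : 0 ≤ (-4) * R ^ 2 + (3 * (b - d)) * R + (-3 * A - 1)
  e3 : 1 ≤ (-2 * b) * R ^ 2 + (b * (b - 1 - d) + A + 1) * R + (A - b * A)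
  r1 : 0 < d → 0 ≤ (-2) * R ^ 2 + (b - d) * R + (-A)
  r3 : 0 < d → 1 ≤ (2 * d - 2 * (b + 1)) * R ^ 2 + ((i2 - d) * (b - d) + A) * R + (-(i2 - d) * A)

/-- All fields at a point of a piece. -/
lemma piece_fields {b i2 d A R R₁ R₂ u v : ℤ} (hdb : d ≤ b) (hb : 0 ≤ b) (hA : 0 ≤ A)
    (hR : 1 ≤ R) (h1 : R₁ ≤ R) (h2 : R ≤ R₂) (hu : u = A + d * R) (hv : v = u + d)
    (E1 : EndVals b i2 d A R₁) (E2 : EndVals b i2 d A R₂) :
    R ^ 2 + 1 ≤ 3 * (R * (b - R) - u) ∧
    1 ≤ (R + 1) * (R * (u - v) + u + R) - R ^ 2 ∧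
    1 ≤ b * (R * (b - 2 * (R + 1) + 1) - u) + (R + 1) * (R * (u - v) + u + R) - R ^ 2 ∧
    (u < v → 0 ≤ R * (b - 2 * R) - u) ∧
    (u < v → 1 ≤ (i2 - (v - u)) * (R * b - u) + R * u + R ^ 2 * (v - u) - 2 * (b + 1) * R ^ 2) := by
  subst hv hu
  refine ⟨?_, ?_, ?_, ?_, ?_⟩
  · have := quad_ge (by norm_num) h1 h2 E1.e1 E2.e1
    nlinarith
  · nlinarith
  · have := quad_ge (by nlinarith) h1 h2 E1.e3 E2.e3
    nlinarith
  · intro hlt
    have hd : 0 < d := by linarith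
    have := quad_ge (by norm_num) h1 h2 (E1.r1 hd) (E2.r1 hd)
    nlinarith
  · intro hlt
    have hd : 0 < d := by linarith
    have := quad_ge (by linarith) h1 h2 (E1.r3 hd) (E2.r3 hd)
    nlinarith

/-- The scale free conditions at an end point. -/
structure EndOk (K I a D y : ℤ) : Prop where
  u0 : 0 ≤ K * (y * K - 2 * y ^ 2 - (a + D * y)) + a * y
  u1 : 1 ≤ K * (y * K - 2 * y ^ 2 - (a + D * y)) + a * y + a - K * y
  u2 : 1 ≤ 3 * (y * K - y ^ 2 - (a + D * y)) - y ^ 2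
  r0 : 0 < D → 0 ≤ (I - D) * (y * K - (a + D * y)) + y * (a + D * y) + y ^ 2 * D - 2 * K * y ^ 2
  r1 : 0 < D → 1 ≤ y * K - (a + D * y) - 2 * y ^ 2

/-- From scale free conditions to the actual values at `R = y * w`. -/
lemma EndOk.vals {K I a D y w : ℤ} (h : EndOk K I a D y) (hw : 1 ≤ w) (hy : 0 ≤ y) :
    EndVals (K * w) (I * w + 1) (D * w) (a * w ^ 2) (y * w) := by
  have hw2 : 1 ≤ w ^ 2 := by nlinarith
  have hw3 : 1 ≤ w ^ 3 := by nlinarith
  refine ⟨?_, ?_, ?_, ?_⟩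
  · have e : (-4) * (y * w) ^ 2 + (3 * (K * w - D * w)) * (y * w) + (-3 * (a * w ^ 2) - 1) =
        w ^ 2 * (3 * (y * K - y ^ 2 - (a + D * y)) - y ^ 2) - 1 := by ring
    rw [e]
    nlinarith [h.u2]
  · have e : (-2 * (K * w)) * (y * w) ^ 2 + ((K * w) * (K * w - 1 - D * w) + a * w ^ 2 + 1) * (y * w) +
        (a * w ^ 2 - (K * w) * (a * w ^ 2)) =
        w ^ 2 * (w * (K * (y * K - 2 * y ^ 2 - (a + D * y)) + a * y) + (a - K * y)) + y * w := by ring
    rw [e]
    have h1 : K * (y * K - 2 * y ^ 2 - (a + D * y)) + a * y ≤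
        w * (K * (y * K - 2 * y ^ 2 - (a + D * y)) + a * y) := by nlinarith [h.u0]
    have h2 : 1 ≤ w * (K * (y * K - 2 * y ^ 2 - (a + D * y)) + a * y) + (a - K * y) := by
      have := h.u1
      linarith
    have h3 : 0 ≤ y * w := by positivity
    nlinarith
  · intro hd
    have hD : 0 < D := by
      by_contra hcon
      have : D * w ≤ 0 := mul_nonpos_of_nonpos_of_nonneg (by linarith) (by linarith)
      linarith
    have e : (-2) * (y * w) ^ 2 + (K * w - D * w) * (y * w) + (-(a * w ^ 2)) =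
        w ^ 2 * (y * K - (a + D * y) - 2 * y ^ 2) := by ring
    rw [e]
    have := h.r1 hD
    positivity
  · intro hd
    have hD : 0 < D := by
      by_contra hcon
      have : D * w ≤ 0 := mul_nonpos_of_nonpos_of_nonneg (by linarith) (by linarith)
      linarith
    have e : (2 * (D * w) - 2 * (K * w + 1)) * (y * w) ^ 2 +
        ((I * w + 1 - D * w) * (K * w - D * w) + a * w ^ 2) * (y * w) +
        (-(I * w + 1 - D * w) * (a * w ^ 2)) =
        w ^ 3 * ((I - D) * (y * K - (a + D * y)) + y * (a + D * y) + y ^ 2 * D - 2 * K * y ^ 2) +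
        w ^ 2 * (y * K - (a + D * y) - 2 * y ^ 2) := by ring
    rw [e]
    have h1 := h.r0 hD
    have h2 := h.r1 hD
    have h3 : 0 ≤ w ^ 3 * ((I - D) * (y * K - (a + D * y)) + y * (a + D * y) + y ^ 2 * D - 2 * K * y ^ 2) :=
      mul_nonneg (by linarith) h1
    nlinarith

/-- The left end of the first piece, `R = 1`. -/
lemma first_vals {K I D w : ℤ} (hw : 1 ≤ w) (hK : 0 ≤ K) (h1 : 2 ≤ I - D) (h2 : 3 ≤ K - D) :
    EndVals (K * w) (I * w + 1) (D * w) 0 1 := by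
  have hbd : 3 ≤ K * w - D * w := by nlinarith
  have hbw : K * w - D * w = (K - D) * w := by ring
  refine ⟨?_, ?_, ?_, ?_⟩
  · nlinarith
  · have h3 : 0 ≤ K * w := by nlinarith
    have h4 : D * w ≤ K * w - 3 := by linarith
    nlinarith [mul_nonneg h3 (by linarith : 0 ≤ K * w - 3 - D * w)]
  · intro _
    linarith
  · intro _
    have h3 : 2 * w + 1 ≤ I * w + 1 - D * w := by nlinarith
    have h4 : 0 ≤ (K * w - D * w) := by linarith
    have h5 : (2 * w + 1) * (K * w - D * w) ≤ (I * w + 1 - D * w) * (K * w - D * w) :=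
      mul_le_mul_of_nonneg_right h3 h4
    nlinarith

/-- Boolean version of `EndOk`. -/
def endB (K I a D y : ℤ) : Bool :=
  decide (0 ≤ K * (y * K - 2 * y ^ 2 - (a + D * y)) + a * y) &&
  decide (1 ≤ K * (y * K - 2 * y ^ 2 - (a + D * y)) + a * y + a - K * y) &&
  decide (1 ≤ 3 * (y * K - y ^ 2 - (a + D * y)) - y ^ 2) &&
  (decide (D ≤ 0) ||
    (decide (0 ≤ (I - D) * (y * K - (a + D * y)) + y * (a + D * y) + y ^ 2 * D - 2 * K * y ^ 2) &&
     decide (1 ≤ y * K - (a + D * y) - 2 * y ^ 2)))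

lemma endB_ok {K I a D y : ℤ} (h : endB K I a D y = true) : EndOk K I a D y := by
  simp only [endB, Bool.and_eq_true, Bool.or_eq_true, decide_eq_true_eq] at h
  obtain ⟨⟨⟨h1, h2⟩, h3⟩, h4⟩ := h
  refine ⟨h1, h2, h3, ?_, ?_⟩
  · intro hD
    rcases h4 with h4 | h4
    · omega
    · exact h4.1
  · intro hD
    rcases h4 with h4 | h4
    · omega
    · exact h4.2

/-- The check of a table: `x` the piece index, `U` the value at its start, `D0` the last slope. -/
def chk (K I : ℤ) : List ℤ → ℤ → ℤ → ℤ → Bool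
  | [], _, _, _ => true
  | D :: T, x, U, D0 =>
    decide (D ≤ D0) && decide (0 ≤ U) && decide (0 ≤ U + D) && decide (0 ≤ U - x * D) &&
    decide (x + 2 ≤ K - D) && endB K I (U - x * D) D x && endB K I (U - x * D) D (x + 1) &&
    chk K I T (x + 1) (U + D) D

/-- Entry of a table. -/
def dT : List ℤ → ℕ → ℤ
  | [], _ => 0
  | D :: _, 0 => D
  | _ :: T, c + 1 => dT T c

/-- Sum of the first entries of a table. -/
def pT : List ℤ → ℕ → ℤ
  | [], _ => 0
  | _ :: _, 0 => 0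
  | D :: T, c + 1 => D + pT T c

lemma pT_zero (T : List ℤ) : pT T 0 = 0 := by
  cases T <;> rfl

lemma pT_succ (T : List ℤ) (c : ℕ) (h : c < T.length) : pT T (c + 1) = pT T c + dT T c := by
  induction T generalizing c with
  | nil => simp at h
  | cons D T ih =>
    rcases c with _ | c
    · simp [pT, dT, pT_zero]
    · simp only [pT, dT]
      rw [ih c (by simpa using h)]
      ring

/-- What the check gives on one piece. -/
structure PieceOk (K I y V D : ℤ) : Prop where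
  p0 : 0 ≤ V
  p1 : 0 ≤ V + D
  a0 : 0 ≤ V - y * D
  dg : y + 2 ≤ K - D
  e0 : EndOk K I (V - y * D) D y
  e1 : EndOk K I (V - y * D) D (y + 1)

lemma chk_spec {K I : ℤ} (T : List ℤ) (x U D0 : ℤ) (h : chk K I T x U D0 = true) :
    ∀ c, c < T.length → PieceOk K I (x + c) (U + pT T c) (dT T c) := by
  induction T generalizing x U D0 with
  | nil => intro c hc; simp at hc
  | cons D T ih =>
    simp only [chk, Bool.and_eq_true, decide_eq_true_eq] at h
    obtain ⟨⟨⟨⟨⟨⟨⟨h1, h2⟩, h3⟩, h4⟩, h5⟩, h6⟩, h7⟩, h8⟩ := h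
    intro c hc
    rcases c with _ | c
    · simp only [pT, dT, Nat.cast_zero, add_zero]
      exact ⟨h2, h3, h4, h5, endB_ok h6, endB_ok h7⟩
    · have := ih (x + 1) (U + D) D h8 c (by simpa using hc)
      simp only [pT, dT]
      have e1 : x + 1 + (c : ℤ) = x + ((c + 1 : ℕ) : ℤ) := by push_cast; ring
      have e2 : U + D + pT T c = U + (D + pT T c) := by ring
      rw [e1, e2] at this
      exact this

lemma chk_anti {K I : ℤ} (T : List ℤ) (x U D0 : ℤ) (h : chk K I T x U D0 = true) :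
    (∀ c, c < T.length → dT T c ≤ D0) ∧
    (∀ c c', c ≤ c' → c' < T.length → dT T c' ≤ dT T c) := by
  induction T generalizing x U D0 with
  | nil => simp
  | cons D T ih =>
    simp only [chk, Bool.and_eq_true, decide_eq_true_eq] at h
    obtain ⟨⟨⟨⟨⟨⟨⟨h1, h2⟩, h3⟩, h4⟩, h5⟩, h6⟩, h7⟩, h8⟩ := h
    obtain ⟨ih1, ih2⟩ := ih (x + 1) (U + D) D h8
    constructor
    · intro c hc
      rcases c with _ | c
      · exact h1
      · exact le_trans (ih1 c (by simpa using hc)) h1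
    · intro c c' hcc hc'
      rcases c' with _ | c'
      · have : c = 0 := by omega
        subst this
        exact le_refl _
      · rcases c with _ | c
        · exact ih1 c' (by simpa using hc')
        · exact ih2 c c' (by omega) (by simpa using hc')

/-- The profile given by a table at scale `w`. -/
def sW (T : List ℤ) (w r : ℕ) : ℤ :=
  (w : ℤ) ^ 2 * pT T (r / w) + ((r % w : ℕ) : ℤ) * w * dT T (r / w)

lemma sW_eval (T : List ℤ) {w c t : ℕ} (hw : 0 < w) (ht : t ≤ w) (hc : c < T.length) :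
    sW T w (c * w + t) = (w : ℤ) ^ 2 * pT T c + (t : ℤ) * w * dT T c := by
  rcases Nat.lt_or_ge t w with h | h
  · have h1 : (c * w + t) / w = c := by
      rw [add_comm, Nat.add_mul_div_right _ _ hw, Nat.div_eq_of_lt h, zero_add]
    have h2 : (c * w + t) % w = t := by
      rw [add_comm, Nat.add_mul_mod_self_right, Nat.mod_eq_of_lt h]
    unfold sW
    rw [h1, h2]
  · have ht' : t = w := le_antisymm ht h
    subst ht'
    have h1 : (c * t + t) / t = c + 1 := by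
      have : c * t + t = (c + 1) * t := by ring
      rw [this, Nat.mul_div_cancel _ hw]
    have h2 : (c * t + t) % t = 0 := by
      have : c * t + t = (c + 1) * t := by ring
      rw [this, Nat.mul_mod_left]
    unfold sW
    rw [h1, h2, pT_succ T c hc]
    push_cast
    ring

/-- Decomposition of a natural number with respect to `w`. -/
lemma div_add_mod' (R w : ℕ) : R = R / w * w + R % w := by
  have := Nat.div_add_mod R w
  rw [Nat.mul_comm] at this
  exact this.symm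

section main
variable {K I : ℕ} {D₀ : ℤ} {T' : List ℤ}

/-- The hypotheses on a table. -/
structure TableOk (K I : ℕ) (D₀ : ℤ) (T' : List ℤ) : Prop where
  hchk : chk K I T' 1 D₀ D₀ = true
  h1 : 2 ≤ (I : ℤ) - D₀
  h2 : 3 ≤ (K : ℤ) - D₀
  h3 : 0 ≤ D₀
  h4 : 2 * D₀ ≤ K
  h5 : EndOk K I 0 D₀ 1
  h6 : T'.length + 2 ≤ K
  h7 : 1 ≤ I
  h8 : 3 ≤ K
  h9 : T'.length + 1 ≤ K
  h10 : (I : ℤ) ≤ K

/-- The data at a position of the table. -/
lemma table_piece (H : TableOk K I D₀ T') (c : ℕ) (hc : c < (D₀ :: T').length) :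
    dT (D₀ :: T') c ≤ D₀ ∧ 0 ≤ pT (D₀ :: T') c ∧ 0 ≤ pT (D₀ :: T') c + dT (D₀ :: T') c ∧
    ((c = 0 ∧ pT (D₀ :: T') c = 0 ∧ dT (D₀ :: T') c = D₀) ∨
      (1 ≤ c ∧ PieceOk K I c (pT (D₀ :: T') c) (dT (D₀ :: T') c))) := by
  have hanti := chk_anti T' 1 D₀ D₀ H.hchk
  have hspec := chk_spec T' 1 D₀ D₀ H.hchk
  rcases c with _ | c
  · refine ⟨le_refl _, le_refl _, ?_, Or.inl ⟨rfl, rfl, rfl⟩⟩
    have := H.h3
    show (0 : ℤ) ≤ 0 + D₀
    linarith
  · have hc' : c < T'.length := by simpa using hc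
    have h := hspec c hc'
    simp only [dT, pT]
    have e : (1 : ℤ) + c = ((c + 1 : ℕ) : ℤ) := by push_cast; ring
    rw [e] at h
    exact ⟨hanti.1 c hc', h.p0, by have := h.p1; linarith, Or.inr ⟨by omega, h⟩⟩

/-- Antitone entries. -/
lemma table_anti (H : TableOk K I D₀ T') {c c' : ℕ} (h : c ≤ c') (hc' : c' < (D₀ :: T').length) :
    dT (D₀ :: T') c' ≤ dT (D₀ :: T') c := by
  have hanti := chk_anti T' 1 D₀ D₀ H.hchk
  rcases c' with _ | c'
  · have : c = 0 := by omega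
    subst this
    exact le_refl _
  · rcases c with _ | c
    · exact hanti.1 c' (by simpa using hc')
    · exact hanti.2 c c' (by omega) (by simpa using hc')

/-- All the fields at `r`. -/
lemma table_fields (H : TableOk K I D₀ T') {w r : ℕ} (hw : 1 ≤ w) (hr : 2 ≤ r)
    (hr2 : r ≤ (T'.length + 1) * w) :
    (r : ℤ) + 1 ≤ (K * w : ℕ) - sW (D₀ :: T') w r + sW (D₀ :: T') w (r - 1) ∧
    ((r : ℤ) - 1) ^ 2 + 1 ≤
      3 * (((r : ℤ) - 1) * (((K * w : ℕ) : ℤ) - ((r : ℤ) - 1)) - sW (D₀ :: T') w (r - 1)) ∧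
    1 ≤ (r : ℤ) * (((r : ℤ) - 1) * (sW (D₀ :: T') w (r - 1) - sW (D₀ :: T') w r) +
        sW (D₀ :: T') w (r - 1) + ((r : ℤ) - 1)) - ((r : ℤ) - 1) ^ 2 ∧
    1 ≤ ((K * w : ℕ) : ℤ) * (((r : ℤ) - 1) * (((K * w : ℕ) : ℤ) - 2 * r + 1) - sW (D₀ :: T') w (r - 1)) +
      (r : ℤ) * (((r : ℤ) - 1) * (sW (D₀ :: T') w (r - 1) - sW (D₀ :: T') w r) +
        sW (D₀ :: T') w (r - 1) + ((r : ℤ) - 1)) - ((r : ℤ) - 1) ^ 2 ∧
    (sW (D₀ :: T') w (r - 1) < sW (D₀ :: T') w r →
      0 ≤ ((r : ℤ) - 1) * (((K * w : ℕ) : ℤ) - 2 * ((r : ℤ) - 1)) - sW (D₀ :: T') w (r - 1)) ∧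
    (sW (D₀ :: T') w (r - 1) < sW (D₀ :: T') w r →
      1 ≤ (((I * w - 1 : ℕ) : ℤ) + 2 - (sW (D₀ :: T') w r - sW (D₀ :: T') w (r - 1))) *
          (((r : ℤ) - 1) * ((K * w : ℕ) : ℤ) - sW (D₀ :: T') w (r - 1)) +
        ((r : ℤ) - 1) * sW (D₀ :: T') w (r - 1) +
        ((r : ℤ) - 1) ^ 2 * (sW (D₀ :: T') w r - sW (D₀ :: T') w (r - 1)) -
        2 * (((K * w : ℕ) : ℤ) + 1) * ((r : ℤ) - 1) ^ 2) := by
  obtain ⟨R, hRdef⟩ : ∃ R, r = R + 1 := ⟨r - 1, by omega⟩
  subst hRdef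
  have hw0 : 0 < w := hw
  have hwZ : (1 : ℤ) ≤ w := by exact_mod_cast hw
  obtain ⟨c, hc⟩ : ∃ c, c = R / w := ⟨_, rfl⟩
  obtain ⟨t, ht⟩ : ∃ t, t = R % w := ⟨_, rfl⟩
  have hRct : R = c * w + t := by rw [hc, ht]; exact div_add_mod' R w
  have htw : t < w := by rw [ht]; exact Nat.mod_lt _ hw
  have hcL : c < (D₀ :: T').length := by
    simp only [List.length_cons]
    by_contra hcon
    push Not at hcon
    have h1 : (T'.length + 1) * w ≤ c * w := Nat.mul_le_mul_right _ hcon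
    omega
  have hu : sW (D₀ :: T') w (R + 1 - 1) = (w : ℤ) ^ 2 * pT (D₀ :: T') c + (t : ℤ) * w * dT (D₀ :: T') c := by
    rw [Nat.add_sub_cancel, hRct]
    exact sW_eval _ hw0 htw.le hcL
  have hv : sW (D₀ :: T') w (R + 1) = (w : ℤ) ^ 2 * pT (D₀ :: T') c + ((t + 1 : ℕ) : ℤ) * w * dT (D₀ :: T') c := by
    have : R + 1 = c * w + (t + 1) := by omega
    rw [this]
    exact sW_eval _ hw0 (by omega) hcL
  obtain ⟨h1, h2, h3, hcase⟩ := table_piece H c hcL
  obtain ⟨P, hP⟩ : ∃ P, P = pT (D₀ :: T') c := ⟨_, rfl⟩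
  obtain ⟨D, hD⟩ : ∃ D, D = dT (D₀ :: T') c := ⟨_, rfl⟩
  rw [← hP] at hu hv h2 h3 hcase
  rw [← hD] at hu hv h1 h3 hcase
  rw [hu, hv]
  have hRZ : (R : ℤ) = (c : ℤ) * w + t := by rw [hRct]; push_cast; ring
  have hR1 : (1 : ℤ) ≤ R := by
    have : 1 ≤ R := by omega
    exact_mod_cast this
  have hcastr : ((R + 1 : ℕ) : ℤ) = (R : ℤ) + 1 := by push_cast; ring
  have hcastb : ((K * w : ℕ) : ℤ) = (K : ℤ) * w := by push_cast; ring
  have hi : ((I * w - 1 : ℕ) : ℤ) + 2 = (I : ℤ) * w + 1 := by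
    have h7 := H.h7
    have h0 : 1 ≤ I * w := Nat.mul_pos h7 hw
    rw [Nat.cast_sub h0]
    push_cast
    ring
  obtain ⟨Rz, hRz⟩ : ∃ Rz : ℤ, Rz = (R : ℤ) := ⟨_, rfl⟩
  have hdb : D * w ≤ (K : ℤ) * w := by
    have := H.h2
    have h8 : D ≤ K := by linarith
    exact mul_le_mul_of_nonneg_right h8 (by linarith)
  have hb : (0 : ℤ) ≤ (K : ℤ) * w := by positivity
  set a : ℤ := P - c * D with ha
  have huA : (w : ℤ) ^ 2 * P + (t : ℤ) * w * D = a * (w : ℤ) ^ 2 + D * w * (R : ℤ) := by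
    rw [hRZ, ha]
    ring
  have hvA : (w : ℤ) ^ 2 * P + ((t + 1 : ℕ) : ℤ) * w * D =
      ((w : ℤ) ^ 2 * P + (t : ℤ) * w * D) + D * w := by
    push_cast
    ring
  -- the two end points
  obtain ⟨R₁, R₂, hA0, hR₁, hR₂, E1, E2, hdeg⟩ : ∃ R₁ R₂ : ℤ, 0 ≤ a ∧ R₁ ≤ R ∧ (R : ℤ) ≤ R₂ ∧
      EndVals ((K : ℤ) * w) ((I : ℤ) * w + 1) (D * w) (a * (w : ℤ) ^ 2) R₁ ∧
      EndVals ((K : ℤ) * w) ((I : ℤ) * w + 1) (D * w) (a * (w : ℤ) ^ 2) R₂ ∧
      ((R : ℤ) + 2 + D * w ≤ (K : ℤ) * w) := by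
    have hR2 : (R : ℤ) + 1 ≤ ((c : ℤ) + 1) * w := by
      have : (t : ℤ) + 1 ≤ w := by exact_mod_cast htw
      rw [hRZ]
      nlinarith
    rcases hcase with ⟨hc0, hP0, hD0⟩ | ⟨hc1, hp⟩
    · subst hc0
      have ha0 : a = 0 := by rw [ha, hP0]; simp
      rw [ha0]
      have hE := EndOk.vals H.h5 hwZ (by norm_num : (0 : ℤ) ≤ 1)
      rw [hD0]
      rw [one_mul] at hE
      refine ⟨1, w, le_refl _, hR1, ?_, ?_, ?_, ?_⟩
      · simp only [Nat.cast_zero, zero_add, one_mul] at hR2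
        linarith
      · have := first_vals (K := K) (I := I) (D := D₀) hwZ (by positivity) H.h1 H.h2
        simpa using this
      · simpa using hE
      · simp only [Nat.cast_zero, zero_add, one_mul] at hR2
        have h11 := H.h2
        have h12 : 3 * (w : ℤ) ≤ ((K : ℤ) - D₀) * w :=
          mul_le_mul_of_nonneg_right h11 (by linarith)
        have h13 : ((K : ℤ) - D₀) * w = (K : ℤ) * w - D₀ * w := by ring
        linarith
    · have hcZ : (1 : ℤ) ≤ c := by exact_mod_cast hc1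
      refine ⟨(c : ℤ) * w, ((c : ℤ) + 1) * w, hp.a0, ?_, by linarith, ?_, ?_, ?_⟩
      · rw [hRZ]
        have : (0 : ℤ) ≤ t := by positivity
        linarith
      · exact EndOk.vals hp.e0 hwZ (by linarith)
      · exact EndOk.vals hp.e1 hwZ (by linarith)
      · have h9 := hp.dg
        have h10 : ((c : ℤ) + 2) * w + D * w ≤ (K : ℤ) * w := by
          have h11 : ((c : ℤ) + 2 + D) * w ≤ (K : ℤ) * w :=
            mul_le_mul_of_nonneg_right (by linarith) (by linarith)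
          have h12 : ((c : ℤ) + 2 + D) * w = ((c : ℤ) + 2) * w + D * w := by ring
          linarith
        have h13 : ((c : ℤ) + 2) * w = ((c : ℤ) + 1) * w + w := by ring
        linarith
  have hfields := piece_fields (b := (K : ℤ) * w) (i2 := (I : ℤ) * w + 1) (d := D * w)
    (A := a * (w : ℤ) ^ 2) (R := (R : ℤ)) (R₁ := R₁) (R₂ := R₂)
    (u := (w : ℤ) ^ 2 * P + (t : ℤ) * w * D)
    (v := (w : ℤ) ^ 2 * P + ((t + 1 : ℕ) : ℤ) * w * D)
    hdb hb (by positivity) hR1 hR₁ hR₂ huA hvA E1 E2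
  obtain ⟨f1, f2, f3, f4, f5⟩ := hfields
  rw [hcastb, hi, hcastr]
  have e1 : (R : ℤ) + 1 - 1 = R := by ring
  rw [e1]
  refine ⟨?_, f1, f2, f3, ?_, f5⟩
  · rw [hvA]
    linarith
  · exact f4

/-- A valid table gives a profile at every scale. -/
theorem prof_of_table (H : TableOk K I D₀ T') {w : ℕ} (hw : 1 ≤ w) :
    Prof (K * w) (I * w - 1) ((T'.length + 1) * w) (sW (D₀ :: T') w) := by
  have hwZ : (1 : ℤ) ≤ w := by exact_mod_cast hw
  have h0 : 1 ≤ I * w := Nat.mul_pos H.h7 hw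
  have hs1 : sW (D₀ :: T') w 1 = D₀ * w := by
    have := sW_eval (D₀ :: T') (w := w) (c := 0) (t := 1) hw hw (by simp)
    simp only [zero_mul, zero_add, pT_zero, Nat.cast_one, one_mul] at this
    rw [this]
    simp [dT]
    ring
  have hincr : ∀ x, x / w < (D₀ :: T').length →
      sW (D₀ :: T') w (x + 1) - sW (D₀ :: T') w x = (w : ℤ) * dT (D₀ :: T') (x / w) := by
    intro x hx
    have htw : x % w < w := Nat.mod_lt _ hw
    have h1 : sW (D₀ :: T') w x = (w : ℤ) ^ 2 * pT (D₀ :: T') (x / w) +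
        ((x % w : ℕ) : ℤ) * w * dT (D₀ :: T') (x / w) := by
      unfold sW
      rfl
    have h2 : x + 1 = x / w * w + (x % w + 1) := by
      have := div_add_mod' x w
      omega
    have h3 := sW_eval (D₀ :: T') (w := w) (c := x / w) (t := x % w + 1) hw (by omega) hx
    rw [← h2] at h3
    rw [h1, h3]
    push_cast
    ring
  refine ⟨?_, ?_, ?_, ?_, ?_, ?_, ?_, ?_, ?_, ?_, ?_, ?_, ?_, ?_⟩
  · -- ab
    have h1 := H.h9
    have h2 : (T'.length + 1 + 1) * w ≤ K * w := Nat.mul_le_mul_right _ H.h6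
    have h3 : (T'.length + 1 + 1) * w = (T'.length + 1) * w + w := by ring
    omega
  · -- ib
    have h2 : I * w ≤ K * w := Nat.mul_le_mul_right _ (by exact_mod_cast H.h10)
    omega
  · -- b3
    have h1 : 3 * 1 ≤ K * w := Nat.mul_le_mul H.h8 hw
    omega
  · -- s0
    unfold sW
    simp [pT]
  · -- s1
    rw [hs1, Nat.cast_sub h0]
    push_cast
    have h1 := H.h1
    nlinarith
  · -- half
    rw [hs1]
    push_cast
    have h4 := H.h4
    nlinarith
  · -- conc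
    intro j hj1 hj2
    have hj0 : j - 1 + 1 = j := by omega
    have hdiv : j / w ≤ (T'.length + 1) - 1 := by
      have : j < (T'.length + 1) * w := by omega
      have := Nat.div_lt_of_lt_mul (by rwa [Nat.mul_comm] at this : j < w * (T'.length + 1))
      omega
    have hlen : j / w < (D₀ :: T').length := by
      simp only [List.length_cons]
      omega
    have hmono : (j - 1) / w ≤ j / w := Nat.div_le_div_right (by omega)
    have h1 := hincr j hlen
    have h2 := hincr (j - 1) (by omega)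
    rw [hj0] at h2
    rw [h1, h2]
    exact mul_le_mul_of_nonneg_left (table_anti H hmono hlen) (by linarith)
  · -- nonneg
    intro r hr
    rcases Nat.eq_zero_or_pos r with rfl | hrpos
    · unfold sW
      simp [pT]
    · -- write r = c * w + t with 1 ≤ t ≤ w
      obtain ⟨R, rfl⟩ : ∃ R, r = R + 1 := ⟨r - 1, by omega⟩
      have hRl : R / w < (D₀ :: T').length := by
        simp only [List.length_cons]
        have : R < (T'.length + 1) * w := by omega
        exact Nat.div_lt_of_lt_mul (by rwa [Nat.mul_comm] at this)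
      have h2 : R + 1 = R / w * w + (R % w + 1) := by
        have := div_add_mod' R w
        omega
      have htw : R % w < w := Nat.mod_lt _ hw
      have h3 := sW_eval (D₀ :: T') (w := w) (c := R / w) (t := R % w + 1) hw (by omega) hRl
      rw [← h2] at h3
      rw [h3]
      obtain ⟨-, h4, h5, -⟩ := table_piece H _ hRl
      obtain ⟨t, ht⟩ : ∃ t : ℕ, t = R % w + 1 := ⟨_, rfl⟩
      rw [← ht]
      have htle : (t : ℤ) ≤ w := by
        have : t ≤ w := by omega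
        exact_mod_cast this
      have ht0 : (0 : ℤ) ≤ t := by positivity
      obtain ⟨P, hP⟩ : ∃ P, P = pT (D₀ :: T') (R / w) := ⟨_, rfl⟩
      obtain ⟨D, hD⟩ : ∃ D, D = dT (D₀ :: T') (R / w) := ⟨_, rfl⟩
      rw [← hP] at h4 h5
      rw [← hD] at h5
      rw [← hP, ← hD]
      have h6 : (w : ℤ) * ((w : ℤ) ^ 2 * P + (t : ℤ) * w * D) =
          ((w : ℤ) - t) * ((w : ℤ) ^ 2 * P) + (t : ℤ) * ((w : ℤ) ^ 2 * (P + D)) := by ring
      have h7 : 0 ≤ (w : ℤ) * ((w : ℤ) ^ 2 * P + (t : ℤ) * w * D) := by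
        rw [h6]
        have h8 : (0 : ℤ) ≤ (w : ℤ) ^ 2 * P := mul_nonneg (by positivity) h4
        have h9 : (0 : ℤ) ≤ (w : ℤ) ^ 2 * (P + D) := mul_nonneg (by positivity) h5
        have h10 : (0 : ℤ) ≤ (w : ℤ) - t := by linarith
        positivity
      exact nonneg_of_mul_nonneg_right h7 (by linarith)
  · intro r h1 h2
    exact (table_fields H hw h1 h2).1
  · intro r h1 h2
    exact (table_fields H hw h1 h2).2.1
  · intro r h1 h2
    exact (table_fields H hw h1 h2).2.2.1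
  · intro r h1 h2
    exact (table_fields H hw h1 h2).2.2.2.1
  · intro r h1 h2
    exact (table_fields H hw h1 h2).2.2.2.2.1
  · intro r h1 h2
    exact (table_fields H hw h1 h2).2.2.2.2.2

end main

end Vale.Agent.Lib.P048
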