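import Vale.Agent.Lib.P048.SlopeTable

namespace Vale.Agent.Lib.P048

/-- The left end conditions follow from the right end conditions of the previous piece. -/
lemma EndOk.mono {K I a' D' a D y : ℤ} (h : EndOk K I a' D' y) (hy : 0 ≤ y) (hD : D ≤ D')
    (hV : a + D * y = a' + D' * y) : EndOk K I a D y := by
  have haa : a' ≤ a := by nlinarith
  have hay : a' * y ≤ a * y := mul_le_mul_of_nonneg_right haa hy
  obtain ⟨V, hVd⟩ : ∃ V, V = a' + D' * y := ⟨_, rfl⟩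
  have h0 := h.u0
  have h1 := h.u1
  have h2 := h.u2
  refine ⟨?_, ?_, ?_, ?_, ?_⟩
  · rw [hV]
    linarith
  · rw [hV]
    linarith
  · rw [hV]
    exact h2
  · intro hD0
    have hD'0 : 0 < D' := by linarith
    have h3 := h.r0 hD'0
    rw [hV]
    rw [← hVd] at h2 h3 ⊢
    have h4 : 0 ≤ (D' - D) * (y * K - V - y ^ 2) :=
      mul_nonneg (by linarith) (by nlinarith [sq_nonneg y])
    nlinarith
  · intro hD0
    have hD'0 : 0 < D' := by linarith
    have h3 := h.r1 hD'0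
    rw [hV]
    exact h3

/-- The check of a table, right ends only. -/
def chkR (K I : ℤ) : List ℤ → ℤ → ℤ → ℤ → Bool
  | [], _, _, _ => true
  | D :: T, x, U, D0 =>
    decide (D ≤ D0) && decide (0 ≤ U) && decide (0 ≤ U + D) && decide (0 ≤ U - x * D) &&
    decide (x + 2 ≤ K - D) && endB K I (U - x * D) D (x + 1) &&
    chkR K I T (x + 1) (U + D) D

lemma chkR_spec {K I : ℤ} (T : List ℤ) (x U D0 : ℤ) (h : chkR K I T x U D0 = true) (hx : 0 ≤ x)
    (hprev : EndOk K I (U - x * D0) D0 x) :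
    ∀ c, c < T.length → PieceOk K I (x + c) (U + pT T c) (dT T c) := by
  induction T generalizing x U D0 with
  | nil => intro c hc; simp at hc
  | cons D T ih =>
    simp only [chkR, Bool.and_eq_true, decide_eq_true_eq] at h
    obtain ⟨⟨⟨⟨⟨⟨h1, h2⟩, h3⟩, h4⟩, h5⟩, h7⟩, h8⟩ := h
    have hE := endB_ok h7
    intro c hc
    rcases c with _ | c
    · simp only [pT, dT, Nat.cast_zero, add_zero]
      refine ⟨h2, h3, h4, h5, ?_, hE⟩
      exact hprev.mono hx h1 (by ring)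
    · have e0 : (U + D) - (x + 1) * D = U - x * D := by ring
      have := ih (x + 1) (U + D) D h8 (by linarith) (by rw [e0]; exact hE) c (by simpa using hc)
      simp only [pT, dT]
      have e1 : x + 1 + (c : ℤ) = x + ((c + 1 : ℕ) : ℤ) := by push_cast; ring
      have e2 : U + D + pT T c = U + (D + pT T c) := by ring
      rw [e1, e2] at this
      exact this

lemma chkR_anti {K I : ℤ} (T : List ℤ) (x U D0 : ℤ) (h : chkR K I T x U D0 = true) :
    (∀ c, c < T.length → dT T c ≤ D0) ∧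
    (∀ c c', c ≤ c' → c' < T.length → dT T c' ≤ dT T c) := by
  induction T generalizing x U D0 with
  | nil => simp
  | cons D T ih =>
    simp only [chkR, Bool.and_eq_true, decide_eq_true_eq] at h
    obtain ⟨⟨⟨⟨⟨⟨h1, h2⟩, h3⟩, h4⟩, h5⟩, h7⟩, h8⟩ := h
    obtain ⟨ih1, ih2⟩ := ih (x + 1) (U + D) D h8
    constructor
    · intro c hc
      rcases c with _ | c
      · exact h1
      · exact le_trans (ih1 c (by simpa using hc)) h1
    · intro c c' hcc hc'
      rcases c' with _ | c'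
      · have : c = 0 := by omega
        subst this
        exact le_refl _
      · rcases c with _ | c
        · exact ih1 c' (by simpa using hc')
        · exact ih2 c c' (by omega) (by simpa using hc')

section main
variable {K I : ℕ} {D₀ : ℤ} {T' : List ℤ}

/-- The hypotheses on a table. -/
structure TableOk2 (K I : ℕ) (D₀ : ℤ) (T' : List ℤ) : Prop where
  hspec : ∀ c, c < T'.length → PieceOk K I (1 + c) (D₀ + pT T' c) (dT T' c)
  hanti1 : ∀ c, c < T'.length → dT T' c ≤ D₀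
  hanti2 : ∀ c c', c ≤ c' → c' < T'.length → dT T' c' ≤ dT T' c
  h1 : 2 ≤ (I : ℤ) - D₀
  h2 : 3 ≤ (K : ℤ) - D₀
  h3 : 0 ≤ D₀
  h4 : 2 * D₀ ≤ K
  h5 : EndOk K I 0 D₀ 1
  h6 : T'.length + 2 ≤ K
  h7 : 1 ≤ I
  h8 : 3 ≤ K
  h9 : T'.length + 1 ≤ K
  h10 : (I : ℤ) ≤ K

/-- The data at a position of the table. -/
lemma table_piece2 (H : TableOk2 K I D₀ T') (c : ℕ) (hc : c < (D₀ :: T').length) :
    dT (D₀ :: T') c ≤ D₀ ∧ 0 ≤ pT (D₀ :: T') c ∧ 0 ≤ pT (D₀ :: T') c + dT (D₀ :: T') c ∧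
    ((c = 0 ∧ pT (D₀ :: T') c = 0 ∧ dT (D₀ :: T') c = D₀) ∨
      (1 ≤ c ∧ PieceOk K I c (pT (D₀ :: T') c) (dT (D₀ :: T') c))) := by
  rcases c with _ | c
  · refine ⟨le_refl _, le_refl _, ?_, Or.inl ⟨rfl, rfl, rfl⟩⟩
    have := H.h3
    show (0 : ℤ) ≤ 0 + D₀
    linarith
  · have hc' : c < T'.length := by simpa using hc
    have h := H.hspec c hc'
    simp only [dT, pT]
    have e : (1 : ℤ) + c = ((c + 1 : ℕ) : ℤ) := by push_cast; ring
    rw [e] at h
    exact ⟨H.hanti1 c hc', h.p0, by have := h.p1; linarith, Or.inr ⟨by omega, h⟩⟩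

/-- Antitone entries. -/
lemma table_anti2 (H : TableOk2 K I D₀ T') {c c' : ℕ} (h : c ≤ c') (hc' : c' < (D₀ :: T').length) :
    dT (D₀ :: T') c' ≤ dT (D₀ :: T') c := by
  rcases c' with _ | c'
  · have : c = 0 := by omega
    subst this
    exact le_refl _
  · rcases c with _ | c
    · exact H.hanti1 c' (by simpa using hc')
    · exact H.hanti2 c c' (by omega) (by simpa using hc')

/-- All the fields at `r`. -/
lemma table_fields2 (H : TableOk2 K I D₀ T') {w r : ℕ} (hw : 1 ≤ w) (hr : 2 ≤ r)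
    (hr2 : r ≤ (T'.length + 1) * w) :
    (r : ℤ) + 1 ≤ (K * w : ℕ) - sW (D₀ :: T') w r + sW (D₀ :: T') w (r - 1) ∧
    ((r : ℤ) - 1) ^ 2 + 1 ≤
      3 * (((r : ℤ) - 1) * (((K * w : ℕ) : ℤ) - ((r : ℤ) - 1)) - sW (D₀ :: T') w (r - 1)) ∧
    1 ≤ (r : ℤ) * (((r : ℤ) - 1) * (sW (D₀ :: T') w (r - 1) - sW (D₀ :: T') w r) +
        sW (D₀ :: T') w (r - 1) + ((r : ℤ) - 1)) - ((r : ℤ) - 1) ^ 2 ∧
    1 ≤ ((K * w : ℕ) : ℤ) * (((r : ℤ) - 1) * (((K * w : ℕ) : ℤ) - 2 * r + 1) - sW (D₀ :: T') w (r - 1)) +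
      (r : ℤ) * (((r : ℤ) - 1) * (sW (D₀ :: T') w (r - 1) - sW (D₀ :: T') w r) +
        sW (D₀ :: T') w (r - 1) + ((r : ℤ) - 1)) - ((r : ℤ) - 1) ^ 2 ∧
    (sW (D₀ :: T') w (r - 1) < sW (D₀ :: T') w r →
      0 ≤ ((r : ℤ) - 1) * (((K * w : ℕ) : ℤ) - 2 * ((r : ℤ) - 1)) - sW (D₀ :: T') w (r - 1)) ∧
    (sW (D₀ :: T') w (r - 1) < sW (D₀ :: T') w r →
      1 ≤ (((I * w - 1 : ℕ) : ℤ) + 2 - (sW (D₀ :: T') w r - sW (D₀ :: T') w (r - 1))) *
          (((r : ℤ) - 1) * ((K * w : ℕ) : ℤ) - sW (D₀ :: T') w (r - 1)) +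
        ((r : ℤ) - 1) * sW (D₀ :: T') w (r - 1) +
        ((r : ℤ) - 1) ^ 2 * (sW (D₀ :: T') w r - sW (D₀ :: T') w (r - 1)) -
        2 * (((K * w : ℕ) : ℤ) + 1) * ((r : ℤ) - 1) ^ 2) := by
  obtain ⟨R, hRdef⟩ : ∃ R, r = R + 1 := ⟨r - 1, by omega⟩
  subst hRdef
  have hw0 : 0 < w := hw
  have hwZ : (1 : ℤ) ≤ w := by exact_mod_cast hw
  obtain ⟨c, hc⟩ : ∃ c, c = R / w := ⟨_, rfl⟩
  obtain ⟨t, ht⟩ : ∃ t, t = R % w := ⟨_, rfl⟩
  have hRct : R = c * w + t := by rw [hc, ht]; exact div_add_mod' R w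
  have htw : t < w := by rw [ht]; exact Nat.mod_lt _ hw
  have hcL : c < (D₀ :: T').length := by
    simp only [List.length_cons]
    by_contra hcon
    push Not at hcon
    have h1 : (T'.length + 1) * w ≤ c * w := Nat.mul_le_mul_right _ hcon
    omega
  have hu : sW (D₀ :: T') w (R + 1 - 1) = (w : ℤ) ^ 2 * pT (D₀ :: T') c + (t : ℤ) * w * dT (D₀ :: T') c := by
    rw [Nat.add_sub_cancel, hRct]
    exact sW_eval _ hw0 htw.le hcL
  have hv : sW (D₀ :: T') w (R + 1) = (w : ℤ) ^ 2 * pT (D₀ :: T') c + ((t + 1 : ℕ) : ℤ) * w * dT (D₀ :: T') c := by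
    have : R + 1 = c * w + (t + 1) := by omega
    rw [this]
    exact sW_eval _ hw0 (by omega) hcL
  obtain ⟨h1, h2, h3, hcase⟩ := table_piece2 H c hcL
  obtain ⟨P, hP⟩ : ∃ P, P = pT (D₀ :: T') c := ⟨_, rfl⟩
  obtain ⟨D, hD⟩ : ∃ D, D = dT (D₀ :: T') c := ⟨_, rfl⟩
  rw [← hP] at hu hv h2 h3 hcase
  rw [← hD] at hu hv h1 h3 hcase
  rw [hu, hv]
  have hRZ : (R : ℤ) = (c : ℤ) * w + t := by rw [hRct]; push_cast; ring
  have hR1 : (1 : ℤ) ≤ R := by
    have : 1 ≤ R := by omega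
    exact_mod_cast this
  have hcastr : ((R + 1 : ℕ) : ℤ) = (R : ℤ) + 1 := by push_cast; ring
  have hcastb : ((K * w : ℕ) : ℤ) = (K : ℤ) * w := by push_cast; ring
  have hi : ((I * w - 1 : ℕ) : ℤ) + 2 = (I : ℤ) * w + 1 := by
    have h7 := H.h7
    have h0 : 1 ≤ I * w := Nat.mul_pos h7 hw
    rw [Nat.cast_sub h0]
    push_cast
    ring
  obtain ⟨Rz, hRz⟩ : ∃ Rz : ℤ, Rz = (R : ℤ) := ⟨_, rfl⟩
  have hdb : D * w ≤ (K : ℤ) * w := by
    have := H.h2
    have h8 : D ≤ K := by linarith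
    exact mul_le_mul_of_nonneg_right h8 (by linarith)
  have hb : (0 : ℤ) ≤ (K : ℤ) * w := by positivity
  set a : ℤ := P - c * D with ha
  have huA : (w : ℤ) ^ 2 * P + (t : ℤ) * w * D = a * (w : ℤ) ^ 2 + D * w * (R : ℤ) := by
    rw [hRZ, ha]
    ring
  have hvA : (w : ℤ) ^ 2 * P + ((t + 1 : ℕ) : ℤ) * w * D =
      ((w : ℤ) ^ 2 * P + (t : ℤ) * w * D) + D * w := by
    push_cast
    ring
  -- the two end points
  obtain ⟨R₁, R₂, hA0, hR₁, hR₂, E1, E2, hdeg⟩ : ∃ R₁ R₂ : ℤ, 0 ≤ a ∧ R₁ ≤ R ∧ (R : ℤ) ≤ R₂ ∧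
      EndVals ((K : ℤ) * w) ((I : ℤ) * w + 1) (D * w) (a * (w : ℤ) ^ 2) R₁ ∧
      EndVals ((K : ℤ) * w) ((I : ℤ) * w + 1) (D * w) (a * (w : ℤ) ^ 2) R₂ ∧
      ((R : ℤ) + 2 + D * w ≤ (K : ℤ) * w) := by
    have hR2 : (R : ℤ) + 1 ≤ ((c : ℤ) + 1) * w := by
      have : (t : ℤ) + 1 ≤ w := by exact_mod_cast htw
      rw [hRZ]
      nlinarith
    rcases hcase with ⟨hc0, hP0, hD0⟩ | ⟨hc1, hp⟩
    · subst hc0
      have ha0 : a = 0 := by rw [ha, hP0]; simp
      rw [ha0]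
      have hE := EndOk.vals H.h5 hwZ (by norm_num : (0 : ℤ) ≤ 1)
      rw [hD0]
      rw [one_mul] at hE
      refine ⟨1, w, le_refl _, hR1, ?_, ?_, ?_, ?_⟩
      · simp only [Nat.cast_zero, zero_add, one_mul] at hR2
        linarith
      · have := first_vals (K := K) (I := I) (D := D₀) hwZ (by positivity) H.h1 H.h2
        simpa using this
      · simpa using hE
      · simp only [Nat.cast_zero, zero_add, one_mul] at hR2
        have h11 := H.h2
        have h12 : 3 * (w : ℤ) ≤ ((K : ℤ) - D₀) * w :=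
          mul_le_mul_of_nonneg_right h11 (by linarith)
        have h13 : ((K : ℤ) - D₀) * w = (K : ℤ) * w - D₀ * w := by ring
        linarith
    · have hcZ : (1 : ℤ) ≤ c := by exact_mod_cast hc1
      refine ⟨(c : ℤ) * w, ((c : ℤ) + 1) * w, hp.a0, ?_, by linarith, ?_, ?_, ?_⟩
      · rw [hRZ]
        have : (0 : ℤ) ≤ t := by positivity
        linarith
      · exact EndOk.vals hp.e0 hwZ (by linarith)
      · exact EndOk.vals hp.e1 hwZ (by linarith)
      · have h9 := hp.dg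
        have h10 : ((c : ℤ) + 2) * w + D * w ≤ (K : ℤ) * w := by
          have h11 : ((c : ℤ) + 2 + D) * w ≤ (K : ℤ) * w :=
            mul_le_mul_of_nonneg_right (by linarith) (by linarith)
          have h12 : ((c : ℤ) + 2 + D) * w = ((c : ℤ) + 2) * w + D * w := by ring
          linarith
        have h13 : ((c : ℤ) + 2) * w = ((c : ℤ) + 1) * w + w := by ring
        linarith
  have hfields := piece_fields (b := (K : ℤ) * w) (i2 := (I : ℤ) * w + 1) (d := D * w)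
    (A := a * (w : ℤ) ^ 2) (R := (R : ℤ)) (R₁ := R₁) (R₂ := R₂)
    (u := (w : ℤ) ^ 2 * P + (t : ℤ) * w * D)
    (v := (w : ℤ) ^ 2 * P + ((t + 1 : ℕ) : ℤ) * w * D)
    hdb hb (by positivity) hR1 hR₁ hR₂ huA hvA E1 E2
  obtain ⟨f1, f2, f3, f4, f5⟩ := hfields
  rw [hcastb, hi, hcastr]
  have e1 : (R : ℤ) + 1 - 1 = R := by ring
  rw [e1]
  refine ⟨?_, f1, f2, f3, ?_, f5⟩
  · rw [hvA]
    linarith
  · exact f4

/-- A valid table gives a profile at every scale. -/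
theorem prof_of_table2 (H : TableOk2 K I D₀ T') {w : ℕ} (hw : 1 ≤ w) :
    Prof (K * w) (I * w - 1) ((T'.length + 1) * w) (sW (D₀ :: T') w) := by
  have hwZ : (1 : ℤ) ≤ w := by exact_mod_cast hw
  have h0 : 1 ≤ I * w := Nat.mul_pos H.h7 hw
  have hs1 : sW (D₀ :: T') w 1 = D₀ * w := by
    have := sW_eval (D₀ :: T') (w := w) (c := 0) (t := 1) hw hw (by simp)
    simp only [zero_mul, zero_add, pT_zero, Nat.cast_one, one_mul] at this
    rw [this]
    simp [dT]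
    ring
  have hincr : ∀ x, x / w < (D₀ :: T').length →
      sW (D₀ :: T') w (x + 1) - sW (D₀ :: T') w x = (w : ℤ) * dT (D₀ :: T') (x / w) := by
    intro x hx
    have htw : x % w < w := Nat.mod_lt _ hw
    have h1 : sW (D₀ :: T') w x = (w : ℤ) ^ 2 * pT (D₀ :: T') (x / w) +
        ((x % w : ℕ) : ℤ) * w * dT (D₀ :: T') (x / w) := by
      unfold sW
      rfl
    have h2 : x + 1 = x / w * w + (x % w + 1) := by
      have := div_add_mod' x w
      omega
    have h3 := sW_eval (D₀ :: T') (w := w) (c := x / w) (t := x % w + 1) hw (by omega) hx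
    rw [← h2] at h3
    rw [h1, h3]
    push_cast
    ring
  refine ⟨?_, ?_, ?_, ?_, ?_, ?_, ?_, ?_, ?_, ?_, ?_, ?_, ?_, ?_⟩
  · -- ab
    have h1 := H.h9
    have h2 : (T'.length + 1 + 1) * w ≤ K * w := Nat.mul_le_mul_right _ H.h6
    have h3 : (T'.length + 1 + 1) * w = (T'.length + 1) * w + w := by ring
    omega
  · -- ib
    have h2 : I * w ≤ K * w := Nat.mul_le_mul_right _ (by exact_mod_cast H.h10)
    omega
  · -- b3
    have h1 : 3 * 1 ≤ K * w := Nat.mul_le_mul H.h8 hw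
    omega
  · -- s0
    unfold sW
    simp [pT]
  · -- s1
    rw [hs1, Nat.cast_sub h0]
    push_cast
    have h1 := H.h1
    nlinarith
  · -- half
    rw [hs1]
    push_cast
    have h4 := H.h4
    nlinarith
  · -- conc
    intro j hj1 hj2
    have hj0 : j - 1 + 1 = j := by omega
    have hdiv : j / w ≤ (T'.length + 1) - 1 := by
      have : j < (T'.length + 1) * w := by omega
      have := Nat.div_lt_of_lt_mul (by rwa [Nat.mul_comm] at this : j < w * (T'.length + 1))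
      omega
    have hlen : j / w < (D₀ :: T').length := by
      simp only [List.length_cons]
      omega
    have hmono : (j - 1) / w ≤ j / w := Nat.div_le_div_right (by omega)
    have h1 := hincr j hlen
    have h2 := hincr (j - 1) (by omega)
    rw [hj0] at h2
    rw [h1, h2]
    exact mul_le_mul_of_nonneg_left (table_anti2 H hmono hlen) (by linarith)
  · -- nonneg
    intro r hr
    rcases Nat.eq_zero_or_pos r with rfl | hrpos
    · unfold sW
      simp [pT]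
    · -- write r = c * w + t with 1 ≤ t ≤ w
      obtain ⟨R, rfl⟩ : ∃ R, r = R + 1 := ⟨r - 1, by omega⟩
      have hRl : R / w < (D₀ :: T').length := by
        simp only [List.length_cons]
        have : R < (T'.length + 1) * w := by omega
        exact Nat.div_lt_of_lt_mul (by rwa [Nat.mul_comm] at this)
      have h2 : R + 1 = R / w * w + (R % w + 1) := by
        have := div_add_mod' R w
        omega
      have htw : R % w < w := Nat.mod_lt _ hw
      have h3 := sW_eval (D₀ :: T') (w := w) (c := R / w) (t := R % w + 1) hw (by omega) hRl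
      rw [← h2] at h3
      rw [h3]
      obtain ⟨-, h4, h5, -⟩ := table_piece2 H _ hRl
      obtain ⟨t, ht⟩ : ∃ t : ℕ, t = R % w + 1 := ⟨_, rfl⟩
      rw [← ht]
      have htle : (t : ℤ) ≤ w := by
        have : t ≤ w := by omega
        exact_mod_cast this
      have ht0 : (0 : ℤ) ≤ t := by positivity
      obtain ⟨P, hP⟩ : ∃ P, P = pT (D₀ :: T') (R / w) := ⟨_, rfl⟩
      obtain ⟨D, hD⟩ : ∃ D, D = dT (D₀ :: T') (R / w) := ⟨_, rfl⟩
      rw [← hP] at h4 h5
      rw [← hD] at h5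
      rw [← hP, ← hD]
      have h6 : (w : ℤ) * ((w : ℤ) ^ 2 * P + (t : ℤ) * w * D) =
          ((w : ℤ) - t) * ((w : ℤ) ^ 2 * P) + (t : ℤ) * ((w : ℤ) ^ 2 * (P + D)) := by ring
      have h7 : 0 ≤ (w : ℤ) * ((w : ℤ) ^ 2 * P + (t : ℤ) * w * D) := by
        rw [h6]
        have h8 : (0 : ℤ) ≤ (w : ℤ) ^ 2 * P := mul_nonneg (by positivity) h4
        have h9 : (0 : ℤ) ≤ (w : ℤ) ^ 2 * (P + D) := mul_nonneg (by positivity) h5
        have h10 : (0 : ℤ) ≤ (w : ℤ) - t := by linarith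
        positivity
      exact nonneg_of_mul_nonneg_right h7 (by linarith)
  · intro r h1 h2
    exact (table_fields2 H hw h1 h2).1
  · intro r h1 h2
    exact (table_fields2 H hw h1 h2).2.1
  · intro r h1 h2
    exact (table_fields2 H hw h1 h2).2.2.1
  · intro r h1 h2
    exact (table_fields2 H hw h1 h2).2.2.2.1
  · intro r h1 h2
    exact (table_fields2 H hw h1 h2).2.2.2.2.1
  · intro r h1 h2
    exact (table_fields2 H hw h1 h2).2.2.2.2.2

end main

/-- Decoding a table: each entry is the previous one minus a digit in base `16`. -/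
def decT : ℕ → ℕ → ℤ → List ℤ
  | 0, _, _ => []
  | n + 1, g, D => (D - ((g % 16 : ℕ) : ℤ)) :: decT n (g / 16) (D - ((g % 16 : ℕ) : ℤ))

lemma decT_length (n g : ℕ) (D : ℤ) : (decT n g D).length = n := by
  induction n generalizing g D with
  | zero => rfl
  | succ n ih => simp [decT, ih]

/-- What a row of the scale data has to satisfy. -/
def famB (K A : ℕ) (D₀ : ℤ) (g : ℕ) : Bool :=
  chkR (K : ℤ) ((K - A : ℕ) : ℤ) (decT (A - 1) g D₀) 1 D₀ D₀ &&
  decide (2 ≤ ((K - A : ℕ) : ℤ) - D₀) && decide (3 ≤ (K : ℤ) - D₀) && decide (0 ≤ D₀) &&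
  decide (2 * D₀ ≤ (K : ℤ)) && endB (K : ℤ) ((K - A : ℕ) : ℤ) 0 D₀ 1 &&
  decide (A + 1 ≤ K) && decide (1 ≤ K - A) && decide (3 ≤ K) && decide (1 ≤ A)

/-- A row gives a valid table. -/
lemma famB_ok {K A : ℕ} {D₀ : ℤ} {g : ℕ} (h : famB K A D₀ g = true) :
    TableOk2 K (K - A) D₀ (decT (A - 1) g D₀) ∧ (decT (A - 1) g D₀).length + 1 = A ∧ A ≤ K := by
  simp only [famB, Bool.and_eq_true, decide_eq_true_eq] at h
  obtain ⟨⟨⟨⟨⟨⟨⟨⟨⟨h1, h2⟩, h3⟩, h4⟩, h5⟩, h6⟩, h7⟩, h8⟩, h9⟩, h10⟩ := h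
  have hlen := decT_length (A - 1) g D₀
  have hanti := chkR_anti _ _ _ _ h1
  have hE := endB_ok h6
  refine ⟨⟨?_, hanti.1, hanti.2, h2, h3, h4, h5, hE, by omega, h8, h9, by omega, ?_⟩, by omega, by omega⟩
  · refine chkR_spec _ _ _ _ h1 (by norm_num) ?_
    have e : D₀ - 1 * D₀ = 0 := by ring
    rw [e]
    exact hE
  · have : K - A ≤ K := Nat.sub_le _ _
    exact_mod_cast this

/-- The conclusion for a pair `(a, b)`. -/
def Concl (a b : ℕ) : Prop :=
  ∃ (i : ℕ) (s : ℕ → ℤ), Prof b i a s ∧ 2 * i + 3 ≤ b ∧ a + i < b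

/-- Pairs covered by the scales `lo ≤ b / w < hi`. -/
def Reach (lo hi : ℕ) : Prop :=
  ∀ w b a : ℕ, 1 ≤ w → lo * w ≤ b → b < hi * w → 8 * a ≤ 5 * b + 2 → b + 1 < 2 * a → Concl a b

lemma reach_self (K : ℕ) : Reach K K := by
  intro w b a _ h1 h2
  omega

lemma reach_trans {l m h : ℕ} (h1 : Reach l m) (h2 : Reach m h) : Reach l h := by
  intro w b a hw hl hh h3 h4
  by_cases hm : b < m * w
  · exact h1 w b a hw hl hm h3 h4
  · exact h2 w b a hw (by omega) hh h3 h4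

/-- One row of the scale data. -/
lemma reach_row {K A Kp : ℕ} {D₀ : ℤ} {g : ℕ} (h : famB K A D₀ g = true) (hp : 5 * Kp ≤ 8 * A) :
    Reach K Kp := by
  obtain ⟨H, hlen, hAK⟩ := famB_ok h
  intro w b a hw h1 h2 h3 h4
  have P := prof_of_table2 H hw
  rw [hlen] at P
  obtain ⟨e, rfl⟩ : ∃ e, b = K * w + e := ⟨b - K * w, by omega⟩
  have h5 : 5 * Kp * w ≤ 8 * A * w := Nat.mul_le_mul_right _ hp
  have h6 : 5 * Kp * w = 5 * (Kp * w) := by ring
  have h7 : 8 * A * w = 8 * (A * w) := by ring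
  have ha : a ≤ A * w := by omega
  have hK : K * w = A * w + (K - A) * w := by
    rw [← Nat.add_mul]
    congr 1
    omega
  obtain ⟨X, hX⟩ : ∃ X, X = A * w := ⟨_, rfl⟩
  obtain ⟨Y, hY⟩ : ∃ Y, Y = (K - A) * w := ⟨_, rfl⟩
  rw [← hX, ← hY] at hK
  rw [← hX] at ha
  refine ⟨(K - A) * w - 1 + e, sW (D₀ :: decT (A - 1) g D₀) w, ?_, ?_, ?_⟩
  · exact (P.restrict (by rw [← hX]; exact ha)).shiftN e
  · rw [← hY]
    omega
  · rw [← hY]
    have hY1 : 1 ≤ Y := by
      rw [hY]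
      have : 1 ≤ K - A := by
        simp only [famB, Bool.and_eq_true, decide_eq_true_eq] at h
        exact h.1.1.2
      exact Nat.mul_pos this hw
    omega

/-- A chain of rows: `(A, D₀, g, K⁺)`. -/
def chainB : List (ℕ × ℤ × ℕ × ℕ) → ℕ → ℕ → Bool
  | [], K, Kend => decide (K = Kend)
  | (A, D₀, g, Kp) :: rest, K, Kend =>
    famB K A D₀ g && decide (5 * Kp ≤ 8 * A) && chainB rest Kp Kend

lemma chain_reach (L : List (ℕ × ℤ × ℕ × ℕ)) (K Kend : ℕ) (h : chainB L K Kend = true) :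
    Reach K Kend := by
  induction L generalizing K with
  | nil =>
    simp only [chainB, decide_eq_true_eq] at h
    rw [h]
    exact reach_self _
  | cons x rest ih =>
    obtain ⟨A, D₀, g, Kp⟩ := x
    simp only [chainB, Bool.and_eq_true, decide_eq_true_eq] at h
    exact reach_trans (reach_row h.1.1 h.1.2) (ih Kp h.2)

/-- The large scale range, from a chain doubling the scale. -/
theorem large_of_reach {K₀ K₂ : ℕ} (h : Reach K₀ K₂) (h1 : 1 ≤ K₀) (h2 : 2 * K₀ ≤ K₂) {a b : ℕ}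
    (hb : K₀ ≤ b) (h3 : 8 * a ≤ 5 * b + 2) (h4 : b + 1 < 2 * a) : Concl a b := by
  obtain ⟨w, hw⟩ : ∃ w, w = b / K₀ := ⟨_, rfl⟩
  have hw1 : 1 ≤ w := by
    rw [hw]
    exact (Nat.one_le_div_iff h1).2 hb
  have h5 : K₀ * w ≤ b := by
    rw [hw]
    exact Nat.mul_div_le b K₀
  have h6 : b < K₀ * (w + 1) := by
    rw [hw]
    have := Nat.lt_mul_div_succ b (show 0 < K₀ by omega)
    simpa using this
  have h7 : K₀ * (w + 1) ≤ K₂ * w := by
    calc K₀ * (w + 1) ≤ K₀ * (w + w) := Nat.mul_le_mul_left _ (by omega)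
      _ = (2 * K₀) * w := by ring
      _ ≤ K₂ * w := Nat.mul_le_mul_right _ h2
  exact h w b a hw1 h5 (by omega) h3 h4

end Vale.Agent.Lib.P048
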