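import Vale.Agent.Lib.P048.Sharp

namespace Vale.Agent.Lib.P048

open Finset

variable {V : Type*}

private lemma getElem_arc' {b : ℕ} (u : ZMod b → V) (q : ZMod b) (t i : ℕ)
    (h : i < (arc u q t).length) : (arc u q t)[i] = u (q + (i : ZMod b)) := by
  induction t generalizing q i with
  | zero => simp at h
  | succ t ih =>
    rcases i with _ | i
    · simp [arc]
    · simp only [arc, List.getElem_cons_succ]
      rw [ih]
      congr 1
      push_cast
      ring

/-- A cycle list has a parametrisation whose arc from `0` is the list. -/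
lemma exists_param_arc {G : SimpleGraph V} {l : List V} (hl : IsCyc G l) {L : ℕ} (hL : l.length = L)
    [NeZero L] :
    ∃ u : ZMod L → V, Function.Injective u ∧ (∀ i, G.Adj (u i) (u (i + 1))) ∧ l = arc u 0 L := by
  obtain ⟨h3, hnd, hch, hcl⟩ := hl
  have hb3 : 3 ≤ L := by omega
  have : Fact (1 < L) := ⟨by omega⟩
  have hlt : ∀ i : ZMod L, i.val < l.length := fun i => by rw [hL]; exact ZMod.val_lt i
  refine ⟨fun i => l[i.val]'(hlt i), ?_, ?_, ?_⟩
  · intro i j hij
    have := (List.Nodup.getElem_inj_iff hnd).1 hij
    exact ZMod.val_injective L this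
  · intro i
    have hv : (i + 1).val = (i.val + 1) % L := by
      rw [ZMod.val_add, ZMod.val_one]
    by_cases h : i.val + 1 < L
    · have h2 : (i + 1).val = i.val + 1 := by
        rw [hv, Nat.mod_eq_of_lt h]
      have := (List.isChain_iff_getElem.1 hch) i.val (by omega)
      simp only [h2]
      exact this
    · have hi := ZMod.val_lt i
      have h1 : i.val + 1 = L := by omega
      have h2 : (i + 1).val = 0 := by
        rw [hv, h1, Nat.mod_self]
      simp only [h2]
      apply hcl
      · rw [List.getLast?_eq_getElem?]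
        have : l.length - 1 = i.val := by omega
        rw [this]
        exact List.getElem?_eq_getElem (hlt i)
      · rw [List.head?_eq_getElem?]
        exact List.getElem?_eq_getElem (by omega)
  · apply List.ext_getElem
    · simp [hL]
    · intro i h1 h2
      rw [getElem_arc']
      have hi : i < L := by omega
      simp only [zero_add, ZMod.val_natCast_of_lt hi]

/-- Two-opt surgery. -/
lemma two_opt {G : SimpleGraph V} {L : ℕ} [NeZero L] {u : ZMod L → V} (hL : 3 ≤ L)
    (hinj : Function.Injective u) (hadj : ∀ i, G.Adj (u i) (u (i + 1))) {p p' : ZMod L}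
    (hpp : p ≠ p') (W : List V) (hch : W.IsChain G.Adj) (hnd : W.Nodup)
    (hdisj : ∀ y ∈ W, ∀ i, y ≠ u i)
    (hhead : ∀ y ∈ W.head?, G.Adj (u p) y) (hlast : ∀ y ∈ W.getLast?, G.Adj y (u p'))
    (hnil : W = [] → G.Adj (u p) (u p'))
    (hclose : G.Adj (u (p + 1)) (u (p' + 1))) :
    IsCyc G (arc u (p' + 1) (L - (p' - p).val) ++ W ++ (arc u (p + 1) (p' - p).val).reverse) := by
  have hd : ∃ d : ℕ, (p' - p).val = d := ⟨_, rfl⟩
  obtain ⟨d, hd⟩ := hd
  have hdL : d < L := by rw [← hd]; exact ZMod.val_lt _
  have hd0 : d ≠ 0 := by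
    intro h
    apply hpp
    have h2 : p' - p = 0 := (ZMod.val_eq_zero _).1 (by rw [hd, h])
    exact (sub_eq_zero.1 h2).symm
  have hdq : p' = p + (d : ZMod L) := by
    rw [← hd, ZMod.natCast_zmod_val]
    ring
  rw [hd]
  obtain ⟨e, he⟩ : ∃ e, L - d = e + 1 := ⟨L - d - 1, by omega⟩
  obtain ⟨f, hf⟩ : ∃ f, d = f + 1 := ⟨d - 1, by omega⟩
  have hAh : (arc u (p' + 1) (L - d)).head? = some (u (p' + 1)) := by
    rw [he, head?_arc]
  have hAl : (arc u (p' + 1) (L - d)).getLast? = some (u p) := by
    rw [he, getLast?_arc]
    congr 2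
    have e1 : ((d + e + 1 : ℕ) : ZMod L) = 0 := by
      rw [show d + e + 1 = L by omega]
      exact ZMod.natCast_self L
    push_cast at e1
    rw [hdq]
    linear_combination e1
  have hBh : (arc u (p + 1) d).head? = some (u (p + 1)) := by
    rw [hf, head?_arc]
  have hBl : (arc u (p + 1) d).getLast? = some (u p') := by
    rw [hf, getLast?_arc]
    congr 2
    rw [hdq, hf]
    push_cast
    ring
  have hBrev : (arc u (p + 1) d).reverse.head? = some (u p') := by
    rw [List.head?_reverse, hBl]
  have hBrevl : (arc u (p + 1) d).reverse.getLast? = some (u (p + 1)) := by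
    rw [List.getLast?_reverse, hBh]
  have hAne : arc u (p' + 1) (L - d) ≠ [] := by
    intro h
    rw [h] at hAh
    simp at hAh
  have hBne : (arc u (p + 1) d).reverse ≠ [] := by
    intro h
    rw [h] at hBrev
    simp at hBrev
  have hAW : (arc u (p' + 1) (L - d) ++ W).IsChain G.Adj := by
    rw [List.isChain_append]
    refine ⟨chain_arc u hadj _ _, hch, ?_⟩
    intro x hx y hy
    rw [hAl] at hx
    simp only [Option.mem_def, Option.some.injEq] at hx
    subst hx
    exact hhead y hy
  have hBch : (arc u (p + 1) d).reverse.IsChain G.Adj := chain_reverse (chain_arc u hadj _ _)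
  refine ⟨?_, ?_, ?_, ?_⟩
  · simp only [List.length_append, length_arc, List.length_reverse]
    omega
  · rw [List.nodup_append]
    refine ⟨?_, ?_, ?_⟩
    · rw [List.nodup_append]
      refine ⟨nodup_arc u hinj _ (by omega), hnd, ?_⟩
      intro x hx y hy hxy
      obtain ⟨i, -, rfl⟩ := (mem_arc u).1 hx
      exact hdisj y hy _ hxy.symm
    · exact List.nodup_reverse.2 (nodup_arc u hinj _ (by omega))
    · intro x hx y hy hxy
      subst hxy
      rcases List.mem_append.1 hx with h | h
      · obtain ⟨i, hi, hxi⟩ := (mem_arc u).1 h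
        obtain ⟨j, hj, hxj⟩ := (mem_arc u).1 (List.mem_reverse.1 hy)
        have h5 := hinj (hxi.symm.trans hxj)
        rw [hdq] at h5
        have e2 : ((d + i : ℕ) : ZMod L) = (j : ZMod L) := by
          push_cast
          linear_combination h5
        have := natCast_inj_of_lt (b := L) (by omega) (by omega) e2
        omega
      · obtain ⟨j, hj, hxj⟩ := (mem_arc u).1 (List.mem_reverse.1 hy)
        exact hdisj _ h _ hxj
  · rw [List.isChain_append]
    refine ⟨hAW, hBch, ?_⟩
    intro x hx y hy
    rw [hBrev] at hy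
    simp only [Option.mem_def, Option.some.injEq] at hy
    subst hy
    rw [List.getLast?_append] at hx
    cases hW : W.getLast? with
    | none =>
      have hW0 : W = [] := List.getLast?_eq_none_iff.1 hW
      rw [hW, hAl] at hx
      simp only [Option.mem_def, Option.none_or, Option.some.injEq] at hx
      subst hx
      exact hnil hW0
    | some z =>
      rw [hW] at hx
      simp only [Option.mem_def, Option.some_or, Option.some.injEq] at hx
      subst hx
      exact hlast _ hW
  · intro x hx y hy
    rw [List.getLast?_append, hBrevl] at hx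
    simp only [Option.mem_def, Option.some_or, Option.some.injEq] at hx
    subst hx
    rw [List.append_assoc, List.head?_append, hAh] at hy
    simp only [Option.mem_def, Option.some_or, Option.some.injEq] at hy
    subst hy
    exact hclose

/-- Vertices of the two-opt list. -/
lemma mem_two_opt {L : ℕ} [NeZero L] {u : ZMod L → V} {p p' : ZMod L} (hpp : p ≠ p')
    (W : List V) (x : V) :
    x ∈ arc u (p' + 1) (L - (p' - p).val) ++ W ++ (arc u (p + 1) (p' - p).val).reverse ↔
      (∃ i, x = u i) ∨ x ∈ W := by
  constructor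
  · intro h
    simp only [List.mem_append, List.mem_reverse] at h
    rcases h with (h | h) | h
    · obtain ⟨i, -, rfl⟩ := (mem_arc u).1 h
      exact Or.inl ⟨_, rfl⟩
    · exact Or.inr h
    · obtain ⟨i, -, rfl⟩ := (mem_arc u).1 h
      exact Or.inl ⟨_, rfl⟩
  · rintro (⟨i, rfl⟩ | h)
    · simp only [List.mem_append, List.mem_reverse]
      have hd : ∃ d : ℕ, (p' - p).val = d := ⟨_, rfl⟩
      obtain ⟨d, hd⟩ := hd
      have hdq : p' = p + (d : ZMod L) := by
        rw [← hd, ZMod.natCast_zmod_val]
        ring
      rw [hd]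
      have hj : ∃ j : ℕ, (i - p - 1).val = j := ⟨_, rfl⟩
      obtain ⟨j, hj⟩ := hj
      have hjL : j < L := by rw [← hj]; exact ZMod.val_lt _
      have hi : i = p + 1 + (j : ZMod L) := by
        rw [← hj, ZMod.natCast_zmod_val]
        ring
      by_cases hjd : j < d
      · right
        exact (mem_arc u).2 ⟨j, hjd, by rw [← hi]⟩
      · left
        left
        have hdL : d < L := by rw [← hd]; exact ZMod.val_lt _
        refine (mem_arc u).2 ⟨j - d, by omega, ?_⟩
        congr 1
        have e : ((j - d : ℕ) : ZMod L) = (j : ZMod L) - (d : ZMod L) := by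
          rw [Nat.cast_sub (by omega)]
        rw [e, hi, hdq]
        ring
    · simp [h]

end Vale.Agent.Lib.P048
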