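import Vale.Agent.Lib.P048.Avoid

namespace Vale.Agent.Lib.P048

open Finset Classical

variable {V : Type*}

section
variable {G : SimpleGraph V} {R : ℕ → Finset V} {D : Finset V} {b : ℕ}

/-- Two incidences at a distance on one slot cannot be related. -/
lemma line_ne (L : Line G R D b) {y y' : V} {q q' : ℕ} (hqq : q' < q) (h1 : y ∈ R q)
    (h2 : y' ∈ R q') (hrel : y = y' ∨ G.Adj y y')
    (hslot : colr G R q y + q = colr G R q' y' + q') : False := by
  rcases hrel with rfl | hadj
  · exact far_same L hqq h1 h2 hslot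
  · by_cases h : q = q' + 1
    · subst h
      exact near_adj h1 h2 hadj hslot
    · exact far_adj L (by omega) h1 h2 hadj hslot

/-- The wrapped slots separate all related incidences away from position zero. -/
lemma key_sep (L : Line G R D b) {y y' : V} {q q' : ℕ} (hq : 1 ≤ q) (hq' : 1 ≤ q') (h1 : y ∈ R q)
    (h2 : y' ∈ R q') (hrel : y = y' ∨ G.Adj y y')
    (hmod : (colr G R q y + q) % b = (colr G R q' y' + q') % b) : q = q' ∧ y = y' := by
  have hb := L.hb
  have he1 := e_bound L h1
  have he2 := e_bound L h2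
  have hq1 := L.lt q y h1
  have hq2 := L.lt q' y' h2
  set t := colr G R q y + q with ht
  set t' := colr G R q' y' + q' with ht'
  have hcases : t = t' ∨ t = t' + b ∨ t' = t + b := by
    have h3 := Nat.div_add_mod t b
    have h4 := Nat.div_add_mod t' b
    have h5 : t / b ≤ 1 := by
      apply Nat.le_of_lt_succ
      apply Nat.div_lt_of_lt_mul
      omega
    have h6 : t' / b ≤ 1 := by
      apply Nat.le_of_lt_succ
      apply Nat.div_lt_of_lt_mul
      omega
    interval_cases h7 : t / b <;> interval_cases h8 : t' / b <;> simp at h3 h4 <;> omega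
  rcases hcases with h | h | h
  · rcases lt_trichotomy q q' with hlt | rfl | hgt
    · exfalso
      exact line_ne L hlt h2 h1 (hrel.imp Eq.symm (fun h => h.symm)) h.symm
    · refine ⟨rfl, ?_⟩
      rcases hrel with hrel | hadj
      · exact hrel
      · exfalso
        exact (colr_spec G R q y h1).1 y' h2 hadj (by omega)
    · exfalso
      exact line_ne L hgt h1 h2 hrel h
  · exfalso
    rcases hrel with rfl | hadj
    · exact wrap_same L h1 h2 h
    · exact wrap_adj L h1 h2 hadj hq' h
  · exfalso
    rcases hrel with rfl | hadj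
    · exact wrap_same L h2 h1 h
    · exact wrap_adj L h2 h1 hadj.symm hq h

/-- All incidences away from position zero fit into `b` independent sets. -/
theorem count_cut (L : Line G R D b) {a : ℕ}
    (hα : ∀ I : Finset V, I ⊆ D → G.IsIndepSet (I : Set V) → I.card ≤ a) :
    ∑ q ∈ Ico 1 b, (R q).card ≤ a * b := by
  have hb := L.hb
  set Inc : Finset (Σ _ : ℕ, V) := (Ico 1 b).sigma R with hInc
  set f : (Σ _ : ℕ, V) → ℕ := fun s => (colr G R s.1 s.2 + s.1) % b with hf
  have hmaps : ∀ s ∈ Inc, f s ∈ range b := fun s _ => mem_range.2 (Nat.mod_lt _ (by omega))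
  have hcard : Inc.card = ∑ σ ∈ range b, (Inc.filter (fun s => f s = σ)).card :=
    card_eq_sum_card_fiberwise hmaps
  have hfib : ∀ σ ∈ range b, (Inc.filter (fun s => f s = σ)).card ≤ a := by
    intro σ _
    set F := Inc.filter (fun s => f s = σ) with hF
    have hmem : ∀ s ∈ F, 1 ≤ s.1 ∧ s.2 ∈ R s.1 ∧ f s = σ := by
      intro s hs
      obtain ⟨hs1, hs2⟩ := mem_filter.1 hs
      obtain ⟨h3, h4⟩ := mem_sigma.1 hs1
      exact ⟨(mem_Ico.1 h3).1, h4, hs2⟩
    have hsep : ∀ s ∈ F, ∀ s' ∈ F, (s.2 = s'.2 ∨ G.Adj s.2 s'.2) → s = s' := by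
      rintro ⟨q, y⟩ hs ⟨q', y'⟩ hs' hrel
      obtain ⟨h1, h2, h3⟩ := hmem _ hs
      obtain ⟨h1', h2', h3'⟩ := hmem _ hs'
      obtain ⟨rfl, rfl⟩ := key_sep L h1 h1' h2 h2' hrel (h3.trans h3'.symm)
      rfl
    have hinj : Set.InjOn (fun s : (Σ _ : ℕ, V) => s.2) (F : Set (Σ _ : ℕ, V)) := by
      intro s hs s' hs' h
      exact hsep s hs s' hs' (Or.inl h)
    rw [← card_image_of_injOn hinj]
    apply hα
    · intro w hw
      obtain ⟨s, hs, rfl⟩ := mem_image.1 hw
      exact L.sub _ (hmem s hs).2.1
    · intro w hw w' hw' hne hadj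
      obtain ⟨s, hs, rfl⟩ := mem_image.1 (mem_coe.1 hw)
      obtain ⟨s', hs', rfl⟩ := mem_image.1 (mem_coe.1 hw')
      have := hsep s hs s' hs' (Or.inr hadj)
      exact hne (by rw [this])
  have h1 : ∑ q ∈ Ico 1 b, (R q).card = Inc.card := (card_sigma _ _).symm
  calc ∑ q ∈ Ico 1 b, (R q).card = Inc.card := h1
    _ = ∑ σ ∈ range b, (Inc.filter (fun s => f s = σ)).card := hcard
    _ ≤ ∑ _σ ∈ range b, a := sum_le_sum hfib
    _ = a * b := by simp [mul_comm]

end

/-- The levels obtained by cutting the cycle at `cut`. -/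
noncomputable def Rcut (G : SimpleGraph V) {b : ℕ} (u : ZMod b → V) (D : Finset V) (cut : ZMod b) :
    ℕ → Finset V :=
  fun p => if p < b then RR G u D (cut + (p : ZMod b)) else ∅

section
variable {G : SimpleGraph V} {b : ℕ} {u : ZMod b → V} {D : Finset V}

lemma mem_Rcut {cut : ZMod b} {p : ℕ} {y : V} :
    y ∈ Rcut G u D cut p ↔ p < b ∧ y ∈ D ∧ G.Adj (u (cut + (p : ZMod b))) y := by
  unfold Rcut
  split_ifs with h
  · rw [mem_RR]
    simp [h]
  · simp [h]

/-- The cut cycle gives an abstract line. -/
theorem line_of_setup (S : Setup G u D) (cut : ZMod b) : Line G (Rcut G u D cut) D b := by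
  have hb := S.hb
  refine ⟨hb, ?_, ?_, ?_, ?_⟩
  · intro p y hy
    exact (mem_Rcut.1 hy).2.1
  · intro p y hy
    exact (mem_Rcut.1 hy).1
  · intro W a c p q hch hnd hD hh hl ha hc hpq
    obtain ⟨hp, -, ha2⟩ := mem_Rcut.1 ha
    obtain ⟨hq, -, hc2⟩ := mem_Rcut.1 hc
    have hWne : W ≠ [] := by
      rintro rfl
      simp at hh
    have hs1 : 1 ≤ W.length := List.length_pos_iff.2 hWne
    have hqs : cut + (q : ZMod b) + ((W.length : ℕ) : ZMod b) = cut + (p : ZMod b) := by
      rw [hpq]
      push_cast
      ring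
    have hcyc := surgery u S.inj S.adj (cut + (q : ZMod b)) (s := W.length) hs1 (by omega) W.reverse
      (by simpa using hWne) (chain_reverse hch) (List.nodup_reverse.2 hnd)
      (fun y hy i => S.disj y (hD y (List.mem_reverse.1 hy)) i)
      (by
        intro y hy
        rw [List.head?_reverse, hl] at hy
        have : y = c := by simpa using hy.symm
        rw [this]
        exact hc2)
      (by
        intro y hy
        rw [List.getLast?_reverse, hh] at hy
        have : y = a := by simpa using hy.symm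
        rw [this, hqs]
        exact ha2.symm)
      (by
        simp only [List.length_reverse]
        omega)
    refine S.no _ hcyc ?_ ?_
    · simp only [List.length_append, length_arc, List.length_reverse]
      omega
    · intro x hx
      rcases vertices_surgery u hx with h | h
      · exact Or.inl h
      · exact Or.inr (hD x (List.mem_reverse.1 h))
  · intro W a c p q hch hnd hD hh hl ha hc hqp hlen
    obtain ⟨hp, -, ha2⟩ := mem_Rcut.1 ha
    obtain ⟨hq, -, hc2⟩ := mem_Rcut.1 hc
    have hWne : W ≠ [] := by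
      rintro rfl
      simp at hh
    have hs1 : 1 ≤ W.length := List.length_pos_iff.2 hWne
    have hqs : cut + (p : ZMod b) + ((W.length : ℕ) : ZMod b) = cut + (q : ZMod b) := by
      have h1 : ((W.length + p : ℕ) : ZMod b) = ((b + q : ℕ) : ZMod b) := by rw [hlen]
      push_cast at h1
      rw [ZMod.natCast_self, zero_add] at h1
      rw [add_assoc, add_comm (p : ZMod b), h1]
    have hcyc := surgery u S.inj S.adj (cut + (p : ZMod b)) (s := W.length) hs1 (by omega) W
      hWne hch hnd
      (fun y hy i => S.disj y (hD y hy) i)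
      (by
        intro y hy
        rw [hh] at hy
        have : y = a := by simpa using hy.symm
        rw [this]
        exact ha2)
      (by
        intro y hy
        rw [hl] at hy
        have : y = c := by simpa using hy.symm
        rw [this, hqs]
        exact hc2.symm)
      (by omega)
    refine S.no _ hcyc ?_ ?_
    · simp only [List.length_append, length_arc]
      omega
    · intro x hx
      rcases vertices_surgery u hx with h | h
      · exact Or.inl h
      · exact Or.inr (hD x h)

/-- The sum over the cycle, unrolled from a cut. -/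
lemma sum_cut [NeZero b] (cut : ZMod b) (f : ZMod b → ℕ) :
    ∑ q : ZMod b, f q = ∑ i ∈ range b, f (cut + (i : ZMod b)) := by
  symm
  apply Finset.sum_bij (fun (i : ℕ) _ => cut + (i : ZMod b))
  · intro i _
    exact mem_univ _
  · intro i hi j hj h
    have h2 : (i : ZMod b) = (j : ZMod b) := add_left_cancel h
    exact natCast_inj_of_lt (mem_range.1 hi) (mem_range.1 hj) h2
  · intro q _
    refine ⟨(q - cut).val, mem_range.2 (ZMod.val_lt _), ?_⟩
    rw [ZMod.natCast_zmod_val]
    ring
  · intro i _
    rfl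

/-- The number of edges between the cycle and the outside, up to one level. -/
theorem E_le_cut [NeZero b] (S : Setup G u D) {a : ℕ}
    (hα : ∀ I : Finset V, I ⊆ D → G.IsIndepSet (I : Set V) → I.card ≤ a) (cut : ZMod b) :
    ∑ q : ZMod b, (RR G u D q).card ≤ a * b + (RR G u D cut).card := by
  have hb := S.hb
  have h0 := count_cut (line_of_setup S cut) hα
  rw [sum_cut cut, range_eq_Ico, sum_eq_sum_Ico_succ_bot (by omega)]
  have h1 : ∑ i ∈ Ico (0 + 1) b, (RR G u D (cut + (i : ZMod b))).card
      = ∑ i ∈ Ico 1 b, (Rcut G u D cut i).card := by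
    apply sum_congr rfl
    intro i hi
    have hi' := (mem_Ico.1 hi).2
    simp only [Rcut, if_pos hi']
  rw [h1]
  simp only [Nat.cast_zero, add_zero]
  omega

/-- The bound at the best cut. -/
theorem E_le_min [NeZero b] (S : Setup G u D) {a : ℕ}
    (hα : ∀ I : Finset V, I ⊆ D → G.IsIndepSet (I : Set V) → I.card ≤ a) :
    ∃ c, b * c ≤ ∑ q : ZMod b, (RR G u D q).card ∧ ∑ q : ZMod b, (RR G u D q).card ≤ a * b + c := by
  obtain ⟨cut, -, hcut⟩ := exists_min_image (univ : Finset (ZMod b)) (fun q => (RR G u D q).card)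
    ⟨0, mem_univ _⟩
  refine ⟨(RR G u D cut).card, ?_, E_le_cut S hα cut⟩
  calc b * (RR G u D cut).card = ∑ _q : ZMod b, (RR G u D cut).card := by
        rw [sum_const, card_univ, ZMod.card, smul_eq_mul]
    _ ≤ _ := sum_le_sum hcut

end

end Vale.Agent.Lib.P048
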